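import Vale.Agent.P259.Defs

/-! Globular sets: cells, faces, spheres, lifting conditions. -/

open CategoryTheory Limits Opposite

set_option backward.isDefEq.respectTransparency false

noncomputable section

namespace Vale.Agent.P259

/-- Globular sets. -/
abbrev GS : Type 1 := Globᵒᵖ ⥤ Type

/-- The generating source or target map. -/
def sf (b : Bool) (k : ℕ) : Glob.mk k ⟶ Glob.mk (k + 1) := gface b (Nat.lt_succ_self k)

theorem sf_sf (b b' b'' : Bool) (k : ℕ) : sf b k ≫ sf b' (k + 1) = sf b k ≫ sf b'' (k + 1) := rfl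

theorem gface_comp (b b' : Bool) {l m n : ℕ} (h : l < m) (h' : m < n) :
    gface b h ≫ gface b' h' = gface b (h.trans h') := rfl

/-- Cells of dimension `k`. -/
abbrev Ce (X : GS) (k : ℕ) : Type := X.obj (op (Glob.mk k))

/-- Source or target of a cell. -/
def fa (X : GS) (b : Bool) {k : ℕ} (x : Ce X (k + 1)) : Ce X k := X.map (sf b k).op x

/-- Image of a cell. -/
def ap {X Y : GS} (f : X ⟶ Y) {k : ℕ} (x : Ce X k) : Ce Y k := f.app _ x

@[simp] theorem ap_id {X : GS} {k : ℕ} (x : Ce X k) : ap (𝟙 X) x = x := rfl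

@[simp] theorem ap_comp {X Y Z : GS} (f : X ⟶ Y) (g : Y ⟶ Z) {k : ℕ} (x : Ce X k) :
    ap (f ≫ g) x = ap g (ap f x) := rfl

theorem fa_ap {X Y : GS} (f : X ⟶ Y) (b : Bool) {k : ℕ} (x : Ce X (k + 1)) :
    fa Y b (ap f x) = ap f (fa X b x) := (NatTrans.naturality_apply f _ x).symm

theorem fa_fa (X : GS) (b b' b'' : Bool) {k : ℕ} (x : Ce X (k + 2)) :
    fa X b (fa X b' x) = fa X b (fa X b'' x) := by
  simp only [fa, ← Functor.map_comp_apply, ← op_comp]
  rw [sf_sf b b' b'']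

theorem gs_ext {X Y : GS} {f g : X ⟶ Y} (h : ∀ k (x : Ce X k), ap f x = ap g x) : f = g := by
  ext ⟨⟨k⟩⟩ x
  exact h k x

/-- Induction on morphisms of the globe category. -/
theorem Glob.hom_induction (P : ∀ {m n : ℕ}, (Glob.mk m ⟶ Glob.mk n) → Prop)
    (h0 : ∀ n, P (𝟙 (Glob.mk n)))
    (hs : ∀ {m n : ℕ} (f : Glob.mk m ⟶ Glob.mk n) (b : Bool), P f → P (f ≫ sf b n))
    {m n : ℕ} (f : Glob.mk m ⟶ Glob.mk n) : P f := by
  change GHom m n at f
  cases f with
  | id => exact h0 _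
  | face b h =>
    induction n, h using Nat.le_induction with
    | base => exact hs (𝟙 _) b (h0 m)
    | succ n h ih => exact hs _ b ih

/-- A map of globular sets from a family of maps commuting with sources and targets. -/
def gsMk {X Y : GS} (a : ∀ k, Ce X k → Ce Y k)
    (h : ∀ b k (x : Ce X (k + 1)), a k (fa X b x) = fa Y b (a (k + 1) x)) : X ⟶ Y where
  app k := ↾(a k.unop.n)
  naturality := by
    rintro ⟨⟨n⟩⟩ ⟨⟨m⟩⟩ ⟨f⟩
    ext x
    change a m (X.map f.op x) = Y.map f.op (a n x)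
    revert x
    refine Glob.hom_induction
      (fun {m n} f => ∀ x : Ce X n, a m (X.map f.op x) = Y.map f.op (a n x)) ?_ ?_ f
    · intro n x; simp
    · intro m n f b ih x
      simp only [op_comp, Functor.map_comp_apply]
      exact (ih _).trans (congrArg _ (h b n x))

@[simp] theorem ap_gsMk {X Y : GS} (a : ∀ k, Ce X k → Ce Y k) (h) {k : ℕ} (x : Ce X k) :
    ap (gsMk a h) x = a k x := rfl

/-- Parallel cells. -/
def GPar (X : GS) : {k : ℕ} → Ce X k → Ce X k → Prop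
  | 0, _, _ => True
  | _ + 1, x, y => ∀ b, fa X b x = fa X b y

theorem gpar_fa (X : GS) (b b' : Bool) : ∀ {k : ℕ} (x : Ce X (k + 1)), GPar X (fa X b x) (fa X b' x)
  | 0, _ => trivial
  | _ + 1, x => fun c => fa_fa X c b b' x

theorem GPar.ap {X Y : GS} (f : X ⟶ Y) : ∀ {k : ℕ} {x y : Ce X k}, GPar X x y →
    GPar Y (ap f x) (ap f y)
  | 0, _, _, _ => trivial
  | _ + 1, _, _, h => fun c => by rw [fa_ap, fa_ap, h c]

theorem GPar.refl (X : GS) : ∀ {k : ℕ} (x : Ce X k), GPar X x x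
  | 0, _ => trivial
  | _ + 1, _ => fun _ => rfl

theorem GPar.symm {X : GS} : ∀ {k : ℕ} {x y : Ce X k}, GPar X x y → GPar X y x
  | 0, _, _, _ => trivial
  | _ + 1, _, _, h => fun c => (h c).symm

theorem GPar.trans {X : GS} : ∀ {k : ℕ} {x y z : Ce X k}, GPar X x y → GPar X y z → GPar X x z
  | 0, _, _, _, _, _ => trivial
  | _ + 1, _, _, _, h, h' => fun c => (h c).trans (h' c)

/-- Boundary data for a `k`-cell. -/
def Sph (X : GS) : ℕ → Type
  | 0 => PUnit
  | k + 1 => {p : Ce X k × Ce X k // GPar X p.1 p.2}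

/-- The boundary of a cell. -/
def bd (X : GS) : {k : ℕ} → Ce X k → Sph X k
  | 0, _ => PUnit.unit
  | _ + 1, x => ⟨(fa X false x, fa X true x), gpar_fa X _ _ x⟩

/-- Image of a sphere. -/
def smap {X Y : GS} (f : X ⟶ Y) : {k : ℕ} → Sph X k → Sph Y k
  | 0, _ => PUnit.unit
  | _ + 1, s => ⟨(ap f s.1.1, ap f s.1.2), s.2.ap f⟩

/-- The sphere given by a parallel pair. -/
def sphMk {X : GS} {k : ℕ} (x y : Ce X k) (h : GPar X x y) : Sph X (k + 1) := ⟨(x, y), h⟩

theorem bd_eq_sphMk {X : GS} {k : ℕ} {x y : Ce X k} {h : GPar X x y} {c : Ce X (k + 1)} :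
    bd X c = sphMk x y h ↔ fa X false c = x ∧ fa X true c = y :=
  ⟨fun e => ⟨congrArg (fun s => s.1.1) e, congrArg (fun s => s.1.2) e⟩,
    fun e => Subtype.ext (Prod.ext e.1 e.2)⟩

theorem bd_eq_succ {X : GS} {k : ℕ} {s : Sph X (k + 1)} {c : Ce X (k + 1)} :
    bd X c = s ↔ fa X false c = s.1.1 ∧ fa X true c = s.1.2 := bd_eq_sphMk (h := s.2)

@[simp] theorem smap_id {X : GS} : ∀ {k : ℕ} (s : Sph X k), smap (𝟙 X) s = s
  | 0, _ => rfl
  | _ + 1, _ => rfl

@[simp] theorem smap_comp {X Y Z : GS} (f : X ⟶ Y) (g : Y ⟶ Z) :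
    ∀ {k : ℕ} (s : Sph X k), smap (f ≫ g) s = smap g (smap f s)
  | 0, _ => rfl
  | _ + 1, _ => rfl

theorem bd_ap {X Y : GS} (f : X ⟶ Y) : ∀ {k : ℕ} (x : Ce X k), bd Y (ap f x) = smap f (bd X x)
  | 0, _ => rfl
  | _ + 1, x => Subtype.ext (Prod.ext (fa_ap f _ x) (fa_ap f _ x))

theorem bd_eq_iff {X : GS} : ∀ {k : ℕ} {x y : Ce X k}, bd X x = bd X y ↔ GPar X x y
  | 0, _, _ => ⟨fun _ => trivial, fun _ => rfl⟩
  | _ + 1, _, _ => ⟨fun h b => by
      have h1 := bd_eq_succ.1 h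
      cases b
      · exact h1.1
      · exact h1.2, fun h => bd_eq_succ.2 ⟨h false, h true⟩⟩

/-- Lifting of `k`-cells with prescribed boundary. -/
def GLift {X Y : GS} (q : X ⟶ Y) (k : ℕ) : Prop :=
  ∀ (s : Sph X k) (y : Ce Y k), bd Y y = smap q s → ∃ x, bd X x = s ∧ ap q x = y

/-- Lifting of `(k+1)`-cells with prescribed source. -/
def GFib {X Y : GS} (q : X ⟶ Y) (k : ℕ) : Prop :=
  ∀ (x : Ce X k) (y : Ce Y (k + 1)), fa Y false y = ap q x → ∃ c, fa X false c = x ∧ ap q c = y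

/-- Every sphere has a filler. -/
def GContr (X : GS) : Prop := ∀ k (s : Sph X k), ∃ x, bd X x = s

/-- There is a cell from `x` to `y`. -/
def GRel (X : GS) {k : ℕ} (x y : Ce X k) : Prop :=
  ∃ c : Ce X (k + 1), fa X false c = x ∧ fa X true c = y

/-- The generated equivalence relation. -/
def GEqv (X : GS) {k : ℕ} (x y : Ce X k) : Prop := Relation.EqvGen (GRel X) x y

/-- Bijective on classes of fillers of every sphere. -/
def GW {X Y : GS} (f : X ⟶ Y) : Prop :=
  (∀ k (s : Sph X k) (y : Ce Y k), bd Y y = smap f s → ∃ x, bd X x = s ∧ GEqv Y (ap f x) y) ∧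
  (∀ k (x x' : Ce X k), GPar X x x' → GEqv Y (ap f x) (ap f x') → GEqv X x x')

/-- Bijective on components and on classes of loops at the chosen cells `u x n`. -/
def GW0 {X Y : GS} (f : X ⟶ Y) (u : Ce X 0 → ∀ n, Ce X n) : Prop :=
  (∀ y : Ce Y 0, ∃ x, GEqv Y (ap f x) y) ∧
  (∀ x x' : Ce X 0, GEqv Y (ap f x) (ap f x') → GEqv X x x') ∧
  (∀ x n (y : Ce Y (n + 1)), (∀ b, fa Y b y = ap f (u x n)) →
    ∃ a, (∀ b, fa X b a = u x n) ∧ GEqv Y (ap f a) y) ∧
  (∀ x n (a a' : Ce X (n + 1)), (∀ b, fa X b a = u x n) → (∀ b, fa X b a' = u x n) →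
    GEqv Y (ap f a) (ap f a') → GEqv X a a')

/-- Cells of dimension above `K` are determined by their boundary, uniquely and always. -/
def Cosk (K : ℕ∞) (X : GS) : Prop := ∀ k : ℕ, K < k → Function.Bijective (bd X (k := k))

section mkG
variable {𝒳 : Type*} [Category 𝒳]

/-- Iterated face maps of a coglobular object. -/
def iterFace (C : ℕ → 𝒳) (f : Bool → ∀ k, C k ⟶ C (k + 1)) (b : Bool) (m : ℕ) :
    ∀ n, m < n → (C m ⟶ C n)
  | 0, h => absurd h (Nat.not_lt_zero _)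
  | n + 1, _ => if h : m < n then iterFace C f b m n h ≫ f false n else
      if e : m = n then eqToHom (congrArg C e) ≫ f b n else by omega

theorem iterFace_succ (C : ℕ → 𝒳) (f : Bool → ∀ k, C k ⟶ C (k + 1)) (b : Bool) (m : ℕ) :
    iterFace C f b m (m + 1) (Nat.lt_succ_self m) = f b m := by
  simp [iterFace]

theorem iterFace_step (C : ℕ → 𝒳) (f : Bool → ∀ k, C k ⟶ C (k + 1))
    (ff : ∀ b b' b'' k, f b k ≫ f b' (k + 1) = f b k ≫ f b'' (k + 1)) (b b' : Bool) (m n : ℕ)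
    (h : m < n) :
    iterFace C f b m n h ≫ f b' n = iterFace C f b m (n + 1) (Nat.lt_succ_of_lt h) := by
  rw [iterFace, dif_pos h]
  induction n, h using Nat.le_induction with
  | base => rw [iterFace_succ]; exact ff _ _ _ _
  | succ n h _ =>
    rw [iterFace, dif_pos (show m < n from h), Category.assoc, Category.assoc, ff false b' false]

theorem iterFace_comp (C : ℕ → 𝒳) (f : Bool → ∀ k, C k ⟶ C (k + 1))
    (ff : ∀ b b' b'' k, f b k ≫ f b' (k + 1) = f b k ≫ f b'' (k + 1)) (b b' : Bool) (l m n : ℕ)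
    (h : l < m) (h' : m < n) :
    iterFace C f b l m h ≫ iterFace C f b' m n h' = iterFace C f b l n (h.trans h') := by
  induction n, h' using Nat.le_induction with
  | base => rw [iterFace_succ]; exact iterFace_step C f ff b b' l m h
  | succ n h' ih =>
    rw [← iterFace_step C f ff b' false m n h', ← Category.assoc, ih,
      iterFace_step C f ff b false]

/-- The action of a coglobular object on morphisms. -/
def mkGMap (C : ℕ → 𝒳) (f : Bool → ∀ k, C k ⟶ C (k + 1)) : {m n : ℕ} → GHom m n → (C m ⟶ C n)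
  | _, _, .id _ => 𝟙 _
  | m, n, .face b h => iterFace C f b m n h

/-- A coglobular object from its faces. -/
@[implicit_reducible] def mkG (C : ℕ → 𝒳) (f : Bool → ∀ k, C k ⟶ C (k + 1))
    (ff : ∀ b b' b'' k, f b k ≫ f b' (k + 1) = f b k ≫ f b'' (k + 1)) : Glob ⥤ 𝒳 where
  obj k := C k.n
  map g := mkGMap C f g
  map_id _ := rfl
  map_comp := by
    rintro ⟨l⟩ ⟨m⟩ ⟨n⟩ g g'
    change GHom l m at g
    change GHom m n at g'
    cases g with
    | id => exact (Category.id_comp _).symm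
    | face b h =>
      cases g' with
      | id => exact (Category.comp_id _).symm
      | face b' h' => exact (iterFace_comp C f ff b b' l m n h h').symm

theorem mkG_map_sf (C : ℕ → 𝒳) (f : Bool → ∀ k, C k ⟶ C (k + 1)) (ff) (b : Bool) (k : ℕ) :
    (mkG C f ff).map (sf b k) = f b k := iterFace_succ C f b k

/-- A natural transformation of coglobular objects from a family commuting with faces. -/
def gNat {G G' : Glob ⥤ 𝒳} (a : ∀ k, G.obj ⟨k⟩ ⟶ G'.obj ⟨k⟩)
    (h : ∀ b k, G.map (sf b k) ≫ a (k + 1) = a k ≫ G'.map (sf b k)) : G ⟶ G' where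
  app k := a k.n
  naturality := by
    rintro ⟨m⟩ ⟨n⟩ f
    refine Glob.hom_induction (fun {m n} f => G.map f ≫ a n = a m ≫ G'.map f) ?_ ?_ f
    · intro n; simp
    · intro m n f b ih
      rw [Functor.map_comp, Functor.map_comp, Category.assoc, h, reassoc_of% ih]

end mkG

/-- The nerve functor of `A : M ⥤ 𝒳`. -/
@[implicit_reducible] def Nrv {M : Type} [SmallCategory M] {𝒳 : Type*} [Category.{0} 𝒳] (A : M ⥤ 𝒳) :
    𝒳 ⥤ (Mᵒᵖ ⥤ Type) :=
  yoneda ⋙ (Functor.whiskeringLeft _ _ _).obj A.op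

section nrv
variable {𝒳 : Type*} [Category.{0} 𝒳] (G : Glob ⥤ 𝒳)

theorem fa_nrv (X : 𝒳) (b : Bool) {k : ℕ} (x : G.obj ⟨k + 1⟩ ⟶ X) :
    fa ((Nrv G).obj X) b x = G.map (sf b k) ≫ x := rfl

theorem ap_nrv {X Y : 𝒳} (f : X ⟶ Y) {k : ℕ} (x : G.obj ⟨k⟩ ⟶ X) :
    ap ((Nrv G).map f) x = x ≫ f := rfl

end nrv

end Vale.Agent.P259
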