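import Vale.Agent.P259.Sums

/-! Insertion of one or two composable cells in a globular sum. -/

open CategoryTheory Limits Opposite

set_option backward.isDefEq.respectTransparency false

noncomputable section

namespace Vale.Agent.P259

/-- `Z` is the globular set of `S` with the `n`-cell `x` split in two cells `x₀, x₁`; `S₁` is
obtained from `Z` by adding a cell `d : x₀ ⟶ x₁` and `S₂` by adding two composable cells. -/
structure InsData {n : ℕ} {S : Theta0} (x : disc n ⟶ S) where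
  Z : GS
  x₀ : Ce Z n
  x₁ : Ce Z n
  par : GPar Z x₀ x₁
  q : Z ⟶ Rep.obj S
  q₀ : ap q x₀ = x
  q₁ : ap q x₁ = x
  qbij : ∀ k < n, Function.Bijective (ap q (k := k))
  qsurj : Function.Surjective (ap q (k := n))
  S₁ : Theta0
  j₁ : Z ⟶ Rep.obj S₁
  d : disc (n + 1) ⟶ S₁
  d₀ : fc false (Nat.lt_succ_self n) ≫ d = ap j₁ x₀
  d₁ : fc true (Nat.lt_succ_self n) ≫ d = ap j₁ x₁
  desc₁ : ∀ {Y : GS} (a : Z ⟶ Y) (y : Ce Y (n + 1)), fa Y false y = ap a x₀ →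
    fa Y true y = ap a x₁ → ∃ φ : Rep.obj S₁ ⟶ Y, j₁ ≫ φ = a ∧ ap φ d = y
  ext₁ : ∀ {Y : GS} (φ ψ : Rep.obj S₁ ⟶ Y), j₁ ≫ φ = j₁ ≫ ψ → ap φ d = ap ψ d → φ = ψ
  S₂ : Theta0
  j₂ : Z ⟶ Rep.obj S₂
  e : disc (n + 1) ⟶ S₂
  e' : disc (n + 1) ⟶ S₂
  e₀ : fc false (Nat.lt_succ_self n) ≫ e = ap j₂ x₀
  e₁ : fc true (Nat.lt_succ_self n) ≫ e = fc false (Nat.lt_succ_self n) ≫ e'
  e₂ : fc true (Nat.lt_succ_self n) ≫ e' = ap j₂ x₁
  desc₂ : ∀ {Y : GS} (a : Z ⟶ Y) (y y' : Ce Y (n + 1)), fa Y false y = ap a x₀ →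
    fa Y true y = fa Y false y' → fa Y true y' = ap a x₁ →
    ∃ φ : Rep.obj S₂ ⟶ Y, j₂ ≫ φ = a ∧ ap φ e = y ∧ ap φ e' = y'

namespace InsAux

/-- Spheres of globular sets. -/
def sT : Tower (gT ⋙ Rep) := Tower.of _

/-- Two composable cells. -/
abbrev tV (n : ℕ) : Tbl (n + 1) :=
  (Tbl.base (n + 1)).snoc n (n + 1) (Nat.lt_succ_self n) (Nat.lt_succ_self n)

/-- The first of the two composable cells. -/
abbrev tI (n : ℕ) : disc (n + 1) ⟶ tb (tV n) :=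
  initD (Tbl.base (n + 1)) n (n + 1) (Nat.lt_succ_self n) (Nat.lt_succ_self n)

theorem glue_w {l : ℕ} (T : Tbl l) (j i : ℕ) (h₁ : j < l) (h₂ : j < i) :
    fc true h₁ ≫ lastD T ≫ initD T j i h₁ h₂ = fc false h₂ ≫ lastD (T.snoc j i h₁ h₂) := by
  simpa using (presSums_id l T j i h₁ h₂).w

theorem tV_w (n : ℕ) :
    fc true (Nat.lt_succ_self n) ≫ tI n = fc false (Nat.lt_succ_self n) ≫ lastD (tV n) := by
  rw [← glue_w, lastD_base, Category.id_comp]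

theorem nu_beta (b : Bool) (n : ℕ) :
    sT.ν b n ≫ sT.β (n + 1) = Rep.map (fc b (Nat.lt_succ_self n)) := sT.w b n

theorem beta_fc (b b' : Bool) (n : ℕ) : sT.β n ≫ Rep.map (fc b (Nat.lt_succ_self n)) =
    sT.β n ≫ Rep.map (fc b' (Nat.lt_succ_self n)) := sT.β_sf b b' n

/-- The fold map. -/
def v0 (n : ℕ) : sT.B (n + 1) ⟶ Rep.obj (disc n) := (sT.po n).desc (𝟙 _) (𝟙 _) rfl

theorem nu_v0 (b : Bool) (n : ℕ) : sT.ν b n ≫ v0 n = 𝟙 _ := by
  cases b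
  exacts [(sT.po n).inl_desc _ _ _, (sT.po n).inr_desc _ _ _]

/-- The boundary of two composable cells. -/
def v2 (n : ℕ) : sT.B (n + 1) ⟶ Rep.obj (tb (tV n)) :=
  (sT.po n).desc (Rep.map (fc false (Nat.lt_succ_self n) ≫ tI n))
    (Rep.map (fc true (Nat.lt_succ_self n) ≫ lastD (tV n))) (by
      rw [Rep.map_comp, ← Category.assoc, beta_fc false true, Category.assoc, ← Rep.map_comp, tV_w,
        Rep.map_comp, Rep.map_comp, ← Category.assoc, beta_fc false true, Category.assoc])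

theorem nu_v2_false (n : ℕ) :
    sT.ν false n ≫ v2 n = Rep.map (fc false (Nat.lt_succ_self n) ≫ tI n) :=
  (sT.po n).inl_desc _ _ _

theorem nu_v2_true (n : ℕ) :
    sT.ν true n ≫ v2 n = Rep.map (fc true (Nat.lt_succ_self n) ≫ lastD (tV n)) :=
  (sT.po n).inr_desc _ _ _

/-- A globular set with a sphere and its three fillings. -/
structure Spl (n : ℕ) (R₀ R₁ R₂ : GS) where
  Z : GS
  f : sT.B (n + 1) ⟶ Z
  q₀ : Z ⟶ R₀
  q₁ : Z ⟶ R₁
  q₂ : Z ⟶ R₂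
  c₀ : Rep.obj (disc n) ⟶ R₀
  c₁ : Rep.obj (disc (n + 1)) ⟶ R₁
  c₂ : Rep.obj (tb (tV n)) ⟶ R₂
  p₀ : IsPushout f (v0 n) q₀ c₀
  p₁ : IsPushout f (sT.β (n + 1)) q₁ c₁
  p₂ : IsPushout f (v2 n) q₂ c₂

theorem glue_sq {B V Z R D W R' : GS} {f : B ⟶ Z} {v : B ⟶ V} {q : Z ⟶ R} {c : V ⟶ R}
    (p : IsPushout f v q c) (g : D ⟶ Z) (t : D ⟶ W) {a : R ⟶ R'} {b : W ⟶ R'}
    (h : IsPushout (g ≫ q) t a b) :
    ∃ q' : pushout g t ⟶ R', IsPushout (f ≫ pushout.inl g t) v q' (c ≫ a) ∧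
      pushout.inr g t ≫ q' = b := by
  have h' := IsPushout.of_hasPushout g t
  exact ⟨_, p.paste_horiz (h.of_left' h').flip, h'.inr_desc _ _ _⟩

theorem Spl.glue {n : ℕ} {R₀ R₁ R₂ : GS} (s : Spl n R₀ R₁ R₂) {D W R₀' R₁' R₂' : GS}
    (g : D ⟶ s.Z) (t : D ⟶ W) {a₀ : R₀ ⟶ R₀'} {b₀ : W ⟶ R₀'} {a₁ : R₁ ⟶ R₁'} {b₁ : W ⟶ R₁'}
    {a₂ : R₂ ⟶ R₂'} {b₂ : W ⟶ R₂'} (h₀ : IsPushout (g ≫ s.q₀) t a₀ b₀)
    (h₁ : IsPushout (g ≫ s.q₁) t a₁ b₁) (h₂ : IsPushout (g ≫ s.q₂) t a₂ b₂) :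
    ∃ (s' : Spl n R₀' R₁' R₂') (r : W ⟶ s'.Z), s'.c₀ = s.c₀ ≫ a₀ ∧ s'.c₁ = s.c₁ ≫ a₁ ∧
      s'.c₂ = s.c₂ ≫ a₂ ∧ r ≫ s'.q₀ = b₀ ∧ r ≫ s'.q₁ = b₁ ∧ r ≫ s'.q₂ = b₂ := by
  obtain ⟨q₀, p₀, e₀⟩ := glue_sq s.p₀ g t h₀
  obtain ⟨q₁, p₁, e₁⟩ := glue_sq s.p₁ g t h₁
  obtain ⟨q₂, p₂, e₂⟩ := glue_sq s.p₂ g t h₂
  exact ⟨⟨_, _, q₀, q₁, q₂, _, _, _, p₀, p₁, p₂⟩, pushout.inr g t, rfl, rfl, rfl, e₀, e₁, e₂⟩

/-- The sphere itself. -/
def Spl.base (n : ℕ) :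
    Spl n (Rep.obj (disc n)) (Rep.obj (disc (n + 1))) (Rep.obj (tb (tV n))) :=
  ⟨_, 𝟙 _, v0 n, sT.β (n + 1), v2 n, 𝟙 _, 𝟙 _, 𝟙 _, .of_id_fst, .of_id_fst, .of_id_fst⟩

/-- The inserted cells are the last discs. -/
def Top {n : ℕ} {R₀ : GS} (c : Rep.obj (disc n) ⟶ R₀) : Prop :=
  ∃ (T₁ T₂ : Tbl (n + 1)) (s : Spl n R₀ (Rep.obj (tb T₁)) (Rep.obj (tb T₂))),
    s.c₀ = c ∧ s.c₁ = Rep.map (lastD T₁) ∧ Rep.map (lastD (tV n)) ≫ s.c₂ = Rep.map (lastD T₂)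

theorem top_of_glue {n j : ℕ} (t : disc j ⟶ disc n) {W R₀ : GS} (y : Rep.obj (disc j) ⟶ W)
    {a₀ : Rep.obj (disc n) ⟶ R₀} {b₀ : W ⟶ R₀} (h₀ : IsPushout (Rep.map t) y a₀ b₀)
    (T₁ : Tbl (n + 1)) {b₁ : W ⟶ Rep.obj (tb T₁)}
    (h₁ : IsPushout (Rep.map (t ≫ fc false (Nat.lt_succ_self n))) y (Rep.map (lastD T₁)) b₁) :
    Top a₀ := by
  have hV := presSums_rep _ (Tbl.base (n + 1)) n (n + 1) (Nat.lt_succ_self n) (Nat.lt_succ_self n)
  have hT := presSums_rep _ T₁ n (n + 1) (Nat.lt_succ_self n) (Nat.lt_succ_self n)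
  rw [lastD_base, Category.comp_id] at hV
  rw [Rep.map_comp] at hT
  have h₂ := (hT.of_left' hV).flip
  obtain ⟨s, -, e₀, e₁, e₂, -⟩ := (Spl.base n).glue (Rep.map t ≫ sT.ν false n) y
    (a₀ := a₀) (b₀ := b₀) (by
      rw [Category.assoc]
      erw [nu_v0, Category.comp_id]
      exact h₀)
    (a₁ := Rep.map (lastD T₁)) (b₁ := b₁) (by
      rw [Category.assoc]
      erw [nu_beta, ← Rep.map_comp]
      exact h₁)
    (by
      rw [Category.assoc]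
      erw [nu_v2_false, ← Rep.map_comp, ← Category.assoc, Rep.map_comp]
      exact h₁.paste_horiz h₂)
  refine ⟨T₁, _, s, e₀.trans (Category.id_comp _), e₁.trans (Category.id_comp _), ?_⟩
  rw [e₂]
  erw [Category.id_comp]
  exact hV.inr_desc _ _ _

/-- The inductive statement. -/
def Good {n l : ℕ} (T : Tbl l) (x : disc n ⟶ tb T) : Prop :=
  ∃ (l₁ : ℕ) (T₁ : Tbl l₁) (l₂ : ℕ) (T₂ : Tbl l₂)
    (s : Spl n (Rep.obj (tb T)) (Rep.obj (tb T₁)) (Rep.obj (tb T₂))), s.c₀ = Rep.map x ∧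
    ∀ j (h : j < l), (j ≤ n ∨ ∀ h' : n < l, x ≠ fc true h' ≫ lastD T) →
      ∃ (h₁ : j < l₁) (h₂ : j < l₂) (g : Rep.obj (disc j) ⟶ s.Z),
        g ≫ s.q₀ = Rep.map (fc true h ≫ lastD T) ∧ g ≫ s.q₁ = Rep.map (fc true h₁ ≫ lastD T₁) ∧
        g ≫ s.q₂ = Rep.map (fc true h₂ ≫ lastD T₂)

theorem exists_face (b : Bool) {j n : ℕ} (h : j ≤ n) : ∃ t : disc j ⟶ disc n,
    ∀ m (h' : n < m), t ≫ fc b h' = fc b (h.trans_lt h') := by
  rcases h.eq_or_lt with rfl | h'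
  · exact ⟨𝟙 _, fun m h' => Category.id_comp _⟩
  · exact ⟨fc b h', fun m h'' => fc_comp _ _ _ _⟩

theorem Spl.exit {n : ℕ} {R₀ : GS} {T₁ T₂ : Tbl (n + 1)}
    (s : Spl n R₀ (Rep.obj (tb T₁)) (Rep.obj (tb T₂))) (e₁ : s.c₁ = Rep.map (lastD T₁))
    (e₂ : Rep.map (lastD (tV n)) ≫ s.c₂ = Rep.map (lastD T₂)) :
    (sT.ν true n ≫ s.f) ≫ s.q₀ = s.c₀ ∧
    (sT.ν true n ≫ s.f) ≫ s.q₁ = Rep.map (fc true (Nat.lt_succ_self n) ≫ lastD T₁) ∧
    (sT.ν true n ≫ s.f) ≫ s.q₂ = Rep.map (fc true (Nat.lt_succ_self n) ≫ lastD T₂) := by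
  refine ⟨?_, ?_, ?_⟩
  · rw [Category.assoc, s.p₀.w, ← Category.assoc, nu_v0]
    exact Category.id_comp _
  · rw [Category.assoc, s.p₁.w, ← Category.assoc, nu_beta, e₁, Rep.map_comp]
  · rw [Category.assoc, s.p₂.w, ← Category.assoc, nu_v2_true, Rep.map_comp, Category.assoc, e₂,
      Rep.map_comp]

theorem good_of_top {n l : ℕ} (T : Tbl l) (x : disc n ⟶ tb T) (h : Top (Rep.map x))
    (hx : ∀ j (h : j < l), (j ≤ n ∨ ∀ h' : n < l, x ≠ fc true h' ≫ lastD T) →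
      ∃ (h' : j ≤ n) (t : disc j ⟶ disc n), t ≫ x = fc true h ≫ lastD T ∧
        t ≫ fc true (Nat.lt_succ_self n) = fc true (Nat.lt_succ_of_le h')) : Good T x := by
  obtain ⟨T₁, T₂, s, e₀, e₁, e₂⟩ := h
  obtain ⟨k₀, k₁, k₂⟩ := s.exit e₁ e₂
  refine ⟨_, T₁, _, T₂, s, e₀, fun j hj hc => ?_⟩
  obtain ⟨h', t, ht, ht'⟩ := hx j hj hc
  refine ⟨Nat.lt_succ_of_le h', Nat.lt_succ_of_le h', Rep.map t ≫ sT.ν true n ≫ s.f, ?_, ?_, ?_⟩
  · rw [Category.assoc, k₀, e₀, ← Rep.map_comp, ht]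
  · rw [Category.assoc, k₁, ← Rep.map_comp, ← Category.assoc, ht']
  · rw [Category.assoc, k₂, ← Rep.map_comp, ← Category.assoc, ht']

theorem good_target {n l : ℕ} (T : Tbl l) (h : n < l) : Good T (fc true h ≫ lastD T) := by
  refine good_of_top T _ ?_ fun j hj hc => ?_
  · refine top_of_glue (𝟙 _) (Rep.map (fc true h ≫ lastD T)) (b₀ := 𝟙 _) ?_
      (T.snoc n (n + 1) h (Nat.lt_succ_self n)) (b₁ := Rep.map (initD _ _ _ _ _)) ?_
    · rw [Rep.map_id]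
      exact .of_id_fst
    · rw [Category.id_comp]
      exact (presSums_rep _ T n (n + 1) h (Nat.lt_succ_self n)).flip
  · have h' : j ≤ n := hc.resolve_right fun H => H h rfl
    obtain ⟨t, ht⟩ := exists_face true h'
    exact ⟨h', t, by rw [← Category.assoc, ht], ht _ _⟩

theorem top_last {n : ℕ} (T : Tbl n) : Top (Rep.map (lastD T)) := by
  cases T with
  | base =>
    refine top_of_glue (𝟙 _) (𝟙 _) (b₀ := 𝟙 _) ?_ (.base (n + 1))
      (b₁ := Rep.map (fc false (Nat.lt_succ_self n))) ?_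
    · rw [lastD_base, Rep.map_id]
      exact .of_id_fst
    · rw [Category.id_comp, lastD_base, Rep.map_id]
      exact .of_id_snd
  | snoc T j _ h₁ h₂ =>
    refine top_of_glue (fc false h₂) (Rep.map (fc true h₁ ≫ lastD T))
      (presSums_rep _ T j n h₁ h₂).flip (T.snoc j (n + 1) h₁ (Nat.lt_succ_of_lt h₂))
      (b₁ := Rep.map (initD _ _ _ _ _)) ?_
    rw [fc_comp]
    exact (presSums_rep _ T j (n + 1) h₁ _).flip

theorem good_last {n : ℕ} (T : Tbl n) : Good T (lastD T) :=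
  good_of_top T _ (top_last T) fun _ hj _ => ⟨hj.le, fc true hj, rfl, fc_comp _ _ _ _⟩

theorem good_of_glue {n l₁ l₂ i j : ℕ} {R₀ : GS} {T₁ : Tbl l₁} {T₂ : Tbl l₂}
    (s : Spl n R₀ (Rep.obj (tb T₁)) (Rep.obj (tb T₂))) (h₁ : j < l₁) (h₂ : j < l₂) (h : j < i)
    (g : Rep.obj (disc j) ⟶ s.Z) (e₁ : g ≫ s.q₁ = Rep.map (fc true h₁ ≫ lastD T₁))
    (e₂ : g ≫ s.q₂ = Rep.map (fc true h₂ ≫ lastD T₂)) (T : Tbl i) (a₀ : R₀ ⟶ Rep.obj (tb T))
    (h₀ : IsPushout (g ≫ s.q₀) (Rep.map (fc false h)) a₀ (Rep.map (lastD T)))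
    (x : disc n ⟶ tb T) (hx : s.c₀ ≫ a₀ = Rep.map x) : Good T x := by
  obtain ⟨s', r, k₀, -, -, r₀, r₁, r₂⟩ := s.glue g (Rep.map (fc false h)) h₀
    (by rw [e₁]; exact presSums_rep _ T₁ j i h₁ h) (by rw [e₂]; exact presSums_rep _ T₂ j i h₂ h)
  refine ⟨_, _, _, _, s', k₀.trans hx, fun k hk _ => ⟨hk, hk, Rep.map (fc true hk) ≫ r, ?_, ?_, ?_⟩⟩
  · rw [Category.assoc, r₀, Rep.map_comp]
  · rw [Category.assoc, r₁, Rep.map_comp]
  · rw [Category.assoc, r₂, Rep.map_comp]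

theorem good_source {n i : ℕ} (T' : Tbl n) (T : Tbl i) (h : n < i)
    (ρ : Rep.obj (tb T') ⟶ Rep.obj (tb T))
    (hρ : IsPushout (Rep.map (lastD T')) (Rep.map (fc false h)) ρ (Rep.map (lastD T))) :
    Good T (fc false h ≫ lastD T) := by
  obtain ⟨T₁, T₂, s, e₀, e₁, e₂⟩ := top_last T'
  obtain ⟨k₀, k₁, k₂⟩ := s.exit e₁ e₂
  refine good_of_glue s _ _ h _ k₁ k₂ T ρ (by rw [k₀, e₀]; exact hρ) _ ?_
  rw [e₀, hρ.w, Rep.map_comp]

theorem good {n l : ℕ} (T : Tbl l) (x : disc n ⟶ tb T) : Good T x := by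
  induction T with
  | base i =>
    rcases disc_hom_cases x with ⟨rfl, rfl⟩ | ⟨b, h, rfl⟩
    · exact good_last (.base n)
    · cases b
      · have := good_source (.base n) (.base i) h (Rep.map (fc false h)) (by
          rw [lastD_base, lastD_base, Rep.map_id, Rep.map_id]
          exact .of_id_fst)
        rwa [lastD_base, Category.comp_id] at this
      · have := good_target (.base i) h
        rwa [lastD_base, Category.comp_id] at this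
  | @snoc l T j i h₁ h₂ ih =>
    have hinit : ∀ x' : disc n ⟶ tb T, Good (T.snoc j i h₁ h₂) (x' ≫ initD T j i h₁ h₂) := by
      intro x'
      by_cases hc : j ≤ n ∨ ∀ h' : n < l, x' ≠ fc true h' ≫ lastD T
      · obtain ⟨l₁, T₁, l₂, T₂, s, e₀, H⟩ := ih x'
        obtain ⟨k₁, k₂, g, g₀, g₁, g₂⟩ := H j h₁ hc
        refine good_of_glue s k₁ k₂ h₂ g g₁ g₂ _ (Rep.map (initD T j i h₁ h₂)) ?_ _ ?_
        · rw [g₀]
          exact presSums_rep _ T j i h₁ h₂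
        · rw [e₀, Rep.map_comp]
      · push Not at hc
        obtain ⟨hn, h', rfl⟩ := hc
        rw [← fc_comp true true hn h₁, Category.assoc, Category.assoc, glue_w, ← Category.assoc,
          fc_comp]
        exact good_target _ _
    rcases cell_cases T j i h₁ h₂ x with ⟨x', rfl⟩ | ⟨a, rfl⟩
    · exact hinit x'
    rcases disc_hom_cases a with ⟨rfl, rfl⟩ | ⟨b, h, rfl⟩
    · rw [eqToHom_refl, Category.id_comp]
      exact good_last _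
    cases b
    swap
    · exact good_target _ h
    rcases lt_or_ge j n with hj | hj
    · have hT := presSums_rep _ T j i h₁ h₂
      rw [← fc_comp false false hj h, Rep.map_comp (fc false hj)] at hT
      exact good_source (T.snoc j n h₁ hj) _ h _
        (hT.flip.of_left' (presSums_rep _ T j n h₁ hj).flip).flip
    · obtain ⟨t, ht⟩ := exists_face false hj
      rw [← ht i h₂, Category.assoc, ← glue_w, ← Category.assoc, ← Category.assoc]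
      exact hinit _

theorem isPushout_ev {A B C D : GS} {f : A ⟶ B} {g : A ⟶ C} {h : B ⟶ D} {i : C ⟶ D}
    (p : IsPushout f g h i) (k : ℕ) :
    IsPushout (f.app (op ⟨k⟩)) (g.app (op ⟨k⟩)) (h.app (op ⟨k⟩)) (i.app (op ⟨k⟩)) :=
  p.map ((evaluation _ _).obj (op (Glob.mk k)))

theorem nu_fa (b b' b'' : Bool) (m : ℕ) :
    Rep.map (fc b (Nat.lt_succ_self m)) ≫ sT.ν b' (m + 1) =
      Rep.map (fc b (Nat.lt_succ_self m)) ≫ sT.ν b'' (m + 1) := by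
  rw [← nu_beta, Category.assoc, Category.assoc, sT.β_ν b' b'']

theorem v0_bijective {n k : ℕ} (h : k < n) : Function.Bijective (ap (v0 n) (k := k)) := by
  have hl : ∀ z : Ce (Rep.obj (disc n)) k, ap (v0 n) (ap (sT.ν false n) z) = z := fun z => by
    rw [← ap_comp, nu_v0, ap_id]
  refine ⟨Function.LeftInverse.injective (g := ap (sT.ν false n)) fun z => ?_,
    fun z => ⟨_, hl z⟩⟩
  have key : ∃ a, ap (sT.ν false n) a = z := by
    obtain ⟨a, ha⟩ | ⟨a, ha⟩ := Types.eq_or_eq_of_isPushout (isPushout_ev (sT.po n) k) z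
    · exact ⟨a, ha⟩
    refine ⟨a, Eq.trans ?_ ha⟩
    obtain ⟨m, rfl⟩ : ∃ m, n = m + 1 := ⟨n - 1, by omega⟩
    rcases disc_hom_cases a with ⟨e, -⟩ | ⟨b, h', rfl⟩
    · exact absurd e h.ne
    obtain ⟨t, ht⟩ := exists_face b (Nat.le_of_lt_succ h)
    rw [← ht _ (Nat.lt_succ_self m)]
    exact congrArg (fun φ => ap φ t) (nu_fa b false true m)
  obtain ⟨a, rfl⟩ := key
  rw [hl]

theorem gpar_nu {n : ℕ} {Z : GS} (f : sT.B (n + 1) ⟶ Z) :
    GPar Z (topCell (sT.ν false n ≫ f)) (topCell (sT.ν true n ≫ f)) := by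
  cases n with
  | zero => trivial
  | succ m =>
    intro b
    rw [← topCell_fc, ← topCell_fc, ← Category.assoc, ← Category.assoc, nu_fa b false true]

theorem top_id {S : Theta0} {k : ℕ} (a : disc k ⟶ S) : topCell (Rep.map a) = a :=
  Category.id_comp a

end InsAux

open InsAux in
theorem InsData.nonempty {n : ℕ} {S : Theta0} (x : disc n ⟶ S) : Nonempty (InsData x) := by
  obtain ⟨l₁, T₁, l₂, T₂, s, e₀, -⟩ := good S.2 x
  have hq : ∀ b, ap s.q₀ (topCell (sT.ν b n ≫ s.f)) = x := fun b => by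
    rw [← topCell_comp, Category.assoc, s.p₀.w, ← Category.assoc, nu_v0, e₀]
    erw [Category.id_comp]
    exact top_id x
  have hd : ∀ b, fc b (Nat.lt_succ_self n) ≫ topCell s.c₁ =
      ap s.q₁ (topCell (sT.ν b n ≫ s.f)) := fun b => by
    rw [← topCell_comp, Category.assoc, s.p₁.w, ← Category.assoc, nu_beta, topCell_fc]
    rfl
  have hV := presSums_rep _ (Tbl.base (n + 1)) n (n + 1) (Nat.lt_succ_self n) (Nat.lt_succ_self n)
  rw [lastD_base, Category.comp_id] at hV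
  refine ⟨{
    Z := s.Z
    x₀ := topCell (sT.ν false n ≫ s.f)
    x₁ := topCell (sT.ν true n ≫ s.f)
    par := gpar_nu s.f
    q := s.q₀
    q₀ := hq false
    q₁ := hq true
    qbij := fun k hk => ?_
    qsurj := fun z => ?_
    S₁ := tb T₁
    j₁ := s.q₁
    d := topCell s.c₁
    d₀ := hd false
    d₁ := hd true
    desc₁ := fun {Y} a y h₀ h₁ => ?_
    ext₁ := fun φ ψ h₀ h₁ => s.p₁.hom_ext h₀ ((topCell_bijective _ _).1 h₁)
    S₂ := tb T₂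
    j₂ := s.q₂
    e := ap s.c₂ (tI n)
    e' := ap s.c₂ (lastD (tV n))
    e₀ := ?_
    e₁ := ?_
    e₂ := ?_
    desc₂ := fun {Y} a y y' h₀ h₁ h₂ => ?_ }⟩
  · have : IsIso ((v0 n).app (op ⟨k⟩)) := (isIso_iff_bijective _).2 (v0_bijective hk)
    exact (isIso_iff_bijective _).1 (isPushout_ev s.p₀ k).isIso_inl_of_isIso
  · obtain ⟨a, ha⟩ | ⟨a, ha⟩ := Types.eq_or_eq_of_isPushout (isPushout_ev s.p₀ n) z
    · exact ⟨a, ha⟩
    · refine ⟨ap (sT.ν false n ≫ s.f) a, Eq.trans ?_ ha⟩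
      rw [← ap_comp, Category.assoc, s.p₀.w, ← Category.assoc, nu_v0]
      erw [Category.id_comp]
      rfl
  · obtain ⟨y, rfl⟩ := (topCell_bijective Y (n + 1)).2 y
    have w : s.f ≫ a = sT.β (n + 1) ≫ y := by
      refine sT.hom_ext fun b => (topCell_bijective Y n).1 ?_
      rw [← Category.assoc, ← Category.assoc, nu_beta, topCell_fc, topCell_comp]
      cases b
      exacts [h₀.symm, h₁.symm]
    exact ⟨s.p₁.desc a y w, s.p₁.inl_desc _ _ _, congrArg topCell (s.p₁.inr_desc a y w)⟩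
  · rw [← topCell_comp, Category.assoc, s.p₂.w, ← Category.assoc, nu_v2_false, topCell_map]
    exact fa_ap s.c₂ false (tI n)
  · exact (fa_ap s.c₂ true (tI n)).trans
      ((congrArg (ap s.c₂) (tV_w n)).trans (fa_ap s.c₂ false (lastD (tV n))).symm)
  · rw [← topCell_comp, Category.assoc, s.p₂.w, ← Category.assoc, nu_v2_true, topCell_map]
    exact fa_ap s.c₂ true (lastD (tV n))
  · obtain ⟨y, rfl⟩ := (topCell_bijective Y (n + 1)).2 y
    obtain ⟨y', rfl⟩ := (topCell_bijective Y (n + 1)).2 y'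
    have w₁ : Rep.map (fc true (Nat.lt_succ_self n)) ≫ y =
        Rep.map (fc false (Nat.lt_succ_self n)) ≫ y' :=
      (topCell_bijective Y n).1 (by rw [topCell_fc, topCell_fc, h₁])
    have w : s.f ≫ a = v2 n ≫ hV.desc y y' w₁ := by
      refine sT.hom_ext fun b => (topCell_bijective Y n).1 ?_
      rw [← Category.assoc, ← Category.assoc, topCell_comp]
      cases b
      · rw [nu_v2_false, Rep.map_comp, Category.assoc, hV.inl_desc, topCell_fc, h₀]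
      · rw [nu_v2_true, Rep.map_comp, Category.assoc, hV.inr_desc, topCell_fc, h₂]
    refine ⟨s.p₂.desc a _ w, s.p₂.inl_desc _ _ _, ?_, ?_⟩
    · rw [← ap_comp, s.p₂.inr_desc, ← topCell_map, hV.inl_desc]
    · rw [← ap_comp, s.p₂.inr_desc, ← topCell_map, hV.inr_desc]

end Vale.Agent.P259
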