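import Vale.Agent.P259.Hty
import Vale.Agent.P259.Ins

/-! Globular sums with teeth are contractible. -/

open CategoryTheory Limits Opposite

set_option backward.isDefEq.respectTransparency false

noncomputable section

namespace Vale.Agent.P259

variable {E : GlobExt} {K : ℕ∞}

namespace TeethAux

theorem ra {C : Type*} [Category C] {X Y Z : C} {f : X ⟶ Y} {g : Y ⟶ Z} {k : X ⟶ Z}
    (h : f ≫ g = k) {W : C} (r : Z ⟶ W) : f ≫ g ≫ r = k ≫ r := by
  rw [← Category.assoc, h]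

theorem exD {S : Theta0} {X : A E K} (a : Rep.obj S ⟶ (U E K).obj X) :
    ∃ φ : (D0 E K).obj S ⟶ X, ∀ k (z : disc k ⟶ S), (D0 E K).map z ≫ φ = ap a z := by
  obtain ⟨φ, rfl⟩ := ((presSums_D0 E K).toNrv_bijective S X).2 a
  exact ⟨φ, fun _ _ => rfl⟩

theorem df_map (b : Bool) {k : ℕ} {S : Theta0} (z : disc (k + 1) ⟶ S) :
    df E K b k ≫ (D0 E K).map z = (D0 E K).map (fc b (Nat.lt_succ_self k) ≫ z) :=
  ((D0 E K).map_comp _ _).symm

theorem exists_sec {n : ℕ} {S : Theta0} {x : disc n ⟶ S} (I : InsData x) :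
    ∃ sec : ∀ k, k < n + 1 → Ce (Rep.obj S) k → Ce I.Z k,
      (∀ k h z, ap I.q (sec k h z) = z) ∧ sec n (Nat.lt_succ_self n) x = I.x₀ ∧
      ∀ b k (h : k + 1 < n + 1) (z : Ce (Rep.obj S) (k + 1)),
        sec k (Nat.lt_of_succ_lt h) (fa _ b z) = fa _ b (sec (k + 1) h z) := by
  have key : ∀ k (_ : k < n + 1) (z : Ce (Rep.obj S) k), ∃ y : Ce I.Z k,
      ap I.q y = z ∧ (k = n → HEq z x → HEq y I.x₀) := by
    intro k h z
    by_cases e : k = n
    · subst e
      by_cases hz : z = x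
      · exact ⟨I.x₀, I.q₀.trans hz.symm, fun _ _ => HEq.rfl⟩
      · obtain ⟨y, hy⟩ := I.qsurj z
        exact ⟨y, hy, fun _ h' => absurd (eq_of_heq h') hz⟩
    · obtain ⟨y, hy⟩ := (I.qbij k (by omega)).2 z
      exact ⟨y, hy, fun h' => absurd h' e⟩
  choose sec h₁ h₂ using key
  refine ⟨sec, h₁, eq_of_heq (h₂ n _ x rfl HEq.rfl), fun b k h z => (I.qbij k (by omega)).1 ?_⟩
  rw [h₁, ← fa_ap, h₁]

/-- A self-map of a free model fixing the low dimensional generators is homotopic to the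
identity. -/
theorem exists_htpy (hE : IsCoherator E) {n : ℕ} (Q : PathObj E K n) {S : Theta0}
    (g : (D0 E K).obj S ⟶ (D0 E K).obj S)
    (hg : ∀ k, k < n → ∀ z : disc k ⟶ S, (D0 E K).map z ≫ g = (D0 E K).map z) :
    ∃ H : (D0 E K).obj S ⟶ Q.P.obj ((D0 E K).obj S),
      H ≫ (Q.p false).app _ = g ∧ H ≫ (Q.p true).app _ = 𝟙 _ := by
  choose a ha using fun k (h : k < n) (z : disc k ⟶ S) =>
    (Q.bij ((D0 E K).obj S) k h).2 ((D0 E K).map z)
  have tf := (tfib_iff _).1 (Q.tf _ (contr_D0 hE S))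
  obtain ⟨f, -, hf⟩ := gl_extend (K := Rep.obj S) (E := (U E K).obj (Q.P.obj ((D0 E K).obj S)))
    (fun k z c => ap ((U E K).map (prod.lift ((Q.p false).app _) ((Q.p true).app _))) c =
      ap (toNrv (D0 E K) (prod.lift g (𝟙 _))) z) n a
    (fun b k h z => (Q.bij _ k (Nat.lt_of_succ_lt h)).1 (by
      have h1 := ha k (Nat.lt_of_succ_lt h) (fa (Rep.obj S) b z)
      have h2 := ha (k + 1) h z
      dsimp only at h1 h2 ⊢
      rw [h1, fa_nrv, fa_nrv, Category.assoc, h2]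
      exact (D0 E K).map_comp _ _))
    (fun k h z => by
      have h1 := ha k h z
      dsimp only at h1
      rw [ap_nrv, ap_toNrv]
      refine prod.hom_ext ?_ ?_
      · rw [Category.assoc, Category.assoc, prod.lift_fst, h1]
        erw [prod.lift_fst]
        rw [hg k h z]
      · rw [Category.assoc, Category.assoc, prod.lift_snd, ← Q.eq _ k h, h1]
        erw [prod.lift_snd]
        rw [Category.comp_id])
    (fun h z => by
      obtain ⟨c, -, hc⟩ := tf 0 h.le PUnit.unit _ rfl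
      exact ⟨c, hc⟩)
    (fun k h z e₀ e₁ hp h₀ h₁ => by
      obtain ⟨c, hc, hc'⟩ := tf (k + 1) h (sphMk e₀ e₁ hp)
        (ap (toNrv (D0 E K) (prod.lift g (𝟙 _))) z)
        (bd_eq_succ.2 ⟨(fa_ap _ _ _).trans h₀.symm, (fa_ap _ _ _).trans h₁.symm⟩)
      exact ⟨c, (bd_eq_sphMk.1 hc).1, (bd_eq_sphMk.1 hc).2, hc'⟩)
  obtain ⟨H, hH⟩ := exD f
  have hw : H ≫ prod.lift ((Q.p false).app _) ((Q.p true).app _) = prod.lift g (𝟙 _) :=
    (presSums_D0 E K).hom_ext fun k z => by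
      rw [← Category.assoc, hH]
      exact hf k z
  exact ⟨H, by simpa using hw =≫ prod.fst, by simpa using hw =≫ prod.snd⟩

/-- A model with teeth is contractible if the identity is dominated, relative to low dimensional
generators and teeth, by a contractible model. -/
theorem contr_of_dom (hE : IsCoherator E) {n : ℕ} (Q : PathObj E K (n + 1)) {ι : Type}
    {S : Theta0} {x : ι → (disc n ⟶ S)} {T Z : A E K} {u : (D0 E K).obj S ⟶ T}
    {e : ι → (dd E K (n + 1) ⟶ T)} (hT : IsTeeth (fun i => (D0 E K).map (x i)) u e)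
    (hZ : Contr Z) (ψ : T ⟶ Z) (π : Z ⟶ T) (g : (D0 E K).obj S ⟶ (D0 E K).obj S)
    (hg : ∀ k, k < n + 1 → ∀ z : disc k ⟶ S, (D0 E K).map z ≫ g = (D0 E K).map z)
    (hu : u ≫ ψ ≫ π = g ≫ u) (he : ∀ i, e i ≫ ψ ≫ π = e i) : Contr T := by
  obtain ⟨H, H₀, H₁⟩ := exists_htpy hE Q g hg
  choose c hc using fun i => Q.const T (e i)
  have hn : ∀ b, Q.P.map u ≫ (Q.p b).app T = (Q.p b).app ((D0 E K).obj S) ≫ u :=
    fun b => (Q.p b).naturality u
  obtain ⟨H', hu', he'⟩ := hT.desc (H ≫ Q.P.map u) c fun i => (Q.bij T n (Nat.lt_succ_self n)).1 (by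
    dsimp only
    rw [Category.assoc, hc, hT.w, Category.assoc, Category.assoc, hn, ra H₀,
      ← Category.assoc, hg n (Nat.lt_succ_self n)])
  have h₀ : H' ≫ (Q.p false).app T = ψ ≫ π := hT.ext _ _
    (by rw [← Category.assoc, hu', Category.assoc, hn, ra H₀, hu])
    (fun i => by rw [← Category.assoc, he', hc, he])
  have h₁ : H' ≫ (Q.p true).app T = 𝟙 T := hT.ext _ _
    (by rw [← Category.assoc, hu', Category.assoc, hn, ra H₁]; simp)
    (fun i => by rw [← Category.assoc, he', hc]; simp)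
  intro k s
  have := fill_of_htpy ((U E K).map H') ((U E K).map ((Q.p true).app T))
    ((tfib_iff _).1 (Q.tf0 T) k (Nat.zero_le k)) s (by
      obtain ⟨y, hy⟩ := hZ k (smap ((U E K).map ψ) s)
      refine ⟨ap ((U E K).map π) y, ?_⟩
      rw [bd_ap, hy, ← smap_comp, ← Functor.map_comp, ← Functor.map_comp, h₀])
  rw [← Functor.map_comp, h₁] at this
  simpa using this

theorem step (hE : IsCoherator E) {n : ℕ} (Q : PathObj E K (n + 1)) (hG : GStat E K (n + 1))
    {α : Type} (ih : ∀ (S : Theta0) (x : α → (disc n ⟶ S)) (T : A E K)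
      (u : (D0 E K).obj S ⟶ T) (e : α → (dd E K (n + 1) ⟶ T)),
      IsTeeth (fun i => (D0 E K).map (x i)) u e → Contr T)
    (S : Theta0) (x : Option α → (disc n ⟶ S)) (T : A E K) (u : (D0 E K).obj S ⟶ T)
    (e : Option α → (dd E K (n + 1) ⟶ T)) (hT : IsTeeth (fun i => (D0 E K).map (x i)) u e) :
    Contr T := by
  obtain ⟨I⟩ := InsData.nonempty (x none)
  obtain ⟨sec, hsec, hsec₀, hsecf⟩ := exists_sec I
  have hn := Nat.lt_succ_self n
  -- the other teeth on the second table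
  obtain ⟨B, uB, eB, hB⟩ := exists_teeth (K := K)
    fun i : α => (D0 E K).map (ap I.j₂ (sec n hn (x (some i))))
  have cB : Contr B := ih _ _ _ _ _ hB
  have fB : Cofibrant B := (cofibrant_D0 _).of_cof (Cof.anti (Nat.zero_le n) _ (an_le_cof n _ hB.an))
  -- a composition operation
  have hV := presSums_D0 E K _ (Tbl.base (n + 1)) n (n + 1) hn hn
  rw [lastD_base, Category.comp_id] at hV
  replace hV : IsPushout (df E K true n) (df E K false n) _ _ := hV
  obtain ⟨cV, cV₀, cV₁⟩ := (contr_D0 (K := K) hE _).fill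
    (df E K false n ≫ (D0 E K).map (initD (Tbl.base (n + 1)) n (n + 1) hn hn))
    (df E K true n ≫ (D0 E K).map (lastD ((Tbl.base (n + 1)).snoc n (n + 1) hn hn))) (by
      rw [← Category.assoc, ii_df false true, Category.assoc, hV.w, ← Category.assoc,
        ii_df false true, Category.assoc])
  have wv : df E K true n ≫ (D0 E K).map I.e = df E K false n ≫ (D0 E K).map I.e' := by
    rw [df_map, df_map, I.e₁]
  -- a new cell parallel to the composite
  obtain ⟨Z, uZ, eZ, hZ⟩ := exists_teeth (K := K) fun _ : Unit => cV ≫ hV.desc _ _ wv ≫ uB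
  have cZ : Contr Z := hG uZ hZ.an fB cB
  have hl : ∀ b, df E K b n ≫ df E K true (n + 1) ≫ eZ () =
      df E K b n ≫ cV ≫ hV.desc _ _ wv ≫ uB ≫ uZ := fun b => by
    have h1 : df E K b n ≫ df E K true (n + 1) = df E K b n ≫ df E K false (n + 1) := by
      rw [← Functor.map_comp, ← Functor.map_comp, sf_sf b true false]
    rw [ra h1, Category.assoc, hZ.w]
    simp only [Category.assoc]
  obtain ⟨m', hm₁, hm₂⟩ := I.desc₁ (I.j₂ ≫ toNrv (D0 E K) (uB ≫ uZ)) (df E K true (n + 1) ≫ eZ ())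
    (by
      rw [fa_nrv, hl, ra cV₀, Category.assoc, hV.inl_desc_assoc, ← Category.assoc, df_map, I.e₀]
      rfl)
    (by
      rw [fa_nrv, hl, ra cV₁, Category.assoc, hV.inr_desc_assoc, ← Category.assoc, df_map, I.e₂]
      rfl)
  obtain ⟨m, rfl⟩ := ((presSums_D0 E K).toNrv_bijective _ _).2 m'
  have hm : ∀ {k : ℕ} (z : Ce I.Z k), (D0 E K).map (ap I.j₁ z) ≫ m =
      (D0 E K).map (ap I.j₂ z) ≫ uB ≫ uZ := fun z => congrArg (fun φ => ap φ z) hm₁
  -- the collapse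
  obtain ⟨κ, hκ⟩ := exists_unit (K := K) hE n
  obtain ⟨col', hc₁, hc₂⟩ := I.desc₁ (I.q ≫ toNrv (D0 E K) (𝟙 _)) (κ ≫ (D0 E K).map (x none))
    (by rw [fa_nrv, ra (hκ _), ap_comp, I.q₀, ap_toNrv, Category.comp_id, Category.id_comp])
    (by rw [fa_nrv, ra (hκ _), ap_comp, I.q₁, ap_toNrv, Category.comp_id, Category.id_comp])
  obtain ⟨col, rfl⟩ := ((presSums_D0 E K).toNrv_bijective _ _).2 col'
  have hcol : ∀ {k : ℕ} (z : Ce I.Z k), (D0 E K).map (ap I.j₁ z) ≫ col =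
      (D0 E K).map (ap I.q z) := fun z =>
    (congrArg (fun φ => ap φ z) hc₁).trans (Category.comp_id ((D0 E K).map (ap I.q z)))
  -- the approximate section
  obtain ⟨w', hw', -⟩ := gl_extend (K := Rep.obj S) (E := (U E K).obj ((D0 E K).obj I.S₁))
    (fun _ _ _ => True) (n + 1) (fun k h z => ap (I.j₁ ≫ toNrv (D0 E K) (𝟙 _)) (sec k h z))
    (fun b k h z => by rw [hsecf, fa_ap]) (fun _ _ _ => trivial) (fun h => by omega)
    (fun k _ z e₀ e₁ hp _ _ => by
      obtain ⟨c, h₀, h₁⟩ := GContr.rel (contr_D0 hE I.S₁) hp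
      exact ⟨c, h₀, h₁, trivial⟩)
  obtain ⟨w, hw⟩ := exD w'
  have hw₁ : ∀ k h (z : disc k ⟶ S), (D0 E K).map z ≫ w = (D0 E K).map (ap I.j₁ (sec k h z)) :=
    fun k h z => ((hw k z).trans (hw' k h z)).trans
      (Category.comp_id ((D0 E K).map (ap I.j₁ (sec k h z))))
  obtain ⟨ψ, hψu, hψe⟩ := hT.desc (w ≫ m)
    (fun i => i.elim ((D0 E K).map I.e ≫ uB ≫ uZ) fun i => eB i ≫ uZ) (by
      rintro (_ | i)
      · rw [ra (hw₁ n hn _), hsec₀, hm, ← I.e₀, ← df_map, Category.assoc]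
        rfl
      · rw [ra (hw₁ n hn _), hm]
        exact (ra (hB.w i) uZ).trans (Category.assoc _ _ _))
  -- the map back
  obtain ⟨iv, iv₀, iv₁⟩ := (contr_dd (K := K) hE (n + 1)).fill _ _ (ii_df true false n)
  obtain ⟨π', hπ₁, hπ₂, hπ₃⟩ := I.desc₂ (I.q ≫ toNrv (D0 E K) u) (e none) (iv ≫ e none)
    (by rw [fa_nrv, hT.w, ap_comp, I.q₀, ap_toNrv])
    (by rw [fa_nrv, fa_nrv, ra iv₀])
    (by rw [fa_nrv, ra iv₁, hT.w, ap_comp, I.q₁, ap_toNrv])
  obtain ⟨π₂, rfl⟩ := ((presSums_D0 E K).toNrv_bijective _ _).2 π'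
  replace hπ₂ : (D0 E K).map I.e ≫ π₂ = e none := hπ₂
  replace hπ₃ : (D0 E K).map I.e' ≫ π₂ = iv ≫ e none := hπ₃
  have hπ : ∀ {k : ℕ} (z : Ce I.Z k), (D0 E K).map (ap I.j₂ z) ≫ π₂ =
      (D0 E K).map (ap I.q z) ≫ u := fun z => congrArg (fun φ => ap φ z) hπ₁
  obtain ⟨πB, hBu, hBe⟩ := hB.desc π₂ (fun i => e (some i)) fun i => by rw [hπ, hsec, hT.w]
  have wv' : df E K true n ≫ 𝟙 _ = df E K false n ≫ iv := by rw [iv₀, Category.comp_id]
  obtain ⟨ζ, ζ₀, ζ₁⟩ := (contr_dd (K := K) hE (n + 1)).fill (cV ≫ hV.desc _ _ wv')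
    (κ ≫ df E K false n) ((ST E K).hom_ext fun b => by
      rw [ra ((ST E K).w b n), ra ((ST E K).w b n), ra (hκ _), Category.id_comp]
      cases b
      · rw [ra cV₀, Category.assoc, hV.inl_desc, Category.comp_id]
      · rw [ra cV₁, Category.assoc, hV.inr_desc, iv₁])
  obtain ⟨π, hZu, hZe⟩ := hZ.desc πB (fun _ => ζ ≫ e none) fun _ => by
    rw [ra ζ₀, Category.assoc, Category.assoc, Category.assoc, hBu]
    congr 1
    refine hV.hom_ext ?_ ?_
    · rw [hV.inl_desc_assoc, hV.inl_desc_assoc, hπ₂, Category.id_comp]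
    · rw [hV.inr_desc_assoc, hV.inr_desc_assoc, hπ₃]
  have hmπ : m ≫ π = col ≫ u := by
    refine ((presSums_D0 E K).toNrv_bijective _ _).1 (I.ext₁ _ _ (gs_ext fun k z => ?_) ?_)
    · rw [ap_comp, ap_comp, ap_toNrv, ap_toNrv, ra (hm _), Category.assoc, Category.assoc, hZu,
        hBu, hπ, ra (hcol _)]
    · replace hm₂ : (D0 E K).map I.d ≫ m = _ := hm₂
      replace hc₂ : (D0 E K).map I.d ≫ col = _ := hc₂
      rw [ap_toNrv, ap_toNrv, ra hm₂, ra hc₂, Category.assoc, hZe, ra ζ₁, Category.assoc, hT.w,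
        Category.assoc]
  refine contr_of_dom hE Q hT cZ ψ π (w ≫ col) (fun k h z => ?_) ?_ ?_
  · rw [ra (hw₁ k h _), hcol, hsec]
  · rw [ra hψu, Category.assoc, hmπ, Category.assoc]
  · rintro (_ | i)
    · rw [ra (hψe _)]
      simp only [Option.elim, Category.assoc, hZu, hBu, hπ₂]
    · rw [ra (hψe _)]
      simp only [Option.elim, Category.assoc, hZu, hBe]

end TeethAux

theorem sstat_of_pathObj (hE : IsCoherator E) {n : ℕ} (Q : PathObj E K (n + 1))
    (hG : GStat E K (n + 1)) :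
    SStat E K n := by
  intro ι _
  induction ι using Finite.induction_empty_option with
  | of_equiv σ ih =>
    intro S x T u e hT
    refine ih S (fun i => x (σ i)) T u (fun i => e (σ i)) ⟨fun i => hT.w _, fun a e' h => ?_,
      fun φ ψ h₀ h₁ => hT.ext φ ψ h₀ fun i => by simpa using h₁ (σ.symm i)⟩
    obtain ⟨φ, h₀, h₁⟩ := hT.desc a (fun i => e' (σ.symm i)) fun i => by
      simpa using h (σ.symm i)
    exact ⟨φ, h₀, fun i => by simpa using h₁ (σ i)⟩
  | h_empty =>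
    intro S x T u e hT
    obtain ⟨φ, h₀, -⟩ := hT.desc (𝟙 _) (fun i => i.elim) fun i => i.elim
    exact (contr_D0 hE S).of_iso ⟨u, φ, h₀, hT.ext _ _ (by simp [TeethAux.ra h₀]) fun i => i.elim⟩
  | h_option ih => exact TeethAux.step hE Q hG ih

end Vale.Agent.P259
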