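import Vale.Agent.P259.Cyl
import Vale.Agent.P259.Teeth

/-! The bootstrap: downward induction on the level in coskeletal models. -/

open CategoryTheory Limits Opposite

set_option backward.isDefEq.respectTransparency false

noncomputable section

namespace Vale.Agent.P259

variable {E : GlobExt} {K : ℕ∞}

/-- Constant paths in a cofibrant contractible model. -/
theorem exists_const_path {n : ℕ} (Q : PathObj E K n) {X : A E K} (hX : Cofibrant X)
    (hc : Contr X) : ∃ c : X ⟶ Q.P.obj X, ∀ b, c ≫ (Q.p b).app X = 𝟙 X := by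
  have pb := IsPullback.of_hasPullback (diag X) (prod.lift ((Q.p false).app X) ((Q.p true).app X))
  have e : ∀ b, pullback.snd (diag X) (prod.lift ((Q.p false).app X) ((Q.p true).app X)) ≫
      (Q.p b).app X = pullback.fst _ _ := fun b => by
    cases b
    · simpa using (pb.w =≫ prod.fst).symm
    · simpa using (pb.w =≫ prod.snd).symm
  have ht : TFib E K 0 (pullback.fst (diag X)
      (prod.lift ((Q.p false).app X) ((Q.p true).app X))) := by
    intro k _
    rcases lt_or_ge k n with hk | hk
    · refine ⟨fun {s x} sq => ?_⟩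
      obtain ⟨c, hc'⟩ := (Q.bij X k hk).2 x
      have hc' : c ≫ (Q.p false).app X = x := hc'
      have w : x ≫ diag X = c ≫ prod.lift ((Q.p false).app X) ((Q.p true).app X) :=
        prod.hom_ext (by simp [hc']) (by simp [← Q.eq X k hk c, hc'])
      refine CommSq.HasLift.mk' ⟨pb.lift x c w, pb.hom_ext ?_ ?_, pb.lift_fst _ _ _⟩
      · rw [Category.assoc, pb.lift_fst, sq.w]
      · rw [Category.assoc, pb.lift_snd]
        cases k with
        | zero => exact (ST E K).ini.hom_ext _ _
        | succ k =>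
          refine (ST E K).hom_ext fun b => (Q.bij X k (Nat.lt_of_succ_lt hk)).1 ?_
          simp only [Category.assoc]
          rw [hc', e, sq.w]
    · exact TFib.of_isPullback pb (Q.tf X hc) k hk
  obtain ⟨g, hg⟩ := hX _ ht (𝟙 X)
  exact ⟨g ≫ pullback.snd _ _, fun b => by rw [Category.assoc, e, hg]⟩

theorem gstat_of_pathObj (hE : IsCoherator E) {n : ℕ} (Q : PathObj E K n) : GStat E K n := by
  intro X Y j hj hX hc
  obtain ⟨r, hr⟩ := hj.extend hE (𝟙 X)
  obtain ⟨c, hc'⟩ := exists_const_path Q hX hc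
  have := hj _ (Q.fib Y)
  have sq : CommSq (c ≫ Q.P.map j) j (prod.lift ((Q.p false).app Y) ((Q.p true).app Y))
      (prod.lift (r ≫ j) (𝟙 Y)) :=
    ⟨prod.hom_ext (by simp [reassoc_of% hc', reassoc_of% hr]) (by simp [reassoc_of% hc'])⟩
  have h₀ : sq.lift ≫ (Q.p false).app Y = r ≫ j := by simpa using sq.fac_right =≫ prod.fst
  have h₁ : sq.lift ≫ (Q.p true).app Y = 𝟙 Y := by simpa using sq.fac_right =≫ prod.snd
  intro k s
  have := fill_of_htpy ((U E K).map sq.lift) ((U E K).map ((Q.p true).app Y))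
    ((tfib_iff _).1 (Q.tf0 Y) k (Nat.zero_le k)) s (by
      obtain ⟨x, hx⟩ := hc k (smap ((U E K).map r) s)
      refine ⟨ap ((U E K).map j) x, ?_⟩
      rw [bd_ap, hx, ← Functor.map_comp, h₀, Functor.map_comp, smap_comp])
  rwa [← Functor.map_comp, h₁, CategoryTheory.Functor.map_id, smap_id] at this

theorem gstat_of_lt {n : ℕ} (h : K < n) : GStat E K n := fun _ _ j hj _ hX => by
  have := hj.isIso h
  exact hX.of_iso (asIso j)

theorem sstat_of_gstat (hE : IsCoherator E) {n : ℕ} (h : GStat E K n) : SStat E K n :=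
  fun _ _ S _ _ u _ hT => h u hT.an (cofibrant_D0 S) (contr_D0 hE S)

theorem GStat.mono {n m : ℕ} (h : GStat E K n) (hm : n ≤ m) : GStat E K m :=
  fun _ _ j hj => h j (An.anti hm j hj)

theorem gstat_nat (hE : IsCoherator E) (K : ℕ) : GStat E K 0 := by
  have key : ∀ n, n ≤ K + 1 → GStat E K (n + 1) ∧ SStat E K n := by
    intro n hn
    induction hn using Nat.decreasingInduction with
    | self =>
      have h : GStat E K (K + 1) := gstat_of_lt (by exact_mod_cast Nat.lt_succ_self K)
      exact ⟨h.mono (Nat.le_succ _), sstat_of_gstat hE h⟩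
    | of_succ k _ ih =>
      obtain ⟨Q⟩ := pathObj_nonempty hE (k + 1) ih.1 ih.2
      exact ⟨gstat_of_pathObj hE Q, sstat_of_pathObj hE Q (gstat_of_pathObj hE Q)⟩
  obtain ⟨Q⟩ := pathObj_nonempty hE 0 (key 0 (Nat.zero_le _)).1 (key 0 (Nat.zero_le _)).2
  exact gstat_of_pathObj hE Q

variable (E K) in
/-- The inclusion of coskeletal models in all models. -/
@[implicit_reducible] def incA : A E K ⥤ A E ⊤ := ObjectProperty.ιOfLE (fun _ h => ⟨h.1, cosk_top _⟩)

variable (E K) in
/-- The reflection adjunction between models and coskeletal models. -/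
def adjA : (PK E ⊤).ι ⋙ Lf E K ⊣ incA E K :=
  Adjunction.mkOfHomEquiv
    { homEquiv := fun X Y => ((adjL E K).homEquiv X.obj Y).trans
        ((ObjectProperty.fullyFaithfulι (PK E ⊤)).homEquiv (X := X)
          (Y := (incA E K).obj Y)).symm
      homEquiv_naturality_left_symm := fun f g =>
        (adjL E K).homEquiv_naturality_left_symm f.hom g.hom
      homEquiv_naturality_right := fun f g => by
        ext1
        exact (adjL E K).homEquiv_naturality_right f g }

variable (E K) in
/-- The underlying globular set does not depend on the ambient category. -/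
def incAIso : U E K ≅ incA E K ⋙ U E ⊤ :=
  uIso E K ≪≫ (Functor.isoWhiskerLeft (incA E K) (uIso E ⊤)).symm

theorem fib_incA {X Y : A E K} {q : X ⟶ Y} (h : Fib E K 0 q) : Fib E ⊤ 0 ((incA E K).map q) :=
  (fib_iff _).2 fun k hk => GFib.of_arrow_iso ((incAIso E K).app X) ((incAIso E K).app Y)
    ((incAIso E K).hom.naturality q) ((fib_iff q).1 h k hk)

theorem tfib_incA {X Y : A E K} {q : X ⟶ Y} (h : TFib E K 0 q) : TFib E ⊤ 0 ((incA E K).map q) :=
  (tfib_iff _).2 fun k hk => GLift.of_arrow_iso ((incAIso E K).app X) ((incAIso E K).app Y)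
    ((incAIso E K).hom.naturality q) ((tfib_iff q).1 h k hk)

/-- Transfer from the coskeletal models to all models. -/
theorem gstat_top_of_nat (hE : IsCoherator E) (h : ∀ K : ℕ, GStat E K 0) : GStat E ⊤ 0 := by
  intro X Y j hj hX hc
  refine GContr.of_iso ((uIso E ⊤).app Y).symm (gcontr_of_Lf hE Y.obj Y.property.1 fun K => ?_)
  refine h K (((PK E ⊤).ι ⋙ Lf E K).map j) (fun B C q hq => ?_) (fun B C q hq f => ?_)
    (gcontr_Lf hE K X.obj X.property.1 (GContr.of_iso ((uIso E ⊤).app X) hc))
  · exact ((adjA E K).hasLiftingProperty_iff j q).2 (hj _ (fib_incA hq))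
  · obtain ⟨g, hg⟩ := hX _ (tfib_incA hq) ((adjA E K).homEquiv _ _ f)
    refine ⟨((adjA E K).homEquiv _ _).symm g, ?_⟩
    rw [← Adjunction.homEquiv_naturality_right_symm, hg, Equiv.symm_apply_apply]

theorem gstat_top (hE : IsCoherator E) : GStat E ⊤ 0 := gstat_top_of_nat hE (gstat_nat hE)

theorem pathObj_top (hE : IsCoherator E) : Nonempty (PathObj E ⊤ 0) :=
  pathObj_nonempty hE 0 ((gstat_top hE).mono (Nat.zero_le _)) (sstat_of_gstat hE (gstat_top hE))

end Vale.Agent.P259
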