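import Vale.Agent.P259.Disc

/-! Topological cell attachments. -/

open CategoryTheory Limits Opposite unitInterval

set_option backward.isDefEq.respectTransparency false

noncomputable section

namespace Vale.Agent.P259

/-- The inclusion of a subspace. -/
def subι {Y : TopCat.{0}} (V : Set Y) : TopCat.of V ⟶ Y := TopCat.ofHom ⟨Subtype.val, by fun_prop⟩

/-- The inclusion of a subspace in a larger one. -/
def subLE {Y : TopCat.{0}} {V W : Set Y} (h : V ⊆ W) : TopCat.of V ⟶ TopCat.of W :=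
  TopCat.ofHom ⟨Set.inclusion h, continuous_inclusion h⟩

/-- The classifier of continuous maps defined on open subsets. -/
def CellPt (Z : Type) : Type := Option Z

instance (Z : Type) [TopologicalSpace Z] : TopologicalSpace (CellPt Z) where
  IsOpen U := IsOpen ((some : Z → CellPt Z) ⁻¹' U) ∧ ((none : Option Z) ∈ U → U = Set.univ)
  isOpen_univ := ⟨isOpen_univ, fun _ => rfl⟩
  isOpen_inter _ _ h h' := ⟨h.1.inter h'.1, fun e => by rw [h.2 e.1, h'.2 e.2, Set.inter_self]⟩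
  isOpen_sUnion s h := ⟨by
    rw [Set.preimage_sUnion]
    exact isOpen_biUnion fun U hU => (h U hU).1,
    fun ⟨U, hU, e⟩ => Set.eq_univ_of_univ_subset ((h U hU).2 e ▸ Set.subset_sUnion_of_mem hU)⟩

open Classical in
/-- The map classifying a map on an open subset. -/
def cellExt {X Z : TopCat.{0}} {O : Set X} (hO : IsOpen O) (f : C(O, Z)) :
    X ⟶ TopCat.of (CellPt Z) :=
  TopCat.ofHom ⟨fun x => if h : x ∈ O then some (f ⟨x, h⟩) else none, continuous_def.2 fun U hU => by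
    by_cases h : (none : Option Z) ∈ U
    · rw [hU.2 h]
      exact isOpen_univ
    · refine (congrArg IsOpen (Set.ext fun x => ?_)).mp
        (hO.isOpenMap_subtype_val _ (hU.1.preimage f.continuous))
      by_cases hx : x ∈ O
      · simp [hx]
      · simpa [hx] using h⟩

section
variable {S B Y Y' : TopCat.{0}} {a : S ⟶ Y} {β : S ⟶ B} {c : Y ⟶ Y'} {d : B ⟶ Y'}

theorem cell_surj (h : IsPushout a β c d) (y : Y') : (∃ x, c x = y) ∨ ∃ x, d x = y :=
  Types.eq_or_eq_of_isPushout (h.map (forget TopCat)) y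

theorem cell_open_desc (h : IsPushout a β c d) {Z : TopCat.{0}} {O₁ : Set Y} {O₂ : Set B}
    (h₁ : IsOpen O₁) (h₂ : IsOpen O₂) (f₁ : C(O₁, Z)) (f₂ : C(O₂, Z))
    (hO : ∀ s, a s ∈ O₁ ↔ β s ∈ O₂) (hf : ∀ s e e', f₁ ⟨a s, e⟩ = f₂ ⟨β s, e'⟩) :
    ∃ V : Set Y', IsOpen V ∧ (∀ y, c y ∈ V ↔ y ∈ O₁) ∧ (∀ x, d x ∈ V ↔ x ∈ O₂) ∧
      ∃ g : C(V, Z), (∀ y e e', g ⟨c y, e⟩ = f₁ ⟨y, e'⟩) ∧ ∀ x e e', g ⟨d x, e⟩ = f₂ ⟨x, e'⟩ := by
  classical
  have w : a ≫ cellExt h₁ f₁ = β ≫ cellExt h₂ f₂ := by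
    ext s
    change (if e : a s ∈ O₁ then some (f₁ ⟨a s, e⟩) else none) =
      if e : β s ∈ O₂ then some (f₂ ⟨β s, e⟩) else none
    by_cases e : a s ∈ O₁
    · rw [dif_pos e, dif_pos ((hO s).1 e), hf]
    · rw [dif_neg e, dif_neg (mt (hO s).2 e)]
  obtain ⟨G, G₁, G₂⟩ : ∃ G : C(Y', CellPt Z),
      (∀ y, G (c y) = if e : y ∈ O₁ then some (f₁ ⟨y, e⟩) else none) ∧
      ∀ x, G (d x) = if e : x ∈ O₂ then some (f₂ ⟨x, e⟩) else none :=
    ⟨(h.desc _ _ w).hom, ConcreteCategory.congr_hom (h.inl_desc _ _ w),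
      ConcreteCategory.congr_hom (h.inr_desc _ _ w)⟩
  have key : ∀ U : Set Z, IsOpen U → IsOpen (G ⁻¹' ((some : Z → CellPt Z) '' U)) := fun U hU =>
    IsOpen.preimage G.continuous
      ⟨by rwa [Set.preimage_image_eq _ (Option.some_injective _)], fun ⟨_, _, e⟩ => by cases e⟩
  choose g hg using fun y : G ⁻¹' ((some : Z → CellPt Z) '' Set.univ) => y.2
  refine ⟨_, key _ isOpen_univ, fun y => ?_, fun x => ?_, ⟨g, continuous_def.2 fun U hU => ?_⟩,
    fun y e e' => Option.some_injective _ ?_, fun x e e' => Option.some_injective _ ?_⟩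
  · rw [Set.mem_preimage, G₁]
    split_ifs with e
    exacts [iff_of_true ⟨_, trivial, rfl⟩ e, iff_of_false (fun ⟨_, _, e⟩ => by cases e) e]
  · rw [Set.mem_preimage, G₂]
    split_ifs with e
    exacts [iff_of_true ⟨_, trivial, rfl⟩ e, iff_of_false (fun ⟨_, _, e⟩ => by cases e) e]
  · refine (congrArg IsOpen (Set.ext fun y => ?_)).mp ((key U hU).preimage continuous_subtype_val)
    rw [Set.mem_preimage, Set.mem_preimage, ← (hg y).2]
    exact (Option.some_injective _).mem_set_image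
  · exact (hg _).2.trans ((G₁ y).trans (dif_pos e'))
  · exact (hg _).2.trans ((G₂ x).trans (dif_pos e'))

theorem cell_htpy {X : Type} [TopologicalSpace X] {f : C(X, X)} (H : I × X → X) (hH : Continuous H)
    (h0 : ∀ x, H (0, x) = x) (h1 : ∀ x, H (1, x) = f x) : f.Homotopic (ContinuousMap.id X) :=
  ContinuousMap.Homotopic.symm ⟨⟨⟨H, hH⟩, h0, h1⟩⟩

theorem cell_htpy_eq {X : Type} [TopologicalSpace X] {f : C(X, X)} (h : ∀ x, f x = x) :
    f.Homotopic (ContinuousMap.id X) :=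
  cell_htpy (fun p => p.2) continuous_snd (fun _ => rfl) fun x => (h x).symm

theorem cell_cover_aux (h : IsPushout a β c d) (nm : C(B, ℝ)) (sc : C(B × ℝ, B))
    (hβ : Topology.IsEmbedding β) (hr : ∀ x, (∃ s, β s = x) ↔ nm x = 1)
    (h1 : ∀ x, nm x ≤ 1) (hnm : ∀ x l, 0 ≤ l → nm (sc (x, l)) = min 1 (l * nm x))
    (hone : ∀ x, sc (x, 1) = x)
    (hsc : ∀ x m l, 0 ≤ m → m * nm x ≤ 1 → sc (sc (x, m), l) = sc (x, l * m))
    (hbig : ∀ x l l', 1 ≤ l * nm x → 1 ≤ l' * nm x → sc (x, l) = sc (x, l')) :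
    ∃ (V W : Set Y') (_ : IsOpen V) (_ : IsOpen W) (_ : ∀ y, y ∈ V ∨ y ∈ W)
      (gS : TopCat.of (V ∩ W : Set Y') ⟶ S) (gX : TopCat.of V ⟶ Y)
      (gB : TopCat.of W ⟶ B) (gT : Y' ⟶ Y'),
      subLE Set.inter_subset_left ≫ gX = gS ≫ a ∧ subLE Set.inter_subset_right ≫ gB = gS ≫ β ∧
      subι V ≫ gT = gX ≫ c ∧ subι W ≫ gT = gB ≫ d ∧
      IsHE gS ∧ IsHE gX ∧ IsHE gB ∧ IsHE gT := by
  have hb : ∀ s, nm (β s) = 1 := fun s => (hr _).1 ⟨s, rfl⟩
  have hfix : ∀ s l, 1 ≤ l → sc (β s, l) = β s := fun s l hl =>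
    (hbig _ l 1 (by rwa [hb, mul_one]) (by rw [hb, mul_one])).trans (hone _)
  have hw : ∀ s, c (a s) = d (β s) := ConcreteCategory.congr_hom h.w
  choose nr hnr using fun x : {x | 1 / 2 < nm x} => (hr (sc (x, 2))).2
    ((hnm _ 2 zero_le_two).trans (min_eq_left (by linarith [x.2.out])))
  have cnr : Continuous nr := hβ.continuous_iff.2 (by
    rw [show β ∘ nr = fun x => sc (x.1, 2) from funext hnr]
    fun_prop)
  obtain ⟨V, hV, Vc, Vd, gX, Xc, Xd⟩ := cell_open_desc h isOpen_univ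
    (isOpen_lt continuous_const nm.continuous) ⟨Subtype.val, continuous_subtype_val⟩
    (a.hom.comp ⟨nr, cnr⟩) (fun s => iff_of_true trivial (by rw [Set.mem_ofPred, hb]; norm_num))
    fun s _ e => congrArg a (hβ.injective ((hnr ⟨β s, e⟩).trans (hfix s 2 one_le_two)).symm)
  obtain ⟨W, hW, Wc, Wd, e, -, ed⟩ := cell_open_desc h isOpen_empty
    (isOpen_lt nm.continuous (continuous_const (y := 1))) ⟨fun x => x.2.elim, by fun_prop⟩
    ⟨Subtype.val, continuous_subtype_val⟩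
    (fun s => iff_of_false id (by rw [Set.mem_ofPred, hb]; norm_num)) fun _ e => e.elim
  replace ed : ∀ x hx, e ⟨d x, hx⟩ = x := fun x hx => ed x hx ((Wd x).1 hx)
  have We : ∀ y : W, d (e y) = y ∧ nm (e y) < 1 := by
    rintro ⟨y, hy⟩
    obtain ⟨x, rfl⟩ | ⟨x, rfl⟩ := cell_surj h y
    · exact ((Wc x).1 hy).elim
    · rw [ed]
      exact ⟨rfl, (Wd x).1 hy⟩
  have Ve : ∀ y : (V ∩ W : Set Y'), 1 / 2 < nm (e ⟨y, y.2.2⟩) := fun y =>
    (Vd _).1 ((We ⟨y, y.2.2⟩).1.symm ▸ y.2.1)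
  have wR : a ≫ TopCat.ofHom (ContinuousMap.curry ⟨fun p : Y × I => c p.1, by fun_prop⟩) =
      β ≫ TopCat.ofHom (ContinuousMap.curry
        ⟨fun p : B × I => d (sc (p.1, 1 + p.2)), by fun_prop⟩) := by
    ext s t
    exact (hw s).trans (congrArg d (hfix s _ (le_add_of_nonneg_right t.2.1))).symm
  obtain ⟨R, Rc, Rd⟩ : ∃ R : C(I × Y', Y'), (∀ t y, R (t, c y) = c y) ∧
      ∀ t x, R (t, d x) = d (sc (x, 1 + t)) :=
    ⟨⟨fun p => (h.desc _ _ wR).hom p.2 p.1, by fun_prop⟩,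
      fun t y => congrArg (· t) (ConcreteCategory.congr_hom (h.inl_desc _ _ wR) y),
      fun t x => congrArg (· t) (ConcreteCategory.congr_hom (h.inr_desc _ _ wR) x)⟩
  have R0 : ∀ y, R (0, y) = y := fun y => by
    obtain ⟨x, rfl⟩ | ⟨x, rfl⟩ := cell_surj h y
    · exact Rc 0 x
    · rw [Rd, Set.Icc.coe_zero, add_zero, hone]
  have R1 : ∀ x, R (1, d x) = d (sc (x, 2)) := fun x => by
    rw [Rd, Set.Icc.coe_one, one_add_one_eq_two]
  have RV : ∀ y : V, R (1, y) = c (gX y) := by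
    rintro ⟨y, hy⟩
    obtain ⟨x, rfl⟩ | ⟨x, rfl⟩ := cell_surj h y
    · rw [Rc, Xc x hy trivial]
      rfl
    · rw [R1, Xd x hy ((Vd x).1 hy), ← hnr ⟨x, (Vd x).1 hy⟩]
      exact (hw _).symm
  refine ⟨V, W, hV, hW, fun y => ?_,
    TopCat.ofHom ⟨fun y => nr ⟨e ⟨y, y.2.2⟩, Ve y⟩, by fun_prop⟩, TopCat.ofHom gX,
    TopCat.ofHom ⟨fun y => sc (e y, 2), by fun_prop⟩, TopCat.ofHom ⟨fun y => R (1, y), by fun_prop⟩,
    ?_, ?_, ?_, ?_, ?_, ?_, ?_, 𝟙 _, cell_htpy R R.continuous R0 fun _ => rfl,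
    cell_htpy R R.continuous R0 fun _ => rfl⟩
  · obtain ⟨x, rfl⟩ | ⟨x, rfl⟩ := cell_surj h y
    · exact Or.inl ((Vc x).2 trivial)
    · rw [Vd, Wd]
      exact (lt_or_ge (1 / 2) (nm x)).imp_right fun e => e.trans_lt one_half_lt_one
  · ext y
    exact (congrArg gX (Subtype.ext (We ⟨y, y.2.2⟩).1.symm)).trans
      (Xd _ ((Vd _).2 (Ve y)) (Ve y))
  · ext y
    exact (hnr ⟨_, Ve y⟩).symm
  · ext y
    exact RV y
  · ext y
    exact (congrArg (fun z => R (1, z)) (We y).1.symm).trans (R1 _)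
  · have k1 : ∀ s, nm (sc (β s, 3 / 4)) = 3 / 4 := fun s => by
      rw [hnm _ _ (by norm_num), hb]
      norm_num
    have k2 : ∀ (t : I) (y : (V ∩ W : Set Y')), d (sc (e ⟨y, y.2.2⟩,
        1 - t + t * (3 / 4 * (nm (e ⟨y, y.2.2⟩))⁻¹))) ∈ V ∩ W := fun t y => by
      have a1 := Ve y
      have a2 := (We ⟨y, y.2.2⟩).2
      have a3 := t.2.1
      have a4 := sub_nonneg.2 t.2.2
      rw [Set.mem_inter_iff, Vd, Wd, Set.mem_ofPred, Set.mem_ofPred, hnm _ _ (by positivity),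
        add_mul, mul_assoc, inv_mul_cancel_right₀ (by positivity), lt_min_iff, min_lt_iff]
      exact ⟨⟨by norm_num, by nlinarith⟩, Or.inr (by nlinarith)⟩
    refine ⟨TopCat.ofHom ⟨fun s => ⟨d (sc (β s, 3 / 4)), (Vd _).2 (lt_of_lt_of_eq (by norm_num) (k1 s).symm),
      (Wd _).2 ((k1 s).trans_lt (by norm_num))⟩, by fun_prop⟩,
      cell_htpy (fun p => ⟨_, k2 p.1 p.2⟩) ?_ (fun y => Subtype.ext ?_) fun y => Subtype.ext ?_,
      cell_htpy_eq fun s => hβ.injective ((hnr _).trans ?_)⟩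
    · have : ∀ p : I × (V ∩ W : Set Y'), nm (e ⟨p.2, p.2.2.2⟩) ≠ 0 := fun p => by
        linarith [Ve p.2]
      fun_prop (disch := assumption)
    · simp only [Set.Icc.coe_zero, sub_zero, zero_mul, add_zero, hone, (We _).1]
    · have a1 : 0 < nm (e ⟨y, y.2.2⟩) := by linarith [Ve y]
      change d (sc (_, 1 - 1 + 1 * _)) = d (sc (β (nr _), 3 / 4))
      rw [hnr, hbig _ 2 _ (by linarith [Ve y]) (inv_mul_cancel₀ a1.ne').ge,
        hsc _ _ _ (inv_pos.2 a1).le (inv_mul_cancel₀ a1.ne').le, sub_self, zero_add, one_mul]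
    · change sc (e ⟨d _, _⟩, 2) = _
      rw [ed, hsc _ _ _ (by norm_num) (by rw [hb]; norm_num), hfix s _ (by norm_num)]
  · have k1 : ∀ (t : I) (y : V), R (t, y) ∈ V := by
      rintro t ⟨y, hy⟩
      obtain ⟨x, rfl⟩ | ⟨x, rfl⟩ := cell_surj h y
      · rwa [Rc]
      · rw [Rd, Vd, Set.mem_ofPred, hnm _ _ (by linarith [t.2.1]), lt_min_iff]
        exact ⟨by norm_num, by nlinarith [((Vd x).1 hy).out, t.2.1]⟩
    exact ⟨TopCat.ofHom ⟨fun y => ⟨c y, (Vc y).2 trivial⟩, by fun_prop⟩,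
      cell_htpy (fun p => ⟨_, k1 p.1 p.2⟩) (by fun_prop) (fun y => Subtype.ext (R0 y))
        fun y => Subtype.ext (RV y), cell_htpy_eq fun y => Xc y _ trivial⟩
  · have k1 : ∀ x, d (sc (x, (1 + 1)⁻¹)) ∈ W := fun x => by
      rw [Wd, Set.mem_ofPred, hnm _ _ (by norm_num), min_lt_iff]
      exact Or.inr (by linarith [h1 x])
    have k2 : ∀ (t : I) (y : W), d (sc (sc (e y, 1 + t), (1 + t : ℝ)⁻¹)) ∈ W := fun t y => by
      have a1 : (0 : ℝ) < 1 + t := by linarith [t.2.1]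
      rw [Wd, Set.mem_ofPred, hnm _ _ (inv_pos.2 a1).le, hnm _ _ a1.le, min_lt_iff]
      refine Or.inr ((mul_le_mul_of_nonneg_left (min_le_right _ _) (inv_pos.2 a1).le).trans_lt ?_)
      rw [inv_mul_cancel_left₀ a1.ne']
      exact (We y).2
    refine ⟨TopCat.ofHom ⟨fun x => ⟨_, k1 x⟩, by fun_prop⟩,
      cell_htpy (fun p => ⟨_, k2 p.1 p.2⟩) ?_ (fun y => Subtype.ext ?_) fun y => Subtype.ext ?_,
      cell_htpy_eq fun x => ?_⟩
    · have : ∀ p : I × W, (1 + p.1 : ℝ) ≠ 0 := fun p => by linarith [p.1.2.1]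
      fun_prop (disch := assumption)
    · simp only [Set.Icc.coe_zero, add_zero, inv_one, hone, (We _).1]
    · exact congrArg (fun l => d (sc (sc (e y, l), (1 + 1)⁻¹))) one_add_one_eq_two
    · change sc (e ⟨d _, _⟩, 2) = _
      rw [ed, hsc _ _ _ (by norm_num) (by linarith [h1 x]), one_add_one_eq_two,
        mul_inv_cancel₀ two_ne_zero, hone]

theorem IsHE.comp_inv {X Z Z' : TopCat.{0}} {f : X ⟶ Z} (hf : IsHE f) (e : Z' ≅ Z) :
    IsHE (f ≫ e.inv) := by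
  obtain ⟨g, h1, h2⟩ := hf
  refine ⟨e.hom ≫ g, by rwa [Category.assoc, e.inv_hom_id_assoc], ?_⟩
  have := (ContinuousMap.Homotopic.refl e.inv.hom).comp (h2.comp (.refl e.hom.hom))
  rwa [ContinuousMap.id_comp, ← TopCat.hom_comp e.hom e.inv, e.hom_inv_id] at this

end

/-- Radial scaling, cut off at the boundary. -/
def cellSc {n : ℕ} (x : Disc n) (l : ℝ) : Disc n :=
  ⟨(l / max 1 (|l| * ‖x.1‖)) • x.1, by
    have h : 0 < max 1 (|l| * ‖x.1‖) := lt_max_of_lt_left one_pos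
    rw [mem_closedBall_zero_iff, norm_smul, Real.norm_eq_abs, abs_div, abs_of_pos h,
      div_mul_eq_mul_div, div_le_one h]
    exact le_max_right _ _⟩

theorem continuous_cellSc {n : ℕ} : Continuous fun p : Disc n × ℝ => cellSc p.1 p.2 := by
  have : ∀ p : Disc n × ℝ, max 1 (|p.2| * ‖p.1.1‖) ≠ 0 := fun p => (lt_max_of_lt_left one_pos).ne'
  unfold cellSc
  fun_prop (disch := assumption)

/-- The standard open cover of a cell attachment. -/
theorem exists_cell_cover {ι : Type} (k : ι → ℕ) {Y Y' : TopCat.{0}}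
    {a : ∐ (fun i => sphT.B (k i)) ⟶ Y} {c : Y ⟶ Y'} {d : ∐ (fun i => discG.obj ⟨k i⟩) ⟶ Y'}
    (h : IsPushout a (Limits.Sigma.map fun i => sphT.β (k i)) c d) :
    ∃ (V W : Set Y') (_ : IsOpen V) (_ : IsOpen W) (_ : ∀ y, y ∈ V ∨ y ∈ W)
      (gS : TopCat.of (V ∩ W : Set Y') ⟶ ∐ (fun i => sphT.B (k i))) (gX : TopCat.of V ⟶ Y)
      (gB : TopCat.of W ⟶ ∐ (fun i => discG.obj ⟨k i⟩)) (gT : Y' ⟶ Y'),
      subLE Set.inter_subset_left ≫ gX = gS ≫ a ∧
      subLE Set.inter_subset_right ≫ gB = gS ≫ (Limits.Sigma.map fun i => sphT.β (k i)) ∧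
      subι V ≫ gT = gX ≫ c ∧ subι W ≫ gT = gB ≫ d ∧
      IsHE gS ∧ IsHE gX ∧ IsHE gB ∧ IsHE gT := by
  let eS := TopCat.sigmaIsoSigma fun i => sphT.B (k i)
  let eB := TopCat.sigmaIsoSigma fun i => discG.obj ⟨k i⟩
  have hβ : Topology.IsEmbedding (Sigma.map id fun i => sphIncl (k i) :
      (Σ i, Sphere (k i)) → Σ i, Disc (k i)) :=
    (Topology.isEmbedding_sigmaMap Function.injective_id).2 fun i =>
      Topology.IsEmbedding.inclusion Metric.sphere_subset_closedBall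
  have w : eS.inv ≫ (Limits.Sigma.map fun i => sphT.β (k i)) =
      TopCat.ofHom ⟨_, hβ.continuous⟩ ≫ eB.inv := by
    ext ⟨i, x⟩
    exact ((congrArg (Limits.Sigma.map fun i => sphT.β (k i)).hom
      (TopCat.sigmaIsoSigma_inv_apply (fun i => sphT.B (k i)) i x)).trans
      (ConcreteCategory.congr_hom (Sigma.ι_map (fun i => sphT.β (k i)) i) x)).trans
      (TopCat.sigmaIsoSigma_inv_apply (fun i => discG.obj ⟨k i⟩) i (sphIncl _ x)).symm
  obtain ⟨V, W, hV, hW, hc, gS, gX, gB, gT, e1, e2, e3, e4, h1, h2, h3, h4⟩ := cell_cover_aux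
    (h.of_iso' eS.symm (Iso.refl _) eB.symm (Iso.refl _) (Category.comp_id _).symm w
      ((Category.id_comp c).trans (Category.comp_id c).symm) (Category.comp_id _).symm)
    ⟨fun x : Σ i, Disc (k i) => ‖x.2.1‖, continuous_sigma fun _ => continuous_subtype_val.norm⟩
    ⟨fun p : (Σ i, Disc (k i)) × ℝ => ⟨p.1.1, cellSc p.1.2 p.2⟩,
      Homeomorph.sigmaProdDistrib.symm.comp_continuous_iff'.1 (continuous_sigma fun i =>
        (@continuous_sigmaMk _ (fun i => Disc (k i)) _ i).comp continuous_cellSc)⟩ hβ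
    (fun ⟨i, x⟩ => ⟨fun ⟨s, hs⟩ => hs ▸ mem_sphere_zero_iff_norm.1 s.2.2,
      fun hx => ⟨⟨i, x.1, mem_sphere_zero_iff_norm.2 hx⟩, rfl⟩⟩)
    (fun x => mem_closedBall_zero_iff.1 x.2.2)
    (fun x l hl => by
      change ‖(l / max 1 (|l| * ‖x.2.1‖)) • x.2.1‖ = min 1 (l * ‖x.2.1‖)
      rw [norm_smul, abs_of_nonneg hl, Real.norm_of_nonneg (by positivity), div_mul_eq_mul_div]
      rcases le_total 1 (l * ‖x.2.1‖) with e | e
      · rw [max_eq_right e, min_eq_left e, div_self (by linarith)]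
      · rw [max_eq_left e, min_eq_right e, div_one])
    (fun x => congrArg (Sigma.mk x.1) (Subtype.ext (by
      change (1 / max 1 (|1| * ‖x.2.1‖)) • x.2.1 = x.2.1
      rw [abs_one, one_mul, max_eq_left (mem_closedBall_zero_iff.1 x.2.2), div_one, one_smul])))
    (fun x m l hm (e : m * ‖x.2.1‖ ≤ 1) => congrArg (Sigma.mk x.1) (Subtype.ext (by
      simp only [cellSc, ContinuousMap.coe_mk]
      rw [abs_of_nonneg hm, max_eq_left e, div_one, norm_smul, smul_smul, abs_mul, mul_assoc,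
        div_mul_eq_mul_div, Real.norm_eq_abs])))
    (fun x l l' (e : 1 ≤ l * ‖x.2.1‖) (e' : 1 ≤ l' * ‖x.2.1‖) =>
      congrArg (Sigma.mk x.1) (Subtype.ext (by
        have a1 := pos_of_mul_pos_left (one_pos.trans_le e) (norm_nonneg _)
        have a2 := pos_of_mul_pos_left (one_pos.trans_le e') (norm_nonneg _)
        simp only [cellSc]
        rw [abs_of_pos a1, abs_of_pos a2, max_eq_right e, max_eq_right e',
          div_mul_cancel_left₀ a1.ne', div_mul_cancel_left₀ a2.ne'])))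
  exact ⟨V, W, hV, hW, hc, gS ≫ eS.inv, gX, gB ≫ eB.inv, gT, e1.trans (Category.assoc ..).symm,
    by rw [reassoc_of% e2, Category.assoc, w], e3, e4.trans (Category.assoc ..).symm,
    h1.comp_inv eS, h2, h3.comp_inv eB, h4⟩

end Vale.Agent.P259
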