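import Vale.Agent.P259.Mod

/-! The coskeleton of a globular set, and elements of models as globular maps. -/

open CategoryTheory Limits Opposite

set_option backward.isDefEq.respectTransparency false

noncomputable section

namespace Vale.Agent.P259

theorem ck_le {K : ℕ∞} {m : ℕ} (h : ((m + 1 : ℕ) : ℕ∞) ≤ K) : (m : ℕ∞) ≤ K :=
  le_trans (by exact_mod_cast m.le_succ) h

/-- The coskeleton: compatible families of cells of low dimension. -/
@[implicit_reducible] def ckObj (K : ℕ∞) (X : GS) : GS where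
  obj k := {x : ∀ m : ℕ, (m : ℕ∞) ≤ K → (Glob.mk m ⟶ k.unop) → Ce X m //
    ∀ m (h : ((m + 1 : ℕ) : ℕ∞) ≤ K) b a, x m (ck_le h) (sf b m ≫ a) = fa X b (x (m + 1) h a)}
  map f := ↾fun x => ⟨fun m h a => x.1 m h (a ≫ f.unop), fun m h b a =>
    (congrArg _ (Category.assoc _ _ _)).trans (x.2 m h b _)⟩
  map_id k := by
    ext x m h a
    exact congrArg (x.1 m h) (Category.comp_id a)
  map_comp f g := by
    ext x m h a
    exact congrArg (x.1 m h) (Category.assoc a _ _).symm

theorem ck_fa {K : ℕ∞} {X : GS} {k : ℕ} (b : Bool) (x : Ce (ckObj K X) (k + 1)) (m h a) :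
    (fa _ b x).1 m h a = x.1 m h (a ≫ sf b k) := rfl

/-- The unit of the coskeleton. -/
def ckUnit (K : ℕ∞) (X : GS) : X ⟶ ckObj K X where
  app k := ↾fun x => ⟨fun m _ a => X.map a.op x, fun m h b a => by
    simp only [fa, op_comp, Functor.map_comp_apply]⟩
  naturality k k' f := by
    ext x
    exact Subtype.ext (funext fun m => funext fun h => funext fun a =>
      (X.map_comp_apply f a.op x).symm)

theorem ckUnit_bijective (K : ℕ∞) (X : GS) (k : ℕ) (hk : (k : ℕ∞) ≤ K) :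
    Function.Bijective (ap (ckUnit K X) (k := k)) := by
  refine ⟨fun x y h => ?_, fun x => ⟨x.1 k hk (𝟙 _), Subtype.ext ?_⟩⟩
  · have := congrArg (fun z : Ce (ckObj K X) k => z.1 k hk (𝟙 _)) h
    exact (X.map_id_apply _ x).symm.trans (this.trans (X.map_id_apply _ y))
  · have key : ∀ {m n : ℕ} (f : Glob.mk m ⟶ Glob.mk n), ∀ hm hn (a : Glob.mk n ⟶ Glob.mk k),
        X.map f.op (x.1 n hn a) = x.1 m hm (f ≫ a) := by
      intro m n f
      refine Glob.hom_induction (fun {m n} f => ∀ hm hn (a : Glob.mk n ⟶ Glob.mk k),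
        X.map f.op (x.1 n hn a) = x.1 m hm (f ≫ a)) ?_ ?_ f
      · intro n _ _ a
        exact X.map_id_apply _ _
      · intro m n f b ih hm hn a
        rw [op_comp, Functor.map_comp_apply, Category.assoc, ← ih hm (ck_le hn), x.2 n hn]
        rfl
    funext m h a
    exact (key a h hk _).trans (congrArg _ (Category.comp_id a))

theorem ck_factor {m j : ℕ} (h : m ≤ j) (a : Glob.mk m ⟶ Glob.mk (j + 1)) :
    ∃ p : Bool × (Glob.mk m ⟶ Glob.mk j), a = p.2 ≫ sf p.1 j := by
  change GHom m (j + 1) at a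
  cases a with
  | id => omega
  | face b _ =>
    rcases h.eq_or_lt with rfl | h'
    · exact ⟨(b, 𝟙 _), rfl⟩
    · exact ⟨(b, gface b h'), rfl⟩

theorem cosk_ck (K : ℕ∞) (X : GS) : Cosk K (ckObj K X) := by
  intro k hk
  obtain _ | j := k
  · exact absurd hk (by simp)
  have hle : ∀ m : ℕ, (m : ℕ∞) ≤ K → m ≤ j := fun m h =>
    Nat.lt_succ_iff.1 (by exact_mod_cast h.trans_lt hk)
  refine ⟨fun x y h => Subtype.ext (funext fun m => funext fun hm => funext fun a => ?_), ?_⟩
  · obtain ⟨⟨b, a⟩, rfl⟩ := ck_factor (hle m hm) a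
    exact congrArg (fun z : Ce (ckObj K X) j => z.1 m hm a) (bd_eq_iff.1 h b)
  · rintro ⟨⟨x₀, x₁⟩, hx⟩
    let x : Bool → Ce (ckObj K X) j := fun b => bif b then x₁ else x₀
    have hx' : ∀ b b', GPar _ (x b) (x b') := by
      rintro (_ | _) (_ | _)
      exacts [GPar.refl _ _, hx, hx.symm, GPar.refl _ _]
    have key : ∀ m hm b b' (a a' : Glob.mk m ⟶ Glob.mk j), a ≫ sf b j = a' ≫ sf b' j →
        (x b).1 m hm a = (x b').1 m hm a' := by
      intro m hm b b' a a' e
      change GHom m j at a a'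
      cases a with
      | id =>
        cases a' with
        | id => cases e; rfl
        | face _ h => omega
      | face c h =>
        cases a' with
        | id => omega
        | face c' h' =>
          cases e
          obtain _ | i := j
          · omega
          obtain ⟨⟨d, a⟩, e⟩ := ck_factor (Nat.lt_succ_iff.1 h) (gface c h)
          have := congrArg (fun z : Ce (ckObj K X) i => z.1 m hm a) (hx' b b' d)
          exact (congrArg _ e).trans (this.trans (congrArg _ e.symm))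
    choose p hp using fun m hm a => ck_factor (hle m hm) a
    refine ⟨⟨fun m hm a => (x (p m hm a).1).1 m hm (p m hm a).2, fun m h b a => ?_⟩,
      bd_eq_succ.2 ⟨Subtype.ext ?_, Subtype.ext ?_⟩⟩
    · refine (key _ _ _ _ _ _ ?_).trans ((x _).2 m h b _)
      rw [← hp, Category.assoc, ← hp]
    · funext m hm a
      exact key m hm _ false _ _ (hp m hm _).symm
    · funext m hm a
      exact key m hm _ true _ _ (hp m hm _).symm

theorem Cosk.ck_ext {K : ℕ∞} {P Y : GS} (hY : Cosk K Y) {f g : P ⟶ Y}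
    (h : ∀ k : ℕ, (k : ℕ∞) ≤ K → ∀ x : Ce P k, ap f x = ap g x) : f = g := by
  refine gs_ext fun k => ?_
  induction k with
  | zero => exact h 0 (by simp)
  | succ k ih =>
    intro x
    rcases le_or_gt ((k + 1 : ℕ) : ℕ∞) K with hk | hk
    · exact h _ hk x
    · exact (hY _ hk).1 (bd_eq_iff.2 fun b => by rw [fa_ap, fa_ap, ih])

theorem Cosk.ck_desc {K : ℕ∞} {P C Y : GS} (hY : Cosk K Y) (η : P ⟶ C)
    (hη : ∀ k : ℕ, (k : ℕ∞) ≤ K → Function.Bijective (ap η (k := k))) (u : P ⟶ Y) :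
    ∃ b : C ⟶ Y, η ≫ b = u := by
  obtain ⟨b, -, hb⟩ := gl_extend (K := C) (E := Y)
    (fun k c y => (k : ℕ∞) ≤ K → ∀ x, ap η x = c → ap u x = y) 0 (fun _ h => absurd h (by omega))
    (fun _ _ h => absurd h (by omega)) (fun _ h => absurd h (by omega)) (fun _ c => by
      obtain ⟨x, rfl⟩ := (hη 0 (by simp)).2 c
      exact ⟨ap u x, fun h x' e => by rw [(hη 0 h).1 e]⟩) (fun k _ c e₀ e₁ hp h₀ h₁ => by
      rcases le_or_gt ((k + 1 : ℕ) : ℕ∞) K with hk | hk
      · obtain ⟨x, rfl⟩ := (hη _ hk).2 c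
        exact ⟨ap u x, (fa_ap _ _ _).trans (h₀ (ck_le hk) _ (fa_ap _ _ _).symm),
          (fa_ap _ _ _).trans (h₁ (ck_le hk) _ (fa_ap _ _ _).symm),
          fun h x' e => by rw [(hη _ h).1 e]⟩
      · obtain ⟨e, he⟩ := (hY _ hk).2 (sphMk e₀ e₁ hp)
        exact ⟨e, (bd_eq_sphMk.1 he).1, (bd_eq_sphMk.1 he).2, fun h => absurd h hk.not_ge⟩)
  exact ⟨b, hY.ck_ext fun k hk x => (hb k _ hk x rfl).symm⟩

theorem ck_post {K : ℕ∞} {P C : GS} (η : P ⟶ C)
    (hη : ∀ k : ℕ, (k : ℕ∞) ≤ K → Function.Bijective (ap η (k := k))) (S : Theta0)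
    (hS : (S.2.dim : ℕ∞) ≤ K) : Function.Bijective fun φ : Rep.obj S ⟶ P => φ ≫ η := by
  have hk : ∀ {k : ℕ} (_ : Ce (Rep.obj S) k), (k : ℕ∞) ≤ K := fun a =>
    le_trans (by exact_mod_cast le_dim_of_cell a) hS
  refine ⟨fun φ ψ h => gs_ext fun k a => (hη k (hk a)).1 (congrArg (fun t => ap t a) h),
    fun z => ?_⟩
  choose x hx using fun k (a : Ce (Rep.obj S) k) => (hη k (hk a)).2 (ap z a)
  exact ⟨gsMk x fun b k a => (hη k (hk (fa _ b a))).1 (by rw [hx, ← fa_ap, ← fa_ap, hx]),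
    gs_ext hx⟩

theorem ck_smap_surj {X Y : GS} (f : X ⟶ Y) (k : ℕ)
    (h : ∀ j ≤ k, Function.Bijective (ap f (k := j))) : Function.Surjective (smap f (k := k)) := by
  obtain _ | k := k
  · exact fun _ => ⟨PUnit.unit, rfl⟩
  rintro ⟨⟨y₀, y₁⟩, hy⟩
  obtain ⟨x₀, rfl⟩ := (h k k.le_succ).2 y₀
  obtain ⟨x₁, rfl⟩ := (h k k.le_succ).2 y₁
  refine ⟨sphMk x₀ x₁ ?_, rfl⟩
  obtain _ | k := k
  · trivial
  · exact fun b => (h k (by omega)).1 ((fa_ap _ _ _).symm.trans ((hy b).trans (fa_ap _ _ _)))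

variable {E : GlobExt}

/-- The globular map attached to an element of a presheaf. -/
def ckMu (X : PSh E) {S : Theta0} (x : X.obj (op ((io E).obj S))) : Rep.obj S ⟶ (res E).obj X where
  app k := ↾fun a : disc k.unop.n ⟶ S => X.map ((io E).map a).op x
  naturality k k' f := by
    ext a
    change X.map ((io E).map (gT.map f.unop ≫ a)).op x =
      X.map ((io E).map (gT.map f.unop)).op (X.map ((io E).map a).op x)
    rw [Functor.map_comp, op_comp]
    exact X.map_comp_apply _ _ _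

theorem ckMu_io (X : PSh E) {S S' : Theta0} (a : S' ⟶ S) (x : X.obj (op ((io E).obj S))) :
    ckMu X (X.map ((io E).map a).op x) = Rep.map a ≫ ckMu X x :=
  gs_ext fun _ c => by
    change X.map ((io E).map c).op (X.map ((io E).map a).op x) = X.map ((io E).map (c ≫ a)).op x
    rw [Functor.map_comp, op_comp, Functor.map_comp_apply]

theorem ckMu_map {X Y : PSh E} (u : X ⟶ Y) {S : Theta0} (x : X.obj (op ((io E).obj S))) :
    ckMu Y (u.app _ x) = ckMu X x ≫ (res E).map u :=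
  gs_ext fun _ _ => (NatTrans.naturality_apply u _ x).symm

theorem topCell_ckMu (X : PSh E) {k : ℕ} (x : Ce ((res E).obj X) k) :
    topCell (ckMu X (S := disc k) x) = x := by
  change X.map ((io E).map (𝟙 (disc k))).op x = x
  rw [(io E).map_id, op_id, Functor.map_id_apply]

theorem ckMu_bijective {X : PSh E} (hX : IsMod X) (S : Theta0) :
    Function.Bijective (ckMu X (S := S)) := by
  have hF : PresSums (io E ⋙ X.rightOp) := fun l T j i h₁ h₂ => (hX l T j i h₁ h₂).op.flip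
  refine ⟨fun x y h => ?_, fun z => ?_⟩
  · have := hF.hom_ext (S := S) (X := op PUnit) (φ := (↾fun _ => x).op) (ψ := (↾fun _ => y).op)
      fun k a => Quiver.Hom.unop_inj (by ext; exact congrArg (fun t => ap t a) h)
    exact congrArg (fun t => t.unop PUnit.unit) this
  · obtain ⟨φ, hφ⟩ := hF.exists_desc (S := S) (X := op PUnit) (fun k a => (↾fun _ => ap z a).op)
      fun b k a => Quiver.Hom.unop_inj (by ext; exact (fa_ap z b a).symm)
    exact ⟨φ.unop PUnit.unit, gs_ext fun k a => congrArg (fun t => t.unop PUnit.unit) (hφ k a)⟩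

theorem ck_rep_ext {S : Theta0} {Y : GS} {φ ψ : Rep.obj S ⟶ Y}
    (h : ∀ k (a : disc k ⟶ S), Rep.map a ≫ φ = Rep.map a ≫ ψ) : φ = ψ :=
  gs_ext fun k a => (topCell_map a φ).symm.trans ((congrArg topCell (h k a)).trans (topCell_map a ψ))

theorem Cosk.ck_disc_ext {K : ℕ∞} {Y : GS} (hY : Cosk K Y) {k : ℕ} (hk : K < (k + 1 : ℕ))
    {φ ψ : Rep.obj (disc (k + 1)) ⟶ Y} (h : ∀ b, Rep.map (fc b (Nat.lt_succ_self k)) ≫ φ =
      Rep.map (fc b (Nat.lt_succ_self k)) ≫ ψ) : φ = ψ :=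
  (topCell_bijective Y _).1 ((hY _ hk).1 (bd_eq_iff.2 fun b => by
    rw [← topCell_fc, ← topCell_fc, h]))

end Vale.Agent.P259
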