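import Vale.Agent.P259.Mod
import Vale.Agent.P259.CoskAux

/-! The reflection to coskeletal models does not change low dimensional cells. -/

open CategoryTheory Limits Opposite

set_option backward.isDefEq.respectTransparency false

noncomputable section

namespace Vale.Agent.P259

variable {E : GlobExt}

/-- Maps from globular sums to a globular set. -/
abbrev ckF (C : GS) : Theta0 ⥤ Typeᵒᵖ := Rep ⋙ (yoneda.obj C).rightOp

/-- Compatibility with the operations of `X`. -/
def ckR (X : PSh E) {C : GS} (η : (res E).obj X ⟶ C) {S S' : Theta0}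
    (h : (io E).obj S ⟶ (io E).obj S') (φ : (ckF C).obj S ⟶ (ckF C).obj S') : Prop :=
  ∀ x : X.obj (op ((io E).obj S')), φ.unop (ckMu X x ≫ η) = ckMu X (X.map h.op x) ≫ η

theorem ck_theta {K : ℕ∞} {X : PSh E} (hX : IsMod X) {C : GS} (η : (res E).obj X ⟶ C)
    (hη : ∀ k : ℕ, (k : ℕ∞) ≤ K → Function.Bijective (ap η (k := k))) (S : Theta0)
    (hS : (S.2.dim : ℕ∞) ≤ K) : Function.Bijective fun x => ckMu X (S := S) x ≫ η :=
  (ck_post η hη S hS).comp (ckMu_bijective hX S)

theorem ck_rp {K : ℕ∞} {X : PSh E} (hX : IsMod X) {C : GS} (hC : Cosk K C) (η : (res E).obj X ⟶ C)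
    (hη : ∀ k : ℕ, (k : ℕ∞) ≤ K → Function.Bijective (ap η (k := k))) :
    RPHyp (ckF C) (ckR X η) where
  sums l T j i h₁ h₂ := ((presSums_rep l T j i h₁ h₂).op.flip.map (yoneda.obj C)).op.flip
  rio a x := by rw [ckMu_io, Category.assoc]; rfl
  comp {S S' S'' h h' φ φ'} H H' x := by
    rw [op_comp, Functor.map_comp_apply, ← H, ← H']
    rfl
  glue h φ H x := ck_rep_ext fun k a => (H k a x).trans (by
    rw [op_comp, Functor.map_comp_apply, ckMu_io, Category.assoc])
  lift k S hS h φ H hp := by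
    have hφ : ∀ b x, Rep.map (fc b (Nat.lt_succ_self k)) ≫ ckMu X (X.map h.op x) ≫ η =
        (φ b).unop (ckMu X x ≫ η) := fun b x => by
      rw [H b x, op_comp, Functor.map_comp_apply, ckMu_io, Category.assoc]
    have key : ∀ z : Rep.obj S ⟶ C, ∃ w : Rep.obj (disc (k + 1)) ⟶ C,
        (∀ b, Rep.map (fc b (Nat.lt_succ_self k)) ≫ w = (φ b).unop z) ∧
        ∀ x, ckMu X x ≫ η = z → w = ckMu X (X.map h.op x) ≫ η := by
      intro z
      rcases le_or_gt ((k + 1 : ℕ) : ℕ∞) K with hk | hk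
      · have hb := ck_theta hX η hη S (le_trans (by exact_mod_cast hS) hk)
        obtain ⟨x, rfl⟩ := hb.2 z
        exact ⟨_, fun b => hφ b x, fun x' e => by rw [hb.1 e]⟩
      · have hp' : GPar C (topCell ((φ false).unop z)) (topCell ((φ true).unop z)) := by
          obtain _ | m := k
          · trivial
          · intro b
            rw [← topCell_fc, ← topCell_fc]
            exact congrArg (fun t => topCell (t.unop z)) (hp m rfl b)
        obtain ⟨c, hc⟩ := (hC _ hk).2 (sphMk _ _ hp')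
        obtain ⟨w, rfl⟩ := (topCell_bijective C _).2 c
        have hw : ∀ b, Rep.map (fc b (Nat.lt_succ_self k)) ≫ w = (φ b).unop z := fun b =>
          (topCell_bijective C _).1 ((topCell_fc b w).trans (by
            cases b
            exacts [(bd_eq_sphMk.1 hc).1, (bd_eq_sphMk.1 hc).2]))
        exact ⟨w, hw, fun x e => hC.ck_disc_ext hk fun b => by rw [hw, hφ, e]⟩
    choose w hw hw' using key
    exact ⟨(↾w).op, fun b => Quiver.Hom.unop_inj (ConcreteCategory.hom_ext _ _ fun z => hw z b), fun x => hw' _ x rfl⟩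

theorem ck_nat (hE : IsCoherator E) {K : ℕ∞} {X Y : PSh E} (hX : IsMod X) (hY : PK E K Y) {C : GS}
    {η : (res E).obj X ⟶ C} (hη : ∀ k : ℕ, (k : ℕ∞) ≤ K → Function.Bijective (ap η (k := k)))
    (e : Extn (ckF C) (ckR X η)) (u : X ⟶ Y) (b : C ⟶ (res E).obj Y) (hb : η ≫ b = (res E).map u)
    {S S' : Theta0} (h : (io E).obj S ⟶ (io E).obj S') :
    ∀ z y, ckMu Y y = z ≫ b → ckMu Y (Y.map h.op y) = (e.map h).unop z ≫ b := by
  refine coh_induction hE (fun {S S'} h => ∀ (z : Rep.obj S' ⟶ C) y, ckMu Y y = z ≫ b →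
    ckMu Y (Y.map h.op y) = (e.map h).unop z ≫ b) (fun a z y H => ?_)
    (fun {_ _ _ h h'} H H' z y e' => ?_) (fun h H z y e' => ck_rep_ext fun k a => ?_)
    (fun k S hS h H z y e' => ?_) h
  · rw [ckMu_io, H, e.map_io, ← Category.assoc]
    rfl
  · rw [op_comp, Functor.map_comp_apply, e.map_comp]
    exact H _ _ (H' z y e')
  · have := H k a z y e'
    rw [op_comp, Functor.map_comp_apply, ckMu_io, e.map_comp, e.map_io] at this
    exact this.trans (Category.assoc _ _ _)
  · rcases le_or_gt ((k + 1 : ℕ) : ℕ∞) K with hk | hk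
    · obtain ⟨x, rfl⟩ := (ck_theta hX η hη S (le_trans (by exact_mod_cast hS) hk)).2 z
      rw [Category.assoc, hb, ← ckMu_map] at e'
      rw [(ckMu_bijective hY.1 S).1 e', e.rel h x, Category.assoc, hb, ← ckMu_map]
      exact congrArg _ (NatTrans.naturality_apply u _ x).symm
    · refine hY.2.ck_disc_ext hk fun c => ?_
      have := H c z y e'
      rw [op_comp, Functor.map_comp_apply, ckMu_io, e.map_comp, e.map_io] at this
      exact this.trans (Category.assoc _ _ _)

theorem unit_bijective (hE : IsCoherator E) (K : ℕ∞) (X : PSh E) (hX : IsMod X) (k : ℕ)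
    (hk : (k : ℕ∞) ≤ K) :
    Function.Bijective (ap ((res E).map ((adjL E K).unit.app X)) (k := k)) := by
  let C := ckObj K ((res E).obj X)
  have hη := ckUnit_bijective K ((res E).obj X)
  obtain ⟨e⟩ := RP hE (ck_rp hX (cosk_ck K _) _ hη)
  let ρ : (res E).obj e.toF.leftOp ⟶ C := gsMk (fun k z => topCell z) fun b k z =>
    (congrArg (fun t => topCell (t.unop z)) (e.map_io _)).trans (topCell_fc b z)
  have : IsIso ρ := (NatTrans.isIso_iff_isIso_app ρ).2 fun k =>
    (isIso_iff_bijective _).2 (topCell_bijective C k.unop.n)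
  let Z : A E K := ⟨e.toF.leftOp, fun l T j i h₁ h₂ => (e.presSums (ck_rp hX (cosk_ck K _) _ hη).sums
    l T j i h₁ h₂).unop.flip, (cosk_ck K _).of_iso (asIso ρ).symm⟩
  let η : X ⟶ Z.obj :=
    { app := fun S => ↾fun x => ckMu X (S := S.unop.S) x ≫ ckUnit K _
      naturality := fun S S' h => ConcreteCategory.hom_ext _ _ fun x => (e.rel h.unop x).symm }
  let Y := (Lf E K).obj X
  let u : X ⟶ Y.obj := (adjL E K).unit.app X
  obtain ⟨a, ha⟩ := ((adjL E K).homEquiv X Z).surjective η
  have ha' : u ≫ a.hom = η := ha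
  obtain ⟨b₀, hb₀⟩ := Y.property.2.ck_desc _ hη ((res E).map u)
  choose b hb using fun (S : Theta0) (z : Rep.obj S ⟶ C) =>
    (ckMu_bijective Y.property.1 S).2 (z ≫ b₀)
  let β : Z.obj ⟶ Y.obj :=
    { app := fun S => ↾b S.unop.S
      naturality := fun S S' h => ConcreteCategory.hom_ext _ _ fun z =>
        (ckMu_bijective Y.property.1 _).1 ((hb _ _).trans
          (ck_nat hE hX Y.property hη e u b₀ hb₀ h.unop z _ (hb _ z)).symm) }
  have hβ : η ≫ β = u := by
    ext S x
    refine (ckMu_bijective Y.property.1 S.unop.S).1 ((hb _ _).trans ?_)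
    exact (Category.assoc _ _ _).trans ((congrArg _ hb₀).trans (ckMu_map u x).symm)
  have hab : a ≫ ObjectProperty.homMk β = 𝟙 Y := ((adjL E K).homEquiv X Y).injective (by
    change u ≫ a.hom ≫ β = u ≫ 𝟙 _
    rw [← Category.assoc, ha', hβ, Category.comp_id])
  refine ⟨fun x x' h => ?_, fun y => ?_⟩
  · refine (ck_theta hX _ hη (disc k) hk).1 ?_
    change η.app _ x = η.app _ x'
    rw [← ha']
    exact congrArg (a.hom.app _) h
  · obtain ⟨x, hx⟩ := (ck_theta hX _ hη (disc k) hk).2 (a.hom.app _ y)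
    refine ⟨x, ?_⟩
    change u.app _ x = y
    rw [← hβ]
    exact (congrArg (β.app _) hx).trans (congrArg (fun t : Y ⟶ Y => t.hom.app _ y) hab)

theorem gcontr_yoneda (hE : IsCoherator E) (S : Cc E) : GContr ((res E).obj (yoneda.obj S)) := by
  rintro (_ | k) s
  · obtain ⟨a⟩ := nonempty_cell_zero S.S
    exact ⟨(io E).map a, rfl⟩
  · obtain ⟨h, hh⟩ := coh_lift hE (S := S.S) (k := k) (fun b => bif b then s.1.2 else s.1.1)
      fun m e b => by subst e; exact s.2 b
    exact ⟨h, bd_eq_succ.2 ⟨hh false, hh true⟩⟩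

/-- The reflection of a contractible model is contractible. -/
theorem gcontr_Lf (hE : IsCoherator E) (K : ℕ∞) (X : PSh E) (hX : IsMod X)
    (h : GContr ((res E).obj X)) : GContr ((U E K).obj ((Lf E K).obj X)) := by
  refine GContr.of_iso ((uIso E K).app _).symm fun k s => ?_
  rcases le_or_gt (k : ℕ∞) K with hk | hk
  · obtain ⟨s, rfl⟩ := ck_smap_surj _ k
      (fun j hj => unit_bijective hE K X hX j (le_trans (by exact_mod_cast hj) hk)) s
    obtain ⟨x, rfl⟩ := h k s
    exact ⟨_, bd_ap _ x⟩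
  · exact (((Lf E K).obj X).property.2 k hk).2 s

/-- A model all of whose finite reflections are contractible is contractible. -/
theorem gcontr_of_Lf (hE : IsCoherator E) (X : PSh E) (hX : IsMod X)
    (h : ∀ K : ℕ, GContr ((U E K).obj ((Lf E K).obj X))) : GContr ((res E).obj X) := by
  intro k s
  obtain ⟨y, hy⟩ := (h k).of_iso ((uIso E k).app _) k
    (smap ((res E).map ((adjL E k).unit.app X)) s)
  obtain ⟨x, hx, -⟩ := GLift.of_bijective _ k
    (fun j hj => unit_bijective hE k X hX j (by exact_mod_cast hj)) s y hy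
  exact ⟨x, hx⟩

theorem gcontr_Dk (hE : IsCoherator E) (K : ℕ∞) (S : Cc E) :
    GContr ((U E K).obj ((Dk E K).obj S)) :=
  gcontr_Lf hE K _ (isMod_yoneda E S) (gcontr_yoneda hE S)

end Vale.Agent.P259
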