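import Vale.Agent.P259.CylC

/-! Construction of the path object of level `n`. -/

open CategoryTheory Limits Opposite

set_option backward.isDefEq.respectTransparency false

noncomputable section

namespace Vale.Agent.P259

variable {E : GlobExt} {K : ℕ∞}

namespace CylT
variable {n : ℕ} (Q : CylT E K n)

/-- The relation between operations and maps of cylinders. -/
abbrev Rl {S S' : Theta0} (h : (io E).obj S ⟶ (io E).obj S') (φ : Q.F.obj S ⟶ Q.F.obj S') : Prop :=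
  ∀ b, (Q.eps b).app S ≫ φ = (Dk E K).map h ≫ (Q.eps b).app S'

variable (x : Extn Q.F Q.Rl) (hβ : ∀ k : ℕ, K < k → IsIso (Q.T.β k))

theorem gT_toF : gT ⋙ io E ⋙ x.toF = Q.G :=
  (congrArg (gT ⋙ ·) x.io_toF).trans (gT_Ext Q.G)

/-- The path object functor. -/
def P : A E K ⥤ A E K :=
  nrvA x.toF (x.presSums (presSums_Ext _)) (fun X k hk => by
    rw [Q.gT_toF x, Q.T.bd_bijective_iff]
    have := hβ k hk
    exact ((asIso (Q.T.β k)).homFromEquiv (Z := X)).symm.bijective)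

/-- Maps to the path object. -/
def rep (S : Theta0) (X : A E K) : (Q.F.obj S ⟶ X) ≃ ((D0 E K).obj S ⟶ (Q.P x hβ).obj X) :=
  (dEquiv ((io E).obj S) ((Q.P x hβ).obj X)).symm

theorem dEquiv_rep (S : Theta0) {X : A E K} (c : Q.F.obj S ⟶ X) :
    dEquiv ((io E).obj S) _ (Q.rep x hβ S X c) = c := Equiv.apply_symm_apply _ _

/-- The end points of paths. -/
def pp (b : Bool) : Q.P x hβ ⟶ 𝟭 _ where
  app X := ObjectProperty.homMk
    { app := fun S => ↾fun c : Q.F.obj S.unop.S ⟶ X => dEquiv S.unop X ((Q.eps b).app _ ≫ c)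
      naturality := fun S S' h => by
        ext c
        change dEquiv S'.unop X ((Q.eps b).app _ ≫ x.map h.unop ≫ c) =
          X.obj.map h (dEquiv S.unop X ((Q.eps b).app _ ≫ c))
        rw [← Category.assoc, x.rel h.unop b, Category.assoc]
        exact dEquiv_left h.unop _ }
  naturality X Y f := by
    ext S c
    change dEquiv S.unop Y ((Q.eps b).app _ ≫ c ≫ f) =
      f.hom.app S (dEquiv S.unop X ((Q.eps b).app _ ≫ c))
    rw [← Category.assoc]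
    exact dEquiv_right _ f

theorem rep_comp (S : Theta0) {X Y : A E K} (c : Q.F.obj S ⟶ X) (f : X ⟶ Y) :
    Q.rep x hβ S Y (c ≫ f) = Q.rep x hβ S X c ≫ (Q.P x hβ).map f := by
  apply (dEquiv ((io E).obj S) _).injective
  rw [dEquiv_right, dEquiv_rep, dEquiv_rep]
  rfl

theorem rep_pp (b : Bool) (S : Theta0) {X : A E K} (c : Q.F.obj S ⟶ X) :
    Q.rep x hβ S X c ≫ (Q.pp x hβ b).app X = (Q.eps b).app S ≫ c := by
  apply (dEquiv ((io E).obj S) _).injective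
  rw [dEquiv_right, dEquiv_rep]
  rfl

theorem rep_left {S S' : Theta0} (a : S' ⟶ S) {X : A E K} (c : Q.F.obj S ⟶ X) :
    (D0 E K).map a ≫ Q.rep x hβ S X c = Q.rep x hβ S' X (Q.F.map a ≫ c) := by
  apply (dEquiv ((io E).obj S') _).injective
  rw [dEquiv_rep]
  refine (dEquiv_left ((io E).map a) _).trans ?_
  rw [dEquiv_rep, ← x.map_io]
  rfl

/-- Cells of the path object. -/
def rc (k : ℕ) (X : A E K) : (Q.G.obj ⟨k⟩ ⟶ X) ≃ (dd E K k ⟶ (Q.P x hβ).obj X) :=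
  Q.rep x hβ (disc k) X

theorem rc_pp (b : Bool) {k : ℕ} {X : A E K} (c : Q.G.obj ⟨k⟩ ⟶ X) :
    Q.rc x hβ k X c ≫ (Q.pp x hβ b).app X = Q.ee b k ≫ c :=
  (Q.rep_pp x hβ b (disc k) c).trans (by rw [Q.eps_disc])

theorem df_rc (b : Bool) {k : ℕ} {X : A E K} (c : Q.G.obj ⟨k + 1⟩ ⟶ X) :
    df E K b k ≫ Q.rc x hβ (k + 1) X c = Q.rc x hβ k X (Q.G.map (sf b k) ≫ c) :=
  (Q.rep_left x hβ (fc b (Nat.lt_succ_self k)) c).trans (by rw [Q.F_fc]; rfl)

/-- Spheres of the path object. -/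
theorem exists_sph (k : ℕ) {X : A E K} (s : sp E K k ⟶ (Q.P x hβ).obj X) :
    ∃ s' : Q.T.B k ⟶ X, (∀ b, s ≫ (Q.pp x hβ b).app X = Q.eB k b ≫ s') ∧
      ∀ c : Q.G.obj ⟨k⟩ ⟶ X, Q.T.β k ≫ c = s' → ii E K k ≫ Q.rc x hβ k X c = s := by
  have ext : ∀ k (c c' : Q.G.obj ⟨k⟩ ⟶ X), ii E K k ≫ Q.rc x hβ k X c =
      ii E K k ≫ Q.rc x hβ k X c' → Q.T.β k ≫ c = Q.T.β k ≫ c' := by
    intro k c c' h
    cases k with
    | zero => exact Q.T.ini.hom_ext _ _
    | succ k =>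
      refine Q.T.hom_ext fun b => ?_
      apply (Q.rc x hβ k X).injective
      rw [← Q.sf_comp, ← Q.sf_comp, ← df_rc, ← df_rc, ← nu_ii_assoc, h, nu_ii_assoc]
  cases k with
  | zero =>
    exact ⟨Q.T.ini.to _, fun _ => (ST E K).ini.hom_ext _ _, fun _ _ => (ST E K).ini.hom_ext _ _⟩
  | succ k =>
    obtain ⟨s', hs'⟩ := Q.ν_desc (fun c => (Q.rc x hβ k X).symm ((ST E K).ν c k ≫ s))
      (ext k _ _ (by
        rw [Equiv.apply_symm_apply, Equiv.apply_symm_apply, ← Category.assoc,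
          (ST E K).β_ν false true, Category.assoc]))
    refine ⟨s', fun b => (ST E K).hom_ext fun c => ?_, fun c hc => (ST E K).hom_ext fun b => ?_⟩
    · rw [Q.w₂_assoc, hs', ← Q.rc_pp x hβ (X := X), Equiv.apply_symm_apply, Category.assoc]
    · rw [nu_ii_assoc, df_rc, Q.sf_comp, hc, hs', Equiv.apply_symm_apply]

theorem hlp_single (b : Bool) (k : ℕ) (X : A E K)
    (h : ∀ (s : Q.T.B k ⟶ X) (a : dd E K k ⟶ X), ii E K k ≫ a = Q.eB k b ≫ s →
      ∃ c : Q.G.obj ⟨k⟩ ⟶ X, Q.T.β k ≫ c = s ∧ Q.ee b k ≫ c = a) :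
    HasLiftingProperty (ii E K k) ((Q.pp x hβ b).app X) := ⟨fun {s a} sq => by
  obtain ⟨s', h₁, h₂⟩ := Q.exists_sph x hβ k s
  obtain ⟨c, h₃, h₄⟩ := h s' a (by rw [← sq.w, h₁])
  exact CommSq.HasLift.mk' ⟨Q.rc x hβ k X c, h₂ c h₃, by rw [rc_pp, h₄]⟩⟩

theorem rc_lift {k : ℕ} {X : A E K} (c : Q.G.obj ⟨k⟩ ⟶ X) (a : dd E K k ⟶ X ⨯ X)
    (h : ∀ b, Q.ee b k ≫ c = a ≫ cond b prod.snd prod.fst) :
    Q.rc x hβ k X c ≫ prod.lift ((Q.pp x hβ false).app X) ((Q.pp x hβ true).app X) = a := by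
  refine prod.hom_ext ?_ ?_
  · rw [Category.assoc, prod.lift_fst, rc_pp]; exact h false
  · rw [Category.assoc, prod.lift_snd, rc_pp]; exact h true

theorem lift_cond (b : Bool) (X : A E K) :
    prod.lift ((Q.pp x hβ false).app X) ((Q.pp x hβ true).app X) ≫ cond b prod.snd prod.fst =
      (Q.pp x hβ b).app X := by
  cases b
  · exact prod.lift_fst _ _
  · exact prod.lift_snd _ _

end CylT

theorem pathObj_nonempty (hE : IsCoherator E) (n : ℕ) (hG : GStat E K (n + 1))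
    (hS : SStat E K n) : Nonempty (PathObj E K n) := by
  obtain ⟨Q⟩ := CylT.nonempty (E := E) (K := K) n
  obtain ⟨x⟩ := RP hE (Q.rpHyp hG hS)
  have hβ : ∀ k : ℕ, K < k → IsIso (Q.T.β k) := fun k hk => Q.isIso_β hG hS hk
  refine ⟨{
    P := Q.P x hβ
    p := Q.pp x hβ
    bij := fun X k hk => ?_
    eq := fun X k hk c => ?_
    const := fun X z => ?_
    fib := fun X k hk => ⟨fun {c a} sq => ?_⟩
    tf0 := fun X k _ => Q.hlp_single x hβ false k X (Q.exists_tf0 hG hS hE k)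
    tf := fun Z hZ k hk => ⟨fun {s a} sq => ?_⟩
    tf1 := fun hn hG₀ hC X k _ => Q.hlp_single x hβ true k X fun s a h => ?_
    cyl := Q.F.obj
    eps := (Q.eps false).app
    eps_an := Q.an_eps hG hS
    rep := Q.rep x hβ
    rep_comp := Q.rep_comp x hβ
    rep_p := Q.rep_pp x hβ false }⟩
  · have := Q.isIso_ee hk
    rw [← Function.Bijective.of_comp_iff _ (Q.rc x hβ k X).bijective]
    have e : ((fun c : dd E K k ⟶ (Q.P x hβ).obj X => c ≫ (Q.pp x hβ false).app X) ∘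
        Q.rc x hβ k X) = fun c => Q.ee false k ≫ c := funext fun c => Q.rc_pp x hβ false c
    rw [e]
    exact ((asIso (Q.ee false k)).homFromEquiv (Z := X)).symm.bijective
  · obtain ⟨c, rfl⟩ := (Q.rc x hβ k X).surjective c
    rw [Q.rc_pp, Q.rc_pp, Q.ee_eq hk true]
  · obtain ⟨κ, hκ⟩ := exists_unit (K := K) hE n
    refine ⟨Q.rc x hβ n X (inv Q.top ≫ κ ≫ z), fun b => ?_⟩
    rw [Q.rc_pp, Q.ee_inv_top, ← Category.assoc, hκ, Category.id_comp]
  · obtain ⟨c, rfl⟩ := (Q.rc x hβ k X).surjective c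
    obtain ⟨c', h₁, h₂⟩ := Q.exists_fib hG hS hk c (fun b => a ≫ cond b prod.snd prod.fst)
      (fun b => by rw [← Category.assoc, ← sq.w, Category.assoc, Q.lift_cond, Q.rc_pp])
    exact CommSq.HasLift.mk' ⟨Q.rc x hβ (k + 1) X c', by rw [Q.df_rc, h₁], Q.rc_lift x hβ c' a h₂⟩
  · obtain ⟨s', h₁, h₂⟩ := Q.exists_sph x hβ k s
    obtain ⟨c, h₃, h₄⟩ := Q.fill_contr hG hS hk hZ s' (fun b => a ≫ cond b prod.snd prod.fst)
      (fun b => by rw [← Category.assoc, ← sq.w, Category.assoc, Q.lift_cond, h₁])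
    exact CommSq.HasLift.mk' ⟨Q.rc x hβ k Z c, h₂ c h₃, Q.rc_lift x hβ c a h₄⟩
  · obtain ⟨c, h₁, h₂, -⟩ := Q.le_true hG hS hE hn hG₀ hC k (fib_terminal hE 0 X) s a
      (terminal.from _) h (terminal.hom_ext _ _) (terminal.hom_ext _ _)
    exact ⟨c, h₁, h₂⟩

end Vale.Agent.P259
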