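import Vale.Agent.P259.Hty

/-! The coglobular object of cylinders of level `n`. -/

open CategoryTheory Limits Opposite

set_option backward.isDefEq.respectTransparency false

noncomputable section

namespace Vale.Agent.P259

variable {E : GlobExt} {K : ℕ∞}

theorem nu_ii (b : Bool) (k : ℕ) : (ST E K).ν b k ≫ ii E K (k + 1) = df E K b k := (ST E K).w b k

theorem nu_ii_assoc (b : Bool) (k : ℕ) {X : A E K} (f : dd E K (k + 1) ⟶ X) :
    (ST E K).ν b k ≫ ii E K (k + 1) ≫ f = df E K b k ≫ f := by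
  rw [← Category.assoc, nu_ii]

/-- `C` is obtained from `B ⊔ D` by an expansion along a filler of the other end. -/
structure Exp {k : ℕ} {B C : A E K} (eB : Bool → (sp E K k ⟶ B)) (β : B ⟶ C)
    (e : Bool → (dd E K k ⟶ C)) where
  Γ : A E K
  γ : B ⟶ Γ
  δ : dd E K k ⟶ Γ
  po : IsPushout (eB false) (ii E K k) γ δ
  t : dd E K k ⟶ Γ
  ht : ii E K k ≫ t = eB true ≫ γ
  htδ : eB false = eB true → t = δ
  ρ : Γ ⟶ C
  ε : dd E K (k + 1) ⟶ C
  po₂ : IsPushout t (df E K false k) ρ ε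
  hβ : γ ≫ ρ = β
  h₀ : δ ≫ ρ = e false
  h₁ : df E K true k ≫ ε = e true

/-- The other end can be filled. -/
def Fillable {k : ℕ} {B : A E K} (eB : Bool → (sp E K k ⟶ B)) : Prop :=
  ∃ t : dd E K k ⟶ pushout (eB false) (ii E K k), ii E K k ≫ t = eB true ≫ pushout.inl _ _

variable (E K) in
/-- Boundary of a cylinder. -/
structure BD (k : ℕ) where
  B : A E K
  e : Bool → (sp E K k ⟶ B)

/-- Cylinder with given boundary. -/
structure CD {k : ℕ} (b : BD E K k) where
  C : A E K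
  β : b.B ⟶ C
  e : Bool → (dd E K k ⟶ C)
  w : ∀ c, ii E K k ≫ e c = b.e c ≫ β

theorem exists_step (n : ℕ) {k : ℕ} (b : BD E K k) : ∃ c : CD b,
    (k < n → b.e false = b.e true → IsIso (b.e false) → c.e false = c.e true ∧ IsIso (c.e false)) ∧
    (n ≤ k → Fillable b.e → Nonempty (Exp b.e c.β c.e)) := by
  by_cases h : k < n ∧ b.e false = b.e true
  · refine ⟨⟨pushout (b.e false) (ii E K k), pushout.inl _ _, fun _ => pushout.inr _ _,
      fun c => ?_⟩, fun _ _ _ => ⟨rfl, (IsPushout.of_hasPushout (b.e false) (ii E K k)).isIso_inr_of_isIso⟩,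
      fun h' => absurd h.1 (not_lt.2 h')⟩
    cases c
    · exact pushout.condition.symm
    · rw [← h.2]; exact pushout.condition.symm
  by_cases h' : Fillable b.e
  · obtain ⟨t, ht, ht'⟩ : ∃ t : dd E K k ⟶ pushout (b.e false) (ii E K k),
        ii E K k ≫ t = b.e true ≫ pushout.inl _ _ ∧ (b.e false = b.e true → t = pushout.inr _ _) := by
      by_cases e : b.e false = b.e true
      · exact ⟨pushout.inr _ _, by rw [← e]; exact pushout.condition.symm, fun _ => rfl⟩
      · obtain ⟨t, ht⟩ := h'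
        exact ⟨t, ht, fun e' => absurd e' e⟩
    refine ⟨⟨pushout t (df E K false k), pushout.inl _ _ ≫ pushout.inl _ _,
      fun c => cond c (df E K true k ≫ pushout.inr _ _) (pushout.inr _ _ ≫ pushout.inl _ _),
      fun c => ?_⟩, fun h₁ h₂ => absurd ⟨h₁, h₂⟩ h, fun _ _ =>
        ⟨⟨_, _, _, IsPushout.of_hasPushout _ _, t, ht, ht', _, _, IsPushout.of_hasPushout _ _,
          rfl, rfl, rfl⟩⟩⟩
    cases c
    · simp only [cond_false]
      rw [← Category.assoc, ← pushout.condition, Category.assoc]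
    · simp only [cond_true]
      rw [← Category.assoc, ii_df true false, Category.assoc, ← pushout.condition,
        ← Category.assoc, ht, Category.assoc]
  · refine ⟨⟨pushout (b.e true ≫ pushout.inl (b.e false) (ii E K k)) (ii E K k),
      pushout.inl _ _ ≫ pushout.inl _ _,
      fun c => cond c (pushout.inr _ _) (pushout.inr _ _ ≫ pushout.inl _ _),
      fun c => ?_⟩, fun h₁ h₂ => absurd ⟨h₁, h₂⟩ h, fun _ h₂ => absurd h₂ h'⟩
    cases c
    · simp only [cond_false]
      rw [← Category.assoc, ← pushout.condition, Category.assoc]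
    · simp only [cond_true]
      rw [← pushout.condition, Category.assoc]

/-- One step of the construction. -/
def stepC (n : ℕ) {k : ℕ} (b : BD E K k) : CD b := (exists_step n b).choose

/-- The boundary of the next cylinder. -/
def CD.next {k : ℕ} {b : BD E K k} (c : CD b) : BD E K (k + 1) where
  B := pushout c.β c.β
  e a := ((ST E K).po k).desc (c.e a ≫ pushout.inl _ _) (c.e a ≫ pushout.inr _ _) (by
    rw [← Category.assoc, c.w a, ← Category.assoc, c.w a, Category.assoc, Category.assoc,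
      pushout.condition])

variable (E K) in
/-- The sequence of boundaries. -/
def bdS (n : ℕ) : ∀ k, BD E K k
  | 0 => ⟨sp E K 0, fun _ => 𝟙 _⟩
  | k + 1 => (stepC n (bdS n k)).next

variable (E K) in
/-- The coglobular object of cylinders of level `n`. -/
structure CylT (n : ℕ) where
  G : Glob ⥤ A E K
  T : Tower G
  e : Bool → (dG E K ⟶ G)
  eB : ∀ k, Bool → (sp E K k ⟶ T.B k)
  w₁ : ∀ b k, ii E K k ≫ (e b).app ⟨k⟩ = eB k b ≫ T.β k
  w₂ : ∀ b c k, (ST E K).ν c k ≫ eB (k + 1) b = (e b).app ⟨k⟩ ≫ T.ν c k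
  low : ∀ k < n, eB k false = eB k true → IsIso (eB k false) →
    (e false).app ⟨k⟩ = (e true).app ⟨k⟩ ∧ IsIso ((e false).app ⟨k⟩)
  high : ∀ k, n ≤ k → Fillable (eB k) → Nonempty (Exp (eB k) (T.β k) (fun b => (e b).app ⟨k⟩))

theorem CylT.nonempty (n : ℕ) : Nonempty (CylT E K n) := by
  let c := fun k => stepC n (bdS E K n k)
  let ν : Bool → ∀ k, (c k).C ⟶ (bdS E K n (k + 1)).B := fun b k =>
    cond b (pushout.inr (c k).β (c k).β) (pushout.inl (c k).β (c k).β)
  have hν : ∀ b b' k, (c k).β ≫ ν b k = (c k).β ≫ ν b' k := by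
    intro b b' k
    cases b <;> cases b'
    · rfl
    · exact pushout.condition
    · exact pushout.condition.symm
    · rfl
  let G : Glob ⥤ A E K := mkG (fun k => (c k).C) (fun b k => ν b k ≫ (c (k + 1)).β)
    (fun b b' b'' k => by
      simp only [Category.assoc]
      rw [reassoc_of% (hν b' b'' (k + 1))])
  have hG : ∀ b k, G.map (sf b k) = ν b k ≫ (c (k + 1)).β := fun b k =>
    mkG_map_sf (fun k => (c k).C) (fun b k => ν b k ≫ (c (k + 1)).β) _ b k
  have w₂ : ∀ b a k, (ST E K).ν a k ≫ (bdS E K n (k + 1)).e b = (c k).e b ≫ ν a k := by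
    intro b a k
    cases a
    · exact IsPushout.inl_desc _ _ _ _
    · exact IsPushout.inr_desc _ _ _ _
  exact ⟨{
    G := G
    T := { B := fun k => (bdS E K n k).B
           β := fun k => (c k).β
           ν := ν
           ini := (ST E K).ini
           po := fun k => IsPushout.of_hasPushout _ _
           w := fun b k => (hG b k).symm }
    e := fun b => gNat (fun k => (c k).e b) (fun a k => by
      rw [hG, ← (ST E K).w, Category.assoc, (c (k + 1)).w b, ← Category.assoc, w₂,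
        Category.assoc])
    eB := fun k => (bdS E K n k).e
    w₁ := fun b k => (c k).w b
    w₂ := w₂
    low := fun k hk => (exists_step n (bdS E K n k)).choose_spec.1 hk
    high := fun k hk => (exists_step n (bdS E K n k)).choose_spec.2 hk }⟩

namespace Exp
variable {k : ℕ} {B C : A E K} {eB : Bool → (sp E K k ⟶ B)} {β : B ⟶ C}
  {e : Bool → (dd E K k ⟶ C)} (x : Exp eB β e)
include x

theorem β_comp {X : A E K} (c : C ⟶ X) : β ≫ c = x.γ ≫ x.ρ ≫ c := by
  rw [← Category.assoc, x.hβ]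

theorem e₀_comp {X : A E K} (c : C ⟶ X) : e false ≫ c = x.δ ≫ x.ρ ≫ c := by
  rw [← Category.assoc, x.h₀]

theorem e₁_comp {X : A E K} (c : C ⟶ X) : e true ≫ c = df E K true k ≫ x.ε ≫ c := by
  rw [← Category.assoc, x.h₁]

theorem an_ρ {m : ℕ} (h : m ≤ k) : An E K m x.ρ :=
  MorphismProperty.of_isPushout x.po₂ (an_df h)

theorem lift_fib {m : ℕ} (h : m ≤ k) {X Y : A E K} {p : X ⟶ Y} (hp : Fib E K m p) (s : B ⟶ X)
    (a : dd E K k ⟶ X) (c' : C ⟶ Y) (h₁ : ii E K k ≫ a = eB false ≫ s) (h₂ : s ≫ p = β ≫ c')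
    (h₃ : a ≫ p = e false ≫ c') : ∃ c : C ⟶ X, β ≫ c = s ∧ e false ≫ c = a ∧ c ≫ p = c' := by
  have := x.an_ρ h p hp
  have sq : CommSq (x.po.desc s a h₁.symm) x.ρ p c' := ⟨x.po.hom_ext
    (by rw [IsPushout.inl_desc_assoc, h₂, x.β_comp])
    (by rw [IsPushout.inr_desc_assoc, h₃, x.e₀_comp])⟩
  refine ⟨sq.lift, ?_, ?_, sq.fac_right⟩
  · rw [x.β_comp, sq.fac_left, IsPushout.inl_desc]
  · rw [x.e₀_comp, sq.fac_left, IsPushout.inr_desc]

theorem lift_tfib {m : ℕ} (h : m ≤ k + 1) {X Y : A E K} {p : X ⟶ Y} (hp : TFib E K m p)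
    (s : B ⟶ X) (a : Bool → (dd E K k ⟶ X)) (c' : C ⟶ Y)
    (h₁ : ∀ b, ii E K k ≫ a b = eB b ≫ s) (h₂ : s ≫ p = β ≫ c')
    (h₃ : ∀ b, a b ≫ p = e b ≫ c') :
    ∃ c : C ⟶ X, β ≫ c = s ∧ (∀ b, e b ≫ c = a b) ∧ c ≫ p = c' := by
  let g := x.po.desc s (a false) (h₁ false).symm
  have hg : g ≫ p = x.ρ ≫ c' := x.po.hom_ext
    (by rw [IsPushout.inl_desc_assoc, h₂, x.β_comp])
    (by rw [IsPushout.inr_desc_assoc, h₃, x.e₀_comp])
  have hs : ii E K k ≫ x.t ≫ g = ii E K k ≫ a true := by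
    rw [← Category.assoc, x.ht, Category.assoc, IsPushout.inl_desc, h₁]
  have := hp (k + 1) h
  have sq : CommSq (((ST E K).po k).desc (x.t ≫ g) (a true) hs) (ii E K (k + 1)) p
      (x.ε ≫ c') := ⟨((ST E K).po k).hom_ext
    (by rw [IsPushout.inl_desc_assoc, Category.assoc, hg, ← Category.assoc x.t, x.po₂.w,
      nu_ii_assoc, Category.assoc])
    (by rw [IsPushout.inr_desc_assoc, h₃, x.e₁_comp, nu_ii_assoc])⟩
  have f₀ : df E K false k ≫ sq.lift = x.t ≫ g := by
    rw [← nu_ii_assoc, sq.fac_left, IsPushout.inl_desc]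
  have f₁ : df E K true k ≫ sq.lift = a true := by
    rw [← nu_ii_assoc, sq.fac_left, IsPushout.inr_desc]
  refine ⟨x.po₂.desc g sq.lift f₀.symm, ?_, fun b => ?_, x.po₂.hom_ext ?_ ?_⟩
  · rw [x.β_comp, IsPushout.inl_desc, IsPushout.inl_desc]
  · cases b
    · rw [x.e₀_comp, IsPushout.inl_desc, IsPushout.inr_desc]
    · rw [x.e₁_comp, IsPushout.inr_desc, f₁]
  · rw [IsPushout.inl_desc_assoc, hg]
  · rw [IsPushout.inr_desc_assoc, sq.fac_right]

theorem lift_contr {Z : A E K} (hZ : Contr Z) (s : B ⟶ Z) (a : Bool → (dd E K k ⟶ Z))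
    (h₁ : ∀ b, ii E K k ≫ a b = eB b ≫ s) : ∃ c : C ⟶ Z, β ≫ c = s ∧ ∀ b, e b ≫ c = a b := by
  obtain ⟨c, h, h', -⟩ := x.lift_tfib (Nat.zero_le _) ((contr_iff_tfib Z).1 hZ) s a
    (terminal.from _) h₁ (terminal.hom_ext _ _) (fun _ => terminal.hom_ext _ _)
  exact ⟨c, h, h'⟩

theorem isIso_β (h : K < k) : IsIso β := by
  have := isIso_ii E K h
  have := isIso_df E K false h
  have := x.po.isIso_inl_of_isIso
  have := x.po₂.isIso_inl_of_isIso
  rw [← x.hβ]
  infer_instance

end Exp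

end Vale.Agent.P259
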