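import Vale.Agent.P259.CylA

/-! Properties of the cylinders of level `n`. -/

open CategoryTheory Limits Opposite

set_option backward.isDefEq.respectTransparency false

noncomputable section

namespace Vale.Agent.P259

variable {E : GlobExt} {K : ℕ∞}

/-- The two `n`-dimensional faces of a higher boundary object. -/
def Tower.up {𝒳 : Type*} [Category 𝒳] {G : Glob ⥤ 𝒳} (T : Tower G) (n : ℕ) (c : Bool) :
    ∀ r, G.obj ⟨n⟩ ⟶ T.B (n + 1 + r)
  | 0 => T.ν c n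
  | r + 1 => T.up n c r ≫ T.β (n + 1 + r) ≫ T.ν false (n + 1 + r)

theorem Tower.up_β {𝒳 : Type*} [Category 𝒳] {G : Glob ⥤ 𝒳} (T : Tower G) (n : ℕ) (c : Bool) :
    ∀ r, T.up n c r ≫ T.β (n + 1 + r) = G.map (gface c (by omega))
  | 0 => T.w c n
  | r + 1 => by
    rw [Tower.up, Category.assoc, Category.assoc]
    erw [T.w false (n + 1 + r)]
    rw [← Category.assoc, T.up_β n c r, ← G.map_comp]
    rfl

theorem Tower.β_up {𝒳 : Type*} [Category 𝒳] {G : Glob ⥤ 𝒳} (T : Tower G) (n : ℕ) (c c' : Bool) :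
    ∀ r, T.β n ≫ T.up n c r = T.β n ≫ T.up n c' r
  | 0 => T.β_ν c c' n
  | r + 1 => by
    rw [Tower.up, Tower.up, ← Category.assoc, T.β_up n c c' r, Category.assoc]

theorem IsTeeth.of_iso {n : ℕ} {ι : Type} {X X' T : A E K} {x : ι → (dd E K n ⟶ X)} {u : X ⟶ T}
    {e : ι → (dd E K (n + 1) ⟶ T)} (h : IsTeeth x u e) (φ : X' ⟶ X) [IsIso φ]
    {x' : ι → (dd E K n ⟶ X')} (hx : ∀ i, x' i ≫ φ = x i) : IsTeeth x' (φ ≫ u) e where
  w i := by rw [h.w, ← hx, Category.assoc]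
  desc a e' he := by
    obtain ⟨ψ, h₁, h₂⟩ := h.desc (inv φ ≫ a) e' (fun i => by rw [he, ← hx]; simp)
    exact ⟨ψ, by simp [h₁], h₂⟩
  ext φ₁ φ₂ h₁ h₂ := h.ext _ _ (by simpa [cancel_epi] using h₁) h₂

theorem IsTeeth.cofibrant {n : ℕ} {ι : Type} {X T : A E K} {x : ι → (dd E K n ⟶ X)} {u : X ⟶ T}
    {e : ι → (dd E K (n + 1) ⟶ T)} (h : IsTeeth x u e) (hX : Cofibrant X) : Cofibrant T :=
  hX.of_cof (Cof.anti (Nat.zero_le n) _ (an_le_cof n _ h.an))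

namespace CylT
variable {n : ℕ} (Q : CylT E K n)

/-- The ends of the cylinder on a disc. -/
abbrev ee (b : Bool) (k : ℕ) : dd E K k ⟶ Q.G.obj ⟨k⟩ := (Q.e b).app ⟨k⟩

theorem w₁_assoc (b : Bool) (k : ℕ) {X : A E K} (f : Q.G.obj ⟨k⟩ ⟶ X) :
    ii E K k ≫ Q.ee b k ≫ f = Q.eB k b ≫ Q.T.β k ≫ f := by
  rw [← Category.assoc, Q.w₁, Category.assoc]

theorem w₂_assoc (b c : Bool) (k : ℕ) {X : A E K} (f : Q.T.B (k + 1) ⟶ X) :
    (ST E K).ν c k ≫ Q.eB (k + 1) b ≫ f = Q.ee b k ≫ Q.T.ν c k ≫ f := by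
  rw [← Category.assoc, Q.w₂, Category.assoc]

theorem df_ee (b c : Bool) (k : ℕ) {X : A E K} (f : Q.G.obj ⟨k + 1⟩ ⟶ X) :
    df E K c k ≫ Q.ee b (k + 1) ≫ f = Q.ee b k ≫ Q.G.map (sf c k) ≫ f := by
  rw [← Category.assoc, (Q.e b).naturality, Category.assoc]

theorem isIso_eB (b : Bool) (k : ℕ) (h : ∀ j < k, IsIso (Q.ee b j)) : IsIso (Q.eB k b) := by
  obtain ⟨m, -, h₂, h₃⟩ := (ST E K).exists_bmap Q.T (Q.e b)
  have : Q.eB k b = m k := by
    cases k with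
    | zero => exact (ST E K).ini.hom_ext _ _
    | succ k => exact (ST E K).hom_ext fun c => (Q.w₂ b c k).trans (h₂ c k).symm
  rw [this]
  exact h₃ k h

theorem eB_eq (k : ℕ) (h : ∀ j < k, Q.ee false j = Q.ee true j) : Q.eB k false = Q.eB k true := by
  cases k with
  | zero => exact (ST E K).ini.hom_ext _ _
  | succ k =>
    refine (ST E K).hom_ext fun c => ?_
    rw [Q.w₂, Q.w₂]
    exact congrArg (· ≫ _) (h k (Nat.lt_succ_self k))

theorem low' (k : ℕ) (hk : k < n) : Q.ee false k = Q.ee true k ∧ IsIso (Q.ee false k) := by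
  induction k using Nat.strong_induction_on with
  | _ k ih =>
    exact Q.low k hk (Q.eB_eq k fun j hj => (ih j hj (hj.trans hk)).1)
      (Q.isIso_eB false k fun j hj => (ih j hj (hj.trans hk)).2)

theorem ee_eq {k : ℕ} (hk : k < n) (b : Bool) : Q.ee b k = Q.ee false k := by
  cases b
  · rfl
  · exact (Q.low' k hk).1.symm

theorem isIso_ee {k : ℕ} (hk : k < n) : IsIso (Q.ee false k) := (Q.low' k hk).2

theorem eB_eq' {k : ℕ} (hk : k ≤ n) : Q.eB k false = Q.eB k true :=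
  Q.eB_eq k fun j hj => (Q.low' j (hj.trans_le hk)).1

theorem isIso_eB' {k : ℕ} (hk : k ≤ n) : IsIso (Q.eB k false) :=
  Q.isIso_eB false k fun j hj => (Q.low' j (hj.trans_le hk)).2

/-- The expansion data in dimension `k`. -/
abbrev XP (k : ℕ) : Type _ := Exp (Q.eB k) (Q.T.β k) (fun b => Q.ee b k)

theorem xp_self : Nonempty (Q.XP n) :=
  Q.high n le_rfl ⟨pushout.inr _ _, by rw [← Q.eB_eq' le_rfl]; exact pushout.condition.symm⟩

theorem exists_top : ∃ ε : dd E K (n + 1) ⟶ Q.G.obj ⟨n⟩, IsIso ε ∧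
    ∀ b, df E K b n ≫ ε = Q.ee b n := by
  obtain ⟨x⟩ := Q.xp_self
  have := Q.isIso_eB' (le_refl n)
  have h₁ : IsIso x.δ := x.po.isIso_inr_of_isIso
  have h₂ : x.t = x.δ := x.htδ (Q.eB_eq' le_rfl)
  have : IsIso x.t := h₂ ▸ h₁
  refine ⟨x.ε, x.po₂.isIso_inr_of_isIso, fun b => ?_⟩
  cases b
  · rw [← x.po₂.w, h₂]; exact x.h₀
  · exact x.h₁

/-- The identification of the cylinder on the `n`-disc. -/
def top : dd E K (n + 1) ⟶ Q.G.obj ⟨n⟩ := Q.exists_top.choose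

instance : IsIso Q.top := Q.exists_top.choose_spec.1

theorem df_top (b : Bool) : df E K b n ≫ Q.top = Q.ee b n := Q.exists_top.choose_spec.2 b

theorem ee_inv_top (b : Bool) {X : A E K} (f : dd E K (n + 1) ⟶ X) :
    Q.ee b n ≫ inv Q.top ≫ f = df E K b n ≫ f := by
  rw [← Q.df_top]; simp

/-- Relative lifting of cylinders, one end being given. -/
def LE (b : Bool) {X Y : A E K} (p : X ⟶ Y) (k : ℕ) : Prop :=
  ∀ (s : Q.T.B k ⟶ X) (a : dd E K k ⟶ X) (c' : Q.G.obj ⟨k⟩ ⟶ Y),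
    ii E K k ≫ a = Q.eB k b ≫ s → s ≫ p = Q.T.β k ≫ c' → a ≫ p = Q.ee b k ≫ c' →
    ∃ c : Q.G.obj ⟨k⟩ ⟶ X, Q.T.β k ≫ c = s ∧ Q.ee b k ≫ c = a ∧ c ≫ p = c'

theorem sl_step {b : Bool} {X Y : A E K} {p : X ⟶ Y} {k : ℕ} (h : Q.LE b p k)
    (a : sp E K (k + 1) ⟶ X) (s' : Q.T.B (k + 1) ⟶ Y) (w : a ≫ p = Q.eB (k + 1) b ≫ s')
    (s₀ : Q.T.B k ⟶ X) (h₁ : Q.eB k b ≫ s₀ = ii E K k ≫ (ST E K).ν false k ≫ a)
    (h₂ : s₀ ≫ p = Q.T.β k ≫ Q.T.ν false k ≫ s') :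
    ∃ s : Q.T.B (k + 1) ⟶ X, Q.eB (k + 1) b ≫ s = a ∧ s ≫ p = s' ∧
      Q.T.β k ≫ Q.T.ν false k ≫ s = s₀ := by
  have : ∀ c, ∃ z : Q.G.obj ⟨k⟩ ⟶ X, Q.T.β k ≫ z = s₀ ∧ Q.ee b k ≫ z = (ST E K).ν c k ≫ a ∧
      z ≫ p = Q.T.ν c k ≫ s' := fun c => h s₀ _ _
    (by rw [h₁, ← Category.assoc, (ST E K).β_ν c false, Category.assoc])
    (by rw [h₂, ← Category.assoc, Q.T.β_ν false c, Category.assoc])
    (by rw [Category.assoc, w, Q.w₂_assoc])
  choose z hz hz' hz'' using this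
  have hs : ∀ c, Q.T.ν c k ≫ (Q.T.po k).desc (z false) (z true) ((hz _).trans (hz _).symm) = z c :=
    fun c => by
      cases c
      · exact IsPushout.inl_desc _ _ _ _
      · exact IsPushout.inr_desc _ _ _ _
  refine ⟨(Q.T.po k).desc (z false) (z true) ((hz _).trans (hz _).symm),
    (ST E K).hom_ext fun c => ?_, Q.T.hom_ext fun c => ?_, ?_⟩
  · rw [Q.w₂_assoc, hs, hz']
  · rw [← Category.assoc, hs, hz'']
  · rw [hs, hz]

theorem sl_zero {b : Bool} {X Y : A E K} {p : X ⟶ Y} (k : ℕ) (h : ∀ j < k, Q.LE b p j)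
    (a : sp E K k ⟶ X) (s' : Q.T.B k ⟶ Y) (w : a ≫ p = Q.eB k b ≫ s') :
    ∃ s : Q.T.B k ⟶ X, Q.eB k b ≫ s = a ∧ s ≫ p = s' := by
  induction k with
  | zero => exact ⟨Q.T.ini.to _, (ST E K).ini.hom_ext _ _, Q.T.ini.hom_ext _ _⟩
  | succ k ih =>
    obtain ⟨s₀, h₁, h₂⟩ := ih (fun j hj => h j (Nat.lt_succ_of_lt hj))
      (ii E K k ≫ (ST E K).ν false k ≫ a) (Q.T.β k ≫ Q.T.ν false k ≫ s')
      (by rw [Category.assoc, Category.assoc, w, Q.w₂_assoc, Q.w₁_assoc])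
    obtain ⟨s, h₃, h₄, -⟩ := Q.sl_step (h k (Nat.lt_succ_self k)) a s' w s₀ h₁ h₂
    exact ⟨s, h₃, h₄⟩

theorem up_eB (b c : Bool) : ∀ r, (ST E K).up n c r ≫ Q.eB (n + 1 + r) b =
    Q.ee b n ≫ Q.T.up n c r
  | 0 => Q.w₂ b c n
  | r + 1 => by
    rw [Tower.up, Tower.up, Category.assoc, Category.assoc]
    erw [Q.w₂ b false (n + 1 + r)]
    rw [Q.w₁_assoc, ← Category.assoc, up_eB b c r, Category.assoc]

theorem sl_teeth {X Y : A E K} {p : X ⟶ Y} (r : ℕ) (h : ∀ j, n < j → j < n + 1 + r → Q.LE false p j)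
    (a : sp E K (n + 1 + r) ⟶ X) (s' : Q.T.B (n + 1 + r) ⟶ Y)
    (w : a ≫ p = Q.eB (n + 1 + r) false ≫ s') (z : Bool → (Q.G.obj ⟨n⟩ ⟶ X))
    (hz : ∀ c, Q.ee false n ≫ z c = (ST E K).up n c r ≫ a)
    (hz' : ∀ c, z c ≫ p = Q.T.up n c r ≫ s') :
    ∃ s : Q.T.B (n + 1 + r) ⟶ X, Q.eB (n + 1 + r) false ≫ s = a ∧ s ≫ p = s' ∧
      ∀ c, Q.T.up n c r ≫ s = z c := by
  induction r with
  | zero =>
    have := Q.isIso_eB' (le_refl n)
    have e : Q.T.β n ≫ z false = Q.T.β n ≫ z true := by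
      rw [← cancel_epi (Q.eB n false), ← Q.w₁_assoc, ← Q.w₁_assoc, hz, hz, ← Category.assoc,
        (ST E K).β_up n false true, Category.assoc]
    have hs : ∀ c, Q.T.ν c n ≫ (Q.T.po n).desc (z false) (z true) e = z c := fun c => by
      cases c
      · exact IsPushout.inl_desc _ _ _ _
      · exact IsPushout.inr_desc _ _ _ _
    refine ⟨(Q.T.po n).desc (z false) (z true) e, (ST E K).hom_ext fun c => ?_,
      Q.T.hom_ext fun c => ?_, hs⟩
    · exact (Q.w₂_assoc false c n _).trans ((congrArg _ (hs c)).trans (hz c))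
    · exact (Category.assoc _ _ _).symm.trans ((congrArg (· ≫ p) (hs c)).trans (hz' c))
  | succ r ih =>
    obtain ⟨s₀, h₁, h₂, h₃⟩ := ih (fun j hj hj' => h j hj (Nat.lt_succ_of_lt hj'))
      (ii E K _ ≫ (ST E K).ν false _ ≫ a) (Q.T.β _ ≫ Q.T.ν false _ ≫ s')
      (by
        rw [Category.assoc, Category.assoc, w]
        erw [Q.w₂_assoc false false (n + 1 + r)]
        rw [Q.w₁_assoc])
      (fun c => by rw [hz, Tower.up, Category.assoc, Category.assoc])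
      (fun c => by rw [hz', Tower.up, Category.assoc, Category.assoc])
    obtain ⟨s, h₄, h₅, h₆⟩ := Q.sl_step (h (n + 1 + r) (by omega) (by omega)) a s' w s₀ h₁ h₂
    refine ⟨s, h₄, h₅, fun c => ?_⟩
    rw [Tower.up, Category.assoc, Category.assoc]
    erw [h₆]
    exact h₃ c

theorem le_false {k m : ℕ} (x : Q.XP k) (h : m ≤ k) {X Y : A E K} {p : X ⟶ Y}
    (hp : Fib E K m p) : Q.LE false p k :=
  fun s a c' h₁ h₂ h₃ => x.lift_fib h hp s a c' h₁ h₂ h₃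

theorem xp (hG : GStat E K (n + 1)) (hS : SStat E K n) (k : ℕ) (hk : n ≤ k) :
    Nonempty (Q.XP k) := by
  induction k using Nat.strong_induction_on with
  | _ k ih =>
  rcases hk.eq_or_lt with rfl | hk'
  · exact Q.xp_self
  obtain ⟨r, rfl⟩ : ∃ r, k = n + 1 + r := ⟨k - (n + 1), by omega⟩
  refine Q.high _ hk ?_
  obtain ⟨T, u, e, hT⟩ := exists_teeth (ι := Bool)
    (fun c => (D0 E K).map (fc c hk' : disc n ⟶ disc (n + 1 + r)))
  have hup : ∀ c, (ST E K).up n c r ≫ ii E K (n + 1 + r) = (D0 E K).map (fc c hk') :=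
    fun c => (ST E K).up_β n c r
  have po := IsPushout.of_hasPushout (Q.eB (n + 1 + r) false) (ii E K (n + 1 + r))
  obtain ⟨j, hj, hj'⟩ := hT.desc (pushout.inr (Q.eB (n + 1 + r) false) (ii E K (n + 1 + r)))
    (fun c => Q.top ≫ Q.T.up n c r ≫ pushout.inl _ _) (fun c => by
      rw [← Category.assoc, Q.df_top, ← Category.assoc, ← Q.up_eB, Category.assoc,
        pushout.condition, ← Category.assoc, hup])
  have hjA : An E K (n + 1) j := by
    intro X Y p hp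
    refine ⟨fun {φ ψ} sq => ?_⟩
    obtain ⟨s, h₁, h₂, h₃⟩ := Q.sl_teeth (p := p) r
      (fun i hi hi' => Q.le_false (ih i hi' hi.le).some hi hp)
      (ii E K _ ≫ u ≫ φ) (pushout.inl _ _ ≫ ψ)
      (by rw [Category.assoc, Category.assoc, sq.w, ← Category.assoc u, hj, ← Category.assoc,
        ← pushout.condition, Category.assoc])
      (fun c => inv Q.top ≫ e c ≫ φ)
      (fun c => by rw [Q.ee_inv_top, ← Category.assoc, hT.w, ← hup, Category.assoc, Category.assoc])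
      (fun c => by rw [Category.assoc, Category.assoc, sq.w, ← Category.assoc (e c), hj']; simp)
    refine CommSq.HasLift.mk' ⟨po.desc s (u ≫ φ) h₁, hT.ext _ _ ?_ fun c => ?_, po.hom_ext ?_ ?_⟩
    · rw [← Category.assoc, hj, IsPushout.inr_desc]
    · rw [← Category.assoc, hj', Category.assoc, Category.assoc, IsPushout.inl_desc, h₃]; simp
    · rw [IsPushout.inl_desc_assoc, h₂]
    · rw [IsPushout.inr_desc_assoc, Category.assoc, sq.w, ← Category.assoc u, hj]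
  exact (contr_iff _).1 (hG j hjA (hT.cofibrant (cofibrant_D0 _)) (hS _ _ _ _ _ _ hT)) _ _

theorem isIso_β (hG : GStat E K (n + 1)) (hS : SStat E K n) {k : ℕ} (h : K < k) :
    IsIso (Q.T.β k) := by
  rcases lt_or_ge k n with hk | hk
  · have := isIso_ii E K h
    have := Q.isIso_ee hk
    have := Q.isIso_eB' hk.le
    have : IsIso (Q.eB k false ≫ Q.T.β k) := by rw [← Q.w₁]; infer_instance
    exact IsIso.of_isIso_comp_left (Q.eB k false) _
  · exact (Q.xp hG hS k hk).some.isIso_β h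

end CylT

end Vale.Agent.P259
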