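import Vale.Agent.P259.CylB

/-! Cylinders on globular sums. -/

open CategoryTheory Limits Opposite

set_option backward.isDefEq.respectTransparency false

noncomputable section

namespace Vale.Agent.P259

variable {E : GlobExt} {K : ℕ∞}

namespace CylT
variable {n : ℕ} (Q : CylT E K n)

/-- The cylinder on globular sums. -/
abbrev F : Theta0 ⥤ A E K := Ext Q.G

theorem exists_eps (b : Bool) : ∃ ε : D0 E K ⟶ Q.F, ∀ k, ε.app (disc k) = Q.ee b k :=
  (presSums_D0 E K).exists_natTrans (F' := Q.F) (gNat (fun k => Q.ee b k) (fun c k =>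
    ((Q.e b).naturality (sf c k)).trans (congrArg _ (Ext_map_gT Q.G (sf c k)).symm)))

/-- The ends of the cylinder. -/
def eps (b : Bool) : D0 E K ⟶ Q.F := (Q.exists_eps b).choose

theorem eps_disc (b : Bool) (k : ℕ) : (Q.eps b).app (disc k) = Q.ee b k :=
  (Q.exists_eps b).choose_spec k

theorem cell_eps (b : Bool) {k : ℕ} {S : Theta0} (a : disc k ⟶ S) :
    (D0 E K).map a ≫ (Q.eps b).app S = Q.ee b k ≫ Q.F.map a := by
  rw [(Q.eps b).naturality, eps_disc]

theorem cell_eps_assoc (b : Bool) {k : ℕ} {S : Theta0} (a : disc k ⟶ S) {X : A E K}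
    (f : Q.F.obj S ⟶ X) :
    (D0 E K).map a ≫ (Q.eps b).app S ≫ f = Q.ee b k ≫ Q.F.map a ≫ f := by
  rw [← Category.assoc, cell_eps, Category.assoc]

theorem F_fc (b : Bool) (k : ℕ) : Q.F.map (fc b (Nat.lt_succ_self k)) = Q.G.map (sf b k) :=
  Ext_map_fc Q.G b _

theorem eps_eq {S : Theta0} (h : S.2.dim < n) : (Q.eps false).app S = (Q.eps true).app S :=
  (presSums_D0 E K).hom_ext fun k a => by
    rw [cell_eps, cell_eps, Q.ee_eq ((le_dim_of_cell a).trans_lt h) true]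

theorem ν_desc {k : ℕ} {X : A E K} (z : Bool → (Q.G.obj ⟨k⟩ ⟶ X))
    (h : Q.T.β k ≫ z false = Q.T.β k ≫ z true) :
    ∃ s : Q.T.B (k + 1) ⟶ X, ∀ c, Q.T.ν c k ≫ s = z c :=
  ⟨(Q.T.po k).desc _ _ h, fun c => by
    cases c
    · exact IsPushout.inl_desc _ _ _ _
    · exact IsPushout.inr_desc _ _ _ _⟩

theorem sf_comp (c : Bool) (k : ℕ) {X : A E K} (z : Q.G.obj ⟨k + 1⟩ ⟶ X) :
    Q.G.map (sf c k) ≫ z = Q.T.ν c k ≫ Q.T.β (k + 1) ≫ z := by
  rw [← Q.T.w, Category.assoc]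

theorem exists_teeth_an (hG : GStat E K (n + 1)) (hS : SStat E K n) (S : Theta0) :
    ∃ (T : A E K) (u : (D0 E K).obj S ⟶ T) (e : (disc n ⟶ S) → (dd E K (n + 1) ⟶ T))
      (j : T ⟶ Q.F.obj S), IsTeeth (fun x => (D0 E K).map x) u e ∧ u ≫ j = (Q.eps false).app S ∧
      An E K (n + 1) j := by
  obtain ⟨T, u, e, hT⟩ := exists_teeth (ι := (disc n ⟶ S)) (fun x => (D0 E K).map x)
  obtain ⟨j, hj, hj'⟩ := hT.desc ((Q.eps false).app S) (fun x => Q.top ≫ Q.F.map x)
    (fun x => by rw [← Category.assoc, Q.df_top, cell_eps])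
  refine ⟨T, u, e, j, hT, hj, ?_⟩
  intro X Y p hp
  refine ⟨fun {φ ψ} sq => ?_⟩
  let Ok : ∀ k, (disc k ⟶ S) → (Q.G.obj ⟨k⟩ ⟶ X) → Prop := fun k z c =>
    Q.ee false k ≫ c = (D0 E K).map z ≫ u ≫ φ ∧ c ≫ p = Q.F.map z ≫ ψ ∧
      ∀ h : n = k, Q.top ≫ eqToHom (congrArg (fun i => Q.G.obj ⟨i⟩) h) ≫ c =
        e (eqToHom (congrArg disc h) ≫ z) ≫ φ
  have O₁ : ∀ {k z c}, Ok k z c → Q.ee false k ≫ c = (D0 E K).map z ≫ u ≫ φ := fun h => h.1
  have O₂ : ∀ {k z c}, Ok k z c → c ≫ p = Q.F.map z ≫ ψ := fun h => h.2.1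
  have huψ : ∀ k (z : disc k ⟶ S), (D0 E K).map z ≫ u ≫ φ ≫ p = Q.ee false k ≫ Q.F.map z ≫ ψ := by
    intro k z
    rw [sq.w, ← Category.assoc u, hj, cell_eps_assoc]
  have low : ∀ k ≤ n, ∀ z, ∃ c, Ok k z c := by
    intro k hk z
    rcases hk.eq_or_lt with rfl | hk
    · refine ⟨inv Q.top ≫ e z ≫ φ, ?_, ?_, fun _ => by simp⟩
      · rw [Q.ee_inv_top, ← Category.assoc, hT.w, Category.assoc]
      · rw [Category.assoc, Category.assoc, sq.w, ← Category.assoc (e z), hj']; simp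
    · have := Q.isIso_ee hk
      refine ⟨inv (Q.ee false k) ≫ (D0 E K).map z ≫ u ≫ φ, by simp, ?_,
        fun h => absurd h hk.ne'⟩
      simp only [Category.assoc]
      rw [huψ]; simp
  have hfc : ∀ c k (z : disc (k + 1) ⟶ S), (D0 E K).map (fc c (Nat.lt_succ_self k) ≫ z) =
      df E K c k ≫ (D0 E K).map z := fun c k z => (D0 E K).map_comp _ _
  obtain ⟨f, -, hf⟩ := gl_extend (K := Rep.obj S) (E := (Nrv Q.G).obj X) Ok 0
    (fun _ h => absurd h (Nat.not_lt_zero _)) (fun _ _ h => absurd h (Nat.not_lt_zero _))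
    (fun _ h => absurd h (Nat.not_lt_zero _)) (fun _ z => low 0 (Nat.zero_le _) z) (by
      intro k _ (z : disc (k + 1) ⟶ S) (e₀ : Q.G.obj ⟨k⟩ ⟶ X) (e₁ : Q.G.obj ⟨k⟩ ⟶ X) hpar h₀ h₁
      rcases lt_or_ge k n with hk | hk
      · obtain ⟨c, hc⟩ := low (k + 1) hk z
        have := Q.isIso_ee hk
        have key : ∀ b (c' : Q.G.obj ⟨k⟩ ⟶ X), Ok k (fc b (Nat.lt_succ_self k) ≫ z) c' →
            Q.G.map (sf b k) ≫ c = c' := fun b c' h' => by
          rw [← cancel_epi (Q.ee false k), ← Q.df_ee, O₁ hc, O₁ h', hfc, Category.assoc]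
        exact ⟨c, key false _ h₀, key true _ h₁, hc⟩
      · obtain ⟨s, hs⟩ := Q.ν_desc (fun b => cond b e₁ e₀) ((Q.T.par_iff _ _).1 hpar)
        have hO : ∀ b, Ok k (fc b (Nat.lt_succ_self k) ≫ z) (cond b e₁ e₀) := fun b => by
          cases b
          exacts [h₀, h₁]
        obtain ⟨c, c₁, c₂, c₃⟩ := Q.le_false (Q.xp hG hS (k + 1) (by omega)).some
          (show n + 1 ≤ k + 1 by omega) hp s ((D0 E K).map z ≫ u ≫ φ) (Q.F.map z ≫ ψ)
          ((ST E K).hom_ext fun b => by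
            rw [nu_ii_assoc, Q.w₂_assoc, hs, O₁ (hO b), hfc, Category.assoc])
          (Q.T.hom_ext fun b => by
            rw [← Category.assoc, hs, O₂ (hO b), ← Q.sf_comp, Functor.map_comp, Q.F_fc,
              Category.assoc])
          (by simp only [Category.assoc]; exact huψ _ z)
        refine ⟨c, ?_, ?_, c₂, c₃, fun h => by omega⟩
        · exact (Q.sf_comp false k c).trans ((congrArg _ c₁).trans (hs false))
        · exact (Q.sf_comp true k c).trans ((congrArg _ c₁).trans (hs true)))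
  obtain ⟨l, hl⟩ := (presSums_Ext Q.G).exists_desc (S := S) (X := X) (fun k a => ap f a)
    (fun b k a => by rw [Q.F_fc]; exact (fa_ap f b a).symm)
  refine CommSq.HasLift.mk' ⟨l, hT.ext _ _ ?_ fun x => ?_, (presSums_Ext Q.G).hom_ext fun k a => ?_⟩
  · rw [← Category.assoc, hj]
    exact (presSums_D0 E K).hom_ext fun k a => by rw [cell_eps_assoc, hl]; exact (hf k a).1
  · have := (hf n x).2.2 rfl
    simp only [eqToHom_refl, Category.id_comp] at this
    rw [← Category.assoc, hj', Category.assoc, hl]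
    exact this
  · rw [← Category.assoc, hl]
    exact (hf k a).2.1

variable (hG : GStat E K (n + 1)) (hS : SStat E K n)
include hG hS

theorem contr_F (S : Theta0) : Contr (Q.F.obj S) := by
  obtain ⟨T, u, e, j, hT, -, hj⟩ := Q.exists_teeth_an hG hS S
  exact hG j hj (hT.cofibrant (cofibrant_D0 _)) (hS (disc n ⟶ S) S id _ _ _ hT)

theorem an_eps (S : Theta0) : An E K n ((Q.eps false).app S) := by
  obtain ⟨T, u, e, j, hT, h, hj⟩ := Q.exists_teeth_an hG hS S
  rw [← h]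
  exact MorphismProperty.comp_mem _ _ _ hT.an (An.anti (Nat.le_succ n) _ hj)

theorem cofibrant_F (S : Theta0) : Cofibrant (Q.F.obj S) :=
  (cofibrant_D0 S).of_cof (Cof.anti (Nat.zero_le n) _ (an_le_cof n _ (Q.an_eps hG hS S)))

theorem fill_contr {k : ℕ} (hk : n ≤ k) {Z : A E K} (hZ : Contr Z) (s : Q.T.B k ⟶ Z)
    (a : Bool → (dd E K k ⟶ Z)) (h : ∀ b, ii E K k ≫ a b = Q.eB k b ≫ s) :
    ∃ c : Q.G.obj ⟨k⟩ ⟶ Z, Q.T.β k ≫ c = s ∧ ∀ b, Q.ee b k ≫ c = a b :=
  (Q.xp hG hS k hk).some.lift_contr hZ s a h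

theorem rpHyp : RPHyp Q.F (fun {S S'} h φ =>
    ∀ b, (Q.eps b).app S ≫ φ = (Dk E K).map h ≫ (Q.eps b).app S') where
  sums := presSums_Ext _
  rio a b := ((Q.eps b).naturality a).symm
  comp h h' b := by
    rw [← Category.assoc, h b, Category.assoc, h' b, Functor.map_comp, Category.assoc]
  glue h φ H b := (presSums_D0 E K).hom_ext fun k a => by
    have := H k a b
    rw [Q.eps_disc, Functor.map_comp, Category.assoc] at this
    rw [cell_eps_assoc, this]
    rfl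
  lift k S hS' h φ H hpar := by
    have hp : Q.T.β k ≫ φ false = Q.T.β k ≫ φ true := by
      cases k with
      | zero => exact Q.T.ini.hom_ext _ _
      | succ k =>
        refine Q.T.hom_ext fun b => ?_
        rw [← Q.sf_comp, ← Q.sf_comp, ← Q.F_fc]
        exact hpar k rfl b
    obtain ⟨s, hs⟩ := Q.ν_desc (k := k) φ hp
    have ha : ∀ b, ii E K (k + 1) ≫ (Dk E K).map h ≫ (Q.eps b).app S = Q.eB (k + 1) b ≫ s :=
      fun b => (ST E K).hom_ext fun c => by
        have := H c b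
        rw [Q.eps_disc, Functor.map_comp, Category.assoc] at this
        rw [nu_ii_assoc, Q.w₂_assoc, hs, this]
        rfl
    obtain ⟨χ, h₁, h₂⟩ : ∃ χ : Q.G.obj ⟨k + 1⟩ ⟶ Q.F.obj S, Q.T.β (k + 1) ≫ χ = s ∧
        ∀ b, Q.ee b (k + 1) ≫ χ = (Dk E K).map h ≫ (Q.eps b).app S := by
      rcases lt_or_ge (k + 1) n with hk | hk
      · have := Q.isIso_ee hk
        have := Q.isIso_eB' hk.le
        refine ⟨inv (Q.ee false (k + 1)) ≫ (Dk E K).map h ≫ (Q.eps false).app S, ?_, fun b => ?_⟩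
        · rw [← cancel_epi (Q.eB (k + 1) false), ← Q.w₁_assoc, ← ha]; simp
        · rw [Q.ee_eq hk b]
          cases b
          · simp
          · rw [← Q.eps_eq (hS'.trans_lt hk)]; simp
      · exact Q.fill_contr hG hS hk (Q.contr_F hG hS S) s _ ha
    exact ⟨χ, fun b => by rw [Q.F_fc, Q.sf_comp, h₁, hs], fun b => by rw [Q.eps_disc, h₂]⟩

/-- Extension of a cylinder along cells attached to its two ends. -/
theorem exists_fib {m : ℕ} (hm : n ≤ m) {X : A E K} (c : Q.G.obj ⟨m⟩ ⟶ X)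
    (a : Bool → (dd E K (m + 1) ⟶ X)) (h : ∀ b, df E K false m ≫ a b = Q.ee b m ≫ c) :
    ∃ c' : Q.G.obj ⟨m + 1⟩ ⟶ X, Q.G.map (sf false m) ≫ c' = c ∧ ∀ b, Q.ee b (m + 1) ≫ c' = a b := by
  obtain ⟨N, u, e, hN⟩ := exists_teeth (ι := Bool) (fun b => Q.ee b m)
  have hc : Contr N := by
    rcases hm.eq_or_lt with rfl | hm'
    · exact hS Bool (disc (n + 1)) (fun b => fc b (Nat.lt_succ_self n)) N _ e
        (hN.of_iso Q.top Q.df_top)
    · exact hG u (An.anti hm' _ hN.an) (Q.cofibrant_F hG hS (disc m)) (Q.contr_F hG hS (disc m))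
  obtain ⟨c₁, h₁, h₂⟩ := Q.fill_contr hG hS hm hc (Q.T.β m ≫ u) (fun b => df E K true m ≫ e b)
    (fun b => by
      rw [← Category.assoc, ii_df true false, Category.assoc, hN.w, Q.w₁_assoc])
  obtain ⟨s, hs⟩ := Q.ν_desc (fun b => cond b c₁ u) h₁.symm
  obtain ⟨c₂, h₃, h₄⟩ := Q.fill_contr hG hS (Nat.le_succ_of_le hm) hc s e
    (fun b => (ST E K).hom_ext fun c => by
      rw [nu_ii_assoc, Q.w₂_assoc, hs]
      cases c
      · exact hN.w b
      · exact (h₂ b).symm)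
  obtain ⟨φ, h₅, h₆⟩ := hN.desc c a h
  refine ⟨c₂ ≫ φ, ?_, fun b => by rw [← Category.assoc, h₄, h₆]⟩
  rw [← Category.assoc, Q.sf_comp, h₃, hs]
  exact h₅

theorem exists_tf0 (hE : IsCoherator E) (k : ℕ) {X : A E K} (s : Q.T.B k ⟶ X) (a : dd E K k ⟶ X)
    (h : ii E K k ≫ a = Q.eB k false ≫ s) :
    ∃ c : Q.G.obj ⟨k⟩ ⟶ X, Q.T.β k ≫ c = s ∧ Q.ee false k ≫ c = a := by
  rcases lt_or_ge k n with hk | hk
  · have := Q.isIso_ee hk
    have := Q.isIso_eB' hk.le
    refine ⟨inv (Q.ee false k) ≫ a, ?_, by simp⟩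
    rw [← cancel_epi (Q.eB k false), ← Q.w₁_assoc, ← h]; simp
  · obtain ⟨c, h₁, h₂, -⟩ := Q.le_false (Q.xp hG hS k hk).some (Nat.zero_le k)
      (fib_terminal hE 0 X) s a (terminal.from _) h (terminal.hom_ext _ _) (terminal.hom_ext _ _)
    exact ⟨c, h₁, h₂⟩

theorem le_true (hE : IsCoherator E) (hn : n = 0) (hG₀ : GStat E K 0) (hC : CAStat E K) (k : ℕ) :
    ∀ {X Y : A E K} {p : X ⟶ Y}, Fib E K 0 p → Q.LE true p k := by
  induction k using Nat.strong_induction_on with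
  | _ k ih =>
  have po := IsPushout.of_hasPushout (Q.eB k true) (ii E K k)
  have hδ : An E K 0 (pushout.inr (Q.eB k true) (ii E K k)) := by
    intro X Y p hp
    refine ⟨fun {φ ψ} sq => ?_⟩
    obtain ⟨s, h₁, h₂⟩ := Q.sl_zero (p := p) k (fun j hj => ih j hj hp) (ii E K k ≫ φ)
      (pushout.inl _ _ ≫ ψ)
      (by rw [Category.assoc, sq.w, ← Category.assoc, ← pushout.condition, Category.assoc])
    refine CommSq.HasLift.mk' ⟨po.desc s φ h₁, IsPushout.inr_desc _ _ _ _, po.hom_ext ?_ ?_⟩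
    · rw [IsPushout.inl_desc_assoc, h₂]
    · rw [IsPushout.inr_desc_assoc, sq.w]
  let jj := po.desc (Q.T.β k) (Q.ee true k) (Q.w₁ true k).symm
  have hj : Cof E K 0 jj := by
    intro X Y q hq
    refine ⟨fun {φ ψ} sq => ?_⟩
    have := hq k (Nat.zero_le k)
    have e₁ : pushout.inl (Q.eB k true) (ii E K k) ≫ φ ≫ q = Q.T.β k ≫ ψ := by
      rw [sq.w, IsPushout.inl_desc_assoc]
    have sq' : CommSq (Q.eB k false ≫ pushout.inl _ _ ≫ φ) (ii E K k) q (Q.ee false k ≫ ψ) :=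
      ⟨by rw [Category.assoc, Category.assoc, e₁, Q.w₁_assoc]⟩
    obtain ⟨c, h₁, h₂, h₃⟩ := (Q.xp hG hS k (hn.le.trans (Nat.zero_le k))).some.lift_tfib
      (Nat.zero_le _) hq (pushout.inl _ _ ≫ φ)
      (fun b => cond b (pushout.inr _ _ ≫ φ) sq'.lift) ψ
      (fun b => by
        cases b
        · exact sq'.fac_left
        · simp only [cond_true]
          rw [← Category.assoc, ← pushout.condition, Category.assoc])
      (by rw [Category.assoc, e₁])
      (fun b => by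
        cases b
        · exact sq'.fac_right
        · simp only [cond_true]
          rw [Category.assoc, sq.w, IsPushout.inr_desc_assoc])
    refine CommSq.HasLift.mk' ⟨c, po.hom_ext ?_ ?_, h₃⟩
    · rw [IsPushout.inl_desc_assoc, h₁]
    · rw [IsPushout.inr_desc_assoc]; exact h₂ true
  have hA : An E K 0 jj := hC jj hj ((cofibrant_dd k).of_cof (an_le_cof 0 _ hδ))
    (hG₀ _ hδ (cofibrant_dd k) (contr_dd hE k)) (Q.contr_F hG hS (disc k))
  intro X Y p hp s a c' h₁ h₂ h₃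
  have := hA p hp
  have sq : CommSq (po.desc s a h₁.symm) jj p c' := ⟨po.hom_ext
    (by rw [IsPushout.inl_desc_assoc, IsPushout.inl_desc_assoc, h₂])
    (by rw [IsPushout.inr_desc_assoc, IsPushout.inr_desc_assoc, h₃])⟩
  refine ⟨sq.lift, ?_, ?_, sq.fac_right⟩
  · rw [← po.inl_desc (Q.T.β k) (Q.ee true k) (Q.w₁ true k).symm, Category.assoc, sq.fac_left,
      IsPushout.inl_desc]
  · rw [← po.inr_desc (Q.T.β k) (Q.ee true k) (Q.w₁ true k).symm, Category.assoc, sq.fac_left,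
      IsPushout.inr_desc]

end CylT

end Vale.Agent.P259
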