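import Vale.Agent.P259.Defs

/-! Coordinates on discs and lifting through quotients of compact spaces. -/

open unitInterval

noncomputable section

namespace Vale.Agent.P259

/-- Adding a first coordinate. -/
def dcons {n : ℕ} (y : ℝ) (x : EuclideanSpace ℝ (Fin n)) : EuclideanSpace ℝ (Fin (n + 1)) :=
  WithLp.toLp 2 (Fin.cons y (WithLp.ofLp x))

/-- Removing the first coordinate. -/
def dtail {n : ℕ} (z : EuclideanSpace ℝ (Fin (n + 1))) : EuclideanSpace ℝ (Fin n) :=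
  WithLp.toLp 2 (fun i => z i.succ)

@[simp] theorem dcons_zero {n : ℕ} (y : ℝ) (x : EuclideanSpace ℝ (Fin n)) : dcons y x 0 = y := rfl

@[simp] theorem dtail_dcons {n : ℕ} (y : ℝ) (x : EuclideanSpace ℝ (Fin n)) :
    dtail (dcons y x) = x := rfl

theorem dcons_dtail {n : ℕ} (z : EuclideanSpace ℝ (Fin (n + 1))) : dcons (z 0) (dtail z) = z := by
  ext i
  refine Fin.cases rfl (fun _ => rfl) i

theorem norm_sq_dcons {n : ℕ} (y : ℝ) (x : EuclideanSpace ℝ (Fin n)) :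
    ‖dcons y x‖ ^ 2 = y ^ 2 + ‖x‖ ^ 2 := by
  rw [EuclideanSpace.norm_sq_eq, EuclideanSpace.norm_sq_eq, Fin.sum_univ_succ, dcons_zero,
    Real.norm_eq_abs, sq_abs]
  rfl

theorem norm_sq_dtail {n : ℕ} (z : EuclideanSpace ℝ (Fin (n + 1))) :
    ‖z‖ ^ 2 = z 0 ^ 2 + ‖dtail z‖ ^ 2 := by
  conv_lhs => rw [← dcons_dtail z, norm_sq_dcons]

theorem norm_dtail_le {n : ℕ} (z : EuclideanSpace ℝ (Fin (n + 1))) : ‖dtail z‖ ≤ ‖z‖ := by
  refine (pow_le_pow_iff_left₀ (norm_nonneg _) (norm_nonneg _) two_ne_zero).1 ?_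
  rw [norm_sq_dtail z]
  exact le_add_of_nonneg_left (sq_nonneg _)

theorem continuous_dcons {X : Type*} [TopologicalSpace X] {n : ℕ} {y : X → ℝ}
    {x : X → EuclideanSpace ℝ (Fin n)} (hy : Continuous y) (hx : Continuous x) :
    Continuous fun a => dcons (y a) (x a) := by
  refine (PiLp.continuous_toLp 2 _).comp (continuous_pi fun i => ?_)
  refine Fin.cases hy (fun j => ?_) i
  change Continuous fun a => x a j
  fun_prop

theorem continuous_dtail {n : ℕ} : Continuous (dtail (n := n)) := by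
  refine (PiLp.continuous_toLp 2 _).comp (continuous_pi fun i => ?_)
  fun_prop

theorem disc_norm_le {n : ℕ} (x : Disc n) : ‖x.1‖ ≤ 1 := mem_closedBall_zero_iff.1 x.2

theorem disc_sq_nonneg {n : ℕ} (x : Disc n) : 0 ≤ 1 - ‖x.1‖ ^ 2 := by
  have := disc_norm_le x
  nlinarith [norm_nonneg x.1]

/-- The projection of discs. -/
def dproj (n : ℕ) : C(Disc (n + 1), Disc n) :=
  ⟨fun z => ⟨dtail z.1, by simpa using (norm_dtail_le z.1).trans (disc_norm_le z)⟩,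
    (continuous_dtail.comp continuous_subtype_val).subtype_mk _⟩

theorem hemi_eq (b : Bool) {n : ℕ} (x : Disc n) :
    hemi b x = dcons ((if b then 1 else -1) * √(1 - ‖x.1‖ ^ 2)) x.1 := rfl

/-- Maps out of a Hausdorff image of a compact space. -/
theorem exists_lift_compact {A B Z : Type*} [TopologicalSpace A] [TopologicalSpace B]
    [TopologicalSpace Z] [CompactSpace A] [T2Space B] (q : C(A, B)) (hq : Function.Surjective q)
    (F : C(A, Z)) (h : ∀ a a', q a = q a' → F a = F a') : ∃ G : C(B, Z), ∀ a, G (q a) = F a := by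
  have hG : ∀ a, F (Function.surjInv hq (q a)) = F a := fun a =>
    h _ _ (Function.surjInv_eq hq _)
  refine ⟨⟨fun b => F (Function.surjInv hq b), ?_⟩, hG⟩
  rw [(q.continuous.isClosedMap.isQuotientMap q.continuous hq).continuous_iff]
  exact F.continuous.congr fun a => (hG a).symm

/-- The disc as a quotient of the cylinder. -/
def dcyl (n : ℕ) : C(I × Disc n, Disc (n + 1)) :=
  ⟨fun p => ⟨dcons ((2 * p.1 - 1) * √(1 - ‖p.2.1‖ ^ 2)) p.2.1, by
      rw [mem_closedBall_zero_iff, ← sq_le_one_iff₀ (norm_nonneg _), norm_sq_dcons, mul_pow,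
        Real.sq_sqrt (disc_sq_nonneg p.2)]
      have h1 : (2 * (p.1 : ℝ) - 1) ^ 2 ≤ 1 := by nlinarith [p.1.2.1, p.1.2.2]
      nlinarith [disc_sq_nonneg p.2]⟩,
    (continuous_dcons (by fun_prop) (by fun_prop)).subtype_mk _⟩

theorem dcyl_surjective (n : ℕ) : Function.Surjective (dcyl n) := by
  intro z
  have h1 : z.1 0 ^ 2 ≤ 1 - ‖dtail z.1‖ ^ 2 := by
    have := norm_sq_dtail z.1
    have := disc_sq_nonneg z
    linarith
  have h2 := abs_le.1 (Real.abs_le_sqrt h1)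
  rcases (Real.sqrt_nonneg (1 - ‖dtail z.1‖ ^ 2)).eq_or_lt with h | h
  · refine ⟨(0, dproj n z), Subtype.ext ?_⟩
    change dcons (_ * √(1 - ‖dtail z.1‖ ^ 2)) (dtail z.1) = z.1
    rw [← h] at h2 ⊢
    rw [mul_zero, ← le_antisymm h2.2 (by simpa using h2.1), dcons_dtail]
  · have h3 : -1 ≤ z.1 0 / √(1 - ‖dtail z.1‖ ^ 2) := by rw [le_div_iff₀ h]; linarith [h2.1]
    have h4 : z.1 0 / √(1 - ‖dtail z.1‖ ^ 2) ≤ 1 := by rw [div_le_one h]; exact h2.2
    refine ⟨(⟨(z.1 0 / √(1 - ‖dtail z.1‖ ^ 2) + 1) / 2, by linarith, by linarith⟩, dproj n z),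
      Subtype.ext ?_⟩
    change dcons ((2 * ((z.1 0 / √(1 - ‖dtail z.1‖ ^ 2) + 1) / 2) - 1) *
      √(1 - ‖dtail z.1‖ ^ 2)) (dtail z.1) = z.1
    rw [show (2 * ((z.1 0 / √(1 - ‖dtail z.1‖ ^ 2) + 1) / 2) - 1) * √(1 - ‖dtail z.1‖ ^ 2) =
      z.1 0 by field_simp; ring, dcons_dtail]

theorem dcyl_eq {n : ℕ} {p p' : I × Disc n} (h : dcyl n p = dcyl n p') :
    p.2 = p'.2 ∧ (p.1 = p'.1 ∨ ‖p.2.1‖ = 1) := by
  have h1 : p.2 = p'.2 := Subtype.ext (congrArg (fun z : Disc (n + 1) => dtail z.1) h)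
  refine ⟨h1, ?_⟩
  have h2 : (2 * p.1 - 1) * √(1 - ‖p.2.1‖ ^ 2) = (2 * p'.1 - 1) * √(1 - ‖p'.2.1‖ ^ 2) :=
    congrArg (fun z : Disc (n + 1) => z.1 0) h
  rw [← h1, mul_eq_mul_right_iff] at h2
  rcases h2 with h2 | h2
  · exact Or.inl (Subtype.ext (by linarith))
  · rw [Real.sqrt_eq_zero (disc_sq_nonneg _), sub_eq_zero, eq_comm,
      pow_eq_one_iff_of_nonneg (norm_nonneg _) two_ne_zero] at h2
    exact Or.inr h2

theorem dcyl_of_norm {n : ℕ} {x : Disc n} (h : ‖x.1‖ = 1) (t t' : I) :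
    dcyl n (t, x) = dcyl n (t', x) := by
  apply Subtype.ext
  change dcons (_ * √(1 - ‖x.1‖ ^ 2)) _ = dcons (_ * √(1 - ‖x.1‖ ^ 2)) _
  simp [h]

end Vale.Agent.P259
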