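import Vale.Agent.P259.Sums
import Vale.Agent.P259.DiscAux

/-! Topological discs and spheres. -/

open CategoryTheory Limits Opposite unitInterval

set_option backward.isDefEq.respectTransparency false

noncomputable section

namespace Vale.Agent.P259

theorem norm_hemi (b : Bool) {n : ℕ} (x : Disc n) : ‖hemi b x‖ = 1 := by
  rw [← pow_eq_one_iff_of_nonneg (norm_nonneg _) two_ne_zero, hemi_eq, norm_sq_dcons,
    mul_pow, Real.sq_sqrt (disc_sq_nonneg x)]
  cases b <;> simp

theorem continuous_hemi (b : Bool) (n : ℕ) : Continuous (hemi b (n := n)) := by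
  exact continuous_dcons (by fun_prop) continuous_subtype_val

/-- The hemispheres as maps of discs. -/
def hemiD (b : Bool) (n : ℕ) : C(Disc n, Disc (n + 1)) :=
  ⟨fun x => ⟨hemi b x, by simp [norm_hemi]⟩, (continuous_hemi b n).subtype_mk _⟩

theorem hemi_hemi (b b' b'' : Bool) {n : ℕ} (x : Disc n) :
    hemi b' (hemiD b n x) = hemi b'' (hemiD b n x) := by
  have h : ‖(hemiD b n x).1‖ = 1 := norm_hemi b x
  simp [hemi, h]

/-- The coglobular space of discs. -/
@[implicit_reducible] def discG : Glob ⥤ TopCat.{0} :=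
  mkG (fun n => TopCat.of (Disc n)) (fun b n => TopCat.ofHom (hemiD b n))
    (fun b b' b'' _ => TopCat.hom_ext (ContinuousMap.ext fun x =>
      Subtype.ext (hemi_hemi b b' b'' x)))

theorem discG_map_sf (b : Bool) (n : ℕ) : discG.map (sf b n) = TopCat.ofHom (hemiD b n) :=
  mkG_map_sf _ _ _ b n

/-- The boundary sphere of the `n`-disc. -/
abbrev Sphere (n : ℕ) : Type := Metric.sphere (0 : EuclideanSpace ℝ (Fin n)) 1

/-- The inclusion of the boundary sphere. -/
def sphIncl (n : ℕ) : C(Sphere n, Disc n) :=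
  ⟨fun x => ⟨x.1, Metric.sphere_subset_closedBall x.2⟩, by fun_prop⟩

/-- The hemispheres as maps to the sphere. -/
def hemiS (b : Bool) (n : ℕ) : C(Disc n, Sphere (n + 1)) :=
  ⟨fun x => ⟨hemi b x, by simp [norm_hemi]⟩, (continuous_hemi b n).subtype_mk _⟩

instance : IsEmpty (Sphere 0) := ⟨fun x => by
  have h := x.2
  rw [Subsingleton.elim x.1 0] at h
  simp at h⟩

theorem dproj_hemiS (b : Bool) {n : ℕ} (x : Disc n) :
    dproj n (sphIncl (n + 1) (hemiS b n x)) = x := rfl

theorem hemiS_dproj {n : ℕ} (z : Sphere (n + 1)) (b : Bool) (h : if b then 0 ≤ z.1 0 else z.1 0 ≤ 0) :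
    hemiS b n (dproj n (sphIncl (n + 1) z)) = z := by
  apply Subtype.ext
  have h1 : 1 - ‖dtail z.1‖ ^ 2 = z.1 0 ^ 2 := by
    have h2 := norm_sq_dtail z.1
    rw [show ‖z.1‖ = 1 from mem_sphere_zero_iff_norm.1 z.2] at h2
    linarith
  change dcons (_ * √(1 - ‖dtail z.1‖ ^ 2)) (dtail z.1) = z.1
  rw [h1, Real.sqrt_sq_eq_abs]
  cases b
  · rw [abs_of_nonpos h]
    simpa using dcons_dtail z.1
  · rw [abs_of_nonneg h]
    simpa using dcons_dtail z.1

theorem hemiS_surj {n : ℕ} (z : Sphere (n + 1)) : ∃ b x, hemiS b n x = z := by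
  rcases le_total 0 (z.1 0) with h | h
  · exact ⟨true, _, hemiS_dproj z true h⟩
  · exact ⟨false, _, hemiS_dproj z false h⟩

theorem mem_range_sphIncl {n : ℕ} {x : Disc n} : x ∈ Set.range (sphIncl n) ↔ ‖x.1‖ = 1 :=
  ⟨by rintro ⟨y, rfl⟩; exact mem_sphere_zero_iff_norm.1 y.2, fun h => ⟨⟨x.1, by simpa using h⟩, rfl⟩⟩

theorem isPushout_sphere (n : ℕ) : IsPushout (TopCat.ofHom (sphIncl n)) (TopCat.ofHom (sphIncl n))
    (TopCat.ofHom (hemiS false n)) (TopCat.ofHom (hemiS true n)) := by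
  have w : TopCat.ofHom (sphIncl n) ≫ TopCat.ofHom (hemiS false n) =
      TopCat.ofHom (sphIncl n) ≫ TopCat.ofHom (hemiS true n) := by
    refine TopCat.hom_ext (ContinuousMap.ext fun x => Subtype.ext ?_)
    change hemi false (sphIncl n x) = hemi true (sphIncl n x)
    have h : ‖(sphIncl n x).1‖ = 1 := mem_range_sphIncl.1 ⟨x, rfl⟩
    simp [hemi, h]
  have key : ∀ (s : PushoutCocone (TopCat.ofHom (sphIncl n)) (TopCat.ofHom (sphIncl n)))
      (x : Disc n), ‖x.1‖ = 1 → s.inl x = s.inr x := fun s x hx => by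
    obtain ⟨y, rfl⟩ := mem_range_sphIncl.2 hx
    exact ConcreteCategory.congr_hom s.condition y
  have hz : ∀ z : Sphere (n + 1), z.1 0 = 0 → ‖(dproj n (sphIncl (n + 1) z)).1‖ = 1 := by
    intro z h
    have h2 := norm_sq_dtail z.1
    rw [show ‖z.1‖ = 1 from mem_sphere_zero_iff_norm.1 z.2, h] at h2
    change ‖dtail z.1‖ = 1
    nlinarith [norm_nonneg (dtail z.1)]
  refine ⟨⟨w⟩, ⟨PushoutCocone.IsColimit.mk w (fun s => TopCat.ofHom
    ⟨fun z => if z.1 0 ≤ 0 then s.inl (dproj n (sphIncl (n + 1) z))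
      else s.inr (dproj n (sphIncl (n + 1) z)),
      Continuous.if_le (by fun_prop) (by fun_prop) (by fun_prop) continuous_const
        fun z h => key s _ (hz z h)⟩) (fun s => ?_) (fun s => ?_) (fun s m h1 h2 => ?_)⟩⟩
  · refine TopCat.hom_ext (ContinuousMap.ext fun x => ?_)
    refine if_pos ?_
    change -1 * √(1 - ‖x.1‖ ^ 2) ≤ 0
    linarith [Real.sqrt_nonneg (1 - ‖x.1‖ ^ 2)]
  · refine TopCat.hom_ext (ContinuousMap.ext fun x => ?_)
    by_cases h : (hemiS true n x).1 0 ≤ 0
    · refine (if_pos h).trans (key s x (hz (hemiS true n x) (le_antisymm h ?_)))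
      change 0 ≤ 1 * √(1 - ‖x.1‖ ^ 2)
      positivity
    · exact if_neg h
  · refine TopCat.hom_ext (ContinuousMap.ext fun z => ?_)
    by_cases h : z.1 0 ≤ 0
    · refine Eq.trans ?_ (if_pos h).symm
      rw [← h1]
      exact (congrArg m (hemiS_dproj z false h)).symm
    · refine Eq.trans ?_ (if_neg h).symm
      rw [← h2]
      exact (congrArg m (hemiS_dproj z true (not_le.1 h).le)).symm

/-- The tower of spheres. -/
def sphT : Tower discG where
  B n := TopCat.of (Sphere n)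
  β n := TopCat.ofHom (sphIncl n)
  ν b n := TopCat.ofHom (hemiS b n)
  ini := IsInitial.ofUniqueHom (fun _ => TopCat.ofHom ⟨isEmptyElim, continuous_of_discreteTopology⟩)
    (fun _ _ => by ext x; exact isEmptyElim x)
  po n := isPushout_sphere n
  w b n := by rw [discG_map_sf]; rfl

/-- The globular set of discs in a space. -/
abbrev DiscN : TopCat.{0} ⥤ GS := Nrv discG

theorem gcontr_discN (Z : TopCat.{0}) [ContractibleSpace Z] : GContr (DiscN.obj Z) := by
  obtain ⟨z, ⟨H⟩⟩ := id_nullhomotopic Z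
  refine (sphT.contr_iff Z).2 fun k s => ?_
  cases k with
  | zero => exact ⟨TopCat.ofHom (ContinuousMap.const _ z), sphT.ini.hom_ext _ _⟩
  | succ k =>
    let q : C(I × Sphere (k + 1), Disc (k + 1)) :=
      ⟨fun p => ⟨(p.1 : ℝ) • p.2.1, by
        rw [mem_closedBall_zero_iff, norm_smul, show ‖p.2.1‖ = 1 from mem_sphere_zero_iff_norm.1 p.2.2, mul_one,
          Real.norm_eq_abs, abs_of_nonneg p.1.2.1]
        exact p.1.2.2⟩, by fun_prop⟩
    have hq : Function.Surjective q := fun x => by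
      by_cases h : x.1 = 0
      · exact ⟨(0, hemiS false k ⟨0, by simp⟩), Subtype.ext (by simp [q, h])⟩
      · have h' : ‖x.1‖ ≠ 0 := norm_ne_zero_iff.2 h
        refine ⟨(⟨‖x.1‖, norm_nonneg _, disc_norm_le x⟩, ⟨‖x.1‖⁻¹ • x.1, by simp [norm_smul, h']⟩),
          Subtype.ext ?_⟩
        simp [q, smul_smul, h']
    obtain ⟨G, hG⟩ := exists_lift_compact q hq
      ⟨fun p => H (σ p.1, s.hom p.2), by fun_prop⟩ (by
        rintro ⟨t, x⟩ ⟨t', x'⟩ h
        have h1 : (t : ℝ) • x.1 = (t' : ℝ) • x'.1 := congrArg Subtype.val h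
        have h2 : t = t' := by
          have := congrArg norm h1
          rw [norm_smul, norm_smul, show ‖x.1‖ = 1 from mem_sphere_zero_iff_norm.1 x.2,
            show ‖x'.1‖ = 1 from mem_sphere_zero_iff_norm.1 x'.2, mul_one, mul_one, Real.norm_eq_abs,
            Real.norm_eq_abs, abs_of_nonneg t.2.1, abs_of_nonneg t'.2.1] at this
          exact Subtype.ext this
        subst h2
        by_cases h0 : t = 0
        · simp [h0]
        · have h3 : x = x' :=
            Subtype.ext (smul_right_injective _ (fun e => h0 (Subtype.ext e)) h1)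
          rw [h3])
    refine ⟨TopCat.ofHom G, TopCat.hom_ext (ContinuousMap.ext fun x => ?_)⟩
    have e : sphIncl (k + 1) x = q (1, x) := Subtype.ext (by simp [q, sphIncl])
    change G (sphIncl (k + 1) x) = s.hom x
    rw [e, hG]
    simp

instance (n : ℕ) : ContractibleSpace (Disc n) :=
  (convex_closedBall _ _).contractibleSpace ⟨0, by simp⟩

theorem dcyl_zero {n : ℕ} (x : Disc n) : dcyl n (0, x) = hemiD false n x :=
  Subtype.ext (by simp [dcyl, hemiD, hemi_eq])

theorem dcyl_one {n : ℕ} (x : Disc n) : dcyl n (1, x) = hemiD true n x :=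
  Subtype.ext (by norm_num [dcyl, hemiD, hemi_eq])

theorem fa_discN {Y : TopCat.{0}} {k : ℕ} (b : Bool) (c : discG.obj ⟨k + 1⟩ ⟶ Y) :
    fa (DiscN.obj Y) b c = TopCat.ofHom (hemiD b k) ≫ c := by
  rw [fa_nrv, discG_map_sf]

/-- A cell between two discs is the same as a homotopy relative to the boundary. -/
theorem grel_discN_iff {Y : TopCat.{0}} {k : ℕ} (x y : discG.obj ⟨k⟩ ⟶ Y) :
    GRel (DiscN.obj Y) x y ↔ ContinuousMap.HomotopicRel (X := Disc k) x.hom y.hom
      (Set.range (sphIncl k)) := by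
  constructor
  · rintro ⟨c, rfl, rfl⟩
    rw [fa_discN, fa_discN]
    refine ⟨⟨⟨ContinuousMap.comp c.hom (dcyl k), fun v => congrArg c.hom (dcyl_zero v),
      fun v => congrArg c.hom (dcyl_one v)⟩, fun t v hv => ?_⟩⟩
    exact congrArg c.hom ((dcyl_of_norm (mem_range_sphIncl.1 hv) t 0).trans (dcyl_zero v))
  · rintro ⟨H⟩
    obtain ⟨G, hG⟩ := exists_lift_compact (dcyl k) (dcyl_surjective k) H.toContinuousMap (by
      rintro ⟨t, v⟩ ⟨t', v'⟩ h
      obtain ⟨h1, h2⟩ := dcyl_eq h
      obtain rfl : v = v' := h1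
      rcases h2 with h2 | h2
      · obtain rfl : t = t' := h2
        rfl
      · exact (H.eq_fst t (mem_range_sphIncl.2 h2)).trans
          (H.eq_fst t' (mem_range_sphIncl.2 h2)).symm)
    refine ⟨TopCat.ofHom G, ?_, ?_⟩ <;> rw [fa_discN] <;>
      refine TopCat.hom_ext (ContinuousMap.ext fun v => ?_)
    · exact (congrArg G (dcyl_zero v).symm).trans ((hG _).trans (H.apply_zero v))
    · exact (congrArg G (dcyl_one v).symm).trans ((hG _).trans (H.apply_one v))

/-- The path space. -/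
abbrev pathT (Y : TopCat.{0}) : TopCat.{0} := TopCat.of C(I, Y)

/-- Evaluation at the end points. -/
def evT (b : Bool) (Y : TopCat.{0}) : pathT Y ⟶ Y :=
  TopCat.ofHom ⟨fun γ => γ (if b then 1 else 0), by fun_prop⟩

/-- The map to the point. -/
def cstT (n : ℕ) : discG.obj ⟨n⟩ ⟶ discG.obj ⟨0⟩ :=
  TopCat.ofHom (ContinuousMap.const _ (⟨0, by simp⟩ : Disc 0))

theorem eq_cstT {n : ℕ} (f : discG.obj ⟨n⟩ ⟶ discG.obj ⟨0⟩) : f = cstT n := by
  exact TopCat.hom_ext (ContinuousMap.ext fun _ => Subtype.ext (Subsingleton.elim _ _))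

/-- Weak homotopy equivalences of spaces. -/
def WHT : MorphismProperty TopCat.{0} := fun _ _ f =>
  Function.Bijective (topPi0Map f.hom) ∧ ∀ x n, Function.Bijective (topPiMap f.hom x (n + 1))

/-- Homotopy equivalences. -/
def IsHE {X Y : TopCat.{0}} (f : X ⟶ Y) : Prop :=
  ∃ g : Y ⟶ X, (f ≫ g).hom.Homotopic (ContinuousMap.id X) ∧
    (g ≫ f).hom.Homotopic (ContinuousMap.id Y)

end Vale.Agent.P259
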