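import Vale.Agent.P259.Disc

/-! Globular sums of discs, homotopy extension. -/

open CategoryTheory Limits Opposite unitInterval

set_option backward.isDefEq.respectTransparency false

noncomputable section

namespace Vale.Agent.P259

/-- Constant paths. -/
def d2Const (Y : TopCat.{0}) : Y ⟶ pathT Y := TopCat.ofHom ContinuousMap.const'

/-- Image of a path. -/
def d2Map {Y Z : TopCat.{0}} (g : Y ⟶ Z) : pathT Y ⟶ pathT Z :=
  TopCat.ofHom ⟨fun γ => g.hom.comp γ, ContinuousMap.continuous_postcomp _⟩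

theorem d2_homotopic {X Y : TopCat.{0}} (H : X ⟶ pathT Y) :
    (H ≫ evT false Y).hom.Homotopic (H ≫ evT true Y).hom :=
  ⟨⟨(ContinuousMap.uncurry H.hom).comp ContinuousMap.prodSwap, fun _ => rfl, fun _ => rfl⟩⟩

theorem d2_path {X Y : TopCat.{0}} {f g : X ⟶ Y} (h : f.hom.Homotopic g.hom) :
    ∃ H : X ⟶ pathT Y, H ≫ evT false Y = f ∧ H ≫ evT true Y = g := by
  obtain ⟨H⟩ := h
  exact ⟨TopCat.ofHom (H.toContinuousMap.comp ContinuousMap.prodSwap).curry,
    TopCat.hom_ext (ContinuousMap.ext fun x => H.apply_zero x),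
    TopCat.hom_ext (ContinuousMap.ext fun x => H.apply_one x)⟩

theorem d2_retract {m n : ℕ} (f : Glob.mk m ⟶ Glob.mk n) :
    ∃ r : discG.obj ⟨n⟩ ⟶ discG.obj ⟨m⟩, discG.map f ≫ r = 𝟙 _ := by
  refine Glob.hom_induction
    (fun {m n} f => ∃ r : discG.obj ⟨n⟩ ⟶ discG.obj ⟨m⟩, discG.map f ≫ r = 𝟙 _) ?_ ?_ f
  · intro n
    exact ⟨𝟙 _, by simp⟩
  · rintro m n f b ⟨r, hr⟩
    refine ⟨TopCat.ofHom (dproj n) ≫ r, ?_⟩
    rw [Functor.map_comp, discG_map_sf, Category.assoc]
    exact hr

theorem d2_line {A : TopCat.{0}} {n : ℕ} (f : A ⟶ discG.obj ⟨n⟩) (r : discG.obj ⟨n⟩ ⟶ A)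
    (h : f ≫ r = 𝟙 _) : ∃ H : discG.obj ⟨n⟩ ⟶ pathT (discG.obj ⟨n⟩),
      H ≫ evT false _ = 𝟙 _ ∧ H ≫ evT true _ = r ≫ f ∧ f ≫ H = f ≫ d2Const _ := by
  let g : C(Disc n, Disc n) := (r ≫ f).hom
  let F : C(Disc n × I, Disc n) :=
    ⟨fun p => ⟨(1 - (p.2 : ℝ)) • p.1.1 + (p.2 : ℝ) • (g p.1).1,
      convex_closedBall _ _ p.1.2 (g p.1).2 (sub_nonneg.2 p.2.2.2) p.2.2.1 (by ring)⟩,
      by fun_prop⟩
  refine ⟨TopCat.ofHom F.curry, TopCat.hom_ext (ContinuousMap.ext fun x => Subtype.ext ?_),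
    TopCat.hom_ext (ContinuousMap.ext fun x => Subtype.ext ?_),
    TopCat.hom_ext (ContinuousMap.ext fun a => ContinuousMap.ext fun t => Subtype.ext ?_)⟩
  · change (1 - (0 : ℝ)) • x.1 + (0 : ℝ) • (g x).1 = x.1
    simp
  · change (1 - (1 : ℝ)) • x.1 + (1 : ℝ) • (g x).1 = (g x).1
    simp
  · have e : g (f a) = f a := congrArg f (ConcreteCategory.congr_hom h a)
    change (1 - (t : ℝ)) • (f a).1 + (t : ℝ) • (g (f a)).1 = (f a).1
    rw [e, ← add_smul]
    simp

theorem d2_contractible {l : ℕ} (T : Tbl l) : ContractibleSpace (extObj discG T).1 := by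
  induction T with
  | base i => exact inferInstanceAs (ContractibleSpace (Disc i))
  | snoc T j i h₁ h₂ ih =>
    obtain ⟨r, hr⟩ := d2_retract (gface false h₂)
    obtain ⟨H, h0, h1, hc⟩ := d2_line _ r hr
    let a := discG.map (gface true h₁) ≫ (extObj discG T).2
    let f := discG.map (gface false h₂)
    let r' : pushout a f ⟶ (extObj discG T).1 := pushout.desc (𝟙 _) (r ≫ a) (by
      rw [← Category.assoc, hr, Category.id_comp, Category.comp_id])
    let H' : pushout a f ⟶ pathT (pushout a f) :=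
      pushout.desc (pushout.inl a f ≫ d2Const _) (H ≫ d2Map (pushout.inr a f)) (by
        rw [← Category.assoc, pushout.condition, ← Category.assoc f H, hc]
        rfl)
    have e0 : H' ≫ evT false _ = 𝟙 _ := by
      apply pushout.hom_ext
      · rw [← Category.assoc, pushout.inl_desc]
        rfl
      · rw [← Category.assoc, pushout.inr_desc, Category.comp_id]
        exact (show _ = (H ≫ evT false _) ≫ pushout.inr a f from rfl).trans
          (by rw [h0, Category.id_comp])
    have e1 : H' ≫ evT true _ = r' ≫ pushout.inl a f := by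
      apply pushout.hom_ext
      · rw [← Category.assoc, pushout.inl_desc, ← Category.assoc _ r', pushout.inl_desc]
        rfl
      · rw [← Category.assoc, pushout.inr_desc, ← Category.assoc _ r', pushout.inr_desc,
          Category.assoc r, pushout.condition]
        exact (show _ = (H ≫ evT true _) ≫ pushout.inr a f from rfl).trans
          (by rw [h1, Category.assoc])
    have e2 : pushout.inl a f ≫ r' = 𝟙 _ := pushout.inl_desc _ _ _
    have hh := d2_homotopic H'
    rw [e0, e1] at hh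
    let E : ContinuousMap.HomotopyEquiv (pushout a f : TopCat.{0}) (extObj discG T).1 :=
      ⟨r'.hom, (pushout.inl a f).hom, hh.symm, by
        rw [← TopCat.hom_comp, e2]
        exact ContinuousMap.Homotopic.refl _⟩
    exact E.contractibleSpace

theorem contractible_Ext (S : Theta0) : ContractibleSpace ((Ext discG).obj S) := by
  exact d2_contractible S.2

/-- A colimit of compactly generated spaces is compactly generated. -/
theorem cg_of_isColimit {J : Type} [SmallCategory J] {F : J ⥤ TopCat.{0}} {c : Cocone F}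
    (hc : IsColimit c) (h : ∀ j, CompactlyGeneratedSpace (F.obj j)) :
    CompactlyGeneratedSpace c.pt := by
  refine compactlyGeneratedSpace_of_continuous_maps fun {Y} _ f hf => ?_
  rw [TopCat.continuous_iff_of_isColimit c hc]
  intro j
  have := h j
  refine continuous_from_compactlyGeneratedSpace _ fun K _ _ _ g hg => ?_
  exact hf K (c.ι.app j ∘ g) ((c.ι.app j).hom.continuous.comp hg)

theorem cg_Ext (S : Theta0) : CompactlyGeneratedSpace ((Ext discG).obj S) := by
  obtain ⟨l, T⟩ := S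
  change CompactlyGeneratedSpace (extObj discG T).1
  induction T with
  | base i => exact inferInstanceAs (CompactlyGeneratedSpace (Disc i))
  | snoc T j i h₁ h₂ ih =>
    refine cg_of_isColimit (colimit.isColimit (span _ _)) ?_
    rintro (_ | _ | _)
    · exact inferInstanceAs (CompactlyGeneratedSpace (Disc j))
    · exact ih
    · exact inferInstanceAs (CompactlyGeneratedSpace (Disc i))

theorem d2_hep {Y : Type} [TopologicalSpace Y] {k : ℕ} (y : C(Disc k, Y))
    (s : C(Sphere k × I, Y)) (h : ∀ v, s (v, 0) = y (sphIncl k v)) :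
    ∃ F : C(Disc k × I, Y), (∀ v, F (v, 0) = y v) ∧ ∀ v t, F (sphIncl k v, t) = s (v, t) := by
  let B : Type := {p : Disc k × I // p.2 = 0 ∨ ‖p.1.1‖ = 1}
  let q1 : C(Disc k, B) := ⟨fun v => ⟨(v, 0), Or.inl rfl⟩, by fun_prop⟩
  let q2 : C(Sphere k × I, B) :=
    ⟨fun p => ⟨(sphIncl k p.1, p.2), Or.inr (mem_range_sphIncl.1 ⟨_, rfl⟩)⟩, by fun_prop⟩
  obtain ⟨G, hG⟩ := exists_lift_compact (A := Disc k ⊕ Sphere k × I)
    ⟨Sum.elim q1 q2, by fun_prop⟩ (by
      rintro ⟨⟨v, t⟩, hv | hv⟩
      · obtain rfl : t = 0 := hv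
        exact ⟨Sum.inl v, rfl⟩
      · obtain ⟨w, rfl⟩ := mem_range_sphIncl.2 hv
        exact ⟨Sum.inr (w, t), rfl⟩)
    ⟨Sum.elim y s, by fun_prop⟩ (by
      rintro (v | ⟨v, t⟩) (w | ⟨w, u⟩) e <;>
        obtain ⟨e1, e2⟩ := Prod.ext_iff.1 (congrArg Subtype.val e)
      · exact congrArg y e1
      · obtain rfl : v = sphIncl k w := e1
        obtain rfl : 0 = u := e2
        exact (h w).symm
      · obtain rfl : sphIncl k v = w := e1
        obtain rfl : t = 0 := e2
        exact h v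
      · obtain rfl : v = w := Subtype.ext (congrArg (fun z : Disc k => z.1) e1)
        obtain rfl : t = u := e2
        rfl)
  let m : Disc k × I → ℝ := fun p => max ‖p.1.1‖ (1 - p.2 / 2)
  have hm : Continuous m := by fun_prop
  have m1 : ∀ p, ‖p.1.1‖ ≤ m p := fun p => le_max_left _ _
  have m2 : ∀ p, 1 - p.2 / 2 ≤ m p := fun p => le_max_right _ _
  have m3 : ∀ p, m p ≤ 1 := fun p => max_le (disc_norm_le _) (by linarith [p.2.2.1])
  have m0 : ∀ p, 0 < m p := fun p => by linarith [m2 p, p.2.2.2]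
  let ρ : C(Disc k × I, B) :=
    ⟨fun p => ⟨(⟨(m p)⁻¹ • p.1.1, by
        rw [mem_closedBall_zero_iff, norm_smul, norm_inv, Real.norm_eq_abs, abs_of_pos (m0 p),
          inv_mul_le_one₀ (m0 p)]
        exact m1 p⟩, ⟨2 - (2 - p.2) / m p, by
        rw [sub_nonneg, div_le_iff₀ (m0 p)]
        linarith [m2 p], by
        rw [sub_le_comm, le_div_iff₀ (m0 p)]
        linarith [m3 p, p.2.2.2]⟩), by
        rcases le_total ‖p.1.1‖ (1 - p.2 / 2) with c | c
        · refine Or.inl (Subtype.ext ?_)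
          have e : m p = 1 - p.2 / 2 := max_eq_right c
          change 2 - (2 - p.2) / m p = 0
          rw [sub_eq_zero, eq_div_iff (m0 p).ne', e]
          ring
        · have e : ‖p.1.1‖ = m p := (max_eq_left c).symm
          refine Or.inr ?_
          change ‖(m p)⁻¹ • p.1.1‖ = 1
          rw [norm_smul, norm_inv, Real.norm_eq_abs, abs_of_pos (m0 p), e,
            inv_mul_cancel₀ (m0 p).ne']⟩, by
      have h1 := hm.inv₀ fun p => (m0 p).ne'
      have h2 : Continuous fun p : Disc k × I => (2 - (p.2 : ℝ)) / m p :=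
        Continuous.div (by fun_prop) hm fun p => (m0 p).ne'
      have h3 : Continuous fun p : Disc k × I => p.1.1 := by fun_prop
      exact (((h1.smul h3).subtype_mk _).prodMk
        ((continuous_const.sub h2).subtype_mk _)).subtype_mk _⟩
  have hρ : ∀ p : B, ρ p.1 = p := by
    rintro ⟨p, hp⟩
    have e : m p = 1 := by
      refine le_antisymm (m3 p) ?_
      rcases hp with hp | hp
      · simpa [hp] using m2 p
      · simpa [hp] using m1 p
    refine Subtype.ext (Prod.ext (Subtype.ext ?_) (Subtype.ext ?_))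
    · change (m p)⁻¹ • p.1.1 = p.1.1
      simp [e]
    · change 2 - (2 - p.2) / m p = p.2
      simp [e]
  exact ⟨G.comp ρ, fun v => (congrArg G (hρ (q1 v))).trans (hG (Sum.inl v)),
    fun v t => (congrArg G (hρ (q2 (v, t)))).trans (hG (Sum.inr (v, t)))⟩

/-- The homotopy extension property of discs. -/
theorem glift_evT (b : Bool) (Y : TopCat.{0}) (k : ℕ) : GLift (DiscN.map (evT b Y)) k := by
  refine (sphT.hlp_iff _ k).1 ⟨fun {s y} sq => ?_⟩
  have hw : ∀ v : Sphere k, s.hom v (if b then 1 else 0) = y.hom (sphIncl k v) := fun v =>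
    ConcreteCategory.congr_hom sq.w v
  let τ : C(I, I) := if b then ⟨σ, continuous_symm⟩ else ContinuousMap.id I
  have τ0 : τ 0 = if b then 1 else 0 := by cases b <;> simp [τ]
  have τ1 : τ (if b then 1 else 0) = 0 := by cases b <;> simp [τ]
  have τ2 : ∀ t, τ (τ t) = t := by cases b <;> simp [τ]
  obtain ⟨F, h1, h2⟩ := d2_hep y.hom
    ((ContinuousMap.uncurry s.hom).comp ((ContinuousMap.id _).prodMap τ)) fun v => by
      change s.hom v (τ 0) = _
      rw [τ0]
      exact hw v
  refine ⟨⟨⟨TopCat.ofHom (F.comp ((ContinuousMap.id _).prodMap τ)).curry,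
    TopCat.hom_ext (ContinuousMap.ext fun v => ContinuousMap.ext fun t => ?_),
    TopCat.hom_ext (ContinuousMap.ext fun v => ?_)⟩⟩⟩
  · change F (sphIncl k v, τ t) = s.hom v t
    rw [h2]
    change s.hom v (τ (τ t)) = _
    rw [τ2]
  · change F (v, τ (if b then 1 else 0)) = y.hom v
    rw [τ1]
    exact h1 v

theorem gw_discN_of_homotopic {X Y : TopCat.{0}} {f g : X ⟶ Y} (h : f.hom.Homotopic g.hom)
    (hf : GW (DiscN.map f)) : GW (DiscN.map g) := by
  obtain ⟨H, rfl, rfl⟩ := d2_path h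
  rw [Functor.map_comp] at hf ⊢
  exact GW.of_htpy _ (glift_evT false Y) (glift_evT true Y) hf
    (fun _ y => (grel_discN_iff y y).2 (ContinuousMap.HomotopicRel.refl _))

theorem gsigma_discN {ι : Type} (Y : ι → TopCat.{0}) :
    GSigma (fun i => DiscN.map (Sigma.ι Y i)) := by
  intro k
  have : ConnectedSpace (Disc k) := inferInstance
  constructor
  · rintro ⟨i, x⟩ ⟨j, y⟩ h
    have h1 : ∀ v : Disc k, (⟨i, TopCat.Hom.hom x v⟩ : Σ i, Y i) = ⟨j, TopCat.Hom.hom y v⟩ := by
      intro v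
      rw [← TopCat.sigmaIsoSigma_hom_ι_apply, ← TopCat.sigmaIsoSigma_hom_ι_apply]
      exact congrArg (TopCat.sigmaIsoSigma Y).hom
        (ConcreteCategory.congr_hom (show x ≫ Sigma.ι Y i = y ≫ Sigma.ι Y j from h) v)
    obtain rfl : i = j := congrArg Sigma.fst (h1 ⟨0, by simp⟩)
    obtain rfl : x = y := TopCat.hom_ext (ContinuousMap.ext fun v =>
      sigma_mk_injective (β := fun i => Y i) (h1 v))
    rfl
  · intro (z : discG.obj ⟨k⟩ ⟶ ∐ Y)
    obtain ⟨i, g, hg⟩ := ContinuousMap.exists_lift_sigma (X := Disc k)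
      (z ≫ (TopCat.sigmaIsoSigma Y).hom).hom
    refine ⟨⟨i, TopCat.ofHom g⟩, ?_⟩
    change TopCat.ofHom g ≫ Sigma.ι Y i = z
    rw [← cancel_mono (TopCat.sigmaIsoSigma Y).hom, Category.assoc, TopCat.sigmaIsoSigma_hom_ι]
    exact TopCat.hom_ext hg.symm

end Vale.Agent.P259
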