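import Vale.Agent.P259.Disc

/-! Weak homotopy equivalences in terms of discs. -/

open CategoryTheory Limits Opposite unitInterval

set_option backward.isDefEq.respectTransparency false

noncomputable section

namespace Vale.Agent.P259

theorem d3_geqv_iff {Y : TopCat.{0}} {k : ℕ} (x y : discG.obj ⟨k⟩ ⟶ Y) :
    GEqv (DiscN.obj Y) x y ↔ ContinuousMap.HomotopicRel (X := Disc k) x.hom y.hom
      (Set.range (sphIncl k)) := by
  refine ⟨fun h => ?_, fun h => ((grel_discN_iff x y).2 h).eqv⟩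
  induction h with
  | rel a b h => exact (grel_discN_iff a b).1 h
  | refl a => exact ContinuousMap.HomotopicRel.refl _
  | symm a b _ ih => exact ih.symm
  | trans a b c _ _ ih ih' => exact ih.trans ih'

theorem d3_precomp {W X Y : Type} [TopologicalSpace W] [TopologicalSpace X] [TopologicalSpace Y]
    {f g : C(X, Y)} {S : Set X} (h : f.HomotopicRel g S) (φ : C(W, X)) {T : Set W}
    (hT : ∀ w ∈ T, φ w ∈ S) : (f.comp φ).HomotopicRel (g.comp φ) T := by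
  obtain ⟨H⟩ := h
  exact ⟨⟨⟨H.toContinuousMap.comp ((ContinuousMap.id I).prodMap φ), fun w => H.apply_zero _,
    fun w => H.apply_one _⟩, fun t w hw => H.eq_fst t (hT w hw)⟩⟩

theorem d3_bij_iff {A B : Type*} {sa : Setoid A} {sb : Setoid B} (f : A → B)
    (h : ∀ ⦃a a' : A⦄, a ≈ a' → f a ≈ f a') :
    Function.Bijective (Quotient.map f h) ↔
      (∀ b, ∃ a, sb (f a) b) ∧ ∀ a a', sb (f a) (f a') → sa a a' := by
  constructor
  · rintro ⟨h1, h2⟩
    refine ⟨fun b => ?_, fun a a' e => Quotient.exact (h1 (a₁ := ⟦a⟧) (a₂ := ⟦a'⟧)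
      (Quotient.sound e))⟩
    obtain ⟨q, hq⟩ := h2 ⟦b⟧
    obtain ⟨a, rfl⟩ := Quotient.exists_rep q
    exact ⟨a, Quotient.exact hq⟩
  · rintro ⟨h1, h2⟩
    constructor
    · intro q q' e
      obtain ⟨a, rfl⟩ := Quotient.exists_rep q
      obtain ⟨a', rfl⟩ := Quotient.exists_rep q'
      exact Quotient.sound (h2 a a' (Quotient.exact e))
    · intro q
      obtain ⟨b, rfl⟩ := Quotient.exists_rep q
      obtain ⟨a, ha⟩ := h1 b
      exact ⟨⟦a⟧, Quotient.sound ha⟩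

/-- The point of the zero dimensional disc. -/
def d3pt : Disc 0 := ⟨0, by simp⟩

theorem d3_eq_pt (v : Disc 0) : v = d3pt := Subtype.ext (Subsingleton.elim _ _)

theorem d3_joined {Y : TopCat.{0}} (x y : discG.obj ⟨0⟩ ⟶ Y) :
    GEqv (DiscN.obj Y) x y ↔ Joined (x.hom d3pt) (y.hom d3pt) := by
  rw [d3_geqv_iff]
  constructor
  · rintro ⟨H⟩
    exact ⟨⟨⟨fun t => H (t, d3pt), by fun_prop⟩, H.apply_zero _, H.apply_one _⟩⟩
  · rintro ⟨γ⟩
    refine ⟨⟨⟨⟨fun p => γ p.1, by fun_prop⟩, fun v => ?_, fun v => ?_⟩, ?_⟩⟩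
    · rw [d3_eq_pt v]
      exact γ.source
    · rw [d3_eq_pt v]
      exact γ.target
    · rintro t _ ⟨w, rfl⟩
      exact isEmptyElim w

theorem d3_cube (m : ℕ) : ∃ (φ : C(Fin m → I, Disc m)) (ψ : C(Disc m, Fin m → I)),
    (∀ y, ψ (φ y) = y) ∧ (∀ v, φ (ψ v) = v) ∧
      ∀ y, φ y ∈ Set.range (sphIncl m) ↔ y ∈ Cube.boundary (Fin m) := by
  let e : EuclideanSpace ℝ (Fin m) ≃L[ℝ] (Fin m → ℝ) := EuclideanSpace.equiv (Fin m) ℝ
  let c : Set (Fin m → ℝ) := Set.pi Set.univ fun _ => Set.Icc 0 1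
  have hcc : IsCompact c := isCompact_univ_pi fun _ => isCompact_Icc
  have hi : interior c = Set.pi Set.univ fun _ => Set.Ioo 0 1 := by
    rw [interior_pi_set Set.finite_univ]
    simp only [interior_Icc]
  have hsi : interior (e ⁻¹' c) = e ⁻¹' interior c := (e.toHomeomorph.preimage_interior c).symm
  have hsc : IsCompact (e ⁻¹' c) := e.toHomeomorph.isCompact_preimage.2 hcc
  obtain ⟨h, h1, h2, -⟩ := exists_homeomorph_image_interior_closure_frontier_eq_unitBall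
    (s := e ⁻¹' c) ((convex_pi fun _ _ => convex_Icc 0 1).linear_preimage e.toLinearMap)
    ⟨e.symm fun _ => 1 / 2, by
      rw [hsi, hi, Set.mem_preimage, e.apply_symm_apply]
      exact fun _ _ => by norm_num⟩ hsc.isBounded
  rw [hsc.isClosed.closure_eq] at h2
  have m1 : ∀ y : Fin m → I, h (e.symm fun i => y i) ∈
      Metric.closedBall (0 : EuclideanSpace ℝ (Fin m)) 1 := fun y => by
    rw [← h2]
    refine Set.mem_image_of_mem _ ?_
    rw [Set.mem_preimage, e.apply_symm_apply]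
    exact fun i _ => (y i).2
  have m2 : ∀ (v : Disc m) (i : Fin m), e (h.symm v.1) i ∈ I := fun v i => by
    obtain ⟨w, hw, e'⟩ := (h2.symm ▸ v.2 : v.1 ∈ h '' (e ⁻¹' c))
    rw [← e', h.symm_apply_apply]
    exact hw i trivial
  refine ⟨⟨fun y => ⟨_, m1 y⟩, by fun_prop⟩, ⟨fun v i => ⟨_, m2 v i⟩, by fun_prop⟩,
    fun y => funext fun i => Subtype.ext ?_, fun v => Subtype.ext ?_, fun y => ?_⟩
  · change e (h.symm (h (e.symm fun i => y i))) i = y i
    rw [h.symm_apply_apply, e.apply_symm_apply]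
  · change h (e.symm (e (h.symm v.1))) = v.1
    rw [e.symm_apply_apply, h.apply_symm_apply]
  · have key : ‖h (e.symm fun i => y i)‖ < 1 ↔ ∀ i, (y i : ℝ) ∈ Set.Ioo 0 1 := by
      rw [← mem_ball_zero_iff, ← h1, h.injective.mem_set_image, hsi, hi, Set.mem_preimage,
        e.apply_symm_apply]
      exact ⟨fun a i => a i trivial, fun a i _ => a i⟩
    have hle := mem_closedBall_zero_iff.1 (m1 y)
    rw [mem_range_sphIncl]
    change ‖h (e.symm fun i => y i)‖ = 1 ↔ ∃ i, y i = 0 ∨ y i = 1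
    constructor
    · intro a
      by_contra hc
      push Not at hc
      exact (key.2 fun i => ⟨lt_of_le_of_ne (y i).2.1 fun b => (hc i).1 (Subtype.ext b.symm),
        lt_of_le_of_ne (y i).2.2 fun b => (hc i).2 (Subtype.ext b)⟩).ne a
    · rintro ⟨i, a⟩
      refine le_antisymm hle (not_lt.1 fun b => ?_)
      have := key.1 b i
      rcases a with a | a <;> simp [a] at this

theorem d3_loop_iff {Y : TopCat.{0}} {n : ℕ} (a : discG.obj ⟨n + 1⟩ ⟶ Y)
    (x : discG.obj ⟨0⟩ ⟶ Y) : (∀ b, fa (DiscN.obj Y) b a = cstT n ≫ x) ↔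
      ∀ v ∈ Set.range (sphIncl (n + 1)), a.hom v = x.hom d3pt := by
  simp only [fa_discN]
  constructor
  · rintro h _ ⟨z, rfl⟩
    obtain ⟨b, w, rfl⟩ := hemiS_surj z
    have h1 := DFunLike.congr_fun (congrArg TopCat.Hom.hom (h b)) w
    exact h1.trans (congrArg x.hom (d3_eq_pt _))
  · intro h b
    exact TopCat.hom_ext (ContinuousMap.ext fun w => (h _ ⟨hemiS b n w, rfl⟩).trans
      (congrArg x.hom (d3_eq_pt _).symm))

theorem wht_iff {X Y : TopCat.{0}} (f : X ⟶ Y) :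
    WHT f ↔ GW0 (DiscN.map f) (fun x n => cstT n ≫ x) := by
  have pt : ∀ {Z : TopCat.{0}} (z : Z), ∃ x : discG.obj ⟨0⟩ ⟶ Z, x.hom d3pt = z := fun z =>
    ⟨TopCat.ofHom (ContinuousMap.const _ z), rfl⟩
  have h0 : Function.Bijective (topPi0Map f.hom) ↔
      (∀ y : Ce (DiscN.obj Y) 0, ∃ x, GEqv _ (ap (DiscN.map f) x) y) ∧
      ∀ x x' : Ce (DiscN.obj X) 0, GEqv _ (ap (DiscN.map f) x) (ap (DiscN.map f) x') →
        GEqv _ x x' := by
    refine (d3_bij_iff _ _).trans (and_congr ⟨fun h y => ?_, fun h y => ?_⟩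
      ⟨fun h x x' e => ?_, fun h x x' e => ?_⟩)
    · obtain ⟨z, hz⟩ := h (TopCat.Hom.hom y d3pt)
      obtain ⟨x, rfl⟩ := pt z
      exact ⟨x, (d3_joined _ _).2 hz⟩
    · obtain ⟨y, rfl⟩ := pt y
      obtain ⟨x, hx⟩ := h y
      exact ⟨_, (d3_joined _ _).1 hx⟩
    · exact (d3_joined _ _).2 (h _ _ ((d3_joined _ _).1 e))
    · obtain ⟨x, rfl⟩ := pt x
      obtain ⟨x', rfl⟩ := pt x'
      exact (d3_joined _ _).1 (h x x' ((d3_joined _ _).2 e))
  have h1 : ∀ (x : discG.obj ⟨0⟩ ⟶ X) (n : ℕ),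
      Function.Bijective (topPiMap f.hom (x.hom d3pt) (n + 1)) ↔
      (∀ y : Ce (DiscN.obj Y) (n + 1), (∀ b, fa _ b y = ap (DiscN.map f) (cstT n ≫ x)) →
        ∃ a, (∀ b, fa (DiscN.obj X) b a = cstT n ≫ x) ∧ GEqv _ (ap (DiscN.map f) a) y) ∧
      ∀ a a' : Ce (DiscN.obj X) (n + 1), (∀ b, fa _ b a = cstT n ≫ x) →
        (∀ b, fa _ b a' = cstT n ≫ x) →
        GEqv _ (ap (DiscN.map f) a) (ap (DiscN.map f) a') → GEqv _ a a' := by
    intro x n
    obtain ⟨φ, ψ, e1, e2, hb⟩ := d3_cube (n + 1)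
    have hψ : ∀ v ∈ Set.range (sphIncl (n + 1)), ψ v ∈ Cube.boundary (Fin (n + 1)) :=
      fun v hv => (hb _).1 (by rwa [e2])
    have c1 : ∀ {Z : TopCat.{0}} (p : C(Fin (n + 1) → I, Z)), (p.comp ψ).comp φ = p := fun p =>
      ContinuousMap.ext fun y => congrArg p (e1 y)
    have c2 : ∀ {Z : TopCat.{0}} (p : C(Disc (n + 1), Z)), (p.comp φ).comp ψ = p := fun p =>
      ContinuousMap.ext fun y => congrArg p (e2 y)
    refine (d3_bij_iff _ _).trans (and_congr ⟨fun h y hy => ?_, fun h q => ?_⟩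
      ⟨fun h a a' ha ha' e => ?_, fun h p p' e => ?_⟩)
    · obtain ⟨p, hp⟩ := h ⟨(TopCat.Hom.hom y).comp φ, fun z hz =>
        (d3_loop_iff y (x ≫ f)).1 hy _ ((hb z).2 hz)⟩
      refine ⟨TopCat.ofHom (p.1.comp ψ), (d3_loop_iff _ x).2 fun v hv => p.2 _ (hψ v hv),
        (d3_geqv_iff _ _).2 ?_⟩
      have := d3_precomp hp ψ hψ
      rwa [c2] at this
    · obtain ⟨a, ha, e⟩ := h (TopCat.ofHom (q.1.comp ψ))
        ((d3_loop_iff _ (x ≫ f)).2 fun v hv => q.2 _ (hψ v hv))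
      refine ⟨⟨(TopCat.Hom.hom a).comp φ, fun z hz =>
        (d3_loop_iff a x).1 ha _ ((hb z).2 hz)⟩, ?_⟩
      have := d3_precomp ((d3_geqv_iff _ _).1 e) φ fun z hz => (hb z).2 hz
      change ContinuousMap.HomotopicRel _ q.1 _
      rw [← c1 q.1]
      exact this
    · have := d3_precomp (h
        ⟨(TopCat.Hom.hom a).comp φ, fun z hz => (d3_loop_iff a x).1 ha _ ((hb z).2 hz)⟩
        ⟨(TopCat.Hom.hom a').comp φ, fun z hz => (d3_loop_iff a' x).1 ha' _ ((hb z).2 hz)⟩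
        (d3_precomp ((d3_geqv_iff _ _).1 e) φ fun z hz => (hb z).2 hz)) ψ hψ
      rw [c2, c2] at this
      exact (d3_geqv_iff _ _).2 this
    · have := d3_precomp ((d3_geqv_iff _ _).1 (h (TopCat.ofHom (p.1.comp ψ))
        (TopCat.ofHom (p'.1.comp ψ)) ((d3_loop_iff _ x).2 fun v hv => p.2 _ (hψ v hv))
        ((d3_loop_iff _ x).2 fun v hv => p'.2 _ (hψ v hv))
        ((d3_geqv_iff _ _).2 (d3_precomp e ψ hψ)))) φ fun z hz => (hb z).2 hz
      change ContinuousMap.HomotopicRel p.1 p'.1 _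
      rw [← c1 p.1, ← c1 p'.1]
      exact this
  constructor
  · rintro ⟨a, b⟩
    exact ⟨(h0.1 a).1, (h0.1 a).2, fun x n => ((h1 x n).1 (b _ n)).1,
      fun x n => ((h1 x n).1 (b _ n)).2⟩
  · rintro ⟨a, b, c, d⟩
    refine ⟨h0.2 ⟨a, b⟩, fun z n => ?_⟩
    obtain ⟨x, rfl⟩ := pt z
    exact (h1 x n).2 ⟨c x n, d x n⟩

end Vale.Agent.P259
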