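import Vale.Agent.P259.Boot

/-! Factorizations, coproducts and cellular replacement. -/

open CategoryTheory Limits Opposite

set_option backward.isDefEq.respectTransparency false

noncomputable section

namespace Vale.Agent.P259

variable {E : GlobExt}

theorem tfib_eq : TFib E ⊤ 0 = (MorphismProperty.ofHoms (ii E ⊤)).rlp := by
  ext X Y q
  exact ⟨fun h _ _ _ ⟨k⟩ => h k (Nat.zero_le k), fun h k _ => h _ ⟨k⟩⟩

theorem fib_eq : Fib E ⊤ 0 = (MorphismProperty.ofHoms (df E ⊤ false)).rlp := by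
  ext X Y q
  exact ⟨fun h _ _ _ ⟨k⟩ => h k (Nat.zero_le k), fun h k _ => h _ ⟨k⟩⟩

theorem exists_cof_tfib {X Y : A E ⊤} (f : X ⟶ Y) :
    ∃ (Z : A E ⊤) (j : X ⟶ Z) (q : Z ⟶ Y), Cof E ⊤ 0 j ∧ TFib E ⊤ 0 q ∧ j ≫ q = f := by
  have := hasSOA_ofHoms (ii E ⊤) (fun _ => inferInstance)
  let d := MorphismProperty.factorizationData (MorphismProperty.ofHoms (ii E ⊤)).rlp.llp
    (MorphismProperty.ofHoms (ii E ⊤)).rlp f
  exact ⟨d.Z, d.i, d.p, by rw [Cof, tfib_eq]; exact d.hi, by rw [tfib_eq]; exact d.hp, d.fac⟩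

theorem exists_an_fib {X Y : A E ⊤} (f : X ⟶ Y) :
    ∃ (Z : A E ⊤) (j : X ⟶ Z) (q : Z ⟶ Y), An E ⊤ 0 j ∧ Fib E ⊤ 0 q ∧ j ≫ q = f := by
  have := hasSOA_ofHoms (df E ⊤ false) (fun _ => inferInstance)
  let d := MorphismProperty.factorizationData (MorphismProperty.ofHoms (df E ⊤ false)).rlp.llp
    (MorphismProperty.ofHoms (df E ⊤ false)).rlp f
  exact ⟨d.Z, d.i, d.p, by rw [An, fib_eq]; exact d.hi, by rw [fib_eq]; exact d.hp, d.fac⟩

theorem caStat (hE : IsCoherator E) : CAStat E ⊤ := by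
  intro X Y j hj hX hc hY
  obtain ⟨Z, a, q, ha, hq, rfl⟩ := exists_an_fib j
  have hZ := gstat_top hE a ha hX hc
  have hq' : TFib E ⊤ 0 q := (tfib_iff q).2 fun k hk s y hy => by
    obtain ⟨x, hx⟩ := hZ k s
    obtain ⟨c, h₀, h₁⟩ := GContr.rel hY (x := ap ((U E ⊤).map q) x) (y := y)
      (bd_eq_iff.1 (by rw [bd_ap, hx, hy]))
    obtain ⟨c', h₂, h₃⟩ := (fib_iff q).1 hq k hk x c h₀
    refine ⟨fa _ true c', ?_, by rw [← fa_ap, h₃, h₁]⟩
    rw [← hx, ← h₂]
    exact bd_eq_iff.2 (gpar_fa _ _ _ _)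
  have := hj q hq'
  exact MorphismProperty.of_retract (RetractArrow.ofLeftLiftingProperty rfl) ha

/-- The pointwise disjoint union of models. -/
def sigA {ι : Type} (X : ι → A E ⊤) : A E ⊤ where
  obj :=
    { obj := fun S => Σ i, (X i).obj.obj S
      map := fun h => ↾fun p => ⟨p.1, (X p.1).obj.map h p.2⟩ }
  property := ⟨fun l T j i h₁ h₂ => by
    have H := fun a => (Types.isPullback_iff _ _ _ _).1 ((X a).property.1 l T j i h₁ h₂)
    refine (Types.isPullback_iff _ _ _ _).2 ⟨?_, ?_, ?_⟩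
    · refine ConcreteCategory.hom_ext _ _ fun ⟨a, x⟩ => ?_
      exact congrArg (Sigma.mk a) (ConcreteCategory.congr_hom (H a).1 x)
    · rintro ⟨a, x⟩ ⟨b, y⟩ ⟨e₁, e₂⟩
      obtain rfl : a = b := congrArg Sigma.fst e₁
      exact congrArg _ ((H a).2.1 x y
        ⟨eq_of_heq (Sigma.mk.inj e₁).2, eq_of_heq (Sigma.mk.inj e₂).2⟩)
    · rintro ⟨a, x⟩ ⟨b, y⟩ e
      obtain rfl : a = b := congrArg Sigma.fst e
      obtain ⟨z, h, h'⟩ := (H a).2.2 x y (eq_of_heq (Sigma.mk.inj e).2)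
      exact ⟨⟨a, z⟩, congrArg (Sigma.mk a) h, congrArg (Sigma.mk a) h'⟩, cosk_top _⟩

/-- The inclusion of a summand. -/
def sigι {ι : Type} (X : ι → A E ⊤) (i : ι) : X i ⟶ sigA X :=
  ObjectProperty.homMk { app := fun _ => ↾fun x => ⟨i, x⟩ }

/-- The pointwise disjoint union is a coproduct. -/
def sigCol {ι : Type} (X : ι → A E ⊤) : IsColimit (Cofan.mk (sigA X) (sigι X)) :=
  Cofan.IsColimit.mk _
    (fun s => ObjectProperty.homMk
      { app := fun S => ↾fun p => (s.inj p.1).hom.app S p.2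
        naturality := fun _ _ h => by
          ext ⟨a, x⟩
          exact NatTrans.naturality_apply (s.inj a).hom h x })
    (fun _ _ => rfl)
    (fun s m hm => by
      ext S ⟨a, x⟩
      exact ConcreteCategory.congr_hom (congr_app (congrArg (·.hom) (hm a)) S) x)

/-- Coproducts of models are computed on cells. -/
theorem gsigma_U {ι : Type} (X : ι → A E ⊤) :
    GSigma (fun i => (U E ⊤).map (Sigma.ι X i)) := by
  intro k
  let e : ∐ X ≅ sigA X := (colimit.isColimit _).coconePointUniqueUpToIso (sigCol X)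
  have he : ∀ i, Sigma.ι X i ≫ e.hom = sigι X i := fun i =>
    (colimit.isColimit _).comp_coconePointUniqueUpToIso_hom (sigCol X) ⟨i⟩
  let S := (io E).obj (disc k)
  have h₁ : Function.Bijective (fun x : dd E ⊤ k ⟶ ∐ X => dEquiv S (sigA X) (x ≫ e.hom)) :=
    (dEquiv S (sigA X)).bijective.comp (e.homToEquiv (Z := dd E ⊤ k)).bijective
  rw [← Function.Bijective.of_comp_iff' h₁]
  have h₂ := (Equiv.sigmaCongrRight (fun i => dEquiv S (X i))).bijective
  refine (congrArg Function.Bijective ?_).mpr h₂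
  funext ⟨i, x⟩
  change dEquiv S (sigA X) ((x ≫ Sigma.ι X i) ≫ e.hom) = _
  rw [Category.assoc, he, dEquiv_right]
  rfl

variable (E) in
/-- A stage of the cellular replacement. -/
structure Stg where
  Z : A E ⊤ ⥤ A E ⊤
  π : Z ⟶ 𝟭 _

/-- A stage as a functor to arrows. -/
def Stg.arr (s : Stg E) : A E ⊤ ⥤ Arrow (A E ⊤) where
  obj X := Arrow.mk (s.π.app X)
  map g := Arrow.homMk (s.Z.map g) g (s.π.naturality g)

/-- The next stage. -/
def Stg.next (s : Stg E) : Stg E where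
  Z := s.arr ⋙ SmallObject.functor (ii E ⊤) ⋙ Arrow.leftFunc
  π := { app := fun X => SmallObject.πFunctorObj (ii E ⊤) (s.π.app X)
         naturality := fun _ _ g => SmallObject.functorMap_π (ii E ⊤) (s.arr.map g) }

/-- The map to the next stage. -/
def Stg.ι (s : Stg E) : s.Z ⟶ s.next.Z where
  app X := SmallObject.ιFunctorObj (ii E ⊤) (s.π.app X)
  naturality _ _ g := (SmallObject.ιFunctorObj_naturality (ii E ⊤) (s.arr.map g)).symm

variable (E) in
/-- The sequence of stages. -/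
def stg : ℕ → Stg E
  | 0 => ⟨(Functor.const _).obj (⊥_ _), { app := fun _ => initial.to _ }⟩
  | r + 1 => (stg r).next

variable (E) in
/-- The sequence of stages as a functor. -/
def stgF : ℕ ⥤ (A E ⊤ ⥤ A E ⊤) := Functor.ofSequence (X := fun r => (stg E r).Z) fun r => (stg E r).ι

theorem stgF_map (r : ℕ) : (stgF E).map (homOfLE (Nat.le_succ r)) = (stg E r).ι :=
  Functor.ofSequence_map_homOfLE_succ _ r

variable (E) in
/-- The projections of the stages. -/
def stgC : Cocone (stgF E) where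
  pt := 𝟭 _
  ι := NatTrans.ofSequence (fun r => (stg E r).π) (fun r => by
    rw [stgF_map]
    ext X : 2
    exact (SmallObject.ιFunctorObj_πFunctorObj _ _).trans (Category.comp_id _).symm)

/-- Functorial cellular replacement. -/
theorem exists_cellular : ∃ (Q : A E ⊤ ⥤ A E ⊤) (π : Q ⟶ 𝟭 _),
    (∀ X, TFib E ⊤ 0 (π.app X)) ∧ ∀ X, Nonempty ((ST E ⊤).CellSeq (Q.obj X)) := by
  have col := fun X : A E ⊤ =>
    isColimitOfPreserves ((evaluation _ _).obj X) (colimit.isColimit (stgF E))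
  have hπ : ∀ r X, (colimit.ι (stgF E) r).app X ≫ (colimit.desc _ (stgC E)).app X =
      (stg E r).π.app X := fun r X => congr_app (colimit.ι_desc (stgC E) r) X
  refine ⟨colimit (stgF E), colimit.desc _ (stgC E), fun X k _ => ⟨fun {s x} sq => ?_⟩,
    fun X => ⟨⟨stgF E ⋙ (evaluation _ _).obj X, initialIsInitial, fun r => ?_, _, col X⟩⟩⟩
  · obtain ⟨r, t, rfl⟩ := IsFinitelyPresentable.exists_hom_of_isColimit (col X) s
    obtain ⟨l, h₁, h₂⟩ := SmallObject.ιFunctorObj_extension (ii E ⊤) (πX := (stg E r).π.app X)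
      t x ⟨by rw [← sq.w, ← hπ]; exact (Category.assoc _ _ _).symm⟩
    refine CommSq.HasLift.mk' ⟨l ≫ (colimit.ι (stgF E) (r + 1)).app X, ?_, ?_⟩
    · have := congr_app (colimit.w (stgF E) (homOfLE (Nat.le_succ r))) X
      rw [stgF_map] at this
      rw [← Category.assoc, h₁, Category.assoc]
      exact congrArg _ this
    · rw [Category.assoc, hπ]
      exact h₂
  · rw [Functor.comp_map, stgF_map]
    exact ⟨_, fun i : SmallObject.FunctorObjIndex (ii E ⊤) ((stg E r).π.app X) => i.i, _, _,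
      SmallObject.functorObj_isPushout (ii E ⊤) ((stg E r).π.app X)⟩

end Vale.Agent.P259
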