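import Vale.Agent.P259.Basic

/-! Lemmas on globular sets: extension cell by cell, and the class `GW`. -/

open CategoryTheory Limits Opposite

set_option backward.isDefEq.respectTransparency false

noncomputable section

namespace Vale.Agent.P259

theorem exists_seq_dep {L : ℕ → Type*} (R : ∀ k, L k → L (k + 1) → Prop) (l0 : L 0)
    (hs : ∀ k (l : L k), ∃ l', R k l l') : ∃ s : ∀ k, L k, ∀ k, R k (s k) (s (k + 1)) := by
  choose f hf using hs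
  exact ⟨fun k => Nat.rec l0 f k, fun k => hf k _⟩

/-- Extension of a low-dimensional map of globular sets, cell by cell, under a constraint `Ok`. -/
theorem gl_extend {K E : GS} (Ok : ∀ k, Ce K k → Ce E k → Prop) (n : ℕ)
    (a : ∀ k, k < n → Ce K k → Ce E k)
    (ha : ∀ b k (h : k + 1 < n) (x : Ce K (k + 1)),
      a k (Nat.lt_of_succ_lt h) (fa K b x) = fa E b (a (k + 1) h x))
    (hok : ∀ k h x, Ok k x (a k h x))
    (h0 : n = 0 → ∀ x : Ce K 0, ∃ e, Ok 0 x e)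
    (hs : ∀ k, n ≤ k + 1 → ∀ (x : Ce K (k + 1)) (e₀ e₁ : Ce E k), GPar E e₀ e₁ →
      Ok k (fa K false x) e₀ → Ok k (fa K true x) e₁ →
      ∃ e, fa E false e = e₀ ∧ fa E true e = e₁ ∧ Ok (k + 1) x e) :
    ∃ f : K ⟶ E, (∀ k h x, ap f x = a k h x) ∧ ∀ k x, Ok k x (ap f x) := by
  let L : ℕ → Type := fun k => {c : Ce K k → Ce E k // (∀ x, Ok k x (c x)) ∧
    (∀ (h : k < n) x, c x = a k h x) ∧ ∀ x y, GPar K x y → GPar E (c x) (c y)}
  have l0 : Nonempty (L 0) := by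
    by_cases h : 0 < n
    · exact ⟨⟨a 0 h, hok 0 h, fun _ _ => rfl, fun _ _ _ => trivial⟩⟩
    · choose e he using h0 (by omega)
      exact ⟨⟨e, he, fun h' => absurd h' h, fun _ _ _ => trivial⟩⟩
  have key : ∀ k (l : L k), ∃ l' : L (k + 1),
      ∀ b x, l.1 (fa K b x) = fa E b (l'.1 x) := by
    intro k l
    have aux : ∃ c : Ce K (k + 1) → Ce E (k + 1), (∀ x, Ok (k + 1) x (c x)) ∧
        (∀ (h : k + 1 < n) x, c x = a (k + 1) h x) ∧ ∀ b x, l.1 (fa K b x) = fa E b (c x) := by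
      by_cases h : k + 1 < n
      · refine ⟨a (k + 1) h, hok _ h, fun _ _ => rfl, fun b x => ?_⟩
        rw [l.2.2.1 (Nat.lt_of_succ_lt h), ha]
      · choose e he0 he1 he using fun x => hs k (by omega) x _ _
          (l.2.2.2 _ _ (gpar_fa K false true x)) (l.2.1 _) (l.2.1 _)
        refine ⟨e, he, fun h' => absurd h' h, fun b x => ?_⟩
        cases b
        · exact (he0 x).symm
        · exact (he1 x).symm
    obtain ⟨c, h1, h2, h3⟩ := aux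
    refine ⟨⟨c, h1, h2, fun x y hxy b => ?_⟩, h3⟩
    rw [← h3, ← h3, hxy b]
  obtain ⟨s, hs'⟩ := exists_seq_dep _ l0.some key
  exact ⟨gsMk (fun k => (s k).1) (fun b k x => hs' k b x), fun k h x => (s k).2.2.1 h x,
    fun k x => (s k).2.1 x⟩

/-- Natural version: the cells of `X` are freely generated by universal cells `ξ`. -/
theorem nat_gl {ι : Type*} [Category ι] (X Z : ι ⥤ GS)
    (Ok : ∀ T k, Ce (X.obj T) k → Ce (Z.obj T) k → Prop)
    (hnat : ∀ {T T' : ι} (u : T ⟶ T') k x z, Ok T k x z →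
      Ok T' k (ap (X.map u) x) (ap (Z.map u) z))
    (J : ℕ → Type*) (T : ∀ k, J k → ι) (ξ : ∀ k j, Ce (X.obj (T k j)) k)
    (rep : ∀ k (T' : ι) (x : Ce (X.obj T') k),
      ∃! p : Σ j, (T k j ⟶ T'), ap (X.map p.2) (ξ k p.1) = x)
    (h0 : ∀ j, ∃ z, Ok (T 0 j) 0 (ξ 0 j) z)
    (hs : ∀ k j (z₀ z₁ : Ce (Z.obj (T (k + 1) j)) k), GPar _ z₀ z₁ →
      Ok _ k (fa _ false (ξ (k + 1) j)) z₀ → Ok _ k (fa _ true (ξ (k + 1) j)) z₁ →
      ∃ z, fa _ false z = z₀ ∧ fa _ true z = z₁ ∧ Ok _ (k + 1) (ξ (k + 1) j) z) :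
    ∃ κ : X ⟶ Z, ∀ T k x, Ok T k x (ap (κ.app T) x) := by
  have ext : ∀ k (z : ∀ j, Ce (Z.obj (T k j)) k),
      ∃ c : ∀ T', Ce (X.obj T') k → Ce (Z.obj T') k,
        (∀ j T' (u : T k j ⟶ T'), c T' (ap (X.map u) (ξ k j)) = ap (Z.map u) (z j)) := by
    intro k z
    choose p hp using rep k
    refine ⟨fun T' x => ap (Z.map (p T' x).2) (z (p T' x).1), fun j T' u => ?_⟩
    have := (hp T' (ap (X.map u) (ξ k j))).2 ⟨j, u⟩ rfl
    beta_reduce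
    rw [← this]
  have ind : ∀ k (P : ∀ T', Ce (X.obj T') k → Prop),
      (∀ j T' (u : T k j ⟶ T'), P T' (ap (X.map u) (ξ k j))) → ∀ T' x, P T' x := by
    intro k P h T' x
    obtain ⟨⟨j, u⟩, rfl, -⟩ := rep k T' x
    exact h j T' u
  have nat : ∀ k (z : ∀ j, Ce (Z.obj (T k j)) k) (c : ∀ T', Ce (X.obj T') k → Ce (Z.obj T') k),
      (∀ j T' (u : T k j ⟶ T'), c T' (ap (X.map u) (ξ k j)) = ap (Z.map u) (z j)) →
      ∀ T' x T'' (v : T' ⟶ T''), c T'' (ap (X.map v) x) = ap (Z.map v) (c T' x) := by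
    intro k z c hc
    refine ind k _ fun j T' u T'' v => ?_
    rw [hc, ← ap_comp, ← ap_comp, ← X.map_comp, ← Z.map_comp, hc]
  let L : ℕ → Type _ := fun k => {c : ∀ T', Ce (X.obj T') k → Ce (Z.obj T') k //
    (∀ T' x T'' (v : T' ⟶ T''), c T'' (ap (X.map v) x) = ap (Z.map v) (c T' x)) ∧
    (∀ T' x, Ok T' k x (c T' x)) ∧ ∀ T' x y, GPar _ x y → GPar _ (c T' x) (c T' y)}
  have l0 : Nonempty (L 0) := by
    choose z hz using h0
    obtain ⟨c, hc⟩ := ext 0 z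
    refine ⟨⟨c, nat 0 z c hc, ind 0 _ fun j T' u => ?_, fun _ _ _ _ => trivial⟩⟩
    rw [hc]
    exact hnat u 0 _ _ (hz j)
  have key : ∀ k (l : L k), ∃ l' : L (k + 1),
      ∀ T' x b, l.1 T' (fa _ b x) = fa _ b (l'.1 T' x) := by
    intro k l
    choose z hz0 hz1 hz using fun j => hs k j _ _
      (l.2.2.2 _ _ _ (gpar_fa _ false true (ξ (k + 1) j))) (l.2.2.1 _ _) (l.2.2.1 _ _)
    obtain ⟨c, hc⟩ := ext (k + 1) z
    have h3 : ∀ T' x b, l.1 T' (fa _ b x) = fa _ b (c T' x) := by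
      refine ind (k + 1) _ fun j T' u b => ?_
      rw [hc, fa_ap, fa_ap, l.2.1]
      cases b
      · rw [hz0]
      · rw [hz1]
    refine ⟨⟨c, nat _ z c hc, ind _ _ fun j T' u => ?_, fun T' x y hxy b => ?_⟩, h3⟩
    · rw [hc]
      exact hnat u _ _ _ (hz j)
    · rw [← h3, ← h3, hxy b]
  obtain ⟨s, hs'⟩ := exists_seq_dep _ l0.some key
  refine ⟨⟨fun T' => gsMk (fun k => (s k).1 T') (fun b k x => hs' k T' x b), fun T' T'' v => ?_⟩,
    fun T' k x => (s k).2.2.1 T' x⟩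
  exact gs_ext fun k x => (s k).2.1 T' x T'' v

theorem GRel.ap {X Y : GS} (f : X ⟶ Y) {k : ℕ} {x y : Ce X k} (h : GRel X x y) :
    GRel Y (ap f x) (ap f y) := by
  obtain ⟨c, rfl, rfl⟩ := h
  exact ⟨P259.ap f c, fa_ap f _ c, fa_ap f _ c⟩

theorem GEqv.ap {X Y : GS} (f : X ⟶ Y) {k : ℕ} {x y : Ce X k} (h : GEqv X x y) :
    GEqv Y (ap f x) (ap f y) := by
  induction h with
  | rel x y h => exact Relation.EqvGen.rel _ _ (h.ap f)
  | refl x => exact Relation.EqvGen.refl _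
  | symm x y _ ih => exact Relation.EqvGen.symm _ _ ih
  | trans x y z _ _ ih ih' => exact Relation.EqvGen.trans _ _ _ ih ih'

theorem GRel.par {X : GS} {k : ℕ} {x y : Ce X k} (h : GRel X x y) : GPar X x y := by
  obtain ⟨c, rfl, rfl⟩ := h
  exact gpar_fa X _ _ c

theorem GEqv.par {X : GS} {k : ℕ} {x y : Ce X k} (h : GEqv X x y) : GPar X x y := by
  induction h with
  | rel x y h => exact h.par
  | refl x => exact GPar.refl X x
  | symm x y _ ih => exact ih.symm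
  | trans x y z _ _ ih ih' => exact ih.trans ih'

theorem GEqv.refl (X : GS) {k : ℕ} (x : Ce X k) : GEqv X x x := Relation.EqvGen.refl _

theorem GEqv.symm {X : GS} {k : ℕ} {x y : Ce X k} (h : GEqv X x y) : GEqv X y x :=
  Relation.EqvGen.symm _ _ h

theorem GEqv.trans {X : GS} {k : ℕ} {x y z : Ce X k} (h : GEqv X x y) (h' : GEqv X y z) :
    GEqv X x z := Relation.EqvGen.trans _ _ _ h h'

theorem GRel.eqv {X : GS} {k : ℕ} {x y : Ce X k} (h : GRel X x y) : GEqv X x y :=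
  Relation.EqvGen.rel _ _ h

theorem GContr.rel {X : GS} (h : GContr X) {k : ℕ} {x y : Ce X k} (p : GPar X x y) :
    GRel X x y := by
  obtain ⟨c, hc⟩ := h (k + 1) (sphMk x y p)
  exact ⟨c, bd_eq_sphMk.1 hc⟩

theorem GLift.comp {X Y Z : GS} {f : X ⟶ Y} {g : Y ⟶ Z} {k : ℕ} (hf : GLift f k)
    (hg : GLift g k) : GLift (f ≫ g) k := by
  intro s z hz
  rw [smap_comp] at hz
  obtain ⟨y, hy, rfl⟩ := hg _ z hz
  obtain ⟨x, hx, rfl⟩ := hf _ y hy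
  exact ⟨x, hx, rfl⟩

theorem GLift.of_isIso {X Y : GS} (f : X ⟶ Y) [IsIso f] (k : ℕ) : GLift f k := by
  intro s y hy
  refine ⟨ap (inv f) y, ?_, ?_⟩
  · rw [bd_ap, hy, ← smap_comp, IsIso.hom_inv_id, smap_id]
  · rw [← ap_comp, IsIso.inv_hom_id, ap_id]

/-- A map bijective on cells of dimension `≤ k` lifts `k`-cells. -/
theorem GLift.of_bijective {X Y : GS} (f : X ⟶ Y) (k : ℕ)
    (h : ∀ j ≤ k, Function.Bijective (ap f (k := j))) : GLift f k := by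
  intro s y hy
  obtain ⟨x, rfl⟩ := (h k le_rfl).2 y
  refine ⟨x, ?_, rfl⟩
  cases k with
  | zero => rfl
  | succ k =>
    have h1 := bd_eq_succ.1 hy
    rw [fa_ap, fa_ap] at h1
    exact bd_eq_succ.2 ⟨(h k (Nat.le_succ k)).1 h1.1, (h k (Nat.le_succ k)).1 h1.2⟩

theorem GLift.of_arrow_iso {X Y X' Y' : GS} {f : X ⟶ Y} {f' : X' ⟶ Y'} (e : X ≅ X')
    (e' : Y ≅ Y') (w : f ≫ e'.hom = e.hom ≫ f') {k : ℕ} (h : GLift f k) : GLift f' k := by
  have : f' = e.inv ≫ f ≫ e'.hom := by rw [w, e.inv_hom_id_assoc]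
  rw [this]
  exact (GLift.of_isIso _ k).comp (h.comp (GLift.of_isIso _ k))

theorem GFib.of_arrow_iso {X Y X' Y' : GS} {f : X ⟶ Y} {f' : X' ⟶ Y'} (e : X ≅ X')
    (e' : Y ≅ Y') (w : f ≫ e'.hom = e.hom ≫ f') {k : ℕ} (h : GFib f k) : GFib f' k := by
  have e1 : f' = e.inv ≫ f ≫ e'.hom := by rw [w, e.inv_hom_id_assoc]
  have e2 : e.hom ≫ f' ≫ e'.inv = f := by rw [← reassoc_of% w, e'.hom_inv_id, Category.comp_id]
  intro x y hy
  obtain ⟨c, hc, hc'⟩ := h (ap e.inv x) (ap e'.inv y) (by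
    rw [fa_ap, hy, ← ap_comp, ← ap_comp, ← e2, e.inv_hom_id_assoc])
  refine ⟨ap e.hom c, ?_, ?_⟩
  · rw [fa_ap, hc, ← ap_comp, e.inv_hom_id, ap_id]
  · rw [← ap_comp, ← w, ap_comp, hc', ← ap_comp, e'.inv_hom_id, ap_id]

theorem GContr.of_iso {X Y : GS} (e : X ≅ Y) (h : GContr X) : GContr Y := by
  intro k s
  obtain ⟨x, hx⟩ := h k (smap e.inv s)
  exact ⟨ap e.hom x, by rw [bd_ap, hx, ← smap_comp, e.inv_hom_id, smap_id]⟩

theorem Cosk.of_iso {K : ℕ∞} {X Y : GS} (e : X ≅ Y) (h : Cosk K X) : Cosk K Y := by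
  intro k hk
  constructor
  · intro y y' hy
    have : ap e.inv y = ap e.inv y' := (h k hk).1 (by rw [bd_ap, bd_ap, hy])
    have h2 := congrArg (ap e.hom) this
    rwa [← ap_comp, ← ap_comp, e.inv_hom_id, ap_id, ap_id] at h2
  · intro s
    obtain ⟨x, hx⟩ := (h k hk).2 (smap e.inv s)
    exact ⟨ap e.hom x, by rw [bd_ap, hx, ← smap_comp, e.inv_hom_id, smap_id]⟩

theorem GContr.of_glift {X Y : GS} {q : X ⟶ Y} (h : ∀ k, GLift q k) (hY : GContr Y) :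
    GContr X := by
  intro k s
  obtain ⟨y, hy⟩ := hY k (smap q s)
  obtain ⟨x, hx, -⟩ := h k s y hy
  exact ⟨x, hx⟩

theorem GW.of_glift {X Y : GS} {q : X ⟶ Y} (h : ∀ k, GLift q k)
    (hY : ∀ k (y : Ce Y k), GRel Y y y) : GW q := by
  have lift : ∀ k (x x' : Ce X k), GPar X x x' → GRel Y (ap q x) (ap q x') → GEqv X x x' := by
    rintro k x x' p ⟨c, hc⟩
    obtain ⟨d, hd, -⟩ := h (k + 1) (sphMk x x' p) c (bd_eq_succ.2 hc)
    exact GRel.eqv ⟨d, bd_eq_sphMk.1 hd⟩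
  refine ⟨fun k s y hy => ?_, fun k => ?_⟩
  · obtain ⟨x, hx, rfl⟩ := h k s y hy
    exact ⟨x, hx, GEqv.refl _ _⟩
  · have key : ∀ y y' : Ce Y k, GEqv Y y y' → ∀ x x' : Ce X k, GPar X x x' → ap q x = y →
        ap q x' = y' → GEqv X x x' := by
      intro y y' hy
      induction hy with
      | rel y y' hy =>
        rintro x x' p rfl rfl
        exact lift k x x' p hy
      | refl y =>
        rintro x x' p e e'
        refine lift k x x' p ?_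
        rw [e, e']
        exact hY k y
      | symm y y' _ ih => exact fun x x' p e e' => (ih x' x p.symm e' e).symm
      | trans y y₁ y' h1 _ ih ih' =>
        rintro x x' p rfl e'
        obtain ⟨x₁, hx₁, e₁⟩ := h k (bd X x) y₁ (by
          rw [← bd_ap]; exact bd_eq_iff.2 (GEqv.par h1).symm)
        have p₁ : GPar X x₁ x := bd_eq_iff.1 hx₁
        exact (ih x x₁ p₁.symm rfl e₁).trans (ih' x₁ x' (p₁.trans p) e₁ e')
    exact fun x x' p hx => key _ _ hx x x' p rfl rfl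

theorem GW.of_isIso {X Y : GS} (f : X ⟶ Y) [IsIso f] : GW f := by
  refine ⟨fun k s y hy => ?_, fun k x x' _ hx => ?_⟩
  · obtain ⟨x, hx, rfl⟩ := GLift.of_isIso f k s y hy
    exact ⟨x, hx, GEqv.refl _ _⟩
  · have := hx.ap (inv f)
    rwa [← ap_comp, ← ap_comp, IsIso.hom_inv_id, ap_id, ap_id] at this

theorem GW.comp {X Y Z : GS} {f : X ⟶ Y} {g : Y ⟶ Z} (hf : GW f) (hg : GW g) : GW (f ≫ g) := by
  refine ⟨fun k s z hz => ?_, fun k x x' p hx => hf.2 k x x' p (hg.2 k _ _ (p.ap f) hx)⟩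
  rw [smap_comp] at hz
  obtain ⟨y, hy, e⟩ := hg.1 k _ z hz
  obtain ⟨x, hx, e'⟩ := hf.1 k s y hy
  exact ⟨x, hx, (e'.ap g).trans e⟩

theorem GW.of_comp_right {X Y Z : GS} {f : X ⟶ Y} {g : Y ⟶ Z} (h : GW (f ≫ g)) (hg : GW g) :
    GW f := by
  refine ⟨fun k s y hy => ?_, fun k x x' p hx => h.2 k x x' p (hx.ap g)⟩
  obtain ⟨x, hx, e⟩ := h.1 k s (ap g y) (by rw [bd_ap, hy, smap_comp])
  exact ⟨x, hx, hg.2 k _ _ (bd_eq_iff.1 (by rw [bd_ap, hx, hy])) e⟩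

theorem GW.of_arrow_iso {X Y X' Y' : GS} {f : X ⟶ Y} {f' : X' ⟶ Y'} (e : X ≅ X')
    (e' : Y ≅ Y') (w : f ≫ e'.hom = e.hom ≫ f') (h : GW f) : GW f' := by
  have : f' = e.inv ≫ f ≫ e'.hom := by rw [w, e.inv_hom_id_assoc]
  rw [this]
  exact (GW.of_isIso _).comp (h.comp (GW.of_isIso _))

theorem GW0.of_arrow_iso {X Y X' Y' : GS} {f : X ⟶ Y} {f' : X' ⟶ Y'} (e : X ≅ X')
    (e' : Y ≅ Y') (w : f ≫ e'.hom = e.hom ≫ f') {u : Ce X 0 → ∀ n, Ce X n}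
    {u' : Ce X' 0 → ∀ n, Ce X' n} (hu : ∀ x n, u' (ap e.hom x) n = ap e.hom (u x n))
    (h : GW0 f u) : GW0 f' u' := by
  have hi : ∀ {k} (x : Ce X' k), ap e.hom (ap e.inv x) = x := fun x => by
    rw [← ap_comp, e.inv_hom_id, ap_id]
  have hi' : ∀ {k} (x : Ce Y' k), ap e'.hom (ap e'.inv x) = x := fun x => by
    rw [← ap_comp, e'.inv_hom_id, ap_id]
  have ih : ∀ {k} (x : Ce X k), ap e.inv (ap e.hom x) = x := fun x => by
    rw [← ap_comp, e.hom_inv_id, ap_id]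
  have ih' : ∀ {k} (x : Ce Y k), ap e'.inv (ap e'.hom x) = x := fun x => by
    rw [← ap_comp, e'.hom_inv_id, ap_id]
  have w' : ∀ {k} (x : Ce X k), ap f' (ap e.hom x) = ap e'.hom (ap f x) := fun x => by
    rw [← ap_comp, ← w, ap_comp]
  have sur : ∀ {k} (x : Ce X' k), ∃ x₀, ap e.hom x₀ = x := fun x => ⟨_, hi x⟩
  have sur' : ∀ {k} (x : Ce Y' k), ∃ x₀, ap e'.hom x₀ = x := fun x => ⟨_, hi' x⟩
  have inj : ∀ {k} {x y : Ce X k}, ap e.hom x = ap e.hom y → x = y := fun {_ x y} h => by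
    rw [← ih x, h, ih]
  have inj' : ∀ {k} {x y : Ce Y k}, ap e'.hom x = ap e'.hom y → x = y := fun {_ x y} h => by
    rw [← ih' x, h, ih']
  have eqv' : ∀ {k} {x y : Ce Y k}, GEqv Y' (ap e'.hom x) (ap e'.hom y) → GEqv Y x y :=
    fun {_ x y} h => by
      have := h.ap e'.inv
      rwa [ih', ih'] at this
  obtain ⟨h1, h2, h3, h4⟩ := h
  refine ⟨fun y => ?_, fun x x' hx => ?_, fun x n y hy => ?_, fun x n a a' ha ha' hx => ?_⟩
  · obtain ⟨y, rfl⟩ := sur' y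
    obtain ⟨x, hx⟩ := h1 y
    exact ⟨ap e.hom x, by rw [w']; exact hx.ap _⟩
  · obtain ⟨x, rfl⟩ := sur x
    obtain ⟨x', rfl⟩ := sur x'
    rw [w', w'] at hx
    exact (h2 x x' (eqv' hx)).ap _
  · obtain ⟨x, rfl⟩ := sur x
    obtain ⟨y, rfl⟩ := sur' y
    obtain ⟨a, ha, ha'⟩ := h3 x n y fun b => inj' (by rw [← fa_ap, hy, hu, w'])
    exact ⟨ap e.hom a, fun b => by rw [fa_ap, ha, hu], by rw [w']; exact ha'.ap _⟩
  · obtain ⟨x, rfl⟩ := sur x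
    obtain ⟨a, rfl⟩ := sur a
    obtain ⟨a', rfl⟩ := sur a'
    rw [w', w'] at hx
    exact (h4 x n a a' (fun b => inj (by rw [← fa_ap, ha, hu]))
      (fun b => inj (by rw [← fa_ap, ha', hu])) (eqv' hx)).ap _

/-- Surjectivity on classes of fillers suffices when the relation on the target is already an
equivalence relation. -/
theorem GW.of_surj {X Y : GS} {f : X ⟶ Y}
    (hY : ∀ k (y y' : Ce Y k), GEqv Y y y' → GRel Y y y')
    (h : ∀ k (s : Sph X k) (y : Ce Y k), bd Y y = smap f s → ∃ x, bd X x = s ∧ GEqv Y (ap f x) y) :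
    GW f := by
  refine ⟨h, fun k x x' p hx => ?_⟩
  obtain ⟨c, hc⟩ := hY k _ _ hx
  obtain ⟨d, hd, -⟩ := h (k + 1) (sphMk x x' p) c (bd_eq_succ.2 hc)
  exact GRel.eqv ⟨d, bd_eq_sphMk.1 hd⟩

theorem GW.of_contr {X Y : GS} (f : X ⟶ Y) (hX : GContr X) (hY : GContr Y) : GW f := by
  refine ⟨fun k s y hy => ?_, fun k x x' p _ => (hX.rel p).eqv⟩
  obtain ⟨x, hx⟩ := hX k s
  exact ⟨x, hx, (hY.rel (bd_eq_iff.1 (by rw [bd_ap, hx, hy]))).eqv⟩

theorem GW.contr {X Y : GS} {f : X ⟶ Y} (h : GW f) (hY : GContr Y) : GContr X := by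
  intro k s
  obtain ⟨y, hy⟩ := hY k (smap f s)
  obtain ⟨x, hx, -⟩ := h.1 k s y hy
  exact ⟨x, hx⟩

/-- `Y` is the disjoint union of the globular sets `X i`. -/
def GSigma {ι : Type} {X : ι → GS} {Y : GS} (c : ∀ i, X i ⟶ Y) : Prop :=
  ∀ k, Function.Bijective (fun p : Σ i, Ce (X i) k => ap (c p.1) p.2)

theorem GSigma.exists {ι : Type} {X : ι → GS} {Y : GS} {c : ∀ i, X i ⟶ Y} (hc : GSigma c)
    {k : ℕ} (y : Ce Y k) : ∃ i x, ap (c i) x = y := by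
  obtain ⟨⟨i, x⟩, h⟩ := (hc k).2 y
  exact ⟨i, x, h⟩

theorem GSigma.idx {ι : Type} {X : ι → GS} {Y : GS} {c : ∀ i, X i ⟶ Y} (hc : GSigma c)
    {k : ℕ} {i j : ι} {x : Ce (X i) k} {y : Ce (X j) k} (h : ap (c i) x = ap (c j) y) : i = j :=
  congrArg Sigma.fst ((hc k).1 (a₁ := ⟨i, x⟩) (a₂ := ⟨j, y⟩) h)

theorem GSigma.inj {ι : Type} {X : ι → GS} {Y : GS} {c : ∀ i, X i ⟶ Y} (hc : GSigma c)
    {k : ℕ} {i : ι} {x y : Ce (X i) k} (h : ap (c i) x = ap (c i) y) : x = y :=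
  eq_of_heq (Sigma.mk.inj ((hc k).1 (a₁ := ⟨i, x⟩) (a₂ := ⟨i, y⟩) h)).2

theorem GSigma.par {ι : Type} {X : ι → GS} {Y : GS} {c : ∀ i, X i ⟶ Y} (hc : GSigma c)
    {i : ι} : ∀ {k : ℕ} {x y : Ce (X i) k}, GPar Y (ap (c i) x) (ap (c i) y) → GPar (X i) x y
  | 0, _, _, _ => trivial
  | _ + 1, _, _, h => fun b => hc.inj (by rw [← fa_ap, ← fa_ap]; exact h b)

theorem GSigma.eqv {ι : Type} {X : ι → GS} {Y : GS} {c : ∀ i, X i ⟶ Y} (hc : GSigma c)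
    {k : ℕ} {y y' : Ce Y k} (h : GEqv Y y y') : ∀ i j (x : Ce (X i) k) (x' : Ce (X j) k),
      ap (c i) x = y → ap (c j) x' = y' → ∃ e : i = j, GEqv (X j) (e ▸ x) x' := by
  induction h with
  | rel y y' hy =>
    rintro i j x x' rfl rfl
    obtain ⟨z, h0, h1⟩ := hy
    obtain ⟨m, z, rfl⟩ := hc.exists z
    rw [fa_ap] at h0 h1
    obtain rfl := hc.idx h0
    obtain rfl := hc.idx h1
    exact ⟨rfl, GRel.eqv ⟨z, hc.inj h0, hc.inj h1⟩⟩
  | refl y =>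
    rintro i j x x' rfl e
    obtain rfl := hc.idx e
    obtain rfl := hc.inj e
    exact ⟨rfl, GEqv.refl _ _⟩
  | symm y y' _ ih =>
    intro i j x x' e e'
    obtain ⟨rfl, h⟩ := ih j i x' x e' e
    exact ⟨rfl, h.symm⟩
  | trans y y₁ y' _ _ ih ih' =>
    intro i j x x' e e'
    obtain ⟨m, x₁, e₁⟩ := hc.exists y₁
    obtain ⟨rfl, h⟩ := ih i m x x₁ e e₁
    obtain ⟨rfl, h'⟩ := ih' i j x₁ x' e₁ e'
    exact ⟨rfl, h.trans h'⟩

theorem GW.of_sigma {ι : Type} {X Y : ι → GS} {X' Y' : GS} {c : ∀ i, X i ⟶ X'}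
    {d : ∀ i, Y i ⟶ Y'} (hc : GSigma c) (hd : GSigma d) (f : ∀ i, X i ⟶ Y i) (f' : X' ⟶ Y')
    (w : ∀ i, c i ≫ f' = f i ≫ d i) (h : ∀ i, GW (f i)) : GW f' := by
  have w' : ∀ i {k} (x : Ce (X i) k), ap f' (ap (c i) x) = ap (d i) (ap (f i) x) :=
    fun i _ x => by rw [← ap_comp, w, ap_comp]
  refine ⟨fun k s y hy => ?_, fun k x x' p hx => ?_⟩
  · obtain ⟨i, y, rfl⟩ := hd.exists y
    have : ∃ s₀ : Sph (X i) k, smap (c i) s₀ = s ∧ bd _ y = smap (f i) s₀ := by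
      cases k with
      | zero => exact ⟨PUnit.unit, rfl, rfl⟩
      | succ k =>
        obtain ⟨⟨a, b⟩, p⟩ := s
        obtain ⟨j, a, rfl⟩ := hc.exists a
        obtain ⟨j', b, rfl⟩ := hc.exists b
        obtain ⟨h0, h1⟩ := bd_eq_succ.1 hy
        change _ = ap f' (ap (c j) a) at h0
        change _ = ap f' (ap (c j') b) at h1
        rw [fa_ap, w'] at h0 h1
        obtain rfl := hd.idx h0
        obtain rfl := hd.idx h1
        exact ⟨sphMk a b (hc.par p), rfl, bd_eq_succ.2 ⟨hd.inj h0, hd.inj h1⟩⟩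
    obtain ⟨s, rfl, hs⟩ := this
    obtain ⟨x, hx, e⟩ := (h i).1 k s y hs
    exact ⟨ap (c i) x, by rw [bd_ap, hx], by rw [w']; exact e.ap _⟩
  · obtain ⟨i, x, rfl⟩ := hc.exists x
    obtain ⟨j, x', rfl⟩ := hc.exists x'
    obtain ⟨rfl, e⟩ := hd.eqv hx i j _ _ (w' i x).symm (w' j x').symm
    exact ((h i).2 k x x' (hc.par p) e).ap _

theorem GW.gw0 {X Y : GS} {f : X ⟶ Y} (h : GW f) (u : Ce X 0 → ∀ n, Ce X n) : GW0 f u := by
  refine ⟨fun y => ?_, fun x x' hx => h.2 0 x x' trivial hx, fun x n y hy => ?_,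
    fun x n a a' ha ha' hx => h.2 _ a a' (fun b => (ha b).trans (ha' b).symm) hx⟩
  · obtain ⟨x, -, hx⟩ := h.1 0 PUnit.unit y rfl
    exact ⟨x, hx⟩
  · obtain ⟨a, ha, e⟩ := h.1 (n + 1) (sphMk _ _ (GPar.refl X (u x n))) y
      (bd_eq_succ.2 ⟨hy false, hy true⟩)
    refine ⟨a, fun b => ?_, e⟩
    cases b
    · exact (bd_eq_sphMk.1 ha).1
    · exact (bd_eq_sphMk.1 ha).2

/-- Homotopic globular maps. -/
theorem GW.of_htpy {X P Y : GS} (H : X ⟶ P) {p q : P ⟶ Y} (hp : ∀ k, GLift p k)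
    (hq : ∀ k, GLift q k) (h : GW (H ≫ p)) (hY : ∀ k (y : Ce Y k), GRel Y y y) : GW (H ≫ q) :=
  (h.of_comp_right (GW.of_glift hp hY)).comp (GW.of_glift hq hY)

/-- Transport of fillers along a homotopy. -/
theorem fill_of_htpy {X P Y : GS} (H : X ⟶ P) {p : P ⟶ Y} (q : P ⟶ Y) {k : ℕ} (hp : GLift p k)
    (s : Sph X k) (h : ∃ y, bd Y y = smap (H ≫ p) s) : ∃ y, bd Y y = smap (H ≫ q) s := by
  obtain ⟨y, hy⟩ := h
  rw [smap_comp] at hy
  obtain ⟨c, hc, -⟩ := hp _ y hy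
  exact ⟨ap q c, by rw [bd_ap, hc, smap_comp]⟩

end Vale.Agent.P259
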