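import Vale.Agent.P259.Weq

/-! Homotopy pushouts and coproducts of models. -/

open CategoryTheory Limits Opposite

set_option backward.isDefEq.respectTransparency false

noncomputable section

namespace Vale.Agent.P259

variable {E : GlobExt}

theorem glue_cof {S X B T : A E ⊤} {a : S ⟶ X} {j : S ⟶ B} {c : X ⟶ T} {d : B ⟶ T}
    (h : IsPushout a j c d) (hj : Cof E ⊤ 0 j) : Cof E ⊤ 0 c :=
  MorphismProperty.of_isPushout h hj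

theorem glue_an {S X B T : A E ⊤} {a : S ⟶ X} {j : S ⟶ B} {c : X ⟶ T} {d : B ⟶ T}
    (h : IsPushout a j c d) (hj : An E ⊤ 0 j) : An E ⊤ 0 c :=
  MorphismProperty.of_isPushout h hj

theorem glue_comp {X Y Z : A E ⊤} {f : X ⟶ Y} {g : Y ⟶ Z} (hf : Cof E ⊤ 0 f) (hg : Cof E ⊤ 0 g) :
    Cof E ⊤ 0 (f ≫ g) := MorphismProperty.comp_mem _ _ _ hf hg

theorem glue_init : Cofibrant (⊥_ (A E ⊤)) := fun _ _ _ _ _ =>
  ⟨initial.to _, Subsingleton.elim _ _⟩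

theorem glue_to {X : A E ⊤} (h : Cofibrant X) : Cof E ⊤ 0 (initial.to X) :=
  (cofibrant_iff initialIsInitial).1 h

/-- Factorization of two weak equivalences with the same target under a fixed object. -/
theorem glue_brown (hE : IsCoherator E) {S B B' Z : A E ⊤} {j : S ⟶ B} {j' : S ⟶ B'}
    (hS : Cofibrant S) (hj : Cof E ⊤ 0 j) (hj' : Cof E ⊤ 0 j') {g : B ⟶ Z} {g' : B' ⟶ Z}
    (w : j ≫ g = j' ≫ g') (hg : Wq E g) (hg' : Wq E g') :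
    ∃ (M : A E ⊤) (u : B ⟶ M) (u' : B' ⟶ M) (q : M ⟶ Z), An E ⊤ 0 u ∧ An E ⊤ 0 u' ∧ Wq E q ∧
      j ≫ u = j' ≫ u' ∧ u ≫ q = g ∧ u' ≫ q = g' := by
  have P := IsPushout.of_hasPushout j j'
  obtain ⟨M, m, q, hm, hq, e⟩ := exists_cof_tfib (pushout.desc g g' w)
  have e1 : (pushout.inl j j' ≫ m) ≫ q = g := by rw [Category.assoc, e, pushout.inl_desc]
  have e2 : (pushout.inr j j' ≫ m) ≫ q = g' := by rw [Category.assoc, e, pushout.inr_desc]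
  have hq' := Wq.of_tfib hE hq
  exact ⟨M, _, _, q,
    an_of_cof_wq hE (glue_comp (glue_cof P hj') hm) (hS.of_cof hj)
      (Wq.of_comp_right (e1 ▸ hg) hq'),
    an_of_cof_wq hE (glue_comp (glue_cof P.flip hj) hm) (hS.of_cof hj')
      (Wq.of_comp_right (e2 ▸ hg') hq'),
    hq', pushout.condition_assoc m, e1, e2⟩

/-- Ken Brown's lemma under a fixed object. -/
theorem wq_pushout_of_wq (hE : IsCoherator E) {S X B B' T T' : A E ⊤} {a : S ⟶ X} {j : S ⟶ B}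
    {j' : S ⟶ B'} {c : X ⟶ T} {d : B ⟶ T} {c' : X ⟶ T'} {d' : B' ⟶ T'}
    (h : IsPushout a j c d) (h' : IsPushout a j' c' d') (hS : Cofibrant S) (hX : Cofibrant X)
    (hj : Cof E ⊤ 0 j) (hj' : Cof E ⊤ 0 j') (w : B ⟶ B') (hw : j ≫ w = j') (hW : Wq E w)
    (t : T ⟶ T') (ht : c ≫ t = c') (ht' : d ≫ t = w ≫ d') : Wq E t := by
  obtain ⟨M, u, u', q, hu, hu', -, e, e1, e2⟩ :=
    glue_brown hE hS hj hj' (g := w) (g' := 𝟙 _) (by simpa using hw) hW (Wq.of_isIso _)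
  have P := IsPushout.of_hasPushout d u
  have P1 := h.paste_vert P
  have w1 : a ≫ c ≫ pushout.inl d u = j' ≫ u' ≫ pushout.inr d u := by
    rw [P1.w, e, Category.assoc]
  have P2 : IsPushout d' u' (h'.desc _ _ w1) (pushout.inr d u) :=
    IsPushout.of_top' (e ▸ P1) h'
  have w2 : d ≫ t = u ≫ q ≫ d' := by rw [ht', ← e1, Category.assoc]
  have k1 := Wq.of_an hE (glue_an P hu) (hX.of_cof (glue_cof h hj))
  have k2 := Wq.of_an hE (glue_an P2 hu') (hX.of_cof (glue_cof h' hj'))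
  have e3 : h'.desc _ _ w1 ≫ pushout.desc t (q ≫ d') w2 = 𝟙 _ := by
    apply h'.hom_ext
    · simp [ht]
    · simp [reassoc_of% e2]
  have k3 : Wq E (pushout.desc t (q ≫ d') w2) :=
    Wq.of_comp_left hE k2 (by rw [e3]; exact Wq.of_isIso _)
  simpa using k1.comp k3

/-- The pushout along a cofibration of a retraction of an anodyne map. -/
theorem glue_retr (hE : IsCoherator E) {M X C D : A E ⊤} {u : M ⟶ X} {s : X ⟶ M} {i : M ⟶ C}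
    {c : X ⟶ D} {t : C ⟶ D} (h : IsPushout u i c t) (hX : Cofibrant X) (hs : An E ⊤ 0 s)
    (e : s ≫ u = 𝟙 _) (hi : Cof E ⊤ 0 i) : Wq E t := by
  have hs' := an_le_cof 0 _ hs
  have hsi := glue_comp hs' hi
  have P := IsPushout.of_hasPushout s (s ≫ i)
  have P0 : IsPushout (s ≫ u) (s ≫ i) (s ≫ i) (𝟙 C) := e ▸ IsPushout.of_id_fst
  have P1 := IsPushout.of_left' P0 P
  have e1 : pushout.inr s (s ≫ i) ≫ pushout.desc i (𝟙 C) (by simp) = 𝟙 C := by simp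
  refine wq_pushout_of_wq hE P1 h (hX.of_cof hs') hX (glue_cof P hsi) hi
    (pushout.desc i (𝟙 C) (by simp)) (by simp)
    (Wq.of_comp_left hE (Wq.of_an hE (glue_an P.flip hs) (hX.of_cof hsi))
      (by rw [e1]; exact Wq.of_isIso _)) t ?_ ?_
  · rw [Category.assoc, ← h.w, reassoc_of% e]
  · apply P.hom_ext
    · simp [← h.w, reassoc_of% e]
    · simp

/-- Weak equivalences between cofibrant models are stable under pushout along cofibrations. -/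
theorem glue_proper (hE : IsCoherator E) {X X' T T' : A E ⊤} {w : X ⟶ X'} {c : X ⟶ T}
    {c' : X' ⟶ T'} {t : T ⟶ T'} (h : IsPushout w c c' t) (hX : Cofibrant X) (hX' : Cofibrant X')
    (hc : Cof E ⊤ 0 c) (hw : Wq E w) : Wq E t := by
  obtain ⟨M, m, s, u, hm, hs, -, -, e1, e2⟩ :=
    glue_brown hE glue_init (glue_to hX) (glue_to hX') (g := w) (g' := 𝟙 _)
      (Subsingleton.elim _ _) hw (Wq.of_isIso _)
  have P := IsPushout.of_hasPushout m c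
  have P1 := IsPushout.of_left' (e1 ▸ h) P
  have k1 := Wq.of_an hE (glue_an P.flip hm) (hX.of_cof hc)
  simpa using k1.comp (glue_retr hE P1 hX' hs e2 (glue_cof P hc))

/-- The gluing lemma for cofibrant models. -/
theorem glue_main (hE : IsCoherator E) {S X B T S' X' B' T' : A E ⊤} {a : S ⟶ X} {j : S ⟶ B}
    {c : X ⟶ T} {d : B ⟶ T} {a' : S' ⟶ X'} {j' : S' ⟶ B'} {c' : X' ⟶ T'} {d' : B' ⟶ T'}
    (h : IsPushout a j c d) (h' : IsPushout a' j' c' d') (hS : Cofibrant S) (hX : Cofibrant X)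
    (hS' : Cofibrant S') (hX' : Cofibrant X') (hj : Cof E ⊤ 0 j) (hj' : Cof E ⊤ 0 j')
    {fS : S ⟶ S'} {fX : X ⟶ X'} {fB : B ⟶ B'} {fT : T ⟶ T'}
    (w₁ : a ≫ fX = fS ≫ a') (w₂ : j ≫ fB = fS ≫ j') (w₃ : c ≫ fT = fX ≫ c')
    (w₄ : d ≫ fT = fB ≫ d') (kS : Wq E fS) (kX : Wq E fX) (kB : Wq E fB) : Wq E fT := by
  have P := IsPushout.of_hasPushout fX c
  have k1 := glue_proper hE P hX hX' (glue_cof h hj) kX
  have Q := IsPushout.of_hasPushout fS j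
  have k2 := glue_proper hE Q hS hS' hj kS
  have P1 : IsPushout (fS ≫ a') j (pushout.inl fX c) (d ≫ pushout.inr fX c) :=
    w₁ ▸ h.paste_horiz P
  have P2 := IsPushout.of_left' P1 Q
  have e : pushout.inr fS j ≫ pushout.desc j' fB w₂.symm = fB := by simp
  have k3 := wq_pushout_of_wq hE P2 h' hS' hX' (glue_cof Q hj) hj' (pushout.desc j' fB w₂.symm)
    (by simp) (Wq.of_comp_left hE k2 (e.symm ▸ kB)) (pushout.desc c' fT w₃.symm) (by simp)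
    (by apply Q.hom_ext <;> simp [h'.w, w₄])
  simpa using k1.comp k3

/-- A common replacement of a corner of two spans. -/
theorem glue_common (hE : IsCoherator E) {S₁ S₂ L X₁ X₂ X : A E ⊤} {a₁ : S₁ ⟶ X₁} {a₂ : S₂ ⟶ X₂} {s₁ : S₁ ⟶ L}
    {s₂ : S₂ ⟶ L} {x₁ : X₁ ⟶ X} {x₂ : X₂ ⟶ X} {l : L ⟶ X} (w₁ : a₁ ≫ x₁ = s₁ ≫ l)
    (w₂ : a₂ ≫ x₂ = s₂ ≫ l) (h₂ : Cof E ⊤ 0 a₂) (hs : Cof E ⊤ 0 s₁) :
    ∃ (M : A E ⊤) (a : L ⟶ M) (u₁ : X₁ ⟶ M) (u₂ : X₂ ⟶ M) (q : M ⟶ X), Wq E q ∧ Cof E ⊤ 0 u₁ ∧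
      (Cof E ⊤ 0 a₁ → Cof E ⊤ 0 a) ∧ a₁ ≫ u₁ = s₁ ≫ a ∧ a₂ ≫ u₂ = s₂ ≫ a ∧
      u₁ ≫ q = x₁ ∧ u₂ ≫ q = x₂ ∧ a ≫ q = l := by
  have P := IsPushout.of_hasPushout a₁ s₁
  have Q := IsPushout.of_hasPushout a₂ (s₂ ≫ pushout.inr a₁ s₁)
  have w : a₂ ≫ x₂ = (s₂ ≫ pushout.inr a₁ s₁) ≫ pushout.desc x₁ l w₁ := by simp [w₂]
  obtain ⟨M, m, q, hm, hq, e⟩ := exists_cof_tfib (pushout.desc _ _ w)
  have k := glue_comp (glue_cof Q.flip h₂) hm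
  refine ⟨M, pushout.inr a₁ s₁ ≫ pushout.inr _ _ ≫ m, pushout.inl a₁ s₁ ≫ pushout.inr _ _ ≫ m,
    pushout.inl _ _ ≫ m, q, Wq.of_tfib hE hq, glue_comp (glue_cof P hs) k,
    fun h => glue_comp (glue_cof P.flip h) k, pushout.condition_assoc _, ?_, ?_, ?_, ?_⟩
  · rw [pushout.condition_assoc, Category.assoc]
  all_goals simp [e]

/-- The square is a homotopy pushout. -/
def HoPO {S X B T : A E ⊤} (a : S ⟶ X) (j : S ⟶ B) (c : X ⟶ T) (d : B ⟶ T) : Prop :=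
  ∀ ⦃S' X' B' T' : A E ⊤⦄ (a' : S' ⟶ X') (j' : S' ⟶ B') (c' : X' ⟶ T') (d' : B' ⟶ T'),
    IsPushout a' j' c' d' → Cofibrant S' → Cofibrant X' → Cof E ⊤ 0 j' →
    ∀ (fS : S' ⟶ S) (fX : X' ⟶ X) (fB : B' ⟶ B) (fT : T' ⟶ T),
      a' ≫ fX = fS ≫ a → j' ≫ fB = fS ≫ j → c' ≫ fT = fX ≫ c → d' ≫ fT = fB ≫ d →
      Wq E fS → Wq E fX → Wq E fB → Wq E fT

theorem hoPO_of_model (hE : IsCoherator E) {S X B T : A E ⊤} {a : S ⟶ X} {j : S ⟶ B} {c : X ⟶ T}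
    {d : B ⟶ T} (w : a ≫ c = j ≫ d) {S' X' B' T' : A E ⊤} {a' : S' ⟶ X'} {j' : S' ⟶ B'}
    {c' : X' ⟶ T'} {d' : B' ⟶ T'} (h : IsPushout a' j' c' d') (hS : Cofibrant S')
    (ha : Cof E ⊤ 0 a') (hj : Cof E ⊤ 0 j')
    (fS : S' ⟶ S) (fX : X' ⟶ X) (fB : B' ⟶ B) (fT : T' ⟶ T)
    (w₁ : a' ≫ fX = fS ≫ a) (w₂ : j' ≫ fB = fS ≫ j) (w₃ : c' ≫ fT = fX ≫ c)
    (w₄ : d' ≫ fT = fB ≫ d) (hS' : Wq E fS) (hX' : Wq E fX) (hB' : Wq E fB) (hT' : Wq E fT) :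
    HoPO a j c d := by
  intro S₁ X₁ B₁ T₁ a₁ j₁ c₁ d₁ h₁ hS₁ hX₁ hj₁ gS gX gB gT v₁ v₂ v₃ v₄ kS kX kB
  obtain ⟨L, s₁, s₂, l, hs₁, hs₂, hl, -, e₁, e₂⟩ :=
    glue_brown hE glue_init (glue_to hS₁) (glue_to hS) (Subsingleton.elim _ _) kS hS'
  have hs₁' := an_le_cof 0 _ hs₁
  have hL := hS₁.of_cof hs₁'
  obtain ⟨LX, aL, u₁, u₂, qX, kq, hu, -, x₁, x₂, x₃, x₄, x₅⟩ :=
    glue_common hE (a₁ := a₁) (a₂ := a') (s₁ := s₁) (s₂ := s₂) (x₁ := gX) (x₂ := fX) (l := l ≫ a)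
      (by rw [v₁, reassoc_of% e₁]) (by rw [w₁, reassoc_of% e₂]) ha hs₁'
  obtain ⟨LB, jL, b₁, b₂, qB, kq', -, hjL, y₁, y₂, y₃, y₄, y₅⟩ :=
    glue_common hE (a₁ := j₁) (a₂ := j') (s₁ := s₁) (s₂ := s₂) (x₁ := gB) (x₂ := fB) (l := l ≫ j)
      (by rw [v₂, reassoc_of% e₁]) (by rw [w₂, reassoc_of% e₂]) hj hs₁'
  have P := IsPushout.of_hasPushout aL jL
  have hLX := hX₁.of_cof hu
  have z₁ : a₁ ≫ u₁ ≫ pushout.inl aL jL = j₁ ≫ b₁ ≫ pushout.inr aL jL := by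
    rw [reassoc_of% x₁, reassoc_of% y₁, P.w]
  have z₂ : a' ≫ u₂ ≫ pushout.inl aL jL = j' ≫ b₂ ≫ pushout.inr aL jL := by
    rw [reassoc_of% x₂, reassoc_of% y₂, P.w]
  have z₃ : aL ≫ qX ≫ c = jL ≫ qB ≫ d := by
    rw [reassoc_of% x₅, reassoc_of% y₅, w]
  have k₁ := glue_main hE h₁ P hS₁ hX₁ hL hLX hj₁ (hjL hj₁) x₁ y₁ (h₁.inl_desc _ _ z₁)
    (h₁.inr_desc _ _ z₁) (Wq.of_an hE hs₁ hS₁) (Wq.of_comp_right (x₃ ▸ kX) kq)
    (Wq.of_comp_right (y₃ ▸ kB) kq')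
  have k₂ := glue_main hE h P hS (hS.of_cof ha) hL hLX hj (hjL hj₁) x₂ y₂ (h.inl_desc _ _ z₂)
    (h.inr_desc _ _ z₂) (Wq.of_an hE hs₂ hS) (Wq.of_comp_right (x₄ ▸ hX') kq)
    (Wq.of_comp_right (y₄ ▸ hB') kq')
  have e₃ : h.desc _ _ z₂ ≫ pushout.desc _ _ z₃ = fT := by
    apply h.hom_ext
    · simp [w₃, reassoc_of% x₄]
    · simp [w₄, reassoc_of% y₄]
  have e₄ : h₁.desc _ _ z₁ ≫ pushout.desc _ _ z₃ = gT := by
    apply h₁.hom_ext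
    · simp [v₃, reassoc_of% x₃]
    · simp [v₄, reassoc_of% y₃]
  exact e₄ ▸ k₁.comp (Wq.of_comp_left hE k₂ (e₃ ▸ hT'))

end Vale.Agent.P259
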