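import Vale.Agent.P259.Cosk

/-! Classes of maps defined by lifting properties, at level `n`. -/

open CategoryTheory Limits Opposite

set_option backward.isDefEq.respectTransparency false

noncomputable section

namespace Vale.Agent.P259

variable (E : GlobExt) (K : ℕ∞)

/-- Trivial fibrations at level `n`. -/
def TFib (n : ℕ) : MorphismProperty (A E K) := fun _ _ q =>
  ∀ k, n ≤ k → HasLiftingProperty (ii E K k) q

/-- Fibrations at level `n`. -/
def Fib (n : ℕ) : MorphismProperty (A E K) := fun _ _ q =>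
  ∀ k, n ≤ k → HasLiftingProperty (df E K false k) q

/-- Cofibrations at level `n`. -/
def Cof (n : ℕ) : MorphismProperty (A E K) := (TFib E K n).llp

/-- Anodyne maps at level `n`. -/
def An (n : ℕ) : MorphismProperty (A E K) := (Fib E K n).llp

variable {E K}

/-- Contractible models. -/
def Contr (Z : A E K) : Prop := GContr ((U E K).obj Z)

/-- Cofibrant models. -/
def Cofibrant (X : A E K) : Prop :=
  ∀ ⦃Y Z : A E K⦄ (q : Y ⟶ Z), TFib E K 0 q → ∀ f : X ⟶ Z, ∃ g, g ≫ q = f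

theorem tfib_iff {n : ℕ} {X Y : A E K} (q : X ⟶ Y) :
    TFib E K n q ↔ ∀ k, n ≤ k → GLift ((U E K).map q) k :=
  forall₂_congr fun k _ => (ST E K).hlp_iff q k

theorem fib_iff {n : ℕ} {X Y : A E K} (q : X ⟶ Y) :
    Fib E K n q ↔ ∀ k, n ≤ k → GFib ((U E K).map q) k :=
  forall₂_congr fun k _ => hlp_sf_iff q k

theorem contr_iff (Z : A E K) : Contr Z ↔ ∀ k (s : sp E K k ⟶ Z), ∃ x, ii E K k ≫ x = s :=
  (ST E K).contr_iff Z

theorem par_iff {Z : A E K} {k : ℕ} (x y : dd E K k ⟶ Z) :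
    GPar ((U E K).obj Z) x y ↔ ii E K k ≫ x = ii E K k ≫ y := (ST E K).par_iff x y

/-- Parallel cells of a contractible model are joined by a cell. -/
theorem Contr.fill {Z : A E K} (h : Contr Z) {k : ℕ} (x y : dd E K k ⟶ Z)
    (p : ii E K k ≫ x = ii E K k ≫ y) :
    ∃ c : dd E K (k + 1) ⟶ Z, df E K false k ≫ c = x ∧ df E K true k ≫ c = y :=
  GContr.rel h ((par_iff x y).2 p)

theorem ii_df (b b' : Bool) (k : ℕ) : ii E K k ≫ df E K b k = ii E K k ≫ df E K b' k :=
  (ST E K).β_sf b b' k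

instance (n : ℕ) : (Cof E K n).IsStableUnderCobaseChange :=
  inferInstanceAs (MorphismProperty.llp _).IsStableUnderCobaseChange
instance (n : ℕ) : (An E K n).IsStableUnderCobaseChange :=
  inferInstanceAs (MorphismProperty.llp _).IsStableUnderCobaseChange
instance (n : ℕ) : (Cof E K n).IsMultiplicative :=
  inferInstanceAs (MorphismProperty.llp _).IsMultiplicative
instance (n : ℕ) : (An E K n).IsMultiplicative :=
  inferInstanceAs (MorphismProperty.llp _).IsMultiplicative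
instance (n : ℕ) : (Cof E K n).IsStableUnderRetracts :=
  inferInstanceAs (MorphismProperty.llp _).IsStableUnderRetracts
instance (n : ℕ) : (An E K n).IsStableUnderRetracts :=
  inferInstanceAs (MorphismProperty.llp _).IsStableUnderRetracts
instance (n : ℕ) : MorphismProperty.IsStableUnderCoproducts.{0} (Cof E K n) :=
  inferInstanceAs (MorphismProperty.IsStableUnderCoproducts.{0} (MorphismProperty.llp _))
instance (n : ℕ) : MorphismProperty.IsStableUnderCoproducts.{0} (An E K n) :=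
  inferInstanceAs (MorphismProperty.IsStableUnderCoproducts.{0} (MorphismProperty.llp _))

theorem TFib.mono {n m : ℕ} (h : n ≤ m) : TFib E K n ≤ TFib E K m :=
  fun _ _ _ hq k hk => hq k (h.trans hk)

theorem Fib.mono {n m : ℕ} (h : n ≤ m) : Fib E K n ≤ Fib E K m :=
  fun _ _ _ hq k hk => hq k (h.trans hk)

theorem Cof.anti {n m : ℕ} (h : n ≤ m) : Cof E K m ≤ Cof E K n :=
  fun _ _ _ hj _ _ q hq => hj q (TFib.mono h q hq)

theorem An.anti {n m : ℕ} (h : n ≤ m) : An E K m ≤ An E K n :=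
  fun _ _ _ hj _ _ q hq => hj q (Fib.mono h q hq)

theorem cof_ii {n k : ℕ} (h : n ≤ k) : Cof E K n (ii E K k) := fun _ _ _ hq => hq k h

theorem an_df {n k : ℕ} (h : n ≤ k) : An E K n (df E K false k) := fun _ _ _ hq => hq k h

theorem cof_nu {n k : ℕ} (h : n ≤ k) (b : Bool) : Cof E K n ((ST E K).ν b k) := by
  cases b
  · exact MorphismProperty.of_isPushout ((ST E K).po k) (cof_ii h)
  · exact MorphismProperty.of_isPushout ((ST E K).po k).flip (cof_ii h)

theorem cof_df {n k : ℕ} (h : n ≤ k) (b : Bool) : Cof E K n (df E K b k) := by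
  rw [df, ← (ST E K).w]
  exact MorphismProperty.comp_mem _ _ _ (cof_nu h b) (cof_ii (Nat.le_succ_of_le h))

theorem tfib_le_fib (n : ℕ) : TFib E K n ≤ Fib E K n :=
  fun _ _ q hq _ hk => cof_df hk false q hq

theorem an_le_cof (n : ℕ) : An E K n ≤ Cof E K n :=
  fun _ _ _ hj _ _ q hq => hj q (tfib_le_fib n q hq)

theorem TFib.comp {n : ℕ} {X Y Z : A E K} {f : X ⟶ Y} {g : Y ⟶ Z} (hf : TFib E K n f)
    (hg : TFib E K n g) : TFib E K n (f ≫ g) := fun k hk => by
  have := hf k hk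
  have := hg k hk
  infer_instance

theorem Fib.comp {n : ℕ} {X Y Z : A E K} {f : X ⟶ Y} {g : Y ⟶ Z} (hf : Fib E K n f)
    (hg : Fib E K n g) : Fib E K n (f ≫ g) := fun k hk => by
  have := hf k hk
  have := hg k hk
  infer_instance

theorem TFib.of_isPullback {n : ℕ} {P X Y Z : A E K} {fst : P ⟶ X} {snd : P ⟶ Y} {f : X ⟶ Z}
    {g : Y ⟶ Z} (h : IsPullback fst snd f g) (hg : TFib E K n g) : TFib E K n fst := fun k hk => by
  have := hg k hk
  exact h.flip.hasLiftingProperty _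

theorem contr_iff_tfib (Z : A E K) : Contr Z ↔ TFib E K 0 (terminal.from Z) := by
  rw [contr_iff]
  constructor
  · intro h k _
    refine ⟨fun {s _} _ => ?_⟩
    obtain ⟨x, hx⟩ := h k s
    exact CommSq.HasLift.mk' ⟨x, hx, terminal.hom_ext _ _⟩
  · intro h k s
    have := h k (Nat.zero_le k)
    have sq : CommSq s (ii E K k) (terminal.from Z) (terminal.from _) := ⟨terminal.hom_ext _ _⟩
    exact ⟨sq.lift, sq.fac_left⟩

theorem Contr.of_iso {X Y : A E K} (e : X ≅ Y) (h : Contr X) : Contr Y :=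
  GContr.of_iso ((U E K).mapIso e) h

theorem Contr.of_tfib {X Y : A E K} {q : X ⟶ Y} (hq : TFib E K 0 q) (h : Contr Y) : Contr X :=
  GContr.of_glift (fun k => (tfib_iff q).1 hq k (Nat.zero_le k)) h

/-- Maps to contractible models extend along cofibrations. -/
theorem Contr.extend {X Y Z : A E K} (h : Contr Z) {j : X ⟶ Y} (hj : Cof E K 0 j) (f : X ⟶ Z) :
    ∃ g, j ≫ g = f := by
  have := hj _ ((contr_iff_tfib Z).1 h)
  have sq : CommSq f j (terminal.from Z) (terminal.from _) := ⟨terminal.hom_ext _ _⟩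
  exact ⟨sq.lift, sq.fac_left⟩

theorem Cofibrant.of_cof {X Y : A E K} {j : X ⟶ Y} (hj : Cof E K 0 j) (h : Cofibrant X) :
    Cofibrant Y := by
  intro A B q hq f
  obtain ⟨g, hg⟩ := h q hq (j ≫ f)
  have := hj q hq
  have sq : CommSq g j q f := ⟨hg⟩
  exact ⟨sq.lift, sq.fac_right⟩

theorem Cofibrant.of_iso {X Y : A E K} (e : X ≅ Y) (h : Cofibrant X) : Cofibrant Y := by
  intro A B q hq f
  obtain ⟨g, hg⟩ := h q hq (e.hom ≫ f)
  exact ⟨e.inv ≫ g, by simp [hg]⟩

theorem cofibrant_iff {X I : A E K} (hI : IsInitial I) : Cofibrant X ↔ Cof E K 0 (hI.to X) := by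
  constructor
  · intro h Y Z q hq
    refine ⟨fun {_ f} _ => ?_⟩
    obtain ⟨g, hg⟩ := h q hq f
    exact CommSq.HasLift.mk' ⟨g, hI.hom_ext _ _, hg⟩
  · intro h Y Z q hq f
    have := h q hq
    have sq : CommSq (hI.to Y) (hI.to X) q f := ⟨hI.hom_ext _ _⟩
    exact ⟨sq.lift, sq.fac_right⟩

theorem cofibrant_D0 (S : Theta0) : Cofibrant ((D0 E K).obj S) := by
  intro Y Z q hq f
  have hq' := (tfib_iff q).1 hq
  obtain ⟨g, -, hg⟩ := gl_extend (K := Rep.obj S) (E := (U E K).obj Y)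
    (fun k z c => ap ((U E K).map q) c = ap (toNrv (D0 E K) f) z) 0
    (fun _ h => absurd h (Nat.not_lt_zero _)) (fun _ _ h => absurd h (Nat.not_lt_zero _))
    (fun _ h => absurd h (Nat.not_lt_zero _))
    (fun _ z => by
      obtain ⟨x, -, hx⟩ := hq' 0 le_rfl PUnit.unit (ap (toNrv (D0 E K) f) z) rfl
      exact ⟨x, hx⟩)
    (fun k _ z e₀ e₁ hp h₀ h₁ => by
      obtain ⟨x, hx, hx'⟩ := hq' (k + 1) (Nat.zero_le _) (sphMk e₀ e₁ hp)
        (ap (toNrv (D0 E K) f) z)
        (bd_eq_succ.2 ⟨(fa_ap _ _ _).trans h₀.symm, (fa_ap _ _ _).trans h₁.symm⟩)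
      exact ⟨x, (bd_eq_sphMk.1 hx).1, (bd_eq_sphMk.1 hx).2, hx'⟩)
  obtain ⟨g, rfl⟩ := ((presSums_D0 E K).toNrv_bijective S Y).2 g
  refine ⟨g, ((presSums_D0 E K).toNrv_bijective S Z).1 ?_⟩
  rw [toNrv_comp]
  exact gs_ext hg

theorem cofibrant_dd (k : ℕ) : Cofibrant (dd E K k) := cofibrant_D0 (disc k)

theorem cofibrant_sp (k : ℕ) : Cofibrant (sp E K k) := by
  cases k with
  | zero => exact fun Y _ _ _ _ => ⟨(ST E K).ini.to Y, (ST E K).ini.hom_ext _ _⟩
  | succ k => exact (cofibrant_dd k).of_cof (cof_nu (Nat.zero_le k) false)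

theorem Cofibrant.sigma {ι : Type} {X : ι → A E K} (h : ∀ i, Cofibrant (X i)) :
    Cofibrant (∐ X) := by
  intro Y Z q hq f
  choose g hg using fun i => h i q hq (Sigma.ι X i ≫ f)
  exact ⟨Sigma.desc g, Sigma.hom_ext _ _ fun i => by simp [hg]⟩

theorem contr_D0 (hE : IsCoherator E) (S : Theta0) : Contr ((D0 E K).obj S) :=
  gcontr_Dk hE K _

theorem contr_dd (hE : IsCoherator E) (k : ℕ) : Contr (dd E K k) := contr_D0 hE (disc k)

/-- Identity cells. -/
theorem exists_unit (hE : IsCoherator E) (k : ℕ) :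
    ∃ κ : dd E K (k + 1) ⟶ dd E K k, ∀ b, df E K b k ≫ κ = 𝟙 _ := by
  obtain ⟨c, h0, h1⟩ := (contr_dd (K := K) hE k).fill (𝟙 _) (𝟙 _) rfl
  exact ⟨c, fun b => by cases b; exacts [h0, h1]⟩

/-- All models are fibrant. -/
theorem fib_terminal (hE : IsCoherator E) (n : ℕ) (Z : A E K) : Fib E K n (terminal.from Z) := fun k _ => ⟨fun {x _} _ => by
  obtain ⟨κ, hκ⟩ := exists_unit (K := K) hE k
  exact CommSq.HasLift.mk' ⟨κ ≫ x, by rw [← Category.assoc, hκ, Category.id_comp],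
    terminal.hom_ext _ _⟩⟩

theorem fib_fst (hE : IsCoherator E) (n : ℕ) (X Y : A E K) :
    Fib E K n (prod.fst : X ⨯ Y ⟶ X) := fun k hk => by
  have := fib_terminal hE n Y k hk
  exact (IsPullback.of_hasBinaryProduct' X Y).flip.hasLiftingProperty _

theorem fib_snd (hE : IsCoherator E) (n : ℕ) (X Y : A E K) :
    Fib E K n (prod.snd : X ⨯ Y ⟶ Y) := fun k hk => by
  have := fib_terminal hE n X k hk
  exact (IsPullback.of_hasBinaryProduct' X Y).hasLiftingProperty _

theorem An.extend (hE : IsCoherator E) {n : ℕ} {X Y Z : A E K} {j : X ⟶ Y} (hj : An E K n j)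
    (f : X ⟶ Z) : ∃ g, j ≫ g = f := by
  have := hj _ (fib_terminal hE n Z)
  have sq : CommSq f j (terminal.from Z) (terminal.from _) := ⟨terminal.hom_ext _ _⟩
  exact ⟨sq.lift, sq.fac_left⟩

theorem An.isIso {n : ℕ} (h : K < n) {X Y : A E K} {j : X ⟶ Y} (hj : An E K n j) : IsIso j := by
  have hall : ∀ {B C : A E K} (q : B ⟶ C), Fib E K n q := fun q k hk => by
    have := isIso_df E K false (k := k) (h.trans_le (by exact_mod_cast hk))
    infer_instance
  have := hj j (hall j)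
  have sq : CommSq (𝟙 X) j j (𝟙 Y) := ⟨by simp⟩
  exact ⟨sq.lift, sq.fac_left, sq.fac_right⟩

/-- In a model, the relation on cells is an equivalence relation. -/
theorem geqv_rel (hE : IsCoherator E) (X : A E K) (k : ℕ) (x y : Ce ((U E K).obj X) k)
    (h : GEqv _ x y) : GRel _ x y := by
  induction h with
  | rel _ _ h => exact h
  | refl x =>
    obtain ⟨κ, hκ⟩ := exists_unit (K := K) hE k
    refine ⟨κ ≫ x, ?_, ?_⟩ <;>
      exact (Category.assoc _ _ _).symm.trans ((congrArg (· ≫ x) (hκ _)).trans (Category.id_comp _))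
  | symm _ _ _ ih =>
    obtain ⟨c, rfl, rfl⟩ := ih
    obtain ⟨v, h₀, h₁⟩ := (contr_dd (K := K) hE (k + 1)).fill (df E K true k) (df E K false k)
      (ii_df _ _ _)
    exact ⟨v ≫ c, (Category.assoc _ _ _).symm.trans (congrArg (· ≫ c) h₀),
      (Category.assoc _ _ _).symm.trans (congrArg (· ≫ c) h₁)⟩
  | trans _ _ _ _ _ ih ih' =>
    obtain ⟨c, rfl, rfl⟩ := ih
    obtain ⟨c', h, rfl⟩ := ih'
    have po := presSums_D0 E K (k + 1) (.base (k + 1)) k (k + 1) (Nat.lt_succ_self k)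
      (Nat.lt_succ_self k)
    rw [lastD_base, Category.comp_id] at po
    have w : df E K true k ≫ _ = df E K false k ≫ _ := po.w
    obtain ⟨v, h₀, h₁⟩ := (contr_D0 (K := K) hE _).fill
      (df E K false k ≫ (D0 E K).map (initD (.base (k + 1)) k (k + 1) (Nat.lt_succ_self k)
        (Nat.lt_succ_self k)))
      (df E K true k ≫ (D0 E K).map (lastD (.snoc (.base (k + 1)) k (k + 1) (Nat.lt_succ_self k)
        (Nat.lt_succ_self k))))
      (by rw [← Category.assoc, ii_df false true, Category.assoc, w, ← Category.assoc,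
        ii_df false true, Category.assoc])
    refine ⟨v ≫ po.desc c c' h.symm, ?_, ?_⟩
    · change df E K false k ≫ _ = df E K false k ≫ c
      rw [← Category.assoc, h₀, Category.assoc, IsPushout.inl_desc]
    · change df E K true k ≫ _ = df E K true k ≫ c'
      rw [← Category.assoc, h₁, Category.assoc, IsPushout.inr_desc]

/-- `u : X ⟶ T` freely adjoins cells `e i` with source `x i`. -/
structure IsTeeth {n : ℕ} {ι : Type} {X T : A E K} (x : ι → (dd E K n ⟶ X)) (u : X ⟶ T)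
    (e : ι → (dd E K (n + 1) ⟶ T)) : Prop where
  w : ∀ i, df E K false n ≫ e i = x i ≫ u
  desc : ∀ {Y : A E K} (a : X ⟶ Y) (e' : ι → (dd E K (n + 1) ⟶ Y)),
    (∀ i, df E K false n ≫ e' i = x i ≫ a) → ∃ φ, u ≫ φ = a ∧ ∀ i, e i ≫ φ = e' i
  ext : ∀ {Y : A E K} (φ ψ : T ⟶ Y), u ≫ φ = u ≫ ψ → (∀ i, e i ≫ φ = e i ≫ ψ) → φ = ψ

theorem exists_teeth {n : ℕ} {ι : Type} {X : A E K} (x : ι → (dd E K n ⟶ X)) :
    ∃ (T : A E K) (u : X ⟶ T) (e : ι → (dd E K (n + 1) ⟶ T)), IsTeeth x u e := by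
  have po := IsPushout.of_hasPushout (Sigma.desc x) (Limits.Sigma.map fun _ : ι => df E K false n)
  refine ⟨_, pushout.inl _ _, fun i => Sigma.ι (fun _ => dd E K (n + 1)) i ≫ pushout.inr _ _,
    ⟨fun i => ?_, fun a e' h => ?_, fun φ ψ h h' => po.hom_ext h ?_⟩⟩
  · have := Sigma.ι (fun _ => dd E K n) i ≫= po.w
    simpa using this.symm
  · refine ⟨po.desc a (Sigma.desc e') (Sigma.hom_ext _ _ fun i => by simpa using (h i).symm),
      IsPushout.inl_desc _ _ _ _, fun i => by simp⟩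
  · exact Sigma.hom_ext _ _ fun i => by simpa using h' i

theorem IsTeeth.an {n : ℕ} {ι : Type} {X T : A E K} {x : ι → (dd E K n ⟶ X)} {u : X ⟶ T}
    {e : ι → (dd E K (n + 1) ⟶ T)} (h : IsTeeth x u e) : An E K n u := by
  intro Y Z p hp
  refine ⟨fun {a b} sq => ?_⟩
  have := hp n le_rfl
  have sq' : ∀ i, CommSq (x i ≫ a) (df E K false n) p (e i ≫ b) := fun i =>
    ⟨by rw [Category.assoc, sq.w, ← Category.assoc, ← h.w, Category.assoc]⟩
  obtain ⟨φ, h₁, h₂⟩ := h.desc a (fun i => (sq' i).lift) (fun i => (sq' i).fac_left)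
  exact CommSq.HasLift.mk' ⟨φ, h₁, h.ext _ _ (by rw [← Category.assoc, h₁, sq.w])
    (fun i => by rw [← Category.assoc, h₂, (sq' i).fac_right])⟩

variable (E K)

/-- Anodyne extensions of level `n` of cofibrant contractible models are contractible. -/
def GStat (n : ℕ) : Prop :=
  ∀ ⦃X Y : A E K⦄ (j : X ⟶ Y), An E K n j → Cofibrant X → Contr X → Contr Y

/-- Globular sums with finitely many teeth at generating `n`-cells are contractible. -/
def SStat (n : ℕ) : Prop :=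
  ∀ (ι : Type) [Finite ι] (S : Theta0) (x : ι → (disc n ⟶ S)) (T : A E K)
    (u : (D0 E K).obj S ⟶ T) (e : ι → (dd E K (n + 1) ⟶ T)),
    IsTeeth (fun i => (D0 E K).map (x i)) u e → Contr T

/-- Cofibrations between cofibrant contractible models are anodyne. -/
def CAStat : Prop :=
  ∀ ⦃X Y : A E K⦄ (j : X ⟶ Y), Cof E K 0 j → Cofibrant X → Contr X → Contr Y → An E K 0 j

/-- Path objects of level `n`. -/
structure PathObj (n : ℕ) where
  P : A E K ⥤ A E K
  p : Bool → (P ⟶ 𝟭 _)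
  bij : ∀ (X : A E K) (k : ℕ), k < n →
    Function.Bijective (fun c : dd E K k ⟶ P.obj X => c ≫ (p false).app X)
  eq : ∀ (X : A E K) (k : ℕ), k < n → ∀ c : dd E K k ⟶ P.obj X,
    c ≫ (p false).app X = c ≫ (p true).app X
  const : ∀ (X : A E K) (x : dd E K n ⟶ X), ∃ c : dd E K n ⟶ P.obj X, ∀ b, c ≫ (p b).app X = x
  fib : ∀ X : A E K, Fib E K n (prod.lift ((p false).app X) ((p true).app X))
  tf0 : ∀ X : A E K, TFib E K 0 ((p false).app X)
  tf : ∀ Z : A E K, Contr Z → TFib E K n (prod.lift ((p false).app Z) ((p true).app Z))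
  tf1 : n = 0 → GStat E K 0 → CAStat E K → ∀ X : A E K, TFib E K 0 ((p true).app X)
  cyl : Theta0 → A E K
  eps : ∀ S, (D0 E K).obj S ⟶ cyl S
  eps_an : ∀ S, An E K n (eps S)
  rep : ∀ (S : Theta0) (X : A E K), (cyl S ⟶ X) ≃ ((D0 E K).obj S ⟶ P.obj X)
  rep_comp : ∀ (S : Theta0) {X Y : A E K} (c : cyl S ⟶ X) (f : X ⟶ Y),
    rep S Y (c ≫ f) = rep S X c ≫ P.map f
  rep_p : ∀ (S : Theta0) {X : A E K} (c : cyl S ⟶ X), rep S X c ≫ (p false).app X = eps S ≫ c

end Vale.Agent.P259
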