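import Vale.Agent.P259.Fact

/-! Cubes with short maps, and the realization of presheaves on cubes as models. -/

open CategoryTheory Limits Opposite unitInterval

set_option backward.isDefEq.respectTransparency false

noncomputable section

namespace Vale.Agent.P259

/-- Cubes. -/
structure Cu where
  n : ℕ

/-- The points of a cube. -/
abbrev Cu.pt (m : Cu) : Type := Fin m.n → I

/-- Short maps. -/
@[ext] structure CuHom (a b : Cu) where
  f : a.pt → b.pt
  short : ∀ x y, dist (f x) (f y) ≤ dist x y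

instance : SmallCategory Cu where
  Hom := CuHom
  id _ := ⟨id, fun _ _ => le_rfl⟩
  comp f g := ⟨g.f ∘ f.f, fun x y => (g.short _ _).trans (f.short x y)⟩

theorem CuHom.continuous {a b : Cu} (f : CuHom a b) : Continuous f.f :=
  (LipschitzWith.of_dist_le_mul (K := 1) (fun x y => by simpa using f.short x y)).continuous

/-- The underlying space of a cube. -/
@[implicit_reducible] def cubeT : Cu ⥤ TopCat.{0} where
  obj m := TopCat.of m.pt
  map f := TopCat.ofHom ⟨f.f, CuHom.continuous f⟩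

instance (m : Cu) : ContractibleSpace m.pt := by
  rw [contractible_iff_id_nullhomotopic]
  refine ⟨0, ⟨⟨⟨fun p i => σ p.1 * p.2 i, by fun_prop⟩, fun x => ?_, fun x => ?_⟩⟩⟩
  · ext i; simp
  · ext i; simp

theorem dist_cons_le {n : ℕ} {a a' : I} {x x' : Fin n → I} {r : ℝ} (h₀ : dist a a' ≤ r)
    (h₁ : dist x x' ≤ r) :
    dist (Fin.cons a x : Fin (n + 1) → I) (Fin.cons a' x') ≤ r := by
  rw [dist_pi_le_iff (dist_nonneg.trans h₀)]
  intro i
  refine Fin.cases ?_ (fun i => ?_) i
  · simpa using h₀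
  · simpa using (dist_le_pi_dist x x' i).trans h₁

theorem dist_tail_le {n : ℕ} (z z' : Fin (n + 1) → I) :
    dist (Fin.tail z) (Fin.tail z') ≤ dist z z' :=
  (dist_pi_le_iff dist_nonneg).2 fun i => dist_le_pi_dist z z' i.succ

/-- The cylinder on a cube. -/
@[implicit_reducible] def cyC : Cu ⥤ Cu where
  obj m := ⟨m.n + 1⟩
  map f := ⟨fun z => Fin.cons (z 0) (f.f (Fin.tail z)), by
    intro z z'
    exact dist_cons_le (dist_le_pi_dist z z' 0) ((f.short _ _).trans (dist_tail_le z z'))⟩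
  map_id _ := CuHom.ext (funext fun z => Fin.cons_self_tail z)
  map_comp _ _ := CuHom.ext (funext fun _ => rfl)

/-- The ends of the cylinder. -/
def cyI (b : Bool) : 𝟭 Cu ⟶ cyC where
  app m := ⟨fun x => Fin.cons (if b then 1 else 0) x, by
    intro x x'
    exact dist_cons_le (by simp) le_rfl⟩

/-- The map to the point. -/
def toPt (m : Cu) : m ⟶ ⟨0⟩ := ⟨fun _ => Fin.elim0, fun _ _ => by simp⟩

/-- Presheaves on cubes. -/
abbrev CS : Type 1 := Cuᵒᵖ ⥤ Type

/-- The category of elements of a presheaf on cubes. -/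
structure El (X : CS) where
  m : Cu
  sg : X.obj (op m)

instance (X : CS) : SmallCategory (El X) where
  Hom a b := {f : a.m ⟶ b.m // X.map f.op b.sg = a.sg}
  id a := ⟨𝟙 _, by simp⟩
  comp f g := ⟨f.1 ≫ g.1, by rw [op_comp, Functor.map_comp_apply, g.2, f.2]⟩

/-- The projection from the category of elements. -/
@[implicit_reducible] def El.π (X : CS) : El X ⥤ Cu where
  obj a := a.m
  map f := f.1

variable (E : GlobExt)

/-- A projectively cofibrant diagram of contractible models on cubes. -/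
structure LamData where
  L : Cu ⥤ A E ⊤
  contr : ∀ m, Contr (L.obj m)
  lift : ∀ {G G' : Cu ⥤ A E ⊤} (q : G ⟶ G'), (∀ m, TFib E ⊤ 0 (q.app m)) →
    ∀ b : L ⟶ G', ∃ a, a ≫ q = b

attribute [local instance] Cardinal.fact_isRegular_aleph0 in
theorem LamData.nonempty : Nonempty (LamData E) := by
  let f : ∀ p : Cu × ℕ, (evaluationLeftAdjoint (A E ⊤) p.1).obj (sp E ⊤ p.2) ⟶
      (evaluationLeftAdjoint (A E ⊤) p.1).obj (dd E ⊤ p.2) :=
    fun p => (evaluationLeftAdjoint (A E ⊤) p.1).map (ii E ⊤ p.2)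
  have hfp : ∀ p : Cu × ℕ,
      IsFinitelyPresentable.{0} ((evaluationLeftAdjoint (A E ⊤) p.1).obj (sp E ⊤ p.2)) := by
    intro p
    have : ((evaluation Cu (A E ⊤)).obj p.1).IsCardinalAccessible Cardinal.aleph0.{0} :=
      ⟨fun J _ _ => inferInstance⟩
    exact (evaluationAdjunctionRight (A E ⊤) p.1).isCardinalPresentable_leftAdjoint_obj _ _
  have := hasSOA_ofHoms f hfp
  have key : ∀ {G G' : Cu ⥤ A E ⊤} (q : G ⟶ G'),
      (MorphismProperty.ofHoms f).rlp q ↔ ∀ m, TFib E ⊤ 0 (q.app m) := by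
    intro G G' q
    constructor
    · intro h m k _
      exact ((evaluationAdjunctionRight (A E ⊤) m).hasLiftingProperty_iff _ q).1
        (h _ (MorphismProperty.ofHoms.mk (m, k)))
    · rintro h _ _ _ ⟨⟨m, k⟩⟩
      exact ((evaluationAdjunctionRight (A E ⊤) m).hasLiftingProperty_iff _ q).2
        (h m k (Nat.zero_le k))
  let D := MorphismProperty.factorizationData (MorphismProperty.ofHoms f).rlp.llp
    (MorphismProperty.ofHoms f).rlp
    (initial.to ((Functor.const Cu).obj (⊤_ (A E ⊤))))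
  refine ⟨⟨D.Z, fun m => ?_, fun {G G'} q hq b => ?_⟩⟩
  · rw [contr_iff_tfib]
    have h := (key _).1 D.hp m
    rwa [terminal.hom_ext (D.p.app m) (terminal.from _)] at h
  · have := D.hi q ((key q).2 hq)
    have sq : CommSq (initial.to G) D.i q b := ⟨initial.hom_ext _ _⟩
    exact ⟨sq.lift, sq.fac_right⟩

/-- The chosen diagram. -/
def L0 : Cu ⥤ A E ⊤ := (LamData.nonempty E).some.L

theorem contr_L0 (m : Cu) : Contr ((L0 E).obj m) := (LamData.nonempty E).some.contr m

theorem L0_lift {G G' : Cu ⥤ A E ⊤} (q : G ⟶ G') (hq : ∀ m, TFib E ⊤ 0 (q.app m))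
    (b : L0 E ⟶ G') : ∃ a, a ≫ q = b := (LamData.nonempty E).some.lift q hq b

/-- The extension of `L0` to presheaves by colimits. -/
def Lam : CS ⥤ A E ⊤ :=
  haveI := nrv_isRightAdjoint (L0 E)
  (Nrv (L0 E)).leftAdjoint

/-- The adjunction defining `Lam`. -/
def adjLam : Lam E ⊣ Nrv (L0 E) :=
  haveI := nrv_isRightAdjoint (L0 E)
  Adjunction.ofIsRightAdjoint _

instance : (Lam E).IsLeftAdjoint := (adjLam E).isLeftAdjoint

variable {E}

/-- The structure map attached to an element. -/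
def ins {X : CS} {m : Cu} (sg : X.obj (op m)) : (L0 E).obj m ⟶ (Lam E).obj X :=
  ((adjLam E).unit.app X).app (op m) sg

theorem ins_nat {X : CS} {m m' : Cu} (a : m ⟶ m') (sg : X.obj (op m')) :
    (L0 E).map a ≫ ins sg = ins (X.map a.op sg) :=
  (NatTrans.naturality_apply ((adjLam E).unit.app X) a.op sg).symm

theorem ins_map {X Y : CS} (f : X ⟶ Y) {m : Cu} (sg : X.obj (op m)) :
    ins sg ≫ (Lam E).map f = ins (E := E) (f.app _ sg) :=
  (congrArg (fun t => t.app (op m) sg) ((adjLam E).unit.naturality f)).symm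

theorem homEquiv_Lam {X : CS} {Z : A E ⊤} (f : (Lam E).obj X ⟶ Z) (m : Cu) (sg : X.obj (op m)) :
    ((adjLam E).homEquiv X Z f).app (op m) sg = ins sg ≫ f := by
  rw [Adjunction.homEquiv_unit]
  rfl

theorem lam_ext {X : CS} {Z : A E ⊤} {f g : (Lam E).obj X ⟶ Z}
    (h : ∀ (m : Cu) (sg : X.obj (op m)), ins sg ≫ f = ins sg ≫ g) : f = g := by
  apply ((adjLam E).homEquiv X Z).injective
  ext ⟨m⟩ sg
  exact (homEquiv_Lam f m sg).trans ((h m sg).trans (homEquiv_Lam g m sg).symm)

theorem lam_desc {X : CS} {Z : A E ⊤} (φ : ∀ m : Cu, X.obj (op m) → ((L0 E).obj m ⟶ Z))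
    (h : ∀ {m m' : Cu} (a : m ⟶ m') (sg : X.obj (op m')),
      (L0 E).map a ≫ φ m' sg = φ m (X.map a.op sg)) :
    ∃ f : (Lam E).obj X ⟶ Z, ∀ m sg, ins sg ≫ f = φ m sg := by
  let t : X ⟶ (Nrv (L0 E)).obj Z :=
    { app := fun m => ↾(φ m.unop)
      naturality := fun m m' a => by
        ext sg
        exact (h a.unop sg).symm }
  refine ⟨((adjLam E).homEquiv X Z).symm t, fun m sg => ?_⟩
  rw [← homEquiv_Lam, Equiv.apply_symm_apply]
  rfl

theorem isIso_ins_id (m : Cu) : IsIso (ins (E := E) (X := yoneda.obj m) (𝟙 m)) := by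
  obtain ⟨g, hg⟩ := lam_desc (E := E) (X := yoneda.obj m) (Z := (L0 E).obj m)
    (fun _ a => (L0 E).map a) (fun a b => ((L0 E).map_comp a b).symm)
  refine ⟨g, (hg m (𝟙 m)).trans ((L0 E).map_id m), lam_ext fun m' a => ?_⟩
  rw [← Category.assoc, hg, ins_nat, Category.comp_id]
  exact congrArg ins (Category.comp_id (f := a))

theorem pi_el_congr {X : CS} (G : El X ⥤ A E ⊤) {m : Cu} {s s' : X.obj (op m)} {e : El X}
    (f : (⟨m, s⟩ : El X) ⟶ e) (g : (⟨m, s'⟩ : El X) ⟶ e) (h : f.1 = g.1) :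
    Pi.π (fun t : X.obj (op m) => G.obj ⟨m, t⟩) s ≫ G.map f =
      Pi.π (fun t : X.obj (op m) => G.obj ⟨m, t⟩) s' ≫ G.map g := by
  obtain rfl : s = s' := f.2.symm.trans ((congrArg (fun a => X.map a.op e.sg) h).trans g.2)
  rw [Subtype.ext h]

/-- Sections over the elements of a presheaf. -/
def elProd {X : CS} (G : El X ⥤ A E ⊤) : Cu ⥤ A E ⊤ where
  obj m := ∏ᶜ (fun t : X.obj (op m) => G.obj ⟨m, t⟩)
  map {m m'} a := Pi.lift fun t => Pi.π _ (X.map a.op t) ≫
    G.map (X := ⟨m, X.map a.op t⟩) (Y := ⟨m', t⟩) ⟨a, rfl⟩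
  map_id m := by
    refine Pi.hom_ext _ _ fun t => ?_
    rw [Pi.lift_π, Category.id_comp]
    refine (pi_el_congr G _ (𝟙 (⟨m, t⟩ : El X)) (by rfl)).trans ?_
    rw [G.map_id, Category.comp_id]
  map_comp {m m' m''} a a' := by
    refine Pi.hom_ext _ _ fun t => ?_
    rw [Pi.lift_π, Category.assoc, Pi.lift_π, Pi.lift_π_assoc, Category.assoc, ← G.map_comp]
    exact pi_el_congr G _ _ rfl

@[reassoc]
theorem elProd_map_π {X : CS} (G : El X ⥤ A E ⊤) {m m' : Cu} (a : m ⟶ m') (t : X.obj (op m')) :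
    (elProd G).map a ≫ Pi.π (fun t : X.obj (op m') => G.obj ⟨m', t⟩) t =
      Pi.π (fun t : X.obj (op m) => G.obj ⟨m, t⟩) (X.map a.op t) ≫
        G.map (X := ⟨m, X.map a.op t⟩) (Y := ⟨m', t⟩) ⟨a, rfl⟩ := Pi.lift_π _ _

/-- Lifting with carriers. -/
theorem carrier_lift {X : CS} {G G' : El X ⥤ A E ⊤} (q : G ⟶ G')
    (hq : ∀ a, TFib E ⊤ 0 (q.app a)) (b : El.π X ⋙ L0 E ⟶ G') : ∃ a, a ≫ q = b := by
  let Q : elProd G ⟶ elProd G' :=
    { app := fun m => Limits.Pi.map fun t => q.app ⟨m, t⟩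
      naturality := fun m m' a => by
        refine Pi.hom_ext _ _ fun t => ?_
        rw [Category.assoc, Category.assoc, Pi.map_π, elProd_map_π, elProd_map_π_assoc,
          Pi.map_π_assoc, q.naturality] }
  let B : L0 E ⟶ elProd G' :=
    { app := fun m => Pi.lift fun t => b.app ⟨m, t⟩
      naturality := fun m m' a => by
        refine Pi.hom_ext _ _ fun t => ?_
        rw [Category.assoc, Category.assoc, Pi.lift_π, elProd_map_π, Pi.lift_π_assoc]
        exact b.naturality (X := ⟨m, X.map a.op t⟩) (Y := ⟨m', t⟩) ⟨a, rfl⟩ }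
  obtain ⟨a, ha⟩ := L0_lift E Q (fun m k hk => by
    have : ∀ t : X.obj (op m), HasLiftingProperty (ii E ⊤ k) (q.app ⟨m, t⟩) :=
      fun t => hq _ k hk
    exact inferInstanceAs (HasLiftingProperty _ (Limits.Pi.map fun t => q.app ⟨m, t⟩))) B
  refine ⟨{ app := fun e => a.app e.m ≫ Pi.π (fun t : X.obj (op e.m) => G.obj ⟨e.m, t⟩) e.sg
            naturality := fun e e' f => ?_ }, ?_⟩
  · change (L0 E).map f.1 ≫ _ = _
    rw [a.naturality_assoc, elProd_map_π, Category.assoc]
    exact congrArg _ (pi_el_congr G _ (e := e') f rfl)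
  · ext1
    funext e
    have h := congrArg
      (fun t => t.app e.m ≫ Pi.π (fun t : X.obj (op e.m) => G'.obj ⟨e.m, t⟩) e.sg) ha
    simp only [NatTrans.comp_app, Category.assoc, Q, B, Pi.map_π, Pi.lift_π] at h
    exact (Category.assoc _ _ _).trans h

/-- The structure maps as a natural family. -/
def insNat {X : CS} {Z : A E ⊤} (f : (Lam E).obj X ⟶ Z) :
    El.π X ⋙ L0 E ⟶ (Functor.const _).obj Z where
  app e := ins e.sg ≫ f
  naturality e e' u := by
    change (L0 E).map u.1 ≫ _ = _ ≫ 𝟙 _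
    rw [← Category.assoc, ins_nat, u.2, Category.comp_id]

theorem lam_desc' {X : CS} {Z : A E ⊤} (a : El.π X ⋙ L0 E ⟶ (Functor.const _).obj Z) :
    ∃ f : (Lam E).obj X ⟶ Z, ∀ m sg, ins sg ≫ f = a.app ⟨m, sg⟩ :=
  lam_desc (fun m sg => a.app ⟨m, sg⟩) fun {m m'} u sg =>
    (a.naturality (X := ⟨m, X.map u.op sg⟩) (Y := ⟨m', sg⟩) ⟨u, rfl⟩).trans (Category.comp_id _)

/-- The fibre of a map of presheaves over an element. -/
abbrev fibEl {X Y : CS} (j : X ⟶ Y) (e : El Y) : Type := {x : X.obj (op e.m) // j.app _ x = e.sg}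

/-- Restriction of a point of the fibre. -/
def fibEl.res {X Y : CS} {j : X ⟶ Y} {e e' : El Y} (u : e ⟶ e') (x : fibEl j e') : fibEl j e :=
  ⟨X.map u.1.op x.1, (NatTrans.naturality_apply j u.1.op x.1).trans (by rw [x.2, u.2])⟩

/-- The carrier used for cofibrations. -/
def wpEl {X Y : CS} (j : X ⟶ Y) {P Q : A E ⊤} (q : P ⟶ Q) : El Y ⥤ A E ⊤ where
  obj e := widePullback Q (fun _ : fibEl j e => P) (fun _ => q)
  map u := WidePullback.lift (WidePullback.base _) (fun x => WidePullback.π _ (fibEl.res u x))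
    (fun _ => WidePullback.π_arrow _ _)
  map_id e := by
    refine WidePullback.hom_ext _ _ _ (fun x => ?_) ?_
    · rw [WidePullback.lift_π, Category.id_comp]
      congr 1
      refine Subtype.ext ?_
      exact X.map_id_apply _ x.1
    · rw [WidePullback.lift_base, Category.id_comp]
  map_comp u u' := by
    refine WidePullback.hom_ext _ _ _ (fun x => ?_) ?_
    · rw [WidePullback.lift_π, Category.assoc, WidePullback.lift_π, WidePullback.lift_π]
      congr 1
      refine Subtype.ext ?_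
      exact X.map_comp_apply u'.1.op u.1.op x.1
    · rw [WidePullback.lift_base, Category.assoc, WidePullback.lift_base, WidePullback.lift_base]

theorem tfib_wp {ι : Type} [Subsingleton ι] {P Q : A E ⊤} {q : P ⟶ Q} (hq : TFib E ⊤ 0 q) :
    TFib E ⊤ 0 (WidePullback.lift (objs := fun _ : ι => P) (arrows := fun _ => q) q
      (fun _ => 𝟙 P) (fun _ => Category.id_comp _)) := by
  intro k hk
  have := hq k hk
  refine ⟨fun {t b} sq => ?_⟩
  by_cases hι : Nonempty ι
  · obtain ⟨i⟩ := hι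
    refine ⟨⟨⟨b ≫ WidePullback.π _ i, ?_, ?_⟩⟩⟩
    · rw [← Category.assoc, ← sq.w, Category.assoc, WidePullback.lift_π, Category.comp_id]
    · refine WidePullback.hom_ext _ _ _ (fun i' => ?_) ?_
      · rw [Category.assoc, WidePullback.lift_π, Category.comp_id, Subsingleton.elim i i']
      · rw [Category.assoc, WidePullback.lift_base, Category.assoc, WidePullback.π_arrow]
  · have sq' : CommSq t (ii E ⊤ k) q (b ≫ WidePullback.base _) :=
      ⟨by rw [← Category.assoc, ← sq.w, Category.assoc, WidePullback.lift_base]⟩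
    refine ⟨⟨⟨sq'.lift, sq'.fac_left, ?_⟩⟩⟩
    refine WidePullback.hom_ext _ _ _ (fun i' => absurd ⟨i'⟩ hι) ?_
    rw [Category.assoc, WidePullback.lift_base, sq'.fac_right]

theorem cof_Lam {X Y : CS} (j : X ⟶ Y) [Mono j] : Cof E ⊤ 0 ((Lam E).map j) := by
  intro P Q q hq
  refine ⟨fun {f g} sq => ?_⟩
  let r : (Functor.const (El Y)).obj P ⟶ wpEl j q :=
    { app := fun e => WidePullback.lift q (fun _ => 𝟙 P) (fun _ => Category.id_comp _)
      naturality := fun e e' u => by
        refine WidePullback.hom_ext _ _ _ (fun x => ?_) ?_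
        · simp [wpEl]
        · simp [wpEl] }
  let b : El.π Y ⋙ L0 E ⟶ wpEl j q :=
    { app := fun e => WidePullback.lift (ins e.sg ≫ g) (fun x => ins x.1 ≫ f) (fun x => by
        rw [Category.assoc, sq.w, ← Category.assoc, ins_map]
        exact congrArg (fun t => ins t ≫ g) x.2)
      naturality := fun e e' u => by
        refine WidePullback.hom_ext _ _ _ (fun x => ?_) ?_
        · simp only [wpEl, Category.assoc, WidePullback.lift_π]
          change (L0 E).map u.1 ≫ _ = _
          rw [← Category.assoc, ins_nat]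
          rfl
        · simp only [wpEl, Category.assoc, WidePullback.lift_base]
          change (L0 E).map u.1 ≫ _ = _
          rw [← Category.assoc, ins_nat, u.2] }
  obtain ⟨a, ha⟩ := carrier_lift r (fun e => by
    have : Subsingleton (fibEl j e) := ⟨fun x y => Subtype.ext
      ((mono_iff_injective (j.app (op e.m))).1 inferInstance (x.2.trans y.2.symm))⟩
    exact tfib_wp hq) b
  obtain ⟨l, hl⟩ := lam_desc' a
  refine ⟨⟨⟨l, lam_ext fun m x => ?_, lam_ext fun m sg => ?_⟩⟩⟩
  · have h := congrArg (fun t => t.app ⟨m, j.app _ x⟩ ≫ WidePullback.π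
      (objs := fun _ : fibEl j ⟨m, j.app _ x⟩ => P) (fun _ => q) ⟨x, rfl⟩) ha
    simp only [NatTrans.comp_app, Category.assoc, r, b, WidePullback.lift_π] at h
    rw [← Category.assoc, ins_map, hl]
    exact (Category.comp_id _).symm.trans h
  · have h := congrArg (fun t => t.app ⟨m, sg⟩ ≫ WidePullback.base
      (objs := fun _ : fibEl j ⟨m, sg⟩ => P) (fun _ => q)) ha
    simp only [NatTrans.comp_app, Category.assoc, r, b, WidePullback.lift_base] at h
    rw [← Category.assoc, hl]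
    exact h

theorem cofibrant_Lam (X : CS) : Cofibrant ((Lam E).obj X) := by
  intro P Q q hq g
  obtain ⟨a, ha⟩ := carrier_lift ((Functor.const (El X)).map q) (fun _ => hq) (insNat g)
  obtain ⟨l, hl⟩ := lam_desc' a
  refine ⟨l, lam_ext fun m sg => ?_⟩
  rw [← Category.assoc, hl]
  exact congrArg (fun t => t.app ⟨m, sg⟩) ha

end Vale.Agent.P259
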