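import Vale.Agent.P259.Fact

/-! Weak equivalences of models. -/

open CategoryTheory Limits Opposite

set_option backward.isDefEq.respectTransparency false

noncomputable section

namespace Vale.Agent.P259

variable {E : GlobExt}

/-- The path object. -/
def PO (hE : IsCoherator E) : PathObj E ⊤ 0 := (pathObj_top hE).some

theorem tfib_p (hE : IsCoherator E) (b : Bool) (X : A E ⊤) :
    TFib E ⊤ 0 (((PO hE).p b).app X) := by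
  cases b
  · exact (PO hE).tf0 X
  · exact (PO hE).tf1 rfl (gstat_top hE) (caStat hE) X

theorem glift_p (hE : IsCoherator E) (b : Bool) (X : A E ⊤) (k : ℕ) :
    GLift ((U E ⊤).map (((PO hE).p b).app X)) k :=
  (tfib_iff _).1 (tfib_p hE b X) k (Nat.zero_le k)

variable (E) in
/-- Weak equivalences. -/
def Wq : MorphismProperty (A E ⊤) := fun _ _ f => GW ((U E ⊤).map f)

theorem Wq.of_tfib (hE : IsCoherator E) {X Y : A E ⊤} {q : X ⟶ Y} (h : TFib E ⊤ 0 q) : Wq E q :=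
  GW.of_glift (fun k => (tfib_iff q).1 h k (Nat.zero_le k))
    fun k y => geqv_rel hE Y k y y (GEqv.refl _ y)

theorem Wq.of_isIso {X Y : A E ⊤} (f : X ⟶ Y) [IsIso f] : Wq E f := GW.of_isIso _

theorem Wq.comp {X Y Z : A E ⊤} {f : X ⟶ Y} {g : Y ⟶ Z} (hf : Wq E f) (hg : Wq E g) :
    Wq E (f ≫ g) := by
  unfold Wq; rw [Functor.map_comp]; exact GW.comp hf hg

theorem Wq.of_comp_right {X Y Z : A E ⊤} {f : X ⟶ Y} {g : Y ⟶ Z} (h : Wq E (f ≫ g))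
    (hg : Wq E g) : Wq E f := by
  unfold Wq at h; rw [Functor.map_comp] at h; exact GW.of_comp_right h hg

theorem Wq.of_contr {X Y : A E ⊤} (f : X ⟶ Y) (hX : Contr X) (hY : Contr Y) : Wq E f :=
  GW.of_contr _ hX hY

theorem Wq.contr {X Y : A E ⊤} {f : X ⟶ Y} (h : Wq E f) (hY : Contr Y) : Contr X :=
  GW.contr h hY

theorem Wq.of_surj (hE : IsCoherator E) {X Y : A E ⊤} {f : X ⟶ Y}
    (h : ∀ k (s : Sph ((U E ⊤).obj X) k) (y : Ce ((U E ⊤).obj Y) k),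
      bd _ y = smap ((U E ⊤).map f) s → ∃ x, bd _ x = s ∧ GEqv _ (ap ((U E ⊤).map f) x) y) :
    Wq E f := GW.of_surj (geqv_rel hE Y) h

theorem Wq.of_htpy (hE : IsCoherator E) {X Y : A E ⊤} (H : X ⟶ (PO hE).P.obj Y) (b b' : Bool)
    (h : Wq E (H ≫ ((PO hE).p b).app Y)) : Wq E (H ≫ ((PO hE).p b').app Y) := by
  unfold Wq at h ⊢
  rw [Functor.map_comp] at h ⊢
  exact GW.of_htpy _ (glift_p hE b Y) (glift_p hE b' Y) h
    fun k y => geqv_rel hE Y k y y (GEqv.refl _ y)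

/-- Iterated identity operation. -/
def kap (u : Units E) : ∀ n, dd E ⊤ n ⟶ dd E ⊤ 0
  | 0 => 𝟙 _
  | n + 1 => (Dk E ⊤).map (X := (io E).obj (disc (n + 1))) (Y := (io E).obj (disc n)) (u.idm n) ≫
      kap u n

section Aux

variable {X Y Z : A E ⊤} {k : ℕ}

theorem wqE_post {x y : dd E ⊤ k ⟶ X} (h : GEqv ((U E ⊤).obj X) x y) (f : X ⟶ Y) :
    GEqv ((U E ⊤).obj Y) (x ≫ f) (y ≫ f) := h.ap ((U E ⊤).map f)

/-- Surjectivity on classes of fillers of a sphere. -/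
def WqS (f : X ⟶ Y) (σ : sp E ⊤ k ⟶ X) : Prop :=
  ∀ y : dd E ⊤ k ⟶ Y, ii E ⊤ k ≫ y = σ ≫ f →
    ∃ x : dd E ⊤ k ⟶ X, ii E ⊤ k ≫ x = σ ∧ GEqv ((U E ⊤).obj Y) (x ≫ f) y

/-- Injectivity on classes of fillers of a sphere. -/
def WqI (f : X ⟶ Y) (σ : sp E ⊤ k ⟶ X) : Prop :=
  ∀ x x' : dd E ⊤ k ⟶ X, ii E ⊤ k ≫ x = σ → ii E ⊤ k ≫ x' = σ →
    GEqv ((U E ⊤).obj Y) (x ≫ f) (x' ≫ f) → GEqv ((U E ⊤).obj X) x x'

theorem wq_iff_SI (f : X ⟶ Y) : Wq E f ↔ (∀ k (σ : sp E ⊤ k ⟶ X), WqS f σ) ∧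
    ∀ k (σ : sp E ⊤ k ⟶ X), WqI f σ := by
  refine and_congr ⟨fun h k σ y e => ?_, fun h k s y e => ?_⟩ ⟨fun h k σ x x' e e' => ?_,
    fun h k x x' e => h k _ x x' rfl ((par_iff x x').1 e).symm⟩
  · obtain ⟨x, h1, h2⟩ := h k ((ST E ⊤).sph σ) y
      ((((ST E ⊤).bd_eq_iff y _).2 e).trans ((ST E ⊤).sph_comp σ f))
    exact ⟨x, ((ST E ⊤).bd_eq_iff x _).1 h1, h2⟩
  · obtain ⟨σ, rfl⟩ := ((ST E ⊤).sph_bijective X k).2 s
    obtain ⟨x, h1, h2⟩ := h k σ y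
      (((ST E ⊤).bd_eq_iff y _).1 (e.trans ((ST E ⊤).sph_comp σ f).symm))
    exact ⟨x, ((ST E ⊤).bd_eq_iff x _).2 h1, h2⟩
  · exact h k x x' ((par_iff x x').2 (e.trans e'.symm))

theorem TFib.wq_lift {q : X ⟶ Y} (h : TFib E ⊤ 0 q) (σ : sp E ⊤ k ⟶ X) (y : dd E ⊤ k ⟶ Y)
    (e : ii E ⊤ k ≫ y = σ ≫ q) : ∃ x, ii E ⊤ k ≫ x = σ ∧ x ≫ q = y := by
  have := h k (Nat.zero_le k)
  have sq : CommSq σ (ii E ⊤ k) q y := ⟨e.symm⟩
  exact ⟨sq.lift, sq.fac_left, sq.fac_right⟩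

theorem wq_square (hE : IsCoherator E) {X' Y' : A E ⊤} {f : X ⟶ Y} {g : X' ⟶ Y'} {q : X' ⟶ X}
    {q' : Y' ⟶ Y}
    (w : g ≫ q' = q ≫ f) (hq : TFib E ⊤ 0 q) (hq' : TFib E ⊤ 0 q') (γ : sp E ⊤ k ⟶ X') :
    (WqS f (γ ≫ q) ↔ WqS g γ) ∧ (WqI f (γ ≫ q) ↔ WqI g γ) := by
  have hI := ((wq_iff_SI q).1 (Wq.of_tfib hE hq)).2 k
  have hI' := ((wq_iff_SI q').1 (Wq.of_tfib hE hq')).2 k
  refine ⟨⟨fun h y e => ?_, fun h y e => ?_⟩, fun h x x' e e' H => ?_, fun h x x' e e' H => ?_⟩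
  · obtain ⟨x, h1, h2⟩ := h (y ≫ q') (by rw [reassoc_of% e, w, Category.assoc])
    obtain ⟨x, h3, rfl⟩ := hq.wq_lift γ x h1
    refine ⟨x, h3, hI' _ _ _ (by rw [reassoc_of% h3]) e ?_⟩
    rwa [Category.assoc, w, ← Category.assoc]
  · obtain ⟨y, h1, rfl⟩ := hq'.wq_lift (γ ≫ g) y (by rw [e, Category.assoc, Category.assoc, w])
    obtain ⟨x, h2, h3⟩ := h y h1
    refine ⟨x ≫ q, by rw [reassoc_of% h2], ?_⟩
    rw [Category.assoc, ← w, ← Category.assoc]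
    exact wqE_post h3 q'
  · refine hI _ _ _ e e' (h _ _ (by rw [reassoc_of% e]) (by rw [reassoc_of% e']) ?_)
    rw [Category.assoc, Category.assoc, ← w, ← Category.assoc, ← Category.assoc]
    exact wqE_post H q'
  · obtain ⟨x, h1, rfl⟩ := hq.wq_lift γ x e
    obtain ⟨x', h2, rfl⟩ := hq.wq_lift γ x' e'
    refine wqE_post (h _ _ h1 h2 (hI' (γ ≫ g) _ _ (by rw [reassoc_of% h1])
      (by rw [reassoc_of% h2]) ?_)) q
    rwa [Category.assoc, Category.assoc, w, ← Category.assoc, ← Category.assoc]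

theorem wq_transport (hE : IsCoherator E) (f : X ⟶ Y) (hZ : Contr Z) (v : Z ⟶ X)
    (s s' : sp E ⊤ k ⟶ Z) :
    (WqS f (s ≫ v) → WqS f (s' ≫ v)) ∧ (WqI f (s ≫ v) → WqI f (s' ≫ v)) := by
  obtain ⟨β, hβ⟩ := cofibrant_sp k _ ((PO hE).tf Z hZ) (prod.lift s s')
  have h0 : β ≫ ((PO hE).p false).app Z = s := by simpa using hβ =≫ prod.fst
  have h1 : β ≫ ((PO hE).p true).app Z = s' := by simpa using hβ =≫ prod.snd
  have key := fun b => wq_square hE (((PO hE).p b).naturality f) (tfib_p hE b X) (tfib_p hE b Y)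
    (β ≫ (PO hE).P.map v)
  have e0 : (β ≫ (PO hE).P.map v) ≫ ((PO hE).p false).app X = s ≫ v := by
    rw [Category.assoc, NatTrans.naturality, reassoc_of% h0]; rfl
  have e1 : (β ≫ (PO hE).P.map v) ≫ ((PO hE).p true).app X = s' ≫ v := by
    rw [Category.assoc, NatTrans.naturality, reassoc_of% h1]; rfl
  have k0 := key false
  have k1 := key true
  rw [e0] at k0
  rw [e1] at k1
  exact ⟨fun h => k1.1.2 (k0.1.1 h), fun h => k1.2.2 (k0.2.1 h)⟩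

end Aux

/-- Change of sphere through a contractible model. -/
theorem gw_transport (hE : IsCoherator E) {X Y Z : A E ⊤} (f : X ⟶ Y) (hZ : Contr Z) (v : Z ⟶ X)
    {k : ℕ} (s s' : sp E ⊤ k ⟶ Z) :
    ((∀ y : dd E ⊤ k ⟶ Y, ii E ⊤ k ≫ y = s ≫ v ≫ f →
        ∃ x : dd E ⊤ k ⟶ X, ii E ⊤ k ≫ x = s ≫ v ∧ GEqv ((U E ⊤).obj Y) (x ≫ f) y) →
      ∀ y : dd E ⊤ k ⟶ Y, ii E ⊤ k ≫ y = s' ≫ v ≫ f →
        ∃ x : dd E ⊤ k ⟶ X, ii E ⊤ k ≫ x = s' ≫ v ∧ GEqv ((U E ⊤).obj Y) (x ≫ f) y) ∧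
    ((∀ x x' : dd E ⊤ k ⟶ X, ii E ⊤ k ≫ x = s ≫ v → ii E ⊤ k ≫ x' = s ≫ v →
        GEqv ((U E ⊤).obj Y) (x ≫ f) (x' ≫ f) → GEqv ((U E ⊤).obj X) x x') →
      ∀ x x' : dd E ⊤ k ⟶ X, ii E ⊤ k ≫ x = s' ≫ v → ii E ⊤ k ≫ x' = s' ≫ v →
        GEqv ((U E ⊤).obj Y) (x ≫ f) (x' ≫ f) → GEqv ((U E ⊤).obj X) x x') := by
  have H := wq_transport hE f hZ v s s'
  simp only [WqS, WqI, Category.assoc] at H
  exact H

/-- The constant sphere. -/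
def wqC (u : Units E) (n : ℕ) : sp E ⊤ (n + 1) ⟶ dd E ⊤ 0 :=
  ((ST E ⊤).po n).desc (kap u n) (kap u n) rfl

theorem ν_wqC (u : Units E) (b : Bool) (n : ℕ) : (ST E ⊤).ν b n ≫ wqC u n = kap u n := by
  cases b
  exacts [IsPushout.inl_desc .., IsPushout.inr_desc ..]

theorem wq_ii_iff {X : A E ⊤} {n : ℕ} {x : dd E ⊤ (n + 1) ⟶ X} {σ : sp E ⊤ (n + 1) ⟶ X} :
    ii E ⊤ (n + 1) ≫ x = σ ↔ ∀ b, df E ⊤ b n ≫ x = (ST E ⊤).ν b n ≫ σ := by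
  constructor
  · rintro rfl b
    rw [← Category.assoc, (ST E ⊤).w]
  · intro h
    exact (ST E ⊤).hom_ext fun b => by rw [← h, ← Category.assoc, (ST E ⊤).w]

theorem wq_of_base (hE : IsCoherator E) (u : Units E) {X Y : A E ⊤} (f : X ⟶ Y)
    (h0 : ∀ σ : sp E ⊤ 0 ⟶ X, WqS f σ ∧ WqI f σ)
    (h : ∀ n (x : dd E ⊤ 0 ⟶ X), WqS f (wqC u n ≫ x) ∧ WqI f (wqC u n ≫ x)) : Wq E f := by
  have key : ∀ n (x : dd E ⊤ (n + 1) ⟶ X), WqS f (ii E ⊤ _ ≫ x) ∧ WqI f (ii E ⊤ _ ≫ x) := by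
    intro n x
    obtain ⟨pt, -⟩ := (contr_iff _).1 (contr_dd (K := ⊤) hE (n + 1)) 0 ((ST E ⊤).ini.to _)
    have H := wq_transport hE f (contr_dd hE (n + 1)) x (wqC u n ≫ pt) (ii E ⊤ _)
    rw [Category.assoc] at H
    exact ⟨H.1 (h n _).1, H.2 (h n _).2⟩
  have hI : ∀ k (σ : sp E ⊤ k ⟶ X), WqI f σ := by
    rintro (_ | n) σ
    · exact (h0 σ).2
    · rintro x x' rfl
      exact (key n x).2 x x' rfl
  refine (wq_iff_SI f).2 ⟨?_, hI⟩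
  rintro (_ | n) σ
  · exact (h0 σ).1
  intro y e
  have e' := wq_ii_iff.1 e
  obtain ⟨x, h1, h2⟩ := geqv_rel hE X n _ _ (hI n _ ((ST E ⊤).ν false n ≫ σ)
    ((ST E ⊤).ν true n ≫ σ) rfl (by
      rw [← Category.assoc, ← Category.assoc, (ST E ⊤).β_ν true false])
    (GRel.eqv ⟨y, (e' false).trans (Category.assoc _ _ _).symm,
      (e' true).trans (Category.assoc _ _ _).symm⟩))
  obtain rfl : ii E ⊤ _ ≫ x = σ := wq_ii_iff.2 fun b => by cases b; exacts [h1, h2]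
  exact (key n x).1 y e

theorem wq_of_pre (hE : IsCoherator E) {X Y Z : A E ⊤} (f : X ⟶ Y) (g : Y ⟶ Z)
    (h0 : ∀ y : dd E ⊤ 0 ⟶ Y, ∃ x : dd E ⊤ 0 ⟶ X, GEqv ((U E ⊤).obj Y) (x ≫ f) y)
    (h : ∀ k (σ : sp E ⊤ k ⟶ X), WqS g (σ ≫ f) ∧ WqI g (σ ≫ f)) : Wq E g := by
  obtain ⟨u⟩ := units_nonempty hE
  refine wq_of_base hE u g (fun σ => ?_) fun n y => ?_
  · rw [(ST E ⊤).ini.hom_ext σ ((ST E ⊤).ini.to X ≫ f)]
    exact h 0 _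
  · obtain ⟨x, hx⟩ := h0 y
    obtain ⟨c, h1, rfl⟩ := geqv_rel hE Y 0 _ _ hx
    have H := wq_transport hE g (contr_dd hE 1) c (wqC u n ≫ df E ⊤ false 0)
      (wqC u n ≫ df E ⊤ true 0)
    have h1' : df E ⊤ false 0 ≫ c = x ≫ f := h1
    rw [Category.assoc, Category.assoc, h1', ← Category.assoc] at H
    exact ⟨H.1 (h _ _).1, H.2 (h _ _).2⟩

theorem WqS.of_comp {X Y Z : A E ⊤} {f : X ⟶ Y} {g : Y ⟶ Z} {k : ℕ} {σ : sp E ⊤ k ⟶ X}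
    (h : WqS (f ≫ g) σ) : WqS g (σ ≫ f) := fun z e => by
  obtain ⟨x, h1, h2⟩ := h z (e.trans (Category.assoc _ _ _))
  exact ⟨x ≫ f, by rw [reassoc_of% h1], by rwa [Category.assoc]⟩

theorem wq_of_comp_left (hE : IsCoherator E) {X Y Z : A E ⊤} {f : X ⟶ Y} {g : Y ⟶ Z}
    (hf : Wq E f) (h : Wq E (f ≫ g)) : Wq E g := by
  rw [wq_iff_SI] at hf h
  refine wq_of_pre hE f g (fun y => ?_) fun k σ => ⟨(h.1 k σ).of_comp, fun y y' e e' H => ?_⟩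
  · obtain ⟨x, -, hx⟩ := hf.1 0 ((ST E ⊤).ini.to _) y ((ST E ⊤).ini.hom_ext _ _)
    exact ⟨x, hx⟩
  · obtain ⟨x, h1, h2⟩ := hf.1 k σ y e
    obtain ⟨x', h1', h2'⟩ := hf.1 k σ y' e'
    refine h2.symm.trans ((wqE_post (h.2 k σ x x' h1 h1' ?_) f).trans h2')
    rw [← Category.assoc, ← Category.assoc]
    exact (wqE_post h2 g).trans (H.trans (wqE_post h2' g).symm)

theorem wq_iff_gw0 (hE : IsCoherator E) (u : Units E) {X Y : A E ⊤} (f : X ⟶ Y) :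
    Wq E f ↔ GW0 ((U E ⊤).map f) (fun x n => kap u n ≫ x) := by
  refine ⟨fun h => GW.gw0 h _, fun h => wq_of_base hE u f (fun σ => ⟨fun y _ => ?_,
    fun x x' _ _ => h.2.1 x x'⟩) fun n x => ⟨fun y e => ?_, fun a a' e e' => ?_⟩⟩
  · obtain ⟨x, hx⟩ := h.1 y
    exact ⟨x, (ST E ⊤).ini.hom_ext _ _, hx⟩
  · obtain ⟨a, h1, h2⟩ := h.2.2.1 x n y fun b => (wq_ii_iff.1 e b).trans (by
      rw [← Category.assoc, ← Category.assoc, ν_wqC]; rfl)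
    exact ⟨a, wq_ii_iff.2 fun b => (h1 b).trans (by rw [← Category.assoc, ν_wqC]), h2⟩
  · exact h.2.2.2 x n a a' (fun b => (wq_ii_iff.1 e b).trans (by rw [← Category.assoc, ν_wqC]))
      fun b => (wq_ii_iff.1 e' b).trans (by rw [← Category.assoc, ν_wqC])

theorem Wq.two_of_six (hE : IsCoherator E) {X Y Z T : A E ⊤} {f : X ⟶ Y} {g : Y ⟶ Z} {h : Z ⟶ T}
    (h₁ : Wq E (f ≫ g)) (h₂ : Wq E (g ≫ h)) : Wq E f ∧ Wq E g ∧ Wq E h := by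
  have k₁ := (wq_iff_SI _).1 h₁
  have k₂ := (wq_iff_SI _).1 h₂
  have hI : ∀ k (σ : sp E ⊤ k ⟶ Y), WqI g σ := fun k σ y y' e e' H => k₂.2 k σ y y' e e' (by
    rw [← Category.assoc, ← Category.assoc]
    exact wqE_post H h)
  have hg : Wq E g := wq_of_pre hE f g (fun y => by
    obtain ⟨x, -, hx⟩ := k₁.1 0 ((ST E ⊤).ini.to _) (y ≫ g) ((ST E ⊤).ini.hom_ext _ _)
    exact ⟨x, hI 0 _ _ _ rfl ((ST E ⊤).ini.hom_ext _ _) (by rwa [Category.assoc])⟩)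
    fun k σ => ⟨(k₁.1 k σ).of_comp, hI k _⟩
  exact ⟨h₁.of_comp_right hg, hg, wq_of_comp_left hE hg h₂⟩

theorem Wq.of_comp_left (hE : IsCoherator E) {X Y Z : A E ⊤} {f : X ⟶ Y} {g : Y ⟶ Z}
    (hf : Wq E f) (h : Wq E (f ≫ g)) : Wq E g := by
  exact wq_of_comp_left hE hf h

theorem tfib_of_fib_wq (hE : IsCoherator E) {X Y : A E ⊤} {q : X ⟶ Y} (hq : Fib E ⊤ 0 q)
    (h : Wq E q) : TFib E ⊤ 0 q := by
  refine fun k hk => ⟨fun {σ y} sq => ?_⟩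
  obtain ⟨x, h1, h2⟩ := ((wq_iff_SI q).1 h).1 k σ y sq.w.symm
  obtain ⟨c, h3, h4⟩ := geqv_rel hE Y k _ _ h2
  have := hq k hk
  have sq' : CommSq x (df E ⊤ false k) q c := ⟨h3.symm⟩
  refine CommSq.HasLift.mk' ⟨df E ⊤ true k ≫ sq'.lift, ?_, ?_⟩
  · rw [← Category.assoc, ii_df true false, Category.assoc, sq'.fac_left, h1]
  · rw [Category.assoc, sq'.fac_right]
    exact h4

theorem Wq.of_an (hE : IsCoherator E) {X Y : A E ⊤} {j : X ⟶ Y} (hj : An E ⊤ 0 j)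
    (hX : Cofibrant X) : Wq E j := by
  obtain ⟨c, hc⟩ := hX _ ((PO hE).tf0 X) (𝟙 X)
  obtain ⟨r, hr⟩ := hj.extend hE (𝟙 X)
  have := hj _ ((PO hE).fib Y)
  have sq : CommSq (c ≫ (PO hE).P.map j) j
      (prod.lift (((PO hE).p false).app Y) (((PO hE).p true).app Y))
      (prod.lift (𝟙 Y) (r ≫ (c ≫ ((PO hE).p true).app X) ≫ j)) :=
    ⟨prod.hom_ext (by simp [reassoc_of% hc]) (by simp [reassoc_of% hr])⟩
  have h0 : sq.lift ≫ ((PO hE).p false).app Y = 𝟙 Y := by simpa using sq.fac_right =≫ prod.fst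
  have h1 : sq.lift ≫ ((PO hE).p true).app Y = r ≫ (c ≫ ((PO hE).p true).app X) ≫ j := by
    simpa using sq.fac_right =≫ prod.snd
  have h2 := Wq.of_htpy hE sq.lift false true (by rw [h0]; exact Wq.of_isIso _)
  rw [h1] at h2
  exact (Wq.two_of_six hE (by rw [hr]; exact Wq.of_isIso _) h2).1

theorem an_of_cof_wq (hE : IsCoherator E) {X Y : A E ⊤} {j : X ⟶ Y} (hj : Cof E ⊤ 0 j)
    (hX : Cofibrant X) (h : Wq E j) : An E ⊤ 0 j := by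
  obtain ⟨Z, a, q, ha, hq, e⟩ := exists_an_fib j
  have := hj q (tfib_of_fib_wq hE hq (Wq.of_comp_left hE (Wq.of_an hE ha hX) (e ▸ h)))
  exact MorphismProperty.of_retract (RetractArrow.ofLeftLiftingProperty e) ha

end Vale.Agent.P259
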