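import Vale.Agent.P259.Lam
import Vale.Agent.P259.Weq

/-! Homotopies of realizations of presheaves on cubes. -/

open CategoryTheory Limits Opposite unitInterval

set_option backward.isDefEq.respectTransparency false

noncomputable section

namespace Vale.Agent.P259

variable {E : GlobExt}

/-- A natural map from `L0` to a diagram of contractible models. -/
theorem exists_L0_hom (G : Cu ⥤ A E ⊤) (hG : ∀ m, Contr (G.obj m)) : Nonempty (L0 E ⟶ G) := by
  let t : ∀ F : Cu ⥤ A E ⊤, F ⟶ (Functor.const Cu).obj (⊤_ (A E ⊤)) := fun F =>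
    { app := fun m => terminal.from _
      naturality := fun _ _ _ => terminal.hom_ext _ _ }
  obtain ⟨a, _⟩ := L0_lift E (t G) (fun m => (contr_iff_tfib _).1 (hG m)) (t _)
  exact ⟨a⟩

/-- Two natural maps from `L0` to a diagram of contractible models are naturally homotopic. -/
theorem exists_L0_htpy (hE : IsCoherator E) {G : Cu ⥤ A E ⊤} (hG : ∀ m, Contr (G.obj m))
    (f : Bool → (L0 E ⟶ G)) :
    ∃ H : L0 E ⟶ G ⋙ (PO hE).P, ∀ b m, H.app m ≫ ((PO hE).p b).app _ = (f b).app m := by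
  let G2 : Cu ⥤ A E ⊤ :=
    { obj := fun m => G.obj m ⨯ G.obj m
      map := fun a => prod.map (G.map a) (G.map a) }
  let q : G ⋙ (PO hE).P ⟶ G2 :=
    { app := fun m => prod.lift (((PO hE).p false).app (G.obj m)) (((PO hE).p true).app (G.obj m))
      naturality := fun m m' a => by
        simp only [G2, prod.comp_lift, prod.lift_map, Functor.comp_map]
        rw [((PO hE).p false).naturality, ((PO hE).p true).naturality]
        rfl }
  let r : L0 E ⟶ G2 :=
    { app := fun m => prod.lift ((f false).app m) ((f true).app m)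
      naturality := fun m m' a => by
        simp only [G2, prod.comp_lift, prod.lift_map, NatTrans.naturality] }
  obtain ⟨H, hH⟩ := L0_lift E q (fun m => (PO hE).tf _ (hG m)) r
  refine ⟨H, fun b m => ?_⟩
  have h := congrArg (fun t => t.app m) hH
  simp only [NatTrans.comp_app, q, r, prod.comp_lift] at h
  cases b
  · simpa using congrArg (· ≫ prod.fst) h
  · simpa using congrArg (· ≫ prod.snd) h

theorem p_nat (hE : IsCoherator E) (b : Bool) {X Y : A E ⊤} (f : X ⟶ Y) :
    (PO hE).P.map f ≫ ((PO hE).p b).app Y = ((PO hE).p b).app X ≫ f :=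
  ((PO hE).p b).naturality f

/-- Transport of fillers along a homotopy of models. -/
theorem fill_of_path (hE : IsCoherator E) {Y : A E ⊤} {k : ℕ} (c : sp E ⊤ k ⟶ (PO hE).P.obj Y)
    (b b' : Bool) (h : ∃ x, ii E ⊤ k ≫ x = c ≫ ((PO hE).p b).app Y) :
    ∃ x, ii E ⊤ k ≫ x = c ≫ ((PO hE).p b').app Y := by
  obtain ⟨x, hx⟩ := h
  have := tfib_p hE b Y k (Nat.zero_le k)
  have sq : CommSq c (ii E ⊤ k) (((PO hE).p b).app Y) x := ⟨hx.symm⟩
  exact ⟨sq.lift ≫ ((PO hE).p b').app Y, by rw [← Category.assoc, sq.fac_left]⟩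

/-- Elementary homotopies of presheaves give homotopies of models. -/
theorem exists_prism (hE : IsCoherator E) {X Y : CS} (H : X ⟶ cyC.op ⋙ Y) (α : Bool → (X ⟶ Y))
    (h : ∀ b (m : Cu) (sg : X.obj (op m)),
      Y.map ((cyI b).app m).op (H.app (op m) sg) = (α b).app (op m) sg) :
    ∃ H' : (Lam E).obj X ⟶ (PO hE).P.obj ((Lam E).obj Y),
      ∀ b, H' ≫ ((PO hE).p b).app _ = (Lam E).map (α b) := by
  obtain ⟨H0, hH0⟩ := exists_L0_htpy hE (G := cyC ⋙ L0 E) (fun m => contr_L0 E _)
    (fun b => Functor.whiskerRight (cyI b) (L0 E))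
  obtain ⟨H', hH'⟩ := lam_desc (E := E) (X := X) (Z := (PO hE).P.obj ((Lam E).obj Y))
    (fun m sg => H0.app m ≫ (PO hE).P.map (ins (X := Y) (m := cyC.obj m) (H.app (op m) sg)))
    (fun {m m'} a sg => by
      rw [H0.naturality_assoc]
      congr 1
      change (PO hE).P.map ((L0 E).map (cyC.map a)) ≫ _ = _
      rw [← Functor.map_comp, ins_nat]
      exact congrArg (fun t => (PO hE).P.map (ins (X := Y) (m := cyC.obj m) t))
        (NatTrans.naturality_apply H a.op sg).symm)
  refine ⟨H', fun b => lam_ext fun m sg => ?_⟩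
  rw [← Category.assoc, hH', Category.assoc, p_nat, ← Category.assoc, ins_map, ← h]
  exact (congrArg (· ≫ _) (hH0 b m)).trans (ins_nat _ _)

/-- A map joined to a constant map by a chain of elementary homotopies kills all spheres. -/
theorem fill_of_chain (hE : IsCoherator E) {X Y : CS} (N : ℕ) (α : ℕ → (X ⟶ Y))
    (H : ℕ → (X ⟶ cyC.op ⋙ Y))
    (h : ∀ j < N, ∀ b (m : Cu) (sg : X.obj (op m)),
      Y.map ((cyI b).app m).op ((H j).app (op m) sg) = (α (if b then j + 1 else j)).app (op m) sg)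
    (z : Y.obj (op ⟨0⟩)) (hz : ∀ (m : Cu) (sg : X.obj (op m)),
      (α N).app (op m) sg = Y.map (toPt m).op z)
    {k : ℕ} (s : sp E ⊤ k ⟶ (Lam E).obj X) :
    ∃ x, ii E ⊤ k ≫ x = s ≫ (Lam E).map (α 0) := by
  have key : ∀ j, j ≤ N → ∃ x, ii E ⊤ k ≫ x = s ≫ (Lam E).map (α j) := by
    intro j hj
    induction hj using Nat.decreasingInduction with
    | self =>
      obtain ⟨c, hc⟩ := lam_desc (E := E) (X := X) (Z := (L0 E).obj ⟨0⟩)
        (fun m _ => (L0 E).map (toPt m)) (fun a _ => by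
          rw [← Functor.map_comp]
          exact congrArg _ (CuHom.ext (funext fun _ => Subsingleton.elim _ _)))
      obtain ⟨x, hx⟩ := (contr_iff _).1 (contr_L0 E ⟨0⟩) k (s ≫ c)
      refine ⟨x ≫ ins z, ?_⟩
      rw [← Category.assoc, hx, Category.assoc]
      congr 1
      refine lam_ext fun m sg => ?_
      rw [← Category.assoc, hc, ins_nat, ins_map, hz]
    | of_succ j hj ih =>
      obtain ⟨H', hH'⟩ := exists_prism hE (H j) (fun b => α (if b then j + 1 else j)) (h j hj)
      have h1 := fill_of_path hE (s ≫ H') true false (by rw [Category.assoc, hH']; exact ih)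
      rwa [Category.assoc, hH'] at h1
  exact key 0 (Nat.zero_le N)

/-- Spheres factor through a stage of an increasing union. -/
theorem sphere_factor {X : CS} (F : ℕ → Subfunctor X) (hF : Monotone F)
    (h : ∀ (m : Cu) (sg : X.obj (op m)), ∃ r, sg ∈ (F r).obj (op m)) {k : ℕ}
    (s : sp E ⊤ k ⟶ (Lam E).obj X) :
    ∃ (r : ℕ) (s' : sp E ⊤ k ⟶ (Lam E).obj (F r).toFunctor), s' ≫ (Lam E).map (F r).ι = s := by
  let D : ℕ ⥤ CS :=
    { obj := fun r => (F r).toFunctor
      map := fun u => Subfunctor.homOfLe (hF (leOfHom u)) }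
  let c : Cocone D := Cocone.mk X
    { app := fun r => (F r).ι
      naturality := fun _ _ _ => rfl }
  have hc : IsColimit c := evaluationJointlyReflectsColimits c fun m =>
    Types.FilteredColimit.isColimitOf' _ _
      (fun sg => by
        obtain ⟨r, hr⟩ := h m.unop sg
        exact ⟨r, ⟨sg, hr⟩, rfl⟩)
      (fun r x y e => ⟨r, 𝟙 r, Subtype.ext e⟩)
  exact IsFinitelyPresentable.exists_hom_of_isColimit (isColimitOfPreserves (Lam E) hc) s

theorem dist_max_le {a b a' b' : I} {r : ℝ} (h₀ : dist a a' ≤ r) (h₁ : dist b b' ≤ r) :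
    dist (max a b) (max a' b') ≤ r := by
  have e : ∀ x y : I, ((max x y : I) : ℝ) = max (x : ℝ) y := fun x y =>
    (Subtype.mono_coe _).map_max
  rw [Subtype.dist_eq, Real.dist_eq] at h₀ h₁ ⊢
  rw [e, e]
  exact (abs_max_sub_max_le_max _ _ _ _).trans (max_le h₀ h₁)

theorem dist_min_le {a b a' b' : I} {r : ℝ} (h₀ : dist a a' ≤ r) (h₁ : dist b b' ≤ r) :
    dist (min a b) (min a' b') ≤ r := by
  have e : ∀ x y : I, ((min x y : I) : ℝ) = min (x : ℝ) y := fun x y =>
    (Subtype.mono_coe _).map_min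
  rw [Subtype.dist_eq, Real.dist_eq] at h₀ h₁ ⊢
  rw [e, e]
  exact (abs_min_sub_min_le_max _ _ _ _).trans (max_le h₀ h₁)

/-- The times of a subdivision of the interval. -/
def tj (ε : ℝ) (j : ℕ) : I := Set.projIcc 0 1 zero_le_one (j * ε)

theorem tj_zero (ε : ℝ) : tj ε 0 = 0 := by simp [tj]

theorem exists_tj {ε : ℝ} (hε : 0 < ε) : ∃ N, tj ε N = 1 := by
  obtain ⟨N, hN⟩ := exists_nat_ge (1 / ε)
  exact ⟨N, Set.projIcc_of_right_le _ ((div_le_iff₀ hε).1 hN)⟩

theorem tj_le {ε : ℝ} (hε : 0 < ε) (j : ℕ) : tj ε j ≤ tj ε (j + 1) :=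
  Set.monotone_projIcc _ (by push_cast; nlinarith)

theorem dist_tj {ε : ℝ} (hε : 0 < ε) (j : ℕ) : dist (tj ε j) (tj ε (j + 1)) ≤ ε := by
  rw [Subtype.dist_eq, Real.dist_eq]
  refine (Set.abs_projIcc_sub_projIcc zero_le_one).trans (le_of_eq ?_)
  push_cast
  rw [abs_sub_comm, add_mul, one_mul, add_sub_cancel_left, abs_of_pos hε]

/-- Clamping to a piece of the subdivision. -/
def cl (ε : ℝ) (j : ℕ) (t : I) : I := max (tj ε j) (min t (tj ε (j + 1)))

theorem cl_end {ε : ℝ} (hε : 0 < ε) (j : ℕ) (b : Bool) :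
    cl ε j (if b then 1 else 0) = tj ε (if b then j + 1 else j) := by
  cases b
  · exact max_eq_left ((min_le_left _ _).trans unitInterval.nonneg')
  · simp only [cl, if_true]
    rw [min_eq_right unitInterval.le_one', max_eq_right (tj_le hε j)]

theorem dist_cl (ε : ℝ) (j : ℕ) (t t' : I) : dist (cl ε j t) (cl ε j t') ≤ dist t t' :=
  dist_max_le (by simp) (dist_min_le le_rfl (by simp))

theorem dist_cl_le {ε : ℝ} (hε : 0 < ε) (j : ℕ) (t t' : I) :
    dist (cl ε j t) (cl ε j t') ≤ ε := by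
  have h0 : ∀ t, (tj ε j : ℝ) ≤ cl ε j t ∧ (cl ε j t : ℝ) ≤ tj ε (j + 1) := fun t =>
    ⟨Subtype.coe_le_coe.2 (le_max_left _ _),
      Subtype.coe_le_coe.2 (max_le (tj_le hε j) (min_le_right _ _))⟩
  have h1 := dist_tj hε j
  rw [Subtype.dist_eq, Real.dist_eq, abs_le] at h1 ⊢
  constructor <;> linarith [h0 t, h0 t', h1.1]

theorem continuous_cl (ε : ℝ) (j : ℕ) : Continuous (cl ε j) := by
  unfold cl
  fun_prop

/-- Short maps to a cube with image of diameter at most `ε`. -/
def smallY (ε : ℝ) (m : Cu) : Subfunctor (yoneda.obj m) where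
  obj _ := {a | ∀ x y, dist (CuHom.f a x) (CuHom.f a y) ≤ ε}
  map _ _ h _ _ := h _ _

theorem contr_smallY (hE : IsCoherator E) {ε : ℝ} (hε : 0 < ε) (m : Cu) :
    Contr ((Lam E).obj (smallY ε m).toFunctor) := by
  obtain ⟨N, hN⟩ := exists_tj hε
  have hs : ∀ {x x' : m.pt} {c c' : I} {r : ℝ}, dist x x' ≤ r → dist c c' ≤ r →
      dist (fun i => max (x i) c) (fun i => max (x' i) c') ≤ r := fun {x x' c c' r} h h' =>
    (dist_pi_le_iff (dist_nonneg.trans h)).2 fun i =>
      dist_max_le ((dist_le_pi_dist x x' i).trans h) h'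
  let α : ℕ → ((smallY ε m).toFunctor ⟶ (smallY ε m).toFunctor) := fun j =>
    { app := fun n => ↾fun a => ⟨⟨fun x i => max (CuHom.f a.1 x i) (tj ε j),
        fun x y => hs (CuHom.short a.1 x y) (by simp)⟩,
        fun x y => hs (a.2 x y) (by simpa using hε.le)⟩ }
  let H : ℕ → ((smallY ε m).toFunctor ⟶ cyC.op ⋙ (smallY ε m).toFunctor) := fun j =>
    { app := fun n => ↾fun a => ⟨⟨fun (z : Fin (n.unop.n + 1) → I) i =>
          max (CuHom.f a.1 (Fin.tail z) i) (cl ε j (z 0)),
        fun (z z' : Fin (n.unop.n + 1) → I) => hs ((CuHom.short a.1 _ _).trans (dist_tail_le z z'))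
          ((dist_cl ε j _ _).trans (dist_le_pi_dist z z' 0))⟩,
        fun z z' => hs (a.2 _ _) (dist_cl_le hε j _ _)⟩ }
  rw [contr_iff]
  intro k s
  have h := fill_of_chain hE N α H
    (fun j _ b n a => Subtype.ext (CuHom.ext (funext fun x => funext fun i =>
      congrArg (max (CuHom.f a.1 x i)) (cl_end hε j b))))
    ⟨⟨fun _ _ => 1, fun _ _ => by simp⟩, fun _ _ => by simpa using hε.le⟩
    (fun n a => Subtype.ext (CuHom.ext (funext fun x => funext fun i => by
      change max (CuHom.f a.1 x i) (tj ε N) = 1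
      rw [hN]
      exact max_eq_right unitInterval.le_one'))) s
  have h0 : α 0 = 𝟙 _ := by
    ext n a
    refine Subtype.ext (CuHom.ext (funext fun x => funext fun i => ?_))
    change max (CuHom.f a.1 x i) (tj ε 0) = CuHom.f a.1 x i
    rw [tj_zero]
    exact max_eq_left unitInterval.nonneg'
  rwa [h0, CategoryTheory.Functor.map_id, Category.comp_id] at h

end Vale.Agent.P259
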