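import Vale.Agent.P259.Mod

/-! Putting a model structure on a family of globular sets. -/

open CategoryTheory Limits Opposite

set_option backward.isDefEq.respectTransparency false

noncomputable section

namespace Vale.Agent.P259

section Aux

variable {ι : Type} [SmallCategory ι] (X : ι ⥤ GS)

/-- Maps from a globular set to the members of a family. -/
@[implicit_reducible] def msH : GS ⥤ (ι ⥤ Type)ᵒᵖ :=
  (coyoneda ⋙ (Functor.whiskeringLeft _ _ _).obj X).rightOp

instance : PreservesColimitsOfShape WalkingSpan (msH X) :=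
  preservesColimitsOfShape_rightOp _ _

variable {E : GlobExt} {X} {N : ι ⥤ A E ⊤} (q : X ⟶ N ⋙ U E ⊤)

/-- Compatibility of an operation on the family with the operation downstairs. -/
def msR {S S' : Theta0} (h : (io E).obj S ⟶ (io E).obj S')
    (φ : (Rep ⋙ msH X).obj S ⟶ (Rep ⋙ msH X).obj S') : Prop :=
  ∀ (T : ι) (x : Rep.obj S' ⟶ X.obj T) (ψ : (D0 E ⊤).obj S' ⟶ N.obj T),
    x ≫ q.app T = toNrv (D0 E ⊤) ψ →
    (show Rep.obj S ⟶ X.obj T from φ.unop.app T x) ≫ q.app T =
      toNrv (D0 E ⊤) (S := S) ((Dk E ⊤).map h ≫ ψ)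

theorem ms_hyp (J : Theta0 → Type) (T : ∀ S, J S → ι) (ξ : ∀ S j, Rep.obj S ⟶ X.obj (T S j))
    (rep : ∀ (S : Theta0) (T' : ι) (x : Rep.obj S ⟶ X.obj T'),
      ∃! p : Σ j, (T S j ⟶ T'), ξ S p.1 ≫ X.map p.2 = x)
    (tf : ∀ S j k, GLift (q.app (T S j)) k) : RPHyp (Rep ⋙ msH X) (msR q) where
  sums := presSums_rep.comp _
  rio a T x ψ e := by
    change (Rep.map a ≫ x) ≫ q.app T = toNrv (D0 E ⊤) ((D0 E ⊤).map a ≫ ψ)
    rw [toNrv_left, ← e, Category.assoc]
  comp {S S' S'' h h' φ φ'} H H' T x ψ e := by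
    rw [Functor.map_comp, Category.assoc]
    exact H T _ _ (H' T x ψ e)
  glue h φ H T x ψ e := gs_ext fun k a => by
    have := H k a T x ψ e
    rw [Functor.map_comp, Category.assoc] at this
    rw [← topCell_map, ← topCell_map, ← toNrv_left, ← Category.assoc]
    exact congrArg topCell this
  lift k S _ h φ hR hpar := by
    let φ' : ∀ (_ : Bool) (T' : ι), (Rep.obj S ⟶ X.obj T') → (Rep.obj (disc k) ⟶ X.obj T') :=
      fun b T' x => (φ b).unop.app T' x
    have hφ : ∀ b {T' T'' : ι} (u : T' ⟶ T'') (x : Rep.obj S ⟶ X.obj T'),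
        φ' b T'' (x ≫ X.map u) = φ' b T' x ≫ X.map u :=
      fun b _ _ u x => NatTrans.naturality_apply (φ b).unop u x
    choose ψ hψ using fun j => ((presSums_D0 E ⊤).toNrv_bijective S (N.obj (T S j))).2
      (ξ S j ≫ q.app _)
    have hw : ∀ j, ∃ w : Rep.obj (disc (k + 1)) ⟶ X.obj (T S j),
        (∀ b, Rep.map (fc b (Nat.lt_succ_self k)) ≫ w = φ' b _ (ξ S j)) ∧
        w ≫ q.app _ = toNrv (D0 E ⊤) (S := disc (k + 1)) ((Dk E ⊤).map h ≫ ψ j) := by
      intro j
      have hp : GPar _ (topCell (φ' false _ (ξ S j))) (topCell (φ' true _ (ξ S j))) := by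
        cases k with
        | zero => trivial
        | succ k =>
          intro b
          rw [← topCell_fc, ← topCell_fc]
          exact congrArg (fun χ => topCell (show Rep.obj (disc k) ⟶ X.obj _ from
            χ.unop.app (T S j) (ξ S j))) (hpar k rfl b)
      have hb : ∀ b, fa _ b (topCell (toNrv (D0 E ⊤) (S := disc (k + 1))
          ((Dk E ⊤).map h ≫ ψ j))) = ap (q.app _) (topCell (φ' b _ (ξ S j))) := by
        intro b
        have := hR b _ _ _ (hψ j).symm
        rw [Functor.map_comp, Category.assoc] at this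
        rw [← topCell_fc, ← toNrv_left, ← topCell_comp]
        exact (congrArg topCell this).symm
      obtain ⟨c, hc, hc'⟩ := tf S j (k + 1) (sphMk _ _ hp) _ (bd_eq_succ.2 ⟨hb false, hb true⟩)
      obtain ⟨w, rfl⟩ := (topCell_bijective _ _).2 c
      refine ⟨w, fun b => (topCell_bijective _ _).1 ?_, (topCell_bijective _ _).1 hc'⟩
      rw [topCell_fc]
      cases b
      · exact (bd_eq_sphMk.1 hc).1
      · exact (bd_eq_sphMk.1 hc).2
    choose w hw hw' using hw
    choose p hp hp' using rep S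
    let χ : ((Rep ⋙ msH X).obj S).unop ⟶ ((Rep ⋙ msH X).obj (disc (k + 1))).unop :=
      { app := fun T' => ↾fun x : Rep.obj S ⟶ X.obj T' => w (p T' x).1 ≫ X.map (p T' x).2
        naturality := fun T' T'' u => by
          ext x
          change w (p T'' (x ≫ X.map u)).1 ≫ X.map (p T'' (x ≫ X.map u)).2 =
            (w (p T' x).1 ≫ X.map (p T' x).2) ≫ X.map u
          rw [← hp' T'' (x ≫ X.map u) ⟨(p T' x).1, (p T' x).2 ≫ u⟩ (by
            beta_reduce
            rw [X.map_comp, ← Category.assoc, hp]), X.map_comp, Category.assoc] }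
    refine ⟨χ.op, fun b => Quiver.Hom.unop_inj ?_, fun T' x ψ' e => ?_⟩
    · ext T' x
      change Rep.map (fc b (Nat.lt_succ_self k)) ≫ w (p T' x).1 ≫ X.map (p T' x).2 = φ' b T' x
      rw [← Category.assoc, hw, ← hφ, hp]
    · have e1 : ψ' = ψ (p T' x).1 ≫ N.map (p T' x).2 := by
        refine ((presSums_D0 E ⊤).toNrv_bijective S _).1 ?_
        rw [toNrv_comp, hψ, ← e, Category.assoc]
        exact ((congrArg (· ≫ q.app T') (hp T' x)).symm.trans (Category.assoc _ _ _)).trans
          (congrArg (ξ S _ ≫ ·) (q.naturality _))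
      change (w (p T' x).1 ≫ X.map (p T' x).2) ≫ q.app T' = _
      rw [Category.assoc, q.naturality, ← Category.assoc, hw', e1, ← Category.assoc, toNrv_comp]
      rfl

end Aux

theorem exists_model_structure {E : GlobExt} (hE : IsCoherator E) {ι : Type} [SmallCategory ι]
    (X : ι ⥤ GS) (N : ι ⥤ A E ⊤) (q : X ⟶ N ⋙ U E ⊤)
    (J : Theta0 → Type) (T : ∀ S, J S → ι) (ξ : ∀ S j, Rep.obj S ⟶ X.obj (T S j))
    (rep : ∀ (S : Theta0) (T' : ι) (x : Rep.obj S ⟶ X.obj T'),
      ∃! p : Σ j, (T S j ⟶ T'), ξ S p.1 ≫ X.map p.2 = x)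
    (tf : ∀ S j k, GLift (q.app (T S j)) k) :
    ∃ (M : ι ⥤ A E ⊤) (α : M ⋙ U E ⊤ ≅ X) (r : M ⟶ N),
      Functor.whiskerRight r (U E ⊤) = α.hom ≫ q := by
  obtain ⟨e⟩ := RP hE (ms_hyp q J T ξ rep tf)
  let M : ι ⥤ A E ⊤ := (PK E ⊤).lift e.toF.leftOp.flip fun T' =>
    ⟨fun l T j i h₁ h₂ => (e.presSums (presSums_rep.comp _) l T j i h₁ h₂).unop.flip.map
      ((evaluation _ _).obj T'), cosk_top _⟩
  let δ : ∀ {S : Theta0} {T' : ι}, ((D0 E ⊤).obj S ⟶ M.obj T') → (Rep.obj S ⟶ X.obj T') :=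
    fun {S T'} x => dEquiv ((io E).obj S) (M.obj T') x
  have hδ : ∀ {S S' : Theta0} {T' : ι} (a : S' ⟶ S) (x : (D0 E ⊤).obj S ⟶ M.obj T'),
      δ ((D0 E ⊤).map a ≫ x) = Rep.map a ≫ δ x := fun {S S' T'} a x =>
    (dEquiv_left _ x).trans (congrArg (fun χ => χ.unop.app T' (δ x)) (e.map_io a))
  let a : M ⋙ U E ⊤ ⟶ X :=
    { app := fun T' => gsMk (fun k x => topCell (δ (S := disc k) x)) fun b k x => by
        rw [← topCell_fc, ← hδ]
        rfl
      naturality := fun T' T'' u => gs_ext fun k x =>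
        congrArg topCell (dEquiv_right (S := (io E).obj (disc k)) x (M.map u)) }
  have ha : ∀ T', IsIso (a.app T') := fun T' => by
    have : ∀ k, IsIso ((a.app T').app k) := fun k => (isIso_iff_bijective _).2
      ((topCell_bijective _ _).comp (dEquiv ((io E).obj (disc k.unop.n)) (M.obj T')).bijective)
    exact NatIso.isIso_of_isIso_app _
  have : IsIso a := NatIso.isIso_of_isIso_app _
  choose σ hσ using fun S T' => ((presSums_D0 E ⊤).toNrv_bijective S (N.obj T')).2
  have hσ' : ∀ S T' x ψ, x = toNrv (D0 E ⊤) ψ → σ S T' x = ψ := fun S T' x ψ h =>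
    ((presSums_D0 E ⊤).toNrv_bijective S (N.obj T')).1 ((hσ _ _ _).trans h)
  let r : M ⟶ N :=
    { app := fun T' => ObjectProperty.homMk
        { app := fun S => ↾fun x : Rep.obj S.unop.S ⟶ X.obj T' =>
            dEquiv S.unop (N.obj T') (σ _ _ (x ≫ q.app T'))
          naturality := fun S S' h => by
            ext x
            exact (congrArg _ (hσ' _ _ _ _ (e.rel h.unop T' x _ (hσ _ _ _).symm))).trans
              (dEquiv_left _ _) }
      naturality := fun T' T'' u => by
        ext S x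
        refine (congrArg _ (hσ' _ _ _ _ ?_)).trans (dEquiv_right _ (N.map u))
        rw [toNrv_comp, hσ, Category.assoc]
        exact (Category.assoc _ _ _).trans (congrArg (x ≫ ·) (q.naturality u)) }
  refine ⟨M, asIso a, r, NatTrans.ext (funext fun T' => gs_ext fun k x => ?_)⟩
  have h1 : x ≫ r.app T' = σ (disc k) T' (δ x ≫ q.app T') :=
    (dEquiv ((io E).obj (disc k)) _).injective (dEquiv_right x _)
  refine h1.trans (Eq.trans ?_ (congrArg topCell (hσ (disc k) T' (δ x ≫ q.app T'))))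
  exact ((congrArg (· ≫ _) ((D0 E ⊤).map_id _)).trans (Category.id_comp _)).symm

end Vale.Agent.P259
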