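import Vale.Agent.P259.VK

/-! The homotopy hypothesis. -/

open CategoryTheory Limits Opposite

set_option backward.isDefEq.respectTransparency false

noncomputable section

namespace Vale.Agent.P259

variable {E : GlobExt}

/-- A functor to spaces with compactly generated values, as a functor to compactly generated
spaces. -/
@[implicit_reducible] def cgLift {C : Type*} [Category C] (F : C ⥤ TopCat.{0})
    (h : ∀ X, CompactlyGeneratedSpace (F.obj X)) : C ⥤ CompactlyGenerated.{0, 0} where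
  obj X := @CompactlyGenerated.mk (F.obj X) (h X)
  map f := InducedCategory.homMk (F.map f)
  map_id X := congrArg InducedCategory.homMk (F.map_id X)
  map_comp f g := congrArg InducedCategory.homMk (F.map_comp f g)

theorem locEquiv_of_zigzag {C D : Type*} [Category C] [Category D] {W₁ : MorphismProperty C}
    {W₂ : MorphismProperty D} (Φ : LocalizerMorphism W₁ W₂) (Ψ : LocalizerMorphism W₂ W₁)
    (ε : Φ.functor ⋙ Ψ.functor ⟶ 𝟭 C) (hε : ∀ X, W₁ (ε.app X)) (Q : D ⥤ D) (π : Q ⟶ 𝟭 D)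
    (hπ : ∀ X, W₂ (π.app X)) (η : Q ⟶ Ψ.functor ⋙ Φ.functor) (hη : ∀ X, W₂ (η.app X)) :
    Φ.IsLocalizedEquivalence where
  isEquivalence := by
    have : IsIso (Functor.whiskerRight ε W₁.Q) := by
      rw [NatTrans.isIso_iff_isIso_app]
      exact fun _ => Localization.inverts W₁.Q W₁ _ (hε _)
    have : IsIso (Functor.whiskerRight π W₂.Q) := by
      rw [NatTrans.isIso_iff_isIso_app]
      exact fun _ => Localization.inverts W₂.Q W₂ _ (hπ _)
    have : IsIso (Functor.whiskerRight η W₂.Q) := by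
      rw [NatTrans.isIso_iff_isIso_app]
      exact fun _ => Localization.inverts W₂.Q W₂ _ (hη _)
    refine (Localization.equivalence W₁.Q W₁ W₂.Q W₂ (Φ.functor ⋙ W₂.Q)
      (Φ.localizedFunctor W₁.Q W₂.Q)
      (Ψ.functor ⋙ W₁.Q) (Ψ.localizedFunctor W₂.Q W₁.Q) ?_ ?_).isEquivalence_functor
    · exact Functor.associator _ _ _ ≪≫
        Functor.isoWhiskerLeft _ (CatCommSq.iso Ψ.functor W₂.Q W₁.Q _).symm ≪≫
        (Functor.associator _ _ _).symm ≪≫
        asIso (Functor.whiskerRight ε W₁.Q) ≪≫ Functor.leftUnitor _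
    · exact Functor.associator _ _ _ ≪≫
        Functor.isoWhiskerLeft _ (CatCommSq.iso Φ.functor W₁.Q W₂.Q _).symm ≪≫
        (Functor.associator _ _ _).symm ≪≫
        (asIso (Functor.whiskerRight η W₂.Q)).symm ≪≫ asIso (Functor.whiskerRight π W₂.Q) ≪≫
        Functor.leftUnitor _

theorem whe_eq (hE : Coh E) :
    WHE = (Wq E).inverseImage (CompactlyGenerated.compactlyGeneratedToTop.{0, 0} ⋙ PiT hE) := by
  ext X Y f
  exact (wq_PiT_iff_wht hE _).symm

/-- The fundamental infinity-groupoid as a morphism of localizers. -/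
def locPi (hE : Coh E) : LocalizerMorphism WHE (Wq E) where
  functor := CompactlyGenerated.compactlyGeneratedToTop.{0, 0} ⋙ PiT hE
  map := (whe_eq hE).le

theorem locPi_equiv (hE : Coh E) : (locPi hE).IsLocalizedEquivalence := by
  obtain ⟨Q, π, hπ, hQ⟩ := exists_cellular (E := E)
  have hπ' : ∀ X, Wq E (π.app X) := fun X => Wq.of_tfib hE (hπ X)
  have hη : ∀ X, Wq E ((adjR hE).unit.app (Q.obj X)) := fun X =>
    wq_unit_cellSeq hE (hQ X).some
  let Ψ : LocalizerMorphism (Wq E) WHE :=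
    { functor := cgLift (Q ⋙ Real hE) fun X => cg_Real hE _
      map := fun X Y f hf => by
        rw [whe_eq hE]
        have h₁ : Wq E (Q.map f) := Wq.of_comp_right (g := π.app Y)
          (by rw [π.naturality]; exact (hπ' X).comp hf) (hπ' Y)
        refine Wq.of_comp_left hE (hη X) ?_
        have h₂ := h₁.comp (hη Y)
        rw [show Q.map f ≫ (adjR hE).unit.app (Q.obj Y) = _ from
          (adjR hE).unit.naturality (Q.map f)] at h₂
        exact h₂ }
  refine locEquiv_of_zigzag (locPi hE) Ψ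
    { app := fun Y => InducedCategory.homMk
        ((Real hE).map (π.app ((PiT hE).obj Y.toTop)) ≫ (adjR hE).counit.app Y.toTop)
      naturality := fun Y Y' f => InducedCategory.hom_ext ?_ } (fun Y => ?_) Q π hπ'
    { app := fun X => (adjR hE).unit.app (Q.obj X)
      naturality := fun X X' f => (adjR hE).unit.naturality (Q.map f) } hη
  · change (Real hE).map (Q.map ((PiT hE).map f.hom)) ≫ (Real hE).map _ ≫ _ = (_ ≫ _) ≫ f.hom
    rw [← Functor.map_comp_assoc, π.naturality, Functor.map_comp_assoc, Category.assoc]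
    exact congrArg _ ((adjR hE).counit.naturality f.hom)
  · refine (whe_eq hE).ge _ (Wq.of_comp_left hE (hη _) ?_)
    have h : ∀ {X : A E ⊤} (p : X ⟶ (PiT hE).obj Y.toTop), Wq E p → Wq E ((adjR hE).unit.app X ≫
        (PiT hE).map ((Real hE).map p ≫ (adjR hE).counit.app Y.toTop)) := fun p hp => by
      simpa using hp
    exact h _ (hπ' _)

/-- Restriction of models along the reindexing. -/
def toA (E : GlobExt) : Gpd E ⥤ A E ⊤ :=
  (PK E ⊤).lift ((IsModel E).ι ⋙ (Functor.whiskeringLeft _ _ _).obj (toC E).op)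
    (fun X => ⟨X.property, cosk_top _⟩)

instance : (toA E).IsEquivalence := by
  let W : (E.Cᵒᵖ ⥤ Type) ⥤ PSh E := (Functor.whiskeringLeft _ _ _).obj (toC E).op
  have : W.IsEquivalence := (toC E).op.asEquivalence.congrLeft.isEquivalence_inverse
  refine ⟨?_, ?_, ⟨fun X => ?_⟩⟩
  · exact inferInstanceAs ((PK E ⊤).lift ((IsModel E).ι ⋙ W) _).Faithful
  · exact inferInstanceAs ((PK E ⊤).lift ((IsModel E).ι ⋙ W) _).Full
  · let e := (W.objObjPreimageIso X.obj).symm
    exact ⟨⟨W.objPreimage X.obj, fun l T j i h₁ h₂ => (X.property.1 l T j i h₁ h₂).of_iso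
      (e.app _) (e.app _) (e.app _) (e.app _) (e.hom.naturality _) (e.hom.naturality _)
      (e.hom.naturality _) (e.hom.naturality _)⟩, ⟨(PK E ⊤).isoMk e.symm⟩⟩

theorem quot_map_bij {α β : Type} {r : α → α → Prop} {s : β → β → Prop} (f : α → β)
    (h : ∀ ⦃a b⦄, r a b → s (f a) (f b)) : Function.Bijective (Quot.map f h) ↔
      (∀ y, ∃ x, Relation.EqvGen s (f x) y) ∧
      ∀ x x', Relation.EqvGen s (f x) (f x') → Relation.EqvGen r x x' := by
  refine ⟨fun H => ⟨fun y => ?_, fun x x' e => Quot.eq.1 (H.1 (Quot.eq.2 e))⟩, fun H => ⟨?_, ?_⟩⟩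
  · obtain ⟨⟨x⟩, e⟩ := H.2 (Quot.mk _ y)
    exact ⟨x, Quot.eq.1 e⟩
  · rintro ⟨x⟩ ⟨x'⟩ e
    exact Quot.eq.2 (H.2 x x' (Quot.eq.1 e))
  · rintro ⟨y⟩
    obtain ⟨x, e⟩ := H.1 y
    exact ⟨Quot.mk _ x, Quot.eq.2 e⟩

theorem geqv_rel_res (hE : Coh E) (X : A E ⊤) {k : ℕ} {x y : Ce ((res E).obj X.obj) k}
    (h : GEqv _ x y) : GRel _ x y := by
  have := (geqv_rel hE X k _ _ (h.ap ((uIso E ⊤).inv.app X))).ap ((uIso E ⊤).hom.app X)
  rwa [← ap_comp, ← ap_comp, Iso.inv_hom_id_app, ap_id, ap_id] at this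

theorem loops_eqv (hE : Coh E) (u : Units E) {X : Gpd E} {x : Cell X 0} {n : ℕ}
    (a b : Loops u x n) : Relation.EqvGen (fun a b : Loops u x n => a.1.Rel b.1) a b ↔
      GEqv ((res E).obj ((toA E).obj X).obj) (k := n + 1) a.1 b.1 := by
  refine ⟨fun h => ?_, fun h => .rel _ _ (geqv_rel_res hE _ h)⟩
  induction h with
  | rel _ _ h => exact GRel.eqv h
  | refl => exact GEqv.refl _ _
  | symm _ _ _ h => exact h.symm
  | trans _ _ _ _ _ h h' => exact h.trans h'

theorem weq_iff_gw0 (hE : Coh E) (u : Units E) {X Y : Gpd E} (f : X ⟶ Y) :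
    WEq u f ↔ GW0 ((res E).map ((toA E).map f).hom) (fun x n => unitCell u (X := X) x n) := by
  refine (and_congr (quot_map_bij _ _) (forall₂_congr fun x n => quot_map_bij _ _)).trans ?_
  simp only [loops_eqv hE]
  refine ⟨fun h => ⟨h.1.1, h.1.2, fun x n y hy => ?_, fun x n a a' ha ha' =>
    (h.2 x n).2 ⟨a, ha false, ha true⟩ ⟨a', ha' false, ha' true⟩⟩,
    fun h => ⟨⟨h.1, h.2.1⟩, fun x n => ⟨fun y => ?_, fun a a' => h.2.2.2 x n a.1 a'.1
      (fun b => ?_) fun b => ?_⟩⟩⟩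
  · obtain ⟨a, ha⟩ := (h.2 x n).1 ⟨y, (hy false).trans (unitCell_map u f x n),
      (hy true).trans (unitCell_map u f x n)⟩
    refine ⟨a.1, fun b => ?_, ha⟩
    cases b
    exacts [a.2.1, a.2.2]
  · obtain ⟨a, h1, h2⟩ := h.2.2.1 x n y.1 fun b => by
      cases b
      exacts [y.2.1.trans (unitCell_map u f x n).symm, y.2.2.trans (unitCell_map u f x n).symm]
    exact ⟨⟨a, h1 false, h1 true⟩, h2⟩
  · cases b
    exacts [a.2.1, a.2.2]
  · cases b
    exacts [a'.2.1, a'.2.2]

theorem uIso_kap (u : Units E) {X : Gpd E} (x : dd E ⊤ 0 ⟶ (toA E).obj X) (n : ℕ) :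
    unitCell u (X := X) (ap ((uIso E ⊤).hom.app _) x) n =
      ap ((uIso E ⊤).hom.app _) (kap u n ≫ x) := by
  induction n with
  | zero => exact congrArg _ (Category.id_comp x).symm
  | succ n ih =>
    rw [kap, Category.assoc, ap_uIso _ _ _ (_ ≫ _), dEquiv_left, unitCell, ih]
    rfl

theorem weq_eq (hE : Coh E) (u : Units E) : WEq u = (Wq E).inverseImage (toA E) := by
  ext X Y f
  rw [weq_iff_gw0 hE, MorphismProperty.inverseImage_iff, wq_iff_gw0 hE u]
  refine ⟨GW0.of_arrow_iso ((uIso E ⊤).app _).symm ((uIso E ⊤).app _).symm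
    ((uIso E ⊤).inv.naturality ((toA E).map f)) fun x n => ?_,
    GW0.of_arrow_iso ((uIso E ⊤).app _) ((uIso E ⊤).app _)
      ((uIso E ⊤).hom.naturality ((toA E).map f)) fun x n => uIso_kap u x n⟩
  have h := uIso_kap u (ap ((uIso E ⊤).inv.app ((toA E).obj X)) x) n
  have e : ∀ {k} (y : Ce ((U E ⊤).obj ((toA E).obj X)) k),
      ap ((uIso E ⊤).inv.app _) (ap ((uIso E ⊤).hom.app _) y) = y := fun y => by
    rw [← ap_comp, Iso.hom_inv_id_app, ap_id]
  rw [← ap_comp, Iso.inv_hom_id_app, ap_id] at h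
  exact (e _).symm.trans (congrArg (ap ((uIso E ⊤).inv.app _)) h.symm)

theorem exists_discFunctor (hE : Coh E) :
    ∃ D : E.C ⥤ CompactlyGenerated.{0, 0}, IsDiscFunctor D := by
  let e : toC E ⋙ (toC E).inv ⋙ DT hE ≅ DT hE :=
    Functor.isoWhiskerRight (toC E).asEquivalence.unitIso.symm (DT hE)
  refine ⟨cgLift ((toC E).inv ⋙ DT hE) fun X => cg_Ext _, fun l T j i h₁ h₂ => ?_,
    fun n => TopCat.homeoOfIso (e.app ((io E).obj (disc n))), fun n b x => ?_⟩
  · exact IsPushout.of_map_of_faithful CompactlyGenerated.compactlyGeneratedToTop.{0, 0}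
      ((presSums_DT hE).of_iso (Functor.isoWhiskerLeft (io E) e).symm l T j i h₁ h₂)
  · have h := ConcreteCategory.congr_hom (e.hom.naturality (cf E b n)) x
    rw [DT_map_io, Ext_map_fc, show discG.map (gface b _) = _ from discG_map_sf b n] at h
    exact congrArg Subtype.val h

theorem PresSums.exists_iso {𝒳 : Type*} [Category 𝒳] {F F' : Theta0 ⥤ 𝒳} (hF : PresSums F)
    (hF' : PresSums F') (φ : gT ⋙ F ≅ gT ⋙ F') : Nonempty (F ≅ F') := by
  obtain ⟨a, ha⟩ := hF.exists_natTrans φ.hom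
  obtain ⟨b, hb⟩ := hF'.exists_natTrans φ.inv
  refine ⟨⟨a, b, NatTrans.ext (funext fun S => hF.hom_ext fun k x => ?_),
    NatTrans.ext (funext fun S => hF'.hom_ext fun k x => ?_)⟩⟩
  · rw [NatTrans.comp_app, a.naturality_assoc, b.naturality, ha, hb]
    exact (φ.hom_inv_id_app_assoc _ _).trans (Category.comp_id _).symm
  · rw [NatTrans.comp_app, b.naturality_assoc, a.naturality, ha, hb]
    exact (φ.inv_hom_id_app_assoc _ _).trans (Category.comp_id _).symm

theorem exists_coh (hE : IsCoherator E) (D : E.C ⥤ CompactlyGenerated.{0, 0})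
    (hD : IsDiscFunctor D) : ∃ c : Coh E,
      Nonempty (toC E ⋙ D ⋙ CompactlyGenerated.compactlyGeneratedToTop.{0, 0} ≅ DT c) := by
  obtain ⟨h, φ, hφ⟩ := hD
  let F : Theta0 ⥤ CompactlyGenerated.{0, 0} := cgLift (Ext discG) cg_Ext
  have hF : PresSums F := fun l T j i h₁ h₂ =>
    IsPushout.of_map_of_faithful CompactlyGenerated.compactlyGeneratedToTop.{0, 0}
      (presSums_Ext discG l T j i h₁ h₂)
  let ψ : ∀ n, (gT ⋙ E.ι ⋙ D).obj ⟨n⟩ ≅ (gT ⋙ F).obj ⟨n⟩ := fun n =>
    CompactlyGenerated.isoOfHomeo (φ n)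
  obtain ⟨α⟩ := h.exists_iso hF (NatIso.ofComponents (fun k => ψ k.n) fun f =>
    (gNat (G := gT ⋙ E.ι ⋙ D) (G' := gT ⋙ F) (fun n => (ψ n).hom) fun b n => by
      refine InducedCategory.hom_ext ?_
      change _ = _ ≫ (Ext discG).map (gT.map (sf b n))
      rw [Ext_map_gT, discG_map_sf]
      ext x
      exact Subtype.ext (hφ n b x)).naturality f)
  refine ⟨⟨hE,
    { map := fun {S S'} h => (α.inv.app S ≫ D.map h ≫ α.hom.app S').hom
      map_id := fun S => congrArg InducedCategory.Hom.hom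
        (show α.inv.app S ≫ D.map (𝟙 (E.ι.obj S)) ≫ α.hom.app S = 𝟙 _ by simp)
      map_comp := fun {S S' S''} (f : E.ι.obj S ⟶ E.ι.obj S') (g : E.ι.obj S' ⟶ E.ι.obj S'') =>
        congrArg InducedCategory.Hom.hom
        (show α.inv.app S ≫ D.map (f ≫ g) ≫ α.hom.app S'' =
          (α.inv.app S ≫ D.map f ≫ α.hom.app S') ≫ α.inv.app S' ≫ D.map g ≫ α.hom.app S'' by simp)
      map_io := fun a => congrArg InducedCategory.Hom.hom (NatIso.naturality_1 α a)
      rel := fun _ => trivial }⟩,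
    ⟨NatIso.ofComponents
      (fun S => CompactlyGenerated.compactlyGeneratedToTop.{0, 0}.mapIso (α.app S.S))
      fun {S S'} h => congrArg InducedCategory.Hom.hom (α.hom_inv_id_app_assoc S.S _).symm⟩⟩

theorem piInf_iso (hE : Coh E) (D : E.C ⥤ CompactlyGenerated.{0, 0}) (hD : IsDiscFunctor D)
    (e : toC E ⋙ D ⋙ CompactlyGenerated.compactlyGeneratedToTop.{0, 0} ≅ DT hE) :
    Nonempty (PiInf D hD ⋙ toA E ≅
      CompactlyGenerated.compactlyGeneratedToTop.{0, 0} ⋙ PiT hE) := by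
  refine ⟨NatIso.ofComponents (fun Y => (PK E ⊤).isoMk (NatIso.ofComponents (fun S =>
    Equiv.toIso
      { toFun := fun f => e.inv.app S.unop ≫ f.hom
        invFun := fun g => InducedCategory.homMk (e.hom.app S.unop ≫ g)
        left_inv := fun f => InducedCategory.hom_ext (e.hom_inv_id_app_assoc _ _)
        right_inv := fun g => e.inv_hom_id_app_assoc _ _ }) fun h => ?_)) fun f => ?_⟩
  · ext φ
    exact (e.inv.naturality_assoc h.unop φ.hom).symm
  · ext S φ
    exact (Category.assoc (e.inv.app S.unop) φ.hom f.hom).symm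

instance : (Wq E).RespectsIso :=
  MorphismProperty.RespectsIso.mk _ (fun e _ hf => (Wq.of_isIso e.hom).comp hf)
    fun e _ hf => hf.comp (Wq.of_isIso e.hom)

theorem inducesEquiv (hE' : IsCoherator E) (D : E.C ⥤ CompactlyGenerated.{0, 0})
    (hD : IsDiscFunctor D) (u : Units E) : InducesEquiv WHE (WEq u) (PiInf D hD) := by
  obtain ⟨hE, ⟨e'⟩⟩ := exists_coh hE' D hD
  obtain ⟨e⟩ := piInf_iso hE D hD e'
  refine ⟨fun X Y f hf => ?_, ?_⟩
  · rw [weq_eq hE u]
    rw [whe_eq hE] at hf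
    exact ((Wq E).arrow_mk_iso_iff (Arrow.isoOfNatIso e f)).2 hf
  · let Φ := LocalizerMorphism.ofEq (weq_eq hE u)
    have : Φ.functor.IsEquivalence := inferInstanceAs (toA E).IsEquivalence
    have : Φ.IsInduced := ⟨(weq_eq hE u).symm⟩
    have := Φ.isLocalizedEquivalence_of_isInduced
    have := locPi_equiv hE
    have : (PiInf D hD ⋙ Φ.functor ⋙ (Wq E).Q).IsLocalization WHE :=
      Functor.IsLocalization.of_iso (L₁ := (locPi hE).functor ⋙ (Wq E).Q) _
        (Functor.isoWhiskerRight e.symm _)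
    have h : (PiInf D hD ⋙ (WEq u).Q).IsLocalization WHE :=
      Functor.IsLocalization.of_equivalence_target (PiInf D hD ⋙ Φ.functor ⋙ (Wq E).Q) _ _
        (Localization.uniq (Φ.functor ⋙ (Wq E).Q) (WEq u).Q (WEq u))
        (Functor.isoWhiskerLeft (PiInf D hD)
          (Localization.compUniqFunctor (Φ.functor ⋙ (Wq E).Q) (WEq u).Q (WEq u)))
    exact ⟨h.inverts, h.isEquivalence⟩

theorem discFunctor_exists (hE : IsCoherator E) :
    ∃ D : E.C ⥤ CompactlyGenerated.{0, 0}, IsDiscFunctor D :=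
  exists_discFunctor (Coh.nonempty hE).some

theorem homotopyHypothesis (hE : IsCoherator E) : HomotopyHypothesis E := by
  obtain ⟨D, hD⟩ := discFunctor_exists hE
  exact ⟨D, hD, inducesEquiv hE D hD⟩

end Vale.Agent.P259
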