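import Vale.Agent.P259.RP

/-! The categories `A E K` of models which are coskeletal above dimension `K`. -/

open CategoryTheory Limits Opposite

set_option backward.isDefEq.respectTransparency false

noncomputable section

namespace Vale.Agent.P259

variable (E : GlobExt)

/-- Presheaves on the reindexed category. -/
abbrev PSh : Type 1 := (Cc E)ᵒᵖ ⥤ Type

variable {E} in
/-- Models. -/
def IsMod (X : PSh E) : Prop :=
  ∀ (l : ℕ) (T : Tbl l) (j i : ℕ) (h₁ : j < l) (h₂ : j < i),
    IsPullback (X.map ((io E).map (initD T j i h₁ h₂)).op)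
      (X.map ((io E).map (lastD (T.snoc j i h₁ h₂))).op)
      (X.map ((io E).map (fc true h₁ ≫ lastD T)).op) (X.map ((io E).map (fc false h₂)).op)

/-- The underlying globular set of a presheaf. -/
@[implicit_reducible] def res : PSh E ⥤ GS := (Functor.whiskeringLeft _ _ _).obj (gT ⋙ io E).op

/-- Models which are coskeletal above `K`. -/
def PK (K : ℕ∞) : ObjectProperty (PSh E) := fun X => IsMod X ∧ Cosk K ((res E).obj X)

/-- The category of models which are coskeletal above `K`. -/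
abbrev A (K : ℕ∞) : Type 1 := (PK E K).FullSubcategory

theorem cosk_top (X : GS) : Cosk ⊤ X := fun _ h => absurd h not_top_lt

theorem isMod_nrv {𝒳 : Type*} [Category.{0} 𝒳] (F : Cc E ⥤ 𝒳) (hF : PresSums (io E ⋙ F))
    (X : 𝒳) : IsMod ((Nrv F).obj X) :=
  fun l T j i h₁ h₂ => (hF l T j i h₁ h₂).op.flip.map (yoneda.obj X)

theorem isMod_yoneda (S : Cc E) : IsMod (yoneda.obj S) :=
  isMod_nrv E (𝟭 _) (presSums_io E) S

variable (K : ℕ∞)

attribute [local instance] Cardinal.fact_isRegular_aleph0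

section Aux

variable {𝒳 : Type*} [Category.{0} 𝒳]

theorem mod_fp_pushout {S X Y T : 𝒳} {a : S ⟶ X} {b : S ⟶ Y} {c : X ⟶ T} {d : Y ⟶ T}
    (h : IsPushout a b c d) (hS : IsFinitelyPresentable.{0} S) (hX : IsFinitelyPresentable.{0} X)
    (hY : IsFinitelyPresentable.{0} Y) : IsFinitelyPresentable.{0} T := by
  have : ∀ k, IsCardinalPresentable ((span a b).obj k) Cardinal.aleph0.{0} := by
    rintro (_ | _ | _)
    exacts [hS, hX, hY]
  exact isCardinalPresentable_of_isColimit' h.cocone h.isColimit _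
    ((hasCardinalLT_aleph0_iff _).2 inferInstance)

theorem mod_fp_tower {G : Glob ⥤ 𝒳} (T : Tower G)
    (hG : ∀ k, IsFinitelyPresentable.{0} (G.obj ⟨k⟩)) (k : ℕ) :
    IsFinitelyPresentable.{0} (T.B k) := by
  induction k with
  | zero =>
    have : ∀ k, IsCardinalPresentable ((Functor.empty.{0} 𝒳).obj k) Cardinal.aleph0.{0} :=
      fun k => k.as.elim
    exact isCardinalPresentable_of_isColimit' (asEmptyCocone _) T.ini _
      ((hasCardinalLT_aleph0_iff _).2 inferInstance)
  | succ k ih => exact mod_fp_pushout (T.po k) ih (hG k) (hG k)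

variable {M : Type} [SmallCategory M]

theorem mod_fp_yoneda (S : M) : IsFinitelyPresentable.{0} (yoneda.obj S) := by
  have : IsFinitelyPresentable.{0} (uliftYoneda.{0}.obj S) := inferInstance
  exact isCardinalPresentable_of_iso (uliftYonedaIsoYoneda.{0}.app S) _

theorem mod_isPullback_iff {S X Y T : M} {a : S ⟶ X} {b : S ⟶ Y} {c : X ⟶ T} {d : Y ⟶ T}
    (w : a ≫ c = b ≫ d) (Z : Mᵒᵖ ⥤ Type) :
    IsPullback (Z.map c.op) (Z.map d.op) (Z.map a.op) (Z.map b.op) ↔
      (∀ φ ψ : yoneda.obj T ⟶ Z, yoneda.map c ≫ φ = yoneda.map c ≫ ψ →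
        yoneda.map d ≫ φ = yoneda.map d ≫ ψ → φ = ψ) ∧
      ∀ (u : yoneda.obj X ⟶ Z) (v : yoneda.obj Y ⟶ Z), yoneda.map a ≫ u = yoneda.map b ≫ v →
        ∃ φ, yoneda.map c ≫ φ = u ∧ yoneda.map d ≫ φ = v := by
  rw [Types.isPullback_iff, and_iff_right (by
    rw [← Z.map_comp, ← Z.map_comp, ← op_comp, ← op_comp, w])]
  simp only [yonedaEquiv.surjective.forall, yonedaEquiv.surjective.exists, yonedaEquiv_naturality,
    yonedaEquiv.apply_eq_iff_eq, and_imp]

theorem mod_bij_iff {S X Y T : 𝒳} {a : S ⟶ X} {b : S ⟶ Y} {c : X ⟶ T} {d : Y ⟶ T}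
    [HasPushout a b] (w : a ≫ c = b ≫ d) (Z : 𝒳) :
    Function.Bijective (fun g : T ⟶ Z => pushout.desc c d w ≫ g) ↔
      (∀ φ ψ : T ⟶ Z, c ≫ φ = c ≫ ψ → d ≫ φ = d ≫ ψ → φ = ψ) ∧
      ∀ (u : X ⟶ Z) (v : Y ⟶ Z), a ≫ u = b ≫ v → ∃ φ, c ≫ φ = u ∧ d ≫ φ = v := by
  refine and_congr ⟨fun h φ ψ h1 h2 => h (pushout.hom_ext (by simpa) (by simpa)),
    fun h φ ψ e => h φ ψ (by simpa using pushout.inl _ _ ≫= e)
      (by simpa using pushout.inr _ _ ≫= e)⟩ ⟨fun h u v e => ?_, fun h g => ?_⟩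
  · obtain ⟨φ, hφ⟩ := h (pushout.desc u v e)
    exact ⟨φ, by simpa using pushout.inl _ _ ≫= hφ, by simpa using pushout.inr _ _ ≫= hφ⟩
  · obtain ⟨φ, h1, h2⟩ := h (pushout.inl _ _ ≫ g) (pushout.inr _ _ ≫ g)
      (by rw [pushout.condition_assoc])
    exact ⟨φ, pushout.hom_ext (by simpa) (by simpa)⟩

end Aux

/-- Index set of the gluing conditions. -/
structure ModIx where
  l : ℕ
  T : Tbl l
  j : ℕ
  i : ℕ
  h₁ : j < l
  h₂ : j < i

theorem ModIx.w (p : ModIx) :
    (io E).map (fc true p.h₁ ≫ lastD p.T) ≫ (io E).map (initD p.T p.j p.i p.h₁ p.h₂) =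
      (io E).map (fc false p.h₂) ≫ (io E).map (lastD (p.T.snoc p.j p.i p.h₁ p.h₂)) :=
  (presSums_io E p.l p.T p.j p.i p.h₁ p.h₂).w

/-- Cells of a presheaf as maps out of representable presheaves. -/
def modResIso (X : PSh E) : (Nrv (gT ⋙ io E ⋙ yoneda)).obj X ≅ (res E).obj X :=
  NatIso.ofComponents (fun _ => yonedaEquiv.toIso)
    (fun f => by ext φ; exact (yonedaEquiv_naturality φ _).symm)

/-- `PK` is an orthogonality class between finitely presentable presheaves. -/
theorem exists_PK_eq_isLocal : ∃ W : MorphismProperty (PSh E),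
    MorphismProperty.IsSmall.{0} W ∧
    (∀ ⦃X Y : PSh E⦄ (f : X ⟶ Y), W f →
      IsCardinalPresentable X Cardinal.aleph0.{0} ∧ IsCardinalPresentable Y Cardinal.aleph0.{0}) ∧
    PK E K = W.isLocal := by
  let T : Tower (gT ⋙ io E ⋙ yoneda) := Tower.of _
  let f : ModIx ⊕ {k : ℕ // K < k} → Arrow (PSh E) := Sum.elim (fun p => Arrow.mk (pushout.desc _ _
    ((yoneda.map_comp _ _).symm.trans ((congrArg yoneda.map (p.w E)).trans (yoneda.map_comp _ _)))))
    fun k => Arrow.mk (T.β k)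
  refine ⟨.ofHoms fun i => (f i).hom, inferInstance, ?_, ?_⟩
  · rintro _ _ _ ⟨p | k⟩
    · exact ⟨mod_fp_pushout (IsPushout.of_hasPushout _ _) (mod_fp_yoneda _) (mod_fp_yoneda _)
        (mod_fp_yoneda _), mod_fp_yoneda _⟩
    · exact ⟨mod_fp_tower T (fun _ => mod_fp_yoneda _) _, mod_fp_yoneda _⟩
  · ext Z
    constructor
    · rintro ⟨h1, h2⟩ _ _ _ ⟨p | k⟩
      · exact (mod_bij_iff _ Z).2 ((mod_isPullback_iff (p.w E) Z).1 (h1 _ _ _ _ _ _))
      · exact (T.bd_bijective_iff Z k).1 (h2.of_iso (modResIso E Z).symm k k.2)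
    · intro h
      have h' := fun i => h _ (MorphismProperty.ofHoms.mk (f := fun i => (f i).hom) i)
      refine ⟨fun l T j i h₁ h₂ => ?_, Cosk.of_iso (modResIso E Z) fun k hk => ?_⟩
      · exact (mod_isPullback_iff (ModIx.w E ⟨l, T, j, i, h₁, h₂⟩) Z).2
          ((mod_bij_iff _ Z).1 (h' (Sum.inl ⟨l, T, j, i, h₁, h₂⟩)))
      · exact (T.bd_bijective_iff Z k).2 (h' (Sum.inr ⟨k, hk⟩))

instance : (PK E K).ι.IsRightAdjoint := by
  obtain ⟨W, h1, h2, e⟩ := exists_PK_eq_isLocal E K
  rw [e]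
  exact W.isRightAdjoint_ι_isLocal _ h2

instance : HasColimitsOfSize.{0, 0} (A E K) := by
  let : Reflective (PK E K).ι := ⟨_, Adjunction.ofIsRightAdjoint _⟩
  exact hasColimits_of_reflective (PK E K).ι

instance : HasLimitsOfSize.{0, 0} (A E K) := by
  let : Reflective (PK E K).ι := ⟨_, Adjunction.ofIsRightAdjoint _⟩
  exact hasLimits_of_reflective (PK E K).ι

instance (J : Type) [SmallCategory J] [IsFiltered J] :
    PreservesColimitsOfShape J (PK E K).ι := by
  obtain ⟨W, h1, h2, e⟩ := exists_PK_eq_isLocal E K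
  rw [e]
  have := (isCardinalFiltered_aleph0_iff J).2 inferInstance
  have := W.isClosedUnderColimitsOfShape_isLocal J _ h2
  infer_instance

/-- The reflector. -/
def Lf : PSh E ⥤ A E K := (PK E K).ι.leftAdjoint

/-- The reflection adjunction. -/
def adjL : Lf E K ⊣ (PK E K).ι := Adjunction.ofIsRightAdjoint _

instance : (Lf E K).IsLeftAdjoint := (adjL E K).isLeftAdjoint

/-- The free models on globular sums. -/
def Dk : Cc E ⥤ A E K := yoneda ⋙ Lf E K

variable {E K}

/-- Maps out of a free model. -/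
def dEquiv (S : Cc E) (X : A E K) : ((Dk E K).obj S ⟶ X) ≃ X.obj.obj (op S) :=
  ((adjL E K).homEquiv _ _).trans yonedaEquiv

theorem dEquiv_left {S S' : Cc E} {X : A E K} (h : S' ⟶ S) (φ : (Dk E K).obj S ⟶ X) :
    dEquiv S' X ((Dk E K).map h ≫ φ) = X.obj.map h.op (dEquiv S X φ) := by
  exact (congrArg yonedaEquiv ((adjL E K).homEquiv_naturality_left (yoneda.map h) φ)).trans
    (yonedaEquiv_naturality _ h).symm

theorem dEquiv_right {S : Cc E} {X Y : A E K} (φ : (Dk E K).obj S ⟶ X) (f : X ⟶ Y) :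
    dEquiv S Y (φ ≫ f) = f.hom.app (op S) (dEquiv S X φ) := by
  exact (congrArg yonedaEquiv ((adjL E K).homEquiv_naturality_right φ f)).trans
    (yonedaEquiv_comp _ _)

variable (E K)

/-- Free models on globular sums, on `Theta0`. -/
abbrev D0 : Theta0 ⥤ A E K := io E ⋙ Dk E K

/-- The coglobular object of free discs. -/
abbrev dG : Glob ⥤ A E K := gT ⋙ D0 E K

/-- The free disc. -/
abbrev dd (k : ℕ) : A E K := (dG E K).obj ⟨k⟩

/-- Source and target of free discs. -/
abbrev df (b : Bool) (k : ℕ) : dd E K k ⟶ dd E K (k + 1) := (dG E K).map (sf b k)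

theorem presSums_D0 : PresSums (D0 E K) := by
  intro l T j i h₁ h₂
  refine IsPushout.mk' ((presSums_id l T j i h₁ h₂).toCommSq.map (D0 E K)).w
    (fun X φ ψ e e' => ?_) fun X u v e => ?_
  · refine (dEquiv _ X).injective (Types.ext_of_isPullback (X.property.1 l T j i h₁ h₂) ?_ ?_)
    · exact (dEquiv_left _ _).symm.trans ((congrArg _ e).trans (dEquiv_left _ _))
    · exact (dEquiv_left _ _).symm.trans ((congrArg _ e').trans (dEquiv_left _ _))
  · obtain ⟨x, h1, h2⟩ := Types.exists_of_isPullback (X.property.1 l T j i h₁ h₂)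
      (dEquiv _ X u) (dEquiv _ X v)
      ((dEquiv_left _ _).symm.trans ((congrArg _ e).trans (dEquiv_left _ _)))
    obtain ⟨φ, rfl⟩ := (dEquiv _ X).surjective x
    exact ⟨φ, (dEquiv _ X).injective ((dEquiv_left _ _).trans h1),
      (dEquiv _ X).injective ((dEquiv_left _ _).trans h2)⟩

/-- The underlying globular set; cells are maps out of free discs. -/
abbrev U : A E K ⥤ GS := Nrv (dG E K)

/-- Comparison of the two descriptions of the underlying globular set. -/
def uIso : U E K ≅ (PK E K).ι ⋙ res E :=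
  NatIso.ofComponents
    (fun X => NatIso.ofComponents
      (fun k => (dEquiv ((io E).obj (disc k.unop.n)) X).toIso)
      (fun f => by ext φ; exact dEquiv_left _ φ))
    (fun f => by ext k φ; exact dEquiv_right φ f)

theorem ap_uIso (X : A E K) {k : ℕ} (x : dd E K k ⟶ X) :
    ap ((uIso E K).hom.app X) x = dEquiv ((io E).obj (disc k)) X x := rfl

/-- The free spheres. -/
def ST : Tower (dG E K) := Tower.of _

/-- The free sphere. -/
abbrev sp (k : ℕ) : A E K := (ST E K).B k

/-- The boundary inclusion. -/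
abbrev ii (k : ℕ) : sp E K k ⟶ dd E K k := (ST E K).β k

theorem cosk_U (X : A E K) : Cosk K ((U E K).obj X) :=
  X.property.2.of_iso ((uIso E K).app X).symm

theorem isIso_ii {k : ℕ} (h : K < k) : IsIso (ii E K k) := by
  exact isIso_of_coyoneda_map_bijective _ fun X =>
    ((ST E K).bd_bijective_iff X k).1 (cosk_U E K X k h)

theorem isIso_df (b : Bool) {k : ℕ} (h : K < k) : IsIso (df E K b k) := by
  have h1 := isIso_ii E K h
  have h2 := isIso_ii E K (k := k + 1) (h.trans_le (by exact_mod_cast k.le_succ))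
  have h3 : IsIso ((ST E K).ν b k) := by
    cases b
    · exact ((ST E K).po k).isIso_inl_of_isIso
    · exact ((ST E K).po k).isIso_inr_of_isIso
  rw [show df E K b k = _ from ((ST E K).w b k).symm]
  infer_instance

instance (S : Cc E) : IsFinitelyPresentable.{0} ((Dk E K).obj S) := by
  have := mod_fp_yoneda S
  have : (PK E K).ι.IsCardinalAccessible Cardinal.aleph0.{0} := ⟨fun J _ h =>
    have := (isCardinalFiltered_aleph0_iff J).1 h
    inferInstance⟩
  exact (adjL E K).isCardinalPresentable_leftAdjoint_obj _ _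

instance (k : ℕ) : IsFinitelyPresentable.{0} (dd E K k) :=
  inferInstanceAs (IsFinitelyPresentable.{0} ((Dk E K).obj _))

instance (k : ℕ) : IsFinitelyPresentable.{0} (sp E K k) := by
  exact mod_fp_tower _ (fun _ => inferInstance) k

/-- The small object argument for families with finitely presentable domains. -/
theorem hasSOA_ofHoms {𝒳 : Type*} [Category.{0} 𝒳] [HasColimitsOfSize.{0, 0} 𝒳] {ι : Type}
    {X Y : ι → 𝒳} (f : ∀ i, X i ⟶ Y i) (h : ∀ i, IsFinitelyPresentable.{0} (X i)) :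
    (MorphismProperty.ofHoms f).HasSmallObjectArgument.{0} := by
  let := Cardinal.orderBotAleph0OrdToType
  have : (MorphismProperty.ofHoms f).IsCardinalForSmallObjectArgument Cardinal.aleph0.{0} :=
    { preservesColimit := fun {A B X Y} i hi f hf => by
        obtain ⟨i⟩ := hi
        have := h i
        infer_instance }
  exact ⟨.aleph0, inferInstance, inferInstance, this⟩

variable {E K}

/-- The nerve of a functor preserving globular sums, as a functor to models. -/
@[implicit_reducible] def nrvA {𝒳 : Type*} [Category.{0} 𝒳] (F : Cc E ⥤ 𝒳)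
    (hF : PresSums (io E ⋙ F)) (hK : ∀ X, Cosk K ((Nrv (gT ⋙ io E ⋙ F)).obj X)) : 𝒳 ⥤ A E K :=
  (PK E K).lift (Nrv F) (fun X => ⟨isMod_nrv E F hF X, hK X⟩)

/-- The underlying globular set of a nerve. -/
def nrvAIso {𝒳 : Type*} [Category.{0} 𝒳] (F : Cc E ⥤ 𝒳)
    (hF : PresSums (io E ⋙ F)) (hK : ∀ X, Cosk K ((Nrv (gT ⋙ io E ⋙ F)).obj X)) :
    nrvA F hF hK ⋙ U E K ≅ Nrv (gT ⋙ io E ⋙ F) :=
  Functor.isoWhiskerLeft (nrvA F hF hK) (uIso E K)

/-- The nerve of a functor to a cocomplete category is a right adjoint. -/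
theorem nrv_isRightAdjoint {M : Type} [SmallCategory M] {𝒳 : Type*} [Category.{0} 𝒳]
    [HasColimitsOfSize.{0, 0} 𝒳] (F : M ⥤ 𝒳) : (Nrv F).IsRightAdjoint := by
  have adj := Presheaf.uliftYonedaAdjunction.{0} (uliftYoneda.{0}.leftKanExtension F)
    (uliftYoneda.{0}.leftKanExtensionUnit F)
  exact (adj.ofNatIsoRight (Functor.isoWhiskerRight uliftYonedaIsoYoneda.{0} _)).isRightAdjoint

end Vale.Agent.P259
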