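import Vale.Agent.P259.Weq
import Vale.Agent.P259.Disc2
import Vale.Agent.P259.Disc3

/-! The disc functor, the fundamental infinity-groupoid and the realization. -/

open CategoryTheory Limits Opposite

set_option backward.isDefEq.respectTransparency false

noncomputable section

namespace Vale.Agent.P259

variable {E : GlobExt}

theorem rpHyp_disc : RPHyp (E := E) (Ext discG) (fun _ _ => True) := by
  refine ⟨presSums_Ext _, fun _ => trivial, fun _ _ => trivial, fun _ _ _ => trivial, ?_⟩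
  intro k S _ _ φ _ hφ
  have := contractible_Ext S
  have p : GPar (DiscN.obj ((Ext discG).obj S)) (k := k) (φ false) (φ true) := by
    cases k with
    | zero => trivial
    | succ m =>
      intro b
      have h := hφ m rfl b
      rw [Ext_map_fc] at h
      exact h
  obtain ⟨c, h0, h1⟩ := (gcontr_discN ((Ext discG).obj S)).rel p
  refine ⟨c, fun b => ?_, trivial⟩
  rw [Ext_map_fc]
  cases b
  exacts [h0, h1]

/-- A coherator with a chosen disc functor. -/
structure Coh (E : GlobExt) where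
  coh : IsCoherator E
  ext : Extn (E := E) (Ext discG) (fun _ _ => True)

instance : CoeOut (Coh E) (IsCoherator E) := ⟨Coh.coh⟩

theorem Coh.nonempty (hE : IsCoherator E) : Nonempty (Coh E) :=
  ⟨⟨hE, (RP hE rpHyp_disc).some⟩⟩

/-- The disc functor as an extension. -/
def DTe (hE : Coh E) : Extn (E := E) (Ext discG) (fun _ _ => True) := hE.ext

/-- The disc functor. -/
@[implicit_reducible] def DT (hE : Coh E) : Cc E ⥤ TopCat.{0} := (DTe hE).toF

theorem DT_map_io (hE : Coh E) {S S' : Theta0} (a : S ⟶ S') :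
    (DT hE).map ((io E).map a) = (Ext discG).map a := (DTe hE).map_io a

theorem presSums_DT (hE : Coh E) : PresSums (io E ⋙ DT hE) :=
  (DTe hE).presSums (presSums_Ext _)

theorem gT_DT (hE : Coh E) : gT ⋙ io E ⋙ DT hE = discG :=
  (congrArg (gT ⋙ ·) (DTe hE).io_toF).trans (gT_Ext discG)

/-- The fundamental infinity-groupoid. -/
@[implicit_reducible] def PiT (hE : Coh E) : TopCat.{0} ⥤ A E ⊤ :=
  nrvA (DT hE) (presSums_DT hE) (fun _ => cosk_top _)

/-- Maps from a free model to a fundamental infinity-groupoid. -/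
def piEquiv (hE : Coh E) (S : Cc E) (Y : TopCat.{0}) :
    ((Dk E ⊤).obj S ⟶ (PiT hE).obj Y) ≃ ((DT hE).obj S ⟶ Y) := dEquiv S _

theorem piEquiv_left (hE : Coh E) {S S' : Cc E} {Y : TopCat.{0}} (h : S' ⟶ S)
    (φ : (Dk E ⊤).obj S ⟶ (PiT hE).obj Y) :
    piEquiv hE S' Y ((Dk E ⊤).map h ≫ φ) = (DT hE).map h ≫ piEquiv hE S Y φ := dEquiv_left h φ

theorem piEquiv_right (hE : Coh E) {S : Cc E} {Y Y' : TopCat.{0}}
    (φ : (Dk E ⊤).obj S ⟶ (PiT hE).obj Y) (f : Y ⟶ Y') :
    piEquiv hE S Y' (φ ≫ (PiT hE).map f) = piEquiv hE S Y φ ≫ f := dEquiv_right φ _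

/-- The underlying globular set of the fundamental infinity-groupoid. -/
def piIso (hE : Coh E) : PiT hE ⋙ U E ⊤ ≅ DiscN :=
  NatIso.ofComponents
    (fun Y => NatIso.ofComponents
      (fun k => (piEquiv hE ((io E).obj (disc k.unop.n)) Y).toIso)
      (fun f => by
        ext φ
        refine (piEquiv_left hE _ φ).trans ?_
        rw [DT_map_io, Ext_map_gT]
        rfl))
    (fun f => by ext k φ; exact piEquiv_right hE φ f)

theorem ap_piIso (hE : Coh E) (Y : TopCat.{0}) {k : ℕ} (x : dd E ⊤ k ⟶ (PiT hE).obj Y) :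
    ap ((piIso hE).hom.app Y) x = piEquiv hE ((io E).obj (disc k)) Y x := rfl

theorem contr_PiT (hE : Coh E) (Z : TopCat.{0}) [ContractibleSpace Z] :
    Contr ((PiT hE).obj Z) :=
  (gcontr_discN Z).of_iso ((piIso hE).app Z).symm

theorem wq_PiT_iff (hE : Coh E) {X Y : TopCat.{0}} (f : X ⟶ Y) :
    Wq E ((PiT hE).map f) ↔ GW (DiscN.map f) :=
  ⟨GW.of_arrow_iso ((piIso hE).app X) ((piIso hE).app Y) ((piIso hE).hom.naturality f),
    GW.of_arrow_iso ((piIso hE).app X).symm ((piIso hE).app Y).symm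
      ((piIso hE).inv.naturality f)⟩

theorem wq_PiT_of_isHE (hE : Coh E) {X Y : TopCat.{0}} {f : X ⟶ Y} (h : IsHE f) :
    Wq E ((PiT hE).map f) := by
  obtain ⟨g, h₁, h₂⟩ := h
  have k : ∀ {Z : TopCat.{0}} (a : Z ⟶ Z), a.hom.Homotopic (ContinuousMap.id Z) →
      Wq E ((PiT hE).map a) := fun {Z} a ha =>
    (wq_PiT_iff hE a).2 (gw_discN_of_homotopic (f := 𝟙 Z) ha.symm (GW.of_isIso _))
  have k₁ := k _ h₁
  have k₂ := k _ h₂
  rw [Functor.map_comp] at k₁ k₂
  exact (Wq.two_of_six hE k₁ k₂).1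

theorem piT_kap (hE : Coh E) (u : Units E) {Y : TopCat.{0}}
    (x : dd E ⊤ 0 ⟶ (PiT hE).obj Y) (n : ℕ) :
    cstT n ≫ ap ((piIso hE).hom.app Y) x = ap ((piIso hE).hom.app Y) (kap u n ≫ x) := by
  induction n with
  | zero =>
    rw [← eq_cstT (𝟙 _), Category.id_comp]
    exact congrArg _ (Category.id_comp x).symm
  | succ n ih =>
    rw [kap, Category.assoc, ap_piIso hE Y (_ ≫ _), piEquiv_left, ← ap_piIso hE Y (_ ≫ _), ← ih,
      ← Category.assoc]
    exact congrArg (· ≫ _) (eq_cstT _).symm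

theorem wq_PiT_iff_wht (hE : Coh E) {X Y : TopCat.{0}} (f : X ⟶ Y) :
    Wq E ((PiT hE).map f) ↔ WHT f := by
  obtain ⟨u⟩ := units_nonempty hE.coh
  rw [wq_iff_gw0 hE u, wht_iff]
  refine ⟨GW0.of_arrow_iso ((piIso hE).app X) ((piIso hE).app Y) ((piIso hE).hom.naturality f)
    (fun x n => piT_kap hE u x n), GW0.of_arrow_iso ((piIso hE).app X).symm
      ((piIso hE).app Y).symm ((piIso hE).inv.naturality f) (fun x n => ?_)⟩
  have h := piT_kap hE u (ap ((piIso hE).inv.app X) x) n
  have e : ∀ {k} (y : Ce ((PiT hE ⋙ U E ⊤).obj X) k),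
      ap ((piIso hE).inv.app X) (ap ((piIso hE).hom.app X) y) = y := fun y => by
    rw [← ap_comp, Iso.hom_inv_id_app, ap_id]
  rw [← ap_comp, Iso.inv_hom_id_app, ap_id] at h
  exact (e _).symm.trans (congrArg (ap ((piIso hE).inv.app X)) h.symm)

theorem gsigma_PiT (hE : Coh E) {ι : Type} (Y : ι → TopCat.{0}) :
    GSigma (fun i => (U E ⊤).map ((PiT hE).map (Sigma.ι Y i))) := by
  intro k
  have h₁ : Function.Bijective (fun p : Σ i, Ce ((U E ⊤).obj ((PiT hE).obj (Y i))) k =>
      (⟨p.1, piEquiv hE ((io E).obj (disc k)) (Y p.1) p.2⟩ : Σ i, Ce (DiscN.obj (Y i)) k)) :=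
    (Equiv.sigmaCongrRight fun i => piEquiv hE ((io E).obj (disc k)) (Y i)).bijective
  refine ((piEquiv hE ((io E).obj (disc k)) (∐ Y)).bijective.of_comp_iff' _).1 ?_
  have h₂ := (gsigma_discN Y k).comp h₁
  refine (congrArg Function.Bijective (funext fun p => ?_)).mpr h₂
  exact piEquiv_right hE p.2 (Sigma.ι Y p.1)

theorem PiT_isRightAdjoint (hE : Coh E) : (PiT hE).IsRightAdjoint := by
  have := nrv_isRightAdjoint (DT hE)
  exact ((Adjunction.ofIsRightAdjoint (Nrv (DT hE))).restrictFullyFaithful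
    (PK E ⊤).fullyFaithfulι (Functor.FullyFaithful.id _) (R := PiT hE)
    (Functor.rightUnitor _).symm (Functor.leftUnitor _)).isRightAdjoint

/-- The realization. -/
def Real (hE : Coh E) : A E ⊤ ⥤ TopCat.{0} :=
  haveI := PiT_isRightAdjoint hE
  (PiT hE).leftAdjoint

/-- The realization adjunction. -/
def adjR (hE : Coh E) : Real hE ⊣ PiT hE :=
  haveI := PiT_isRightAdjoint hE
  Adjunction.ofIsRightAdjoint _

instance (hE : Coh E) : (Real hE).IsLeftAdjoint := (adjR hE).isLeftAdjoint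

theorem real_iso (hE : Coh E) : Nonempty (Dk E ⊤ ⋙ Real hE ≅ DT hE) := by
  have e : ∀ S, (adjR hE).homEquiv _ _ (((adjR hE).homEquiv _ _).symm
      ((piEquiv hE S ((DT hE).obj S)).symm (𝟙 _))) = _ := fun S => Equiv.apply_symm_apply _ _
  refine ⟨NatIso.ofComponents (fun S =>
    { hom := ((adjR hE).homEquiv _ _).symm ((piEquiv hE S ((DT hE).obj S)).symm (𝟙 _))
      inv := piEquiv hE S _ ((adjR hE).homEquiv _ _ (𝟙 _))
      hom_inv_id := ?_
      inv_hom_id := ?_ }) ?_⟩
  · apply ((adjR hE).homEquiv _ _).injective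
    apply (piEquiv hE S _).injective
    rw [Adjunction.homEquiv_naturality_right, e, piEquiv_right, Equiv.apply_symm_apply,
      Category.id_comp]
    rfl
  · rw [← piEquiv_right, ← Adjunction.homEquiv_naturality_right, Category.id_comp, e,
      Equiv.apply_symm_apply]
  · intro S S' h
    dsimp only
    apply ((adjR hE).homEquiv _ _).injective
    apply (piEquiv hE S _).injective
    rw [Adjunction.homEquiv_naturality_right (g := (DT hE).map h), e, piEquiv_right,
      Equiv.apply_symm_apply, Category.id_comp, Functor.comp_map,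
      Adjunction.homEquiv_naturality_left, e, piEquiv_left, Equiv.apply_symm_apply,
      Category.comp_id]

theorem real_disc_iso (hE : Coh E) : Nonempty (dG E ⊤ ⋙ Real hE ≅ discG) := by
  obtain ⟨e⟩ := real_iso hE
  exact ⟨Functor.isoWhiskerLeft (gT ⋙ io E) e ≪≫ eqToIso (gT_DT hE)⟩

theorem cg_Real (hE : Coh E) (X : A E ⊤) :
    CompactlyGeneratedSpace ((Real hE).obj X) := by
  obtain ⟨e⟩ := real_iso hE
  have k : ∀ {Y Z : TopCat.{0}}, (Y ≅ Z) → CompactlyGeneratedSpace Y →
      CompactlyGeneratedSpace Z := fun i _ =>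
    uCompactlyGeneratedSpace_of_coinduced (TopCat.homeoOfIso i).continuous
      (TopCat.homeoOfIso i).isQuotientMap.eq_coinduced
  have hc := isColimitOfPreserves (Lf E ⊤ ⋙ Real hE) (Presheaf.isColimitTautologicalCocone X.obj)
  exact k ((Real hE).mapIso (asIso ((adjL E ⊤).counit.app X)))
    (cg_of_isColimit hc fun j => k (e.app j.left).symm (cg_Ext j.left.S))

end Vale.Agent.P259
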