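import Vale.Agent.P259.Sums

/-! The extension principle for coherators. -/

open CategoryTheory Limits Opposite

set_option backward.isDefEq.respectTransparency false

noncomputable section

namespace Vale.Agent.P259

/-- The category of a globular extension, reindexed by globular sums. -/
structure Cc (E : GlobExt) where
  S : Theta0

instance (E : GlobExt) : SmallCategory (Cc E) where
  Hom X Y := E.ι.obj X.S ⟶ E.ι.obj Y.S
  id X := 𝟙 (E.ι.obj X.S)
  comp f g := f ≫ g

/-- The structure functor. -/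
@[implicit_reducible] def io (E : GlobExt) : Theta0 ⥤ Cc E where
  obj S := ⟨S⟩
  map f := E.ι.map f
  map_id S := E.ι.map_id S
  map_comp f g := E.ι.map_comp f g

/-- The comparison functor. -/
@[implicit_reducible] def toC (E : GlobExt) : Cc E ⥤ E.C where
  obj X := E.ι.obj X.S
  map f := f

instance (E : GlobExt) : (toC E).Full := ⟨fun f => ⟨f, rfl⟩⟩

instance (E : GlobExt) : (toC E).Faithful := ⟨fun h => h⟩

instance (E : GlobExt) : (toC E).EssSurj :=
  ⟨fun X => by
    obtain ⟨S, rfl⟩ := E.bij.2 X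
    exact ⟨⟨S⟩, ⟨Iso.refl _⟩⟩⟩

instance (E : GlobExt) : (toC E).IsEquivalence where

theorem presSums_io (E : GlobExt) : PresSums (io E) := fun l T j i h₁ h₂ =>
  IsPushout.of_map_of_faithful (toC E) (E.sums l T j i h₁ h₂)

/-- Source or target in the reindexed category. -/
abbrev cf (E : GlobExt) (b : Bool) (k : ℕ) : (io E).obj (disc k) ⟶ (io E).obj (disc (k + 1)) :=
  (io E).map (fc b (Nat.lt_succ_self k))

namespace Mor

theorem ext' {E F : GlobExt} {M N : Mor E F} (h : M.Φ = N.Φ) : M = N := by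
  cases M; cases N; cases h; rfl

/-- Composition of morphisms of globular extensions. -/
def comp {E F G : GlobExt} (M : Mor E F) (N : Mor F G) : Mor E G where
  Φ := M.Φ ⋙ N.Φ
  w := by rw [← Functor.assoc, M.w, N.w]

/-- The identity morphism of a globular extension. -/
def id (E : GlobExt) : Mor E E where
  Φ := 𝟭 _
  w := rfl

theorem comp_map {E F G : GlobExt} (M : Mor E F) (N : Mor F G) {S S' : Theta0}
    (f : E.ι.obj S ⟶ E.ι.obj S') : (M.comp N).onHom f = N.onHom (M.onHom f) := by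
  simp [Mor.onHom, comp, eqToHom_map]

theorem id_map {E : GlobExt} {S S' : Theta0} (f : E.ι.obj S ⟶ E.ι.obj S') :
    (Mor.id E).onHom f = f := by
  simp [Mor.onHom, Mor.id]

theorem map_comp {E F : GlobExt} (M : Mor E F) {S S' S'' : Theta0} (f : E.ι.obj S ⟶ E.ι.obj S')
    (g : E.ι.obj S' ⟶ E.ι.obj S'') : M.onHom (f ≫ g) = M.onHom f ≫ M.onHom g := by
  simp [Mor.onHom]

theorem map_ι {E F : GlobExt} (M : Mor E F) {S S' : Theta0} (a : S ⟶ S') :
    M.onHom (E.ι.map a) = F.ι.map a := by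
  have := Functor.congr_hom M.w a
  simp only [Functor.comp_map] at this
  simp [Mor.onHom, this]

theorem map_id {E F : GlobExt} (M : Mor E F) (S : Theta0) : M.onHom (𝟙 (E.ι.obj S)) = 𝟙 _ := by
  simp [Mor.onHom]

theorem unique_of_full {E F : GlobExt} [E.ι.Full] (M N : Mor E F) : M = N := by
  refine ext' (CategoryTheory.Functor.ext (fun X => ?_) (fun X Y f => ?_))
  · obtain ⟨S, rfl⟩ := E.bij.2 X
    exact (Functor.congr_obj M.w S).trans (Functor.congr_obj N.w S).symm
  · obtain ⟨S, rfl⟩ := E.bij.2 X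
    obtain ⟨S', rfl⟩ := E.bij.2 Y
    obtain ⟨a, rfl⟩ := E.ι.map_surjective f
    have h₁ := Functor.congr_hom M.w a
    have h₂ := Functor.congr_hom N.w a
    simp only [Functor.comp_map] at h₁ h₂
    simp [h₁, h₂]

theorem nonempty_of_ff {E : GlobExt} [E.ι.Full] [E.ι.Faithful] (F : GlobExt) :
    Nonempty (Mor E F) := by
  let e := Equiv.ofBijective _ E.bij
  have he : ∀ X, E.ι.obj (e.symm X) = X := e.apply_symm_apply
  have he' : ∀ S, e.symm (E.ι.obj S) = S := e.symm_apply_apply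
  refine ⟨⟨{ obj := fun X => F.ι.obj (e.symm X)
             map := fun {X Y} f =>
              F.ι.map (E.ι.preimage (eqToHom (he X) ≫ f ≫ eqToHom (he Y).symm))
             map_id := fun X => by simp
             map_comp := fun f g => by
              rw [← F.ι.map_comp, ← E.ι.preimage_comp]; simp }, ?_⟩⟩
  refine CategoryTheory.Functor.ext (fun S => congrArg F.ι.obj (he' S)) (fun S S' a => ?_)
  have : E.ι.preimage (eqToHom (he (E.ι.obj S)) ≫ E.ι.map a ≫ eqToHom (he (E.ι.obj S')).symm) =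
      eqToHom (he' S) ≫ a ≫ eqToHom (he' S').symm := by
    apply E.ι.map_injective
    simp [eqToHom_map]
  simp [this, eqToHom_map]

end Mor

/-- Sections of a morphism of globular extensions with the lifting property. -/
theorem exists_section {E G : GlobExt} (hE : IsCoherator E) (p : Mor G E)
    (hp : ∀ (k : ℕ) (S : Theta0), S.2.dim ≤ k + 1 →
      ∀ (f g : G.ι.obj (disc k) ⟶ G.ι.obj S), Par G f g →
      ∀ h, IsLift E (p.onHom f) (p.onHom g) h → ∃ h', IsLift G f g h' ∧ p.onHom h' = h) :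
    ∃ s : Mor E G, s.comp p = Mor.id E := by
  obtain ⟨⟨T, M, N, ⟨h₀, h₀'⟩, hfree, hMN, hcol⟩, -⟩ := hE
  have step : ∀ k (s : Mor (T k) G), s.comp p = N k →
      ∃ s' : Mor (T (k + 1)) G, s'.comp p = N (k + 1) ∧ (M k).Φ ⋙ s'.Φ = s.Φ := by
    intro k s hs
    obtain ⟨A, hA, h, hh, huniv⟩ := hfree k
    have hN : (M k).comp (N (k + 1)) = N k := Mor.ext' (hMN k)
    have hl : ∀ q : A, IsLift E ((N k).onHom q.1.pf) ((N k).onHom q.1.pg)
        ((N (k + 1)).onHom (h q)) := by
      intro q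
      constructor
      · rw [← (N (k + 1)).map_ι, ← Mor.map_comp, (hh q).1, ← Mor.comp_map, hN]
      · rw [← (N (k + 1)).map_ι, ← Mor.map_comp, (hh q).2, ← Mor.comp_map, hN]
    have : ∀ q : A, ∃ h', IsLift G (s.onHom q.1.pf) (s.onHom q.1.pg) h' ∧
        p.onHom h' = (N (k + 1)).onHom (h q) := by
      intro q
      refine hp _ _ (hA q.1 q.2).2 _ _ ?_ _ ?_
      · intro m e b
        rw [← s.map_ι, ← Mor.map_comp, ← Mor.map_comp, (hA q.1 q.2).1 m e b]
      · rw [← Mor.comp_map, ← Mor.comp_map, hs]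
        exact hl q
    choose k' hk' hk'' using this
    obtain ⟨s', ⟨hs', hs''⟩, -⟩ := huniv G s k' hk'
    refine ⟨s', ?_, hs'⟩
    refine (huniv E (N k) _ hl).unique ⟨?_, fun q => ?_⟩ ⟨hMN k, fun _ => rfl⟩
    · change (M k).Φ ⋙ s'.Φ ⋙ p.Φ = _
      rw [← Functor.assoc, hs', ← hs]; rfl
    · rw [Mor.comp_map, hs'', hk'']
  choose st hst hst' using step
  obtain ⟨s₀⟩ := Mor.nonempty_of_ff (E := T 0) G
  let seq : ∀ k, {s : Mor (T k) G // s.comp p = N k} := fun k =>
    Nat.rec ⟨s₀, Mor.unique_of_full _ _⟩ (fun k s => ⟨st k s.1 s.2, hst k s.1 s.2⟩) k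
  obtain ⟨s, hs, -⟩ := hcol G (fun k => (seq k).1) (fun k => hst' k (seq k).1 (seq k).2)
  refine ⟨s, (hcol E N hMN).unique (fun k => ?_) (fun _ => rfl)⟩
  change (N k).Φ ⋙ s.Φ ⋙ p.Φ = _
  rw [← Functor.assoc, hs k]
  exact congrArg Mor.Φ (seq k).2

section
variable {E : GlobExt} {𝒟 : Type*} [Category.{0} 𝒟] (F : Theta0 ⥤ 𝒟)
  (R : ∀ {S S' : Theta0}, ((io E).obj S ⟶ (io E).obj S') → (F.obj S ⟶ F.obj S') → Prop)

/-- An extension of `F` to the coherator, constrained by `R`. -/
structure Extn where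
  map : ∀ {S S' : Theta0}, ((io E).obj S ⟶ (io E).obj S') → (F.obj S ⟶ F.obj S')
  map_id : ∀ S, map (𝟙 ((io E).obj S)) = 𝟙 _
  map_comp : ∀ {S S' S'' : Theta0} (f : (io E).obj S ⟶ (io E).obj S')
    (g : (io E).obj S' ⟶ (io E).obj S''), map (f ≫ g) = map f ≫ map g
  map_io : ∀ {S S' : Theta0} (a : S ⟶ S'), map ((io E).map a) = F.map a
  rel : ∀ {S S' : Theta0} (h : (io E).obj S ⟶ (io E).obj S'), R h (map h)

variable {F R}

/-- The functor of an extension. -/
@[implicit_reducible] def Extn.toF (e : Extn F R) : Cc E ⥤ 𝒟 where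
  obj X := F.obj X.S
  map f := e.map f
  map_id X := e.map_id X.S
  map_comp f g := e.map_comp f g

theorem Extn.toF_map_io (e : Extn F R) {S S' : Theta0} (a : S ⟶ S') :
    e.toF.map ((io E).map a) = F.map a := e.map_io a

theorem Extn.io_toF (e : Extn F R) : io E ⋙ e.toF = F :=
  Functor.hext (fun _ => rfl) (fun _ _ f => heq_of_eq (e.map_io f))

theorem Extn.presSums (e : Extn F R) (hF : PresSums F) : PresSums (io E ⋙ e.toF) := by
  rw [e.io_toF]; exact hF

variable (F R) in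
/-- Hypotheses of the extension principle. -/
structure RPHyp : Prop where
  sums : PresSums F
  rio : ∀ {S S' : Theta0} (a : S ⟶ S'), R ((io E).map a) (F.map a)
  comp : ∀ {S S' S'' : Theta0} {h : (io E).obj S ⟶ (io E).obj S'}
    {h' : (io E).obj S' ⟶ (io E).obj S''} {φ φ'}, R h φ → R h' φ' → R (h ≫ h') (φ ≫ φ')
  glue : ∀ {S S' : Theta0} (h : (io E).obj S ⟶ (io E).obj S') (φ : F.obj S ⟶ F.obj S'),
    (∀ k (a : disc k ⟶ S), R ((io E).map a ≫ h) (F.map a ≫ φ)) → R h φ
  lift : ∀ (k : ℕ) (S : Theta0), S.2.dim ≤ k + 1 →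
    ∀ (h : (io E).obj (disc (k + 1)) ⟶ (io E).obj S) (φ : Bool → (F.obj (disc k) ⟶ F.obj S)),
      (∀ b, R (cf E b k ≫ h) (φ b)) →
      (∀ m (e : m + 1 = k) (b : Bool), F.map (fc b (Nat.lt_of_succ_le e.le)) ≫ φ false =
        F.map (fc b (Nat.lt_of_succ_le e.le)) ≫ φ true) →
      ∃ χ : F.obj (disc (k + 1)) ⟶ F.obj S,
        (∀ b, F.map (fc b (Nat.lt_succ_self k)) ≫ χ = φ b) ∧ R h χ

/-- The category of related pairs of morphisms. -/
structure RE (H : RPHyp F R) where
  S : Theta0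

instance (H : RPHyp F R) : SmallCategory (RE H) where
  Hom X Y := {p : ((io E).obj X.S ⟶ (io E).obj Y.S) × (F.obj X.S ⟶ F.obj Y.S) // R p.1 p.2}
  id X := ⟨(𝟙 _, 𝟙 _), by simpa using H.rio (𝟙 X.S)⟩
  comp f g := ⟨(f.1.1 ≫ g.1.1, f.1.2 ≫ g.1.2), H.comp f.2 g.2⟩
  id_comp _ := Subtype.ext (Prod.ext (Category.id_comp _) (Category.id_comp _))
  comp_id _ := Subtype.ext (Prod.ext (Category.comp_id _) (Category.comp_id _))
  assoc _ _ _ := Subtype.ext (Prod.ext (Category.assoc _ _ _) (Category.assoc _ _ _))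

theorem RE.hom_ext {H : RPHyp F R} {X Y : RE H} {f g : X ⟶ Y} (h₁ : f.1.1 = g.1.1)
    (h₂ : f.1.2 = g.1.2) : f = g := Subtype.ext (Prod.ext h₁ h₂)

/-- The structure functor of the category of related pairs. -/
def RE.ι (H : RPHyp F R) : Theta0 ⥤ RE H where
  obj S := ⟨S⟩
  map a := ⟨((io E).map a, F.map a), H.rio a⟩
  map_id _ := RE.hom_ext ((io E).map_id _) (F.map_id _)
  map_comp _ _ := RE.hom_ext ((io E).map_comp _ _) (F.map_comp _ _)

theorem RE.sums (H : RPHyp F R) : PresSums (RE.ι H) := by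
  intro l T j i h₁ h₂
  have a := presSums_io E l T j i h₁ h₂
  have b := H.sums l T j i h₁ h₂
  refine ⟨⟨RE.hom_ext a.w b.w⟩, ⟨PushoutCocone.IsColimit.mk _ (fun s => ?_) ?_ ?_ ?_⟩⟩
  · refine ⟨(a.desc s.inl.1.1 s.inr.1.1 (congrArg (fun q => q.1.1) s.condition),
      b.desc s.inl.1.2 s.inr.1.2 (congrArg (fun q => q.1.2) s.condition)), ?_⟩
    refine H.glue _ _ fun k c => ?_
    rcases cell_cases T j i h₁ h₂ c with ⟨c', rfl⟩ | ⟨c', rfl⟩
    · simp only [Functor.map_comp, Category.assoc, IsPushout.inl_desc]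
      exact H.comp (H.rio c') s.inl.2
    · simp only [Functor.map_comp, Category.assoc, IsPushout.inr_desc]
      exact H.comp (H.rio c') s.inr.2
  · exact fun s => RE.hom_ext (a.inl_desc _ _ _) (b.inl_desc _ _ _)
  · exact fun s => RE.hom_ext (a.inr_desc _ _ _) (b.inr_desc _ _ _)
  · intro s m e₁ e₂
    refine RE.hom_ext (a.hom_ext ?_ ?_) (b.hom_ext ?_ ?_)
    · exact (congrArg (fun q => q.1.1) e₁).trans (a.inl_desc _ _ _).symm
    · exact (congrArg (fun q => q.1.1) e₂).trans (a.inr_desc _ _ _).symm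
    · exact (congrArg (fun q => q.1.2) e₁).trans (b.inl_desc _ _ _).symm
    · exact (congrArg (fun q => q.1.2) e₂).trans (b.inr_desc _ _ _).symm

/-- The globular extension of related pairs. -/
def RE.ext (H : RPHyp F R) : GlobExt where
  C := RE H
  ι := RE.ι H
  bij := ⟨fun _ _ h => congrArg RE.S h, fun X => ⟨X.S, rfl⟩⟩
  sums := RE.sums H

/-- The projection from related pairs. -/
def RE.pr (H : RPHyp F R) : Mor (RE.ext H) E where
  Φ := { obj := fun X => E.ι.obj X.S
         map := fun f => f.1.1 }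
  w := rfl

theorem RE.pr_map (H : RPHyp F R) {S S' : Theta0}
    (f : (RE.ext H).ι.obj S ⟶ (RE.ext H).ι.obj S') : (RE.pr H).onHom f = f.1.1 :=
  (Category.id_comp _).trans (Category.comp_id _)

theorem RP (hE : IsCoherator E) (H : RPHyp F R) : Nonempty (Extn F R) := by
  obtain ⟨s, hs⟩ := exists_section hE (RE.pr H) (by
    intro k S hS f g hfg h hh
    rw [RE.pr_map, RE.pr_map] at hh
    obtain ⟨χ, h₁, h₂⟩ := H.lift k S hS h (fun b => cond b g.1.2 f.1.2)
      (fun b => by
        cases b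
        · exact (show cf E false k ≫ h = f.1.1 from hh.1) ▸ f.2
        · exact (show cf E true k ≫ h = g.1.1 from hh.2) ▸ g.2)
      (fun m e b => congrArg (fun q => q.1.2) (hfg m e b))
    exact ⟨⟨(h, χ), h₂⟩, ⟨RE.hom_ext hh.1 (h₁ false), RE.hom_ext hh.2 (h₁ true)⟩,
      RE.pr_map H _⟩)
  have key : ∀ {S S' : Theta0} (h : E.ι.obj S ⟶ E.ι.obj S'), (s.onHom h).1.1 = h := by
    intro S S' h
    rw [← RE.pr_map, ← Mor.comp_map, hs, Mor.id_map]
  exact ⟨{ map := fun h => (s.onHom h).1.2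
           map_id := fun S => congrArg (fun q => q.1.2) (s.map_id S)
           map_comp := fun f g => congrArg (fun q => q.1.2) (s.map_comp f g)
           map_io := fun a => congrArg (fun q => q.1.2) (s.map_ι a)
           rel := fun h => by
            have := (s.onHom h).2
            rwa [key] at this }⟩

end

/-- Induction principle for morphisms of a coherator. -/
theorem coh_induction {E : GlobExt} (hE : IsCoherator E)
    (P : ∀ {S S' : Theta0}, ((io E).obj S ⟶ (io E).obj S') → Prop)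
    (rio : ∀ {S S' : Theta0} (a : S ⟶ S'), P ((io E).map a))
    (comp : ∀ {S S' S'' : Theta0} {h : (io E).obj S ⟶ (io E).obj S'}
      {h' : (io E).obj S' ⟶ (io E).obj S''}, P h → P h' → P (h ≫ h'))
    (glue : ∀ {S S' : Theta0} (h : (io E).obj S ⟶ (io E).obj S'),
      (∀ k (a : disc k ⟶ S), P ((io E).map a ≫ h)) → P h)
    (lift : ∀ (k : ℕ) (S : Theta0), S.2.dim ≤ k + 1 →
      ∀ (h : (io E).obj (disc (k + 1)) ⟶ (io E).obj S), (∀ b, P (cf E b k ≫ h)) → P h)
    {S S' : Theta0} (h : (io E).obj S ⟶ (io E).obj S') : P h := by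
  obtain ⟨e⟩ := RP (F := (Functor.const Theta0).obj (Discrete.mk PUnit.unit : Discrete PUnit.{1}))
    (R := fun h _ => P h) hE
    { sums := fun _ _ _ _ _ _ => IsPushout.of_horiz_isIso ⟨Subsingleton.elim _ _⟩
      rio := rio
      comp := comp
      glue := fun h _ H => glue h H
      lift := fun k S hS h _ H _ =>
        ⟨𝟙 _, fun _ => Subsingleton.elim _ _, lift k S hS h H⟩ }
  exact e.rel h

/-- Contractibility of a coherator. -/
theorem coh_lift {E : GlobExt} (hE : IsCoherator E) {k : ℕ} {S : Theta0}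
    (f : Bool → ((io E).obj (disc k) ⟶ (io E).obj S))
    (hf : ∀ m (e : m + 1 = k) (b : Bool), (io E).map (fc b (Nat.lt_of_succ_le e.le)) ≫ f false =
      (io E).map (fc b (Nat.lt_of_succ_le e.le)) ≫ f true) :
    ∃ h : (io E).obj (disc (k + 1)) ⟶ (io E).obj S, ∀ b, cf E b k ≫ h = f b := by
  obtain ⟨h, h0, h1⟩ := hE.2 k S (f false) (f true) hf
  exact ⟨h, fun b => by cases b; exacts [h0, h1]⟩

theorem units_nonempty {E : GlobExt} (hE : IsCoherator E) : Nonempty (Units E) := by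
  choose k hk using fun n => hE.2 n (disc n) (𝟙 _) (𝟙 _) (fun _ _ _ => rfl)
  exact ⟨⟨k, hk⟩⟩

end Vale.Agent.P259
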