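import Vale.Agent.P259.Disc

/-! Sequences of cell attachments. -/

open CategoryTheory Limits Opposite

set_option backward.isDefEq.respectTransparency false

noncomputable section

namespace Vale.Agent.P259

theorem st_push {A B Y Y' : TopCat.{0}} {a : A ⟶ Y} {i : A ⟶ B} {c : Y ⟶ Y'} {d : B ⟶ Y'}
    (h : IsPushout a i c d) (hi : Topology.IsClosedEmbedding i) [T1Space Y] [T1Space B] :
    Topology.IsClosedEmbedding c ∧ T1Space Y' := by
  have w : ∀ s, c (a s) = d (i s) := fun s => ConcreteCategory.congr_hom h.w s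
  have hcl : ∀ S : Set Y', IsClosed (c ⁻¹' S) → IsClosed (d ⁻¹' S) → IsClosed S := by
    intro S h1 h2
    rw [TopCat.isClosed_iff_of_isColimit _ h.isColimit]
    rintro (_ | _ | _)
    · exact h1.preimage a.hom.continuous
    · exact h1
    · exact h2
  have h' := h.map (forget TopCat)
  have inj : Function.Injective c :=
    Types.pushoutCocone_inr_injective_of_isColimit h'.flip.isColimit hi.injective
  have key : ∀ b y, d b = c y → ∃ s, i s = b ∧ a s = y := fun b y e =>
    (Types.pushoutCocone_inl_eq_inr_iff_of_isColimit h'.flip.isColimit hi.injective b y).1 e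
  have cl : IsClosedMap c := fun S hS => by
    refine hcl _ (by rwa [inj.preimage_image]) ?_
    have e : d ⁻¹' (c '' S) = i '' (a ⁻¹' S) := by
      ext b
      constructor
      · rintro ⟨y, hy, e⟩
        obtain ⟨s, rfl, rfl⟩ := key b y e.symm
        exact ⟨s, hy, rfl⟩
      · rintro ⟨s, hs, rfl⟩
        exact ⟨_, hs, w s⟩
    rw [e]
    exact hi.isClosedMap _ (hS.preimage a.hom.continuous)
  refine ⟨.of_continuous_injective_isClosedMap c.hom.continuous inj cl, ⟨fun x => ?_⟩⟩
  obtain ⟨y, rfl⟩ | ⟨b, rfl, hb⟩ := Types.eq_or_eq_of_isPushout' h' x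
  · exact Set.image_singleton ▸ cl _ (isClosed_singleton (x := y))
  · classical
    have hb' : b ∉ Set.range i := hb
    obtain ⟨φ, -, hφ⟩ := h'.exists_desc (W := Option B) (↾fun _ => none)
      (↾fun b => if b ∈ Set.range i then none else some b) (by
        ext s : 3
        exact (if_pos (Set.mem_range_self s)).symm)
    have hφ' : ∀ b, φ (d b) = if b ∈ Set.range i then none else some b := fun b =>
      ConcreteCategory.congr_hom hφ b
    refine hcl _ ?_ ?_
    · have e : c ⁻¹' {d b} = ∅ := Set.eq_empty_of_forall_notMem fun y hy => by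
        obtain ⟨s, hs, -⟩ := key b y (Eq.symm hy)
        exact hb' ⟨s, hs⟩
      exact e ▸ isClosed_empty
    · have e : d ⁻¹' {d b} = {b} := by
        refine Set.eq_singleton_iff_unique_mem.2 ⟨rfl, fun b' h1 => ?_⟩
        have h2 := hφ' b'
        rw [show d b' = d b from h1, hφ', if_neg hb'] at h2
        split_ifs at h2
        exact (Option.some.inj h2).symm
      exact e ▸ isClosed_singleton

theorem st_sigma_t1 {ι : Type} (B : ι → TopCat.{0}) (h : ∀ i, T1Space (B i)) :
    T1Space (∐ B : TopCat.{0}) := by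
  have : T1Space (Σ i, B i) := ⟨fun ⟨i, x⟩ =>
    Set.image_singleton ▸ isClosedMap_sigmaMk _ (isClosed_singleton (x := x))⟩
  exact (TopCat.homeoOfIso (TopCat.sigmaIsoSigma B)).symm.t1Space

/-- The map of disjoint unions. -/
def st_map {ι : Type} {A B : ι → TopCat.{0}} (f : ∀ i, A i ⟶ B i) : (Σ i, A i) → Σ i, B i :=
  Sigma.map id fun i => (f i : A i → B i)

theorem st_sigma {ι : Type} {A B : ι → TopCat.{0}} (f : ∀ i, A i ⟶ B i)
    (h : ∀ i, Topology.IsClosedEmbedding (f i)) :
    Topology.IsClosedEmbedding (Limits.Sigma.map f) := by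
  have h1 : Topology.IsClosedEmbedding (st_map f) := by
    refine ⟨(Topology.isEmbedding_sigmaMap Function.injective_id).2 fun i => (h i).isEmbedding,
      isClosed_sigma_iff.2 fun i => ?_⟩
    have e : Sigma.mk i ⁻¹' Set.range (st_map f) =
        Set.range (f i) := by
      ext x
      constructor
      · rintro ⟨⟨j, y⟩, e⟩
        obtain ⟨rfl, e⟩ := Sigma.mk.inj e
        exact ⟨y, eq_of_heq e⟩
      · rintro ⟨y, rfl⟩
        exact ⟨⟨i, y⟩, rfl⟩
    exact e ▸ (h i).isClosed_range
  have e : (Limits.Sigma.map f : (∐ A : TopCat.{0}) → (∐ B : TopCat.{0})) =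
      (TopCat.homeoOfIso (TopCat.sigmaIsoSigma B)).symm ∘
      (st_map f) ∘ TopCat.homeoOfIso (TopCat.sigmaIsoSigma A) := by
    ext x
    obtain ⟨⟨i, y⟩, rfl⟩ := (TopCat.homeoOfIso (TopCat.sigmaIsoSigma A)).symm.surjective x
    rw [Function.comp_apply, Function.comp_apply, Homeomorph.apply_symm_apply]
    change Limits.Sigma.map f ((TopCat.sigmaIsoSigma A).inv ⟨i, y⟩) =
      (TopCat.sigmaIsoSigma B).inv ⟨i, f i y⟩
    rw [TopCat.sigmaIsoSigma_inv_apply, TopCat.sigmaIsoSigma_inv_apply]
    exact ConcreteCategory.congr_hom (Sigma.ι_map f i) y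
  rw [e]
  exact (Homeomorph.isClosedEmbedding _).comp (h1.comp (Homeomorph.isClosedEmbedding _))

/-- A cell attachment to a `T1` space is a closed embedding in a `T1` space. -/
theorem isAtt_closedEmbedding {Y Y' : TopCat.{0}} {c : Y ⟶ Y'} (h : sphT.IsAtt c) [T1Space Y] :
    Topology.IsClosedEmbedding c ∧ T1Space Y' := by
  obtain ⟨ι, k, a, d, h⟩ := h
  have := st_sigma_t1 (fun i => discG.obj ⟨k i⟩) fun i => inferInstanceAs (T1Space (Disc (k i)))
  refine st_push h (st_sigma _ fun i => ?_)
  exact (sphIncl (k i)).continuous.isClosedEmbedding fun x y e =>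
    Subtype.ext (congrArg Subtype.val e :)

/-- Compact spaces map to a finite stage of a sequence of closed embeddings of `T1` spaces. -/
theorem seq_compact {Z : ℕ ⥤ TopCat.{0}} {c : Cocone Z} (hc : IsColimit c)
    (h₁ : ∀ r, T1Space (Z.obj r))
    (h₂ : ∀ r, Topology.IsClosedEmbedding (Z.map (homOfLE (Nat.le_succ r)))) :
    (∀ r, Function.Injective (c.ι.app r)) ∧
    ∀ (K : TopCat.{0}) [CompactSpace K] (f : K ⟶ c.pt), ∃ (r : ℕ) (g : K ⟶ Z.obj r),
      g ≫ c.ι.app r = f := by
  have hm : ∀ r s (h : r ≤ s), Topology.IsClosedEmbedding (Z.map (homOfLE h)) := by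
    intro r s h
    induction s, h using Nat.le_induction with
    | base =>
      rw [Subsingleton.elim (homOfLE _) (𝟙 r), Z.map_id]
      exact Topology.IsClosedEmbedding.id
    | succ s h ih =>
      rw [← homOfLE_comp h (Nat.le_succ s), Z.map_comp]
      exact (h₂ s).comp ih
  have w : ∀ {r s} (h : r ≤ s) x, c.ι.app s (Z.map (homOfLE h) x) = c.ι.app r x := fun h x =>
    ConcreteCategory.congr_hom (c.w (homOfLE h)) x
  have hc' := isColimitOfPreserves (forget TopCat) hc
  have inj : ∀ r, Function.Injective (c.ι.app r) := fun r x y e => by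
    obtain ⟨j, f, e'⟩ := (Types.FilteredColimit.isColimit_eq_iff' hc' x y).1 e
    exact (hm r j (leOfHom f)).injective e'
  have emb : ∀ r, Topology.IsClosedEmbedding (c.ι.app r) := fun r => by
    refine .of_continuous_injective_isClosedMap (c.ι.app r).hom.continuous (inj r) fun S hS => ?_
    rw [TopCat.isClosed_iff_of_isColimit _ hc]
    intro j
    have e : c.ι.app j ⁻¹' (c.ι.app r '' S) = Z.map (homOfLE (le_max_left j r)) ⁻¹'
        (Z.map (homOfLE (le_max_right j r)) '' S) := by
      ext x
      constructor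
      · rintro ⟨y, hy, e⟩
        exact ⟨y, hy, inj _ ((w (le_max_right j r) y).trans (e.trans (w (le_max_left j r) x).symm))⟩
      · rintro ⟨y, hy, e⟩
        exact ⟨y, hy, (w (le_max_right j r) y).symm.trans
          ((congrArg _ e).trans (w (le_max_left j r) x))⟩
    rw [e]
    exact ((hm _ _ _).isClosedMap _ hS).preimage (Z.map _).hom.continuous
  refine ⟨inj, fun K _ f => ?_⟩
  have key : ∃ r, ∀ x, ∃ z, c.ι.app r z = f x := by
    by_contra hn
    push Not at hn
    choose x hx using hn
    have lt : ∀ r j z, c.ι.app j z = f (x r) → r < j := fun r j z e =>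
      not_le.1 fun h => hx r _ ((w h z).trans e)
    have cl : ∀ n, IsClosed ((fun r => f (x r)) '' Set.Ici n) := fun n => by
      rw [TopCat.isClosed_iff_of_isColimit _ hc]
      intro j
      refine Set.Finite.isClosed ((((Set.finite_Iio j).image fun r => f (x r)).preimage
        (inj j).injOn).subset ?_)
      rintro z ⟨r, -, e⟩
      exact ⟨r, lt r j z e.symm, e⟩
    obtain ⟨y, hy⟩ := IsCompact.nonempty_iInter_of_sequence_nonempty_isCompact_isClosed
      (fun n => f ⁻¹' ((fun r => f (x r)) '' Set.Ici n))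
      (fun n => Set.preimage_mono (Set.image_mono (Set.Ici_subset_Ici.2 (Nat.le_succ n))))
      (fun n => ⟨x n, n, le_refl n, rfl⟩) ((cl 0).preimage f.hom.continuous).isCompact
      fun n => (cl n).preimage f.hom.continuous
    obtain ⟨j, z, e⟩ := Types.jointly_surjective_of_isColimit hc' (f y)
    obtain ⟨r, hr, e'⟩ := Set.mem_iInter.1 hy j
    exact absurd (lt r j z (e.trans e'.symm)) (not_lt.2 hr)
  obtain ⟨r, hr⟩ := key
  choose g hg using hr
  refine ⟨r, TopCat.ofHom ⟨g, (emb r).isInducing.continuous_iff.2 ?_⟩, ?_⟩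
  · exact f.hom.continuous.congr fun x => (hg x).symm
  · ext x
    exact hg x

end Vale.Agent.P259
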