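import Vale.Agent.P259.Lam2

/-! Small singular cubes. -/

open CategoryTheory Limits Opposite unitInterval

set_option backward.isDefEq.respectTransparency false

noncomputable section

namespace Vale.Agent.P259

/-- Spaces with an open cover by two sets. -/
structure Cov where
  Y : TopCat.{0}
  V : Bool → Set Y
  isOpen : ∀ b, IsOpen (V b)
  cover : ∀ y, ∃ b, y ∈ V b

instance : Category.{0} Cov where
  Hom T T' := {f : T.Y ⟶ T'.Y // ∀ b, T.V b = f ⁻¹' T'.V b}
  id T := ⟨𝟙 _, fun _ => rfl⟩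
  comp f g := ⟨f.1 ≫ g.1, fun b => by rw [f.2, g.2]; rfl⟩

/-- The underlying space. -/
@[implicit_reducible] def Cov.fg : Cov ⥤ TopCat.{0} where
  obj T := T.Y
  map f := f.1

/-- The induced cover. -/
@[implicit_reducible] def Cov.pull (T : Cov) {Z : TopCat.{0}} (f : Z ⟶ T.Y) : Cov where
  Y := Z
  V b := f ⁻¹' T.V b
  isOpen b := (T.isOpen b).preimage f.hom.continuous
  cover z := T.cover (f z)

/-- The map from the induced cover. -/
def Cov.pullHom (T : Cov) {Z : TopCat.{0}} (f : Z ⟶ T.Y) : T.pull f ⟶ T := ⟨f, fun _ => rfl⟩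

/-- Small singular cubes. -/
@[implicit_reducible] def SingC : Cov ⥤ CS where
  obj T :=
    { obj := fun m => {sg : cubeT.obj m.unop ⟶ T.Y // ∃ b, ∀ x, sg x ∈ T.V b}
      map := fun a => ↾fun sg => ⟨cubeT.map a.unop ≫ sg.1, sg.2.imp fun _ h _ => h _⟩ }
  map f :=
    { app := fun _ => ↾fun sg => ⟨sg.1 ≫ f.1, sg.2.imp fun b h x => by
        have := h x
        rw [f.2] at this
        exact this⟩ }

variable {E : GlobExt}

variable (E) in
/-- The model of small singular cubes. -/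
abbrev LamC : Cov ⥤ A E ⊤ := SingC ⋙ Lam E

/-- The map from a representable presheaf given by an element. -/
def yoEl {X : CS} {m : Cu} (sg : X.obj (op m)) : yoneda.obj m ⟶ X where
  app n := ↾fun a : n.unop ⟶ m => X.map a.op sg
  naturality _ _ u := by
    ext a
    exact X.map_comp_apply a.op u sg

theorem yoneda_map_yoEl {X : CS} {m m' : Cu} (a : m ⟶ m') (sg : X.obj (op m')) :
    yoneda.map a ≫ yoEl sg = yoEl (X.map a.op sg) := by
  ext n u
  exact X.map_comp_apply a.op u.op sg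

/-- Small short maps, functorially in the target. -/
def smallF (ε : ℝ) : Cu ⥤ CS where
  obj m := (smallY ε m).toFunctor
  map a := { app := fun _ => ↾fun b => ⟨b.1 ≫ a, fun x y => (CuHom.short a _ _).trans (b.2 x y)⟩ }

/-- Subdivision: a map which is homotopic to the inclusion and factors through `X'`. -/
theorem exists_subdiv (hE : IsCoherator E) {ε : ℝ} (hε : 0 < ε) {Y : CS} (X X' : Subfunctor Y)
    (h : ∀ (m : Cu) (sg : Y.obj (op m)), sg ∈ X.obj (op m) → ∀ (n : Cu) (a : n ⟶ m),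
      (∀ x y, dist (CuHom.f a x) (CuHom.f a y) ≤ ε) → Y.map a.op sg ∈ X'.obj (op n)) :
    ∃ (S : (Lam E).obj X.toFunctor ⟶ (Lam E).obj X'.toFunctor)
      (H : (Lam E).obj X.toFunctor ⟶ (PO hE).P.obj ((Lam E).obj Y)),
      H ≫ ((PO hE).p false).app _ = (Lam E).map X.ι ∧
        H ≫ ((PO hE).p true).app _ = S ≫ (Lam E).map X'.ι := by
  obtain ⟨sd⟩ := exists_L0_hom (smallF ε ⋙ Lam E) (fun m => contr_smallY hE hε m)
  let ψ : ∀ (m : Cu) (sg : X.toFunctor.obj (op m)), (smallF ε).obj m ⟶ X'.toFunctor :=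
    fun m sg =>
      { app := fun n => ↾fun a => ⟨Y.map (Quiver.Hom.op (X := n.unop) (Y := m) a.1) sg.1,
          h m sg.1 sg.2 n.unop a.1 a.2⟩
        naturality := fun _ _ u => by
          ext a
          refine Subtype.ext ?_
          exact Y.map_comp_apply (Quiver.Hom.op (Y := m) a.1) u sg.1 }
  obtain ⟨S, hS⟩ := lam_desc (E := E) (X := X.toFunctor) (Z := (Lam E).obj X'.toFunctor)
    (fun m sg => sd.app m ≫ (Lam E).map (ψ m sg)) (fun {m m'} a sg => by
      rw [sd.naturality_assoc]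
      congr 1
      change (Lam E).map ((smallF ε).map a) ≫ _ = _
      rw [← Functor.map_comp]
      congr 1
      ext n u
      refine Subtype.ext ?_
      exact Y.map_comp_apply a.op (Quiver.Hom.op (Y := m) u.1) sg.1)
  let f₀ : L0 E ⟶ yoneda ⋙ Lam E :=
    { app := fun m => ins (X := yoneda.obj m) (𝟙 m)
      naturality := fun m m' a => by
        change _ = _ ≫ (Lam E).map (yoneda.map a)
        rw [ins_nat, ins_map]
        exact congrArg ins ((Category.comp_id (f := a)).trans (Category.id_comp a).symm) }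
  let f₁ : L0 E ⟶ yoneda ⋙ Lam E :=
    { app := fun m => sd.app m ≫ (Lam E).map (smallY ε m).ι
      naturality := fun m m' a => by
        rw [sd.naturality_assoc, Category.assoc]
        congr 1
        change (Lam E).map ((smallF ε).map a) ≫ _ = _ ≫ (Lam E).map (yoneda.map a)
        rw [← Functor.map_comp, ← Functor.map_comp]
        rfl }
  obtain ⟨H0, hH0⟩ := exists_L0_htpy hE (G := yoneda ⋙ Lam E)
    (fun m => by
      have := isIso_ins_id (E := E) m
      exact (contr_L0 E m).of_iso (asIso (ins (E := E) (X := yoneda.obj m) (𝟙 m))))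
    (fun b => bif b then f₁ else f₀)
  obtain ⟨H, hH⟩ := lam_desc (E := E) (X := X.toFunctor) (Z := (PO hE).P.obj ((Lam E).obj Y))
    (fun m sg => H0.app m ≫ (PO hE).P.map ((Lam E).map (yoEl sg.1))) (fun {m m'} a sg => by
      rw [H0.naturality_assoc]
      congr 1
      change (PO hE).P.map ((Lam E).map (yoneda.map a)) ≫ _ = _
      rw [← Functor.map_comp, ← Functor.map_comp, yoneda_map_yoEl]
      rfl)
  refine ⟨S, H, lam_ext fun m sg => ?_, lam_ext fun m sg => ?_⟩
  · rw [← Category.assoc, hH, Category.assoc, p_nat, ← Category.assoc, ins_map]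
    refine (congrArg (· ≫ _) (hH0 false m)).trans ?_
    change ins (X := yoneda.obj m) (𝟙 m) ≫ _ = _
    rw [ins_map]
    exact congrArg ins (Y.map_id_apply _ sg.1)
  · rw [← Category.assoc, hH, Category.assoc, p_nat, ← Category.assoc, ← Category.assoc, hS]
    refine (congrArg (· ≫ _) (hH0 true m)).trans ?_
    change (sd.app m ≫ (Lam E).map (smallY ε m).ι) ≫ _ = _
    rw [Category.assoc, Category.assoc, ← Functor.map_comp, ← Functor.map_comp]
    rfl

theorem contr_LamC (hE : IsCoherator E) (T : Cov) [ContractibleSpace T.Y] :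
    Contr ((LamC E).obj T) := by
  obtain ⟨y₀, ⟨h⟩⟩ := id_nullhomotopic T.Y
  let Kl : ℕ → Subfunctor (SingC.obj T) := fun r =>
    { obj := fun m => {sg | ∀ (x : m.unop.pt) (t : I), ∃ b, ∀ (x' : m.unop.pt) (t' : I),
        dist x x' ≤ 1 / ((r : ℝ) + 1) → dist t t' ≤ 1 / ((r : ℝ) + 1) → h (t', sg.1 x') ∈ T.V b}
      map := fun a sg hs x t => (hs (CuHom.f a.unop x) t).imp fun _ hb x' t' h1 h2 =>
        hb _ t' ((CuHom.short a.unop x x').trans h1) h2 }
  have hmono : Monotone Kl := by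
    intro r r' hr m sg hs x t
    have : 1 / ((r' : ℝ) + 1) ≤ 1 / ((r : ℝ) + 1) := Nat.one_div_le_one_div hr
    exact (hs x t).imp fun _ hb x' t' h1 h2 => hb x' t' (h1.trans this) (h2.trans this)
  have hall : ∀ (m : Cu) (sg : (SingC.obj T).obj (op m)), ∃ r, sg ∈ (Kl r).obj (op m) := by
    intro m sg
    have hc : Continuous (fun p : I × m.pt => h (p.1, sg.1 p.2)) :=
      h.continuous.comp (continuous_fst.prodMk (sg.1.hom.continuous.comp continuous_snd))
    obtain ⟨δ, hδ, hb⟩ := lebesgue_number_lemma_of_metric (s := Set.univ)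
      (c := fun b => (fun p : I × m.pt => h (p.1, sg.1 p.2)) ⁻¹' T.V b) isCompact_univ
      (fun b => (T.isOpen b).preimage hc) (fun p _ => Set.mem_iUnion.2 (T.cover _))
    obtain ⟨r, hr⟩ := exists_nat_one_div_lt hδ
    refine ⟨r, fun x t => (hb (t, x) trivial).imp fun b hb x' t' h1 h2 => hb (a := (t', x')) ?_⟩
    rw [Metric.mem_ball', Prod.dist_eq]
    exact max_lt (h2.trans_lt hr) (h1.trans_lt hr)
  rw [contr_iff]
  intro k s
  obtain ⟨r, s', rfl⟩ := sphere_factor Kl hmono hall s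
  obtain ⟨ε, hε0⟩ : ∃ ε : ℝ, ε = 1 / ((r : ℝ) + 1) := ⟨_, rfl⟩
  have hε : 0 < ε := hε0 ▸ Nat.one_div_pos_of_nat
  let Ku : Subfunctor (SingC.obj T) :=
    { obj := fun m => {sg | ∀ t : I, ∃ b, ∀ (x : m.unop.pt) (t' : I),
        dist t t' ≤ ε → h (t', sg.1 x) ∈ T.V b}
      map := fun a sg hs t => (hs t).imp fun _ hb x t' h2 => hb _ t' h2 }
  obtain ⟨S, H', h0, h1⟩ := exists_subdiv hE hε (Kl r) Ku (fun m sg hs n a ha t =>
    (hs (CuHom.f a 0) t).imp fun _ hb x t' h2 => hb _ t' (hε0 ▸ ha 0 x) (hε0 ▸ h2))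
  obtain ⟨N, hN⟩ := exists_tj hε
  let α : ℕ → (Ku.toFunctor ⟶ SingC.obj T) := fun j =>
    { app := fun n => ↾fun sg => ⟨TopCat.ofHom ⟨fun x => h (tj ε j, sg.1.1 x),
        h.continuous.comp (continuous_const.prodMk sg.1.1.hom.continuous)⟩,
        (sg.2 (tj ε j)).imp fun _ hb x => hb x _ (by simpa using hε.le)⟩ }
  let H : ℕ → (Ku.toFunctor ⟶ cyC.op ⋙ SingC.obj T) := fun j =>
    { app := fun n => ↾fun sg => ⟨TopCat.ofHom ⟨fun (z : Fin (n.unop.n + 1) → I) =>
          h (cl ε j (z 0), sg.1.1 (Fin.tail z)),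
        h.continuous.comp (((continuous_cl ε j).comp (continuous_apply 0)).prodMk
          (sg.1.1.hom.continuous.comp (continuous_pi fun i => continuous_apply _)))⟩,
        (sg.2 (cl ε j 0)).imp fun _ hb z => hb _ _ (dist_cl_le hε j _ _)⟩ }
  have h2 := fill_of_chain hE N α H
    (fun j _ b n sg => Subtype.ext (TopCat.hom_ext (ContinuousMap.ext fun x =>
      congrArg (fun t => h (t, sg.1.1 x)) (cl_end hε j b))))
    ⟨TopCat.ofHom (ContinuousMap.const _ y₀), (T.cover y₀).imp fun _ hb _ => hb⟩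
    (fun n sg => Subtype.ext (TopCat.hom_ext (ContinuousMap.ext fun x => by
      change h (tj ε N, sg.1.1 x) = y₀
      rw [hN]
      exact h.apply_one _))) (s' ≫ S)
  have h3 : α 0 = Ku.ι := by
    ext n sg
    refine Subtype.ext (TopCat.hom_ext (ContinuousMap.ext fun x => ?_))
    change h (tj ε 0, sg.1.1 x) = sg.1.1 x
    rw [tj_zero]
    exact h.apply_zero _
  rw [h3, Category.assoc, ← h1, ← Category.assoc] at h2
  have h4 := fill_of_path hE _ true false h2
  rwa [Category.assoc, h0] at h4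

theorem exists_lift_emb {W Z Y : TopCat.{0}} {i : Z ⟶ Y} (hi : Topology.IsEmbedding i)
    (g : W ⟶ Y) (h : ∀ w, g w ∈ Set.range i) : ∃ g' : W ⟶ Z, g' ≫ i = g := by
  choose g' hg' using h
  refine ⟨TopCat.ofHom ⟨g', hi.continuous_iff.2 ?_⟩,
    TopCat.hom_ext (ContinuousMap.ext hg')⟩
  rw [show (i : Z → Y) ∘ g' = g from funext hg']
  exact g.hom.continuous

theorem cancel_inj {W Z Y : TopCat.{0}} {i : Z ⟶ Y} (hi : Function.Injective i) {g g' : W ⟶ Z}
    (h : g ≫ i = g' ≫ i) : g = g' :=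
  TopCat.hom_ext (ContinuousMap.ext fun w => hi (congrArg (fun t : W ⟶ Y => t w) h))

/-- The square of small singular cubes of a cover by two open sets. -/
theorem isPushout_SingC (T : Cov) {Z₀ Z₁ Z₂ : TopCat.{0}} (i₁ : Z₁ ⟶ T.Y) (i₂ : Z₂ ⟶ T.Y)
    (j₁ : Z₀ ⟶ Z₁) (j₂ : Z₀ ⟶ Z₂) (w : j₂ ≫ i₂ = j₁ ≫ i₁)
    (h₁ : Topology.IsEmbedding i₁) (h₂ : Topology.IsEmbedding i₂)
    (h₀ : Topology.IsEmbedding (j₁ ≫ i₁))
    (r₁ : Set.range i₁ = T.V false) (r₂ : Set.range i₂ = T.V true)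
    (r₀ : Set.range (j₁ ≫ i₁) = T.V false ∩ T.V true) :
    IsPushout
      (SingC.map (⟨j₁, fun _ => rfl⟩ : T.pull (j₁ ≫ i₁) ⟶ T.pull i₁))
      (SingC.map (⟨j₂, fun _ => by rw [← w]; rfl⟩ : T.pull (j₁ ≫ i₁) ⟶ T.pull i₂))
      (SingC.map (T.pullHom i₁)) (SingC.map (T.pullHom i₂)) := by
  refine IsPushout.of_forall_isPushout_app fun m => ?_
  have inj : ∀ {Z : TopCat.{0}} (i : Z ⟶ T.Y), Function.Injective i →
      Function.Injective ((SingC.map (T.pullHom i)).app m) := fun i hi x y e =>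
    Subtype.ext (cancel_inj hi (congrArg Subtype.val e))
  have : Mono ((SingC.map (T.pullHom i₁)).app m) :=
    (mono_iff_injective _).2 (inj i₁ h₁.injective)
  refine Types.isPushout_of_isPullback_of_mono' ?_ ?_ fun x y _ _ e => inj i₂ h₂.injective e
  · rw [Types.isPullback_iff]
    refine ⟨?_, fun x y e => ?_, fun x y e => ?_⟩
    · ext sg
      refine Subtype.ext ?_
      change (sg.1 ≫ j₁) ≫ i₁ = (sg.1 ≫ j₂) ≫ i₂
      rw [Category.assoc, Category.assoc, w]
    · have e1 : x.1 ≫ j₁ = y.1 ≫ j₁ := congrArg Subtype.val e.1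
      refine Subtype.ext (cancel_inj h₀.injective ?_)
      rw [← Category.assoc, e1, Category.assoc]
    · have e1 : x.1 ≫ i₁ = y.1 ≫ i₂ := congrArg Subtype.val e
      have e2 : ∀ z, (x.1 ≫ i₁) z ∈ T.V false ∩ T.V true := fun z =>
        ⟨r₁ ▸ ⟨x.1 z, rfl⟩, by rw [e1]; exact r₂ ▸ ⟨y.1 z, rfl⟩⟩
      obtain ⟨g, hg⟩ := exists_lift_emb h₀ (x.1 ≫ i₁) (r₀ ▸ e2)
      refine ⟨⟨g, false, fun z => ?_⟩, Subtype.ext (cancel_inj h₁.injective ?_),
        Subtype.ext (cancel_inj h₂.injective ?_)⟩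
      · change (g ≫ j₁ ≫ i₁) z ∈ T.V false
        rw [hg]
        exact (e2 z).1
      · exact (Category.assoc _ _ _).trans hg
      · change (g ≫ j₂) ≫ i₂ = y.1 ≫ i₂
        rw [Category.assoc, w, hg, e1]
  · refine Set.eq_univ_of_forall fun sg => ?_
    obtain ⟨b, hb⟩ := sg.2
    cases b
    · obtain ⟨g, hg⟩ := exists_lift_emb h₁ sg.1 (r₁ ▸ hb)
      refine Or.inl ⟨⟨g, false, fun z => ?_⟩, Subtype.ext hg⟩
      change (g ≫ i₁) z ∈ T.V false
      rw [hg]
      exact hb z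
    · obtain ⟨g, hg⟩ := exists_lift_emb h₂ sg.1 (r₂ ▸ hb)
      refine Or.inr ⟨⟨g, true, fun z => ?_⟩, Subtype.ext hg⟩
      change (g ≫ i₂) z ∈ T.V true
      rw [hg]
      exact hb z

theorem mono_SingC {T T' : Cov} (f : T ⟶ T') (h : Function.Injective f.1) :
    Mono (SingC.map f) := by
  have : ∀ m, Mono ((SingC.map f).app m) := fun m =>
    (mono_iff_injective _).2 fun x y e => Subtype.ext (cancel_inj h (congrArg Subtype.val e))
  exact NatTrans.mono_of_mono_app _

end Vale.Agent.P259
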