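import Vale.Agent.P259.Tower

/-! Functors on `Theta0` preserving globular sums. -/

open CategoryTheory Limits Opposite

set_option backward.isDefEq.respectTransparency false

noncomputable section

namespace Vale.Agent.P259

/-- The inclusion of globes in globular sums. -/
@[implicit_reducible] def gT : Glob ⥤ Theta0 where
  obj k := disc k.n
  map f := InducedCategory.homMk (yoneda.map f)
  map_id _ := InducedCategory.hom_ext (yoneda.map_id _)
  map_comp f g := InducedCategory.hom_ext (yoneda.map_comp f g)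

theorem gT_map_gface (b : Bool) {m n : ℕ} (h : m < n) : gT.map (gface b h) = fc b h := rfl

theorem gT_map_sf (b : Bool) (k : ℕ) : gT.map (sf b k) = fc b (Nat.lt_succ_self k) := rfl

theorem fc_comp (b b' : Bool) {l m n : ℕ} (h : l < m) (h' : m < n) :
    fc b h ≫ fc b' h' = fc b (h.trans h') := by
  rw [← gT_map_gface, ← gT_map_gface, ← gT_map_gface, ← gT.map_comp]; rfl

instance : gT.Full := by
  exact ⟨fun f => ⟨yoneda.preimage f.hom, InducedCategory.hom_ext (yoneda.map_preimage _)⟩⟩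

instance : gT.Faithful := by
  refine ⟨fun {X Y f g} h => yoneda.map_injective ?_⟩
  have := congrArg InducedCategory.Hom.hom h
  exact this

theorem lastD_base (k : ℕ) : lastD (.base k) = 𝟙 (disc k) := rfl

/-- The globular set of a globular sum; its cells are the maps from discs. -/
abbrev Rep : Theta0 ⥤ GS := Nrv gT

/-- The underlying presheaf. -/
abbrev realT : Theta0 ⥤ GS := inducedFunctor _

theorem rep_iso_real : Nonempty (Rep ≅ realT) := by
  refine ⟨NatIso.ofComponents (fun S => NatIso.ofComponents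
    (fun k => ((InducedCategory.homEquiv (X := disc k.unop.n) (Y := S)).trans
      (yonedaEquiv (X := k.unop) (F := S.2.real.1))).toIso) (fun f => ?_)) (fun f => ?_)⟩
  · ext a
    exact (yonedaEquiv_naturality a.hom f.unop).symm
  · ext k a
    exact yonedaEquiv_comp a.hom f.hom

theorem presSums_real : PresSums realT := fun _ _ _ _ _ _ => IsPushout.of_hasPushout _ _

theorem presSums_id : PresSums (𝟭 Theta0) := by
  intro l T j i h₁ h₂
  exact IsPushout.of_map_of_faithful realT (presSums_real l T j i h₁ h₂)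

theorem presSums_rep : PresSums Rep := by
  intro l T j i h₁ h₂
  obtain ⟨e⟩ := rep_iso_real
  exact (presSums_real l T j i h₁ h₂).of_iso (e.app _).symm (e.app _).symm (e.app _).symm
    (e.app _).symm (e.inv.naturality _) (e.inv.naturality _) (e.inv.naturality _)
    (e.inv.naturality _)

theorem PresSums.comp {𝒳 𝒴 : Type*} [Category 𝒳] [Category 𝒴] {F : Theta0 ⥤ 𝒳}
    (h : PresSums F) (H : 𝒳 ⥤ 𝒴) [PreservesColimitsOfShape WalkingSpan H] :
    PresSums (F ⋙ H) := fun l T j i h₁ h₂ => (h l T j i h₁ h₂).map H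

theorem PresSums.of_iso {𝒳 : Type*} [Category 𝒳] {F F' : Theta0 ⥤ 𝒳} (e : F ≅ F')
    (h : PresSums F) : PresSums F' := by
  intro l T j i h₁ h₂
  exact (h l T j i h₁ h₂).of_iso (e.app _) (e.app _) (e.app _)
    (e.app _) (e.hom.naturality _) (e.hom.naturality _) (e.hom.naturality _)
    (e.hom.naturality _)

/-- A cell of a sum comes from the initial part or from the last disc. -/
theorem cell_cases {l : ℕ} (T : Tbl l) (j i : ℕ) (h₁ : j < l) (h₂ : j < i) {k : ℕ}
    (a : disc k ⟶ tb (T.snoc j i h₁ h₂)) :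
    (∃ a', a' ≫ initD T j i h₁ h₂ = a) ∨ ∃ a', a' ≫ lastD (T.snoc j i h₁ h₂) = a := by
  exact Types.eq_or_eq_of_isPushout
    ((presSums_rep l T j i h₁ h₂).map ((evaluation _ _).obj (op (Glob.mk k)))) a

theorem disc_hom_cases {k n : ℕ} (a : disc k ⟶ disc n) :
    (∃ e : k = n, a = eqToHom (congrArg disc e)) ∨ ∃ b, ∃ h : k < n, a = fc b h := by
  obtain ⟨f, rfl⟩ := gT.map_surjective (X := Glob.mk (k)) (Y := Glob.mk (n)) a
  change GHom k n at f
  cases f with
  | id => exact Or.inl ⟨rfl, gT.map_id _⟩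
  | face b h => exact Or.inr ⟨b, h, rfl⟩

theorem finite_disc_hom (k n : ℕ) : Finite (disc k ⟶ disc n) := by
  by_cases h : k < n
  · refine Finite.of_surjective (fun b : Bool => fc b h) fun a => ?_
    rcases disc_hom_cases a with ⟨e, -⟩ | ⟨b, h', rfl⟩
    · omega
    · exact ⟨b, rfl⟩
  · suffices Subsingleton (disc k ⟶ disc n) from Finite.of_subsingleton
    refine ⟨fun a a' => ?_⟩
    rcases disc_hom_cases a with ⟨e, rfl⟩ | ⟨b, h', -⟩
    · rcases disc_hom_cases a' with ⟨e', rfl⟩ | ⟨b, h', -⟩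
      · rfl
      · exact absurd h' h
    · exact absurd h' h

instance finite_cells (k : ℕ) (S : Theta0) : Finite (disc k ⟶ S) := by
  obtain ⟨l, T⟩ := S
  induction T with
  | base i => exact finite_disc_hom k i
  | snoc T j i h₁ h₂ ih =>
    have := finite_disc_hom k i
    have : Finite (disc k ⟶ tb T) := ih
    refine Finite.of_surjective (fun p : (disc k ⟶ tb T) ⊕ (disc k ⟶ disc i) =>
      (p.elim (fun a => a ≫ initD T j i h₁ h₂) (fun a => a ≫ lastD (T.snoc j i h₁ h₂)) :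
        disc k ⟶ tb (T.snoc j i h₁ h₂))) fun a => ?_
    rcases cell_cases T j i h₁ h₂ a with ⟨a', rfl⟩ | ⟨a', rfl⟩
    · exact ⟨Sum.inl a', rfl⟩
    · exact ⟨Sum.inr a', rfl⟩

theorem le_dim_of_cell {k : ℕ} {S : Theta0} (a : disc k ⟶ S) : k ≤ S.2.dim := by
  have hd : ∀ i, (disc k ⟶ disc i) → k ≤ i := fun i a => by
    rcases disc_hom_cases a with ⟨e, -⟩ | ⟨b, h', -⟩
    · exact e.le
    · exact h'.le
  obtain ⟨l, T⟩ := S
  induction T with
  | base i => exact hd i a
  | snoc T j i h₁ h₂ ih =>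
    rcases cell_cases T j i h₁ h₂ a with ⟨a', -⟩ | ⟨a', -⟩
    · exact (ih a').trans (le_max_left _ _)
    · exact (hd i a').trans (le_max_right _ _)

theorem nonempty_cell_zero (S : Theta0) : Nonempty (disc 0 ⟶ S) := by
  obtain ⟨l, T⟩ := S
  rcases Nat.eq_zero_or_pos l with rfl | h
  · exact ⟨lastD T⟩
  · exact ⟨fc false h ≫ lastD T⟩

section
variable {𝒳 : Type*} [Category 𝒳] {F : Theta0 ⥤ 𝒳}

theorem PresSums.hom_ext (hF : PresSums F) {S : Theta0} {X : 𝒳} {φ ψ : F.obj S ⟶ X}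
    (h : ∀ k (a : disc k ⟶ S), F.map a ≫ φ = F.map a ≫ ψ) : φ = ψ := by
  obtain ⟨l, T⟩ := S
  induction T with
  | base i => simpa using h i (𝟙 (disc i))
  | snoc T j i h₁ h₂ ih =>
    refine (hF _ T j i h₁ h₂).hom_ext (ih fun k a => ?_) (h i _)
    have := h k (a ≫ initD T j i h₁ h₂)
    rwa [F.map_comp, Category.assoc, Category.assoc] at this

theorem PresSums.exists_desc (hF : PresSums F) {S : Theta0} {X : 𝒳}
    (c : ∀ k, (disc k ⟶ S) → (F.obj (disc k) ⟶ X))
    (hc : ∀ b k (a : disc (k + 1) ⟶ S),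
      c k (fc b (Nat.lt_succ_self k) ≫ a) = F.map (fc b (Nat.lt_succ_self k)) ≫ c (k + 1) a) :
    ∃ φ : F.obj S ⟶ X, ∀ k (a : disc k ⟶ S), F.map a ≫ φ = c k a := by
  have gen : ∀ {S : Theta0} (c : ∀ k, (disc k ⟶ S) → (F.obj (disc k) ⟶ X)),
      (∀ b k (a : disc (k + 1) ⟶ S),
        c k (fc b (Nat.lt_succ_self k) ≫ a) = F.map (fc b (Nat.lt_succ_self k)) ≫ c (k + 1) a) →
      ∀ {m n : ℕ} (f : disc m ⟶ disc n) (a : disc n ⟶ S), c m (f ≫ a) = F.map f ≫ c n a := by
    intro S c hc m n f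
    obtain ⟨f, rfl⟩ := gT.map_surjective (X := Glob.mk (m)) (Y := Glob.mk (n)) f
    refine Glob.hom_induction (fun {m n} f => ∀ a : disc n ⟶ S,
      c m (gT.map f ≫ a) = F.map (gT.map f) ≫ c n a) ?_ ?_ f
    · intro n a
      rw [gT.map_id, F.map_id, Category.id_comp]
      exact congrArg (c n) (Category.id_comp a)
    · intro m n f b ih a
      rw [gT.map_comp, F.map_comp, Category.assoc, Category.assoc, ih, gT_map_sf, hc]
  obtain ⟨l, T⟩ := S
  induction T with
  | base i =>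
    refine ⟨c i (𝟙 (disc i)), fun k a => ?_⟩
    rw [← gen c hc a, Category.comp_id]
  | snoc T j i h₁ h₂ ih =>
    obtain ⟨φ, hφ⟩ := ih (fun k a => c k (a ≫ initD T j i h₁ h₂)) fun b k a => by
      rw [Category.assoc, hc]
    have w : F.map (fc true h₁ ≫ lastD T) ≫ φ =
        F.map (fc false h₂) ≫ c i (lastD (T.snoc j i h₁ h₂)) := by
      rw [hφ, ← gen c hc]
      exact congrArg (c j) (presSums_id _ T j i h₁ h₂).w
    refine ⟨(hF _ T j i h₁ h₂).desc _ _ w, fun k a => ?_⟩
    rcases cell_cases T j i h₁ h₂ a with ⟨a', rfl⟩ | ⟨a', rfl⟩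
    · rw [F.map_comp, Category.assoc, IsPushout.inl_desc, hφ]
    · rw [F.map_comp, Category.assoc, IsPushout.inr_desc, gen c hc]

/-- A map of coglobular objects extends to globular sums. -/
theorem PresSums.exists_natTrans (hF : PresSums F) {F' : Theta0 ⥤ 𝒳} (φ : gT ⋙ F ⟶ gT ⋙ F') :
    ∃ ψ : F ⟶ F', ∀ k, ψ.app (disc k) = φ.app ⟨k⟩ := by
  choose ψ hψ using fun S : Theta0 => hF.exists_desc (S := S) (X := F'.obj S)
    (fun k a => φ.app ⟨k⟩ ≫ F'.map a) fun b k a => by
      have := φ.naturality (sf b k)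
      change F.map (fc b (Nat.lt_succ_self k)) ≫ φ.app ⟨k + 1⟩ =
        φ.app ⟨k⟩ ≫ F'.map (fc b (Nat.lt_succ_self k)) at this
      rw [reassoc_of% this, F'.map_comp]
  refine ⟨⟨ψ, fun S S' f => hF.hom_ext fun k a => ?_⟩, fun k => ?_⟩
  · rw [← F.map_comp_assoc, hψ, reassoc_of% hψ S k a, F'.map_comp]
  · have := hψ (disc k) k (𝟙 _)
    rw [F.map_id, Category.id_comp] at this
    exact this.trans ((congrArg (φ.app ⟨k⟩ ≫ ·) (F'.map_id _)).trans (Category.comp_id _))

end

section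
variable {𝒳 : Type*} [Category.{0} 𝒳] {F : Theta0 ⥤ 𝒳}

/-- The globular map attached to a map out of `F S`. -/
def toNrv (F : Theta0 ⥤ 𝒳) {S : Theta0} {X : 𝒳} (φ : F.obj S ⟶ X) :
    Rep.obj S ⟶ (Nrv (gT ⋙ F)).obj X where
  app k := ↾(fun a : disc k.unop.n ⟶ S => F.map a ≫ φ)
  naturality := by
    intro k k' f
    ext a
    change F.map (gT.map f.unop ≫ a) ≫ φ = F.map (gT.map f.unop) ≫ F.map a ≫ φ
    simp

theorem ap_toNrv {S : Theta0} {X : 𝒳} (φ : F.obj S ⟶ X) {k : ℕ} (a : disc k ⟶ S) :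
    ap (toNrv F φ) a = F.map a ≫ φ := rfl

theorem toNrv_comp {S : Theta0} {X Y : 𝒳} (φ : F.obj S ⟶ X) (f : X ⟶ Y) :
    toNrv F (φ ≫ f) = toNrv F φ ≫ (Nrv (gT ⋙ F)).map f :=
  gs_ext fun _ _ => (Category.assoc _ _ _).symm

theorem toNrv_left {S S' : Theta0} {X : 𝒳} (a : S' ⟶ S) (φ : F.obj S ⟶ X) :
    toNrv F (F.map a ≫ φ) = Rep.map a ≫ toNrv F φ :=
  gs_ext fun _ x => by
    change F.map x ≫ F.map a ≫ φ = F.map (x ≫ a) ≫ φ
    simp

theorem PresSums.toNrv_bijective (hF : PresSums F) (S : Theta0) (X : 𝒳) :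
    Function.Bijective (toNrv F (S := S) (X := X)) := by
  refine ⟨fun φ ψ h => hF.hom_ext fun k a => ?_, fun t => ?_⟩
  · exact congrArg (fun t : Rep.obj S ⟶ (Nrv (gT ⋙ F)).obj X => ap t (k := k) a) h
  · obtain ⟨φ, hφ⟩ := hF.exists_desc (S := S) (X := X) (fun k a => ap t (k := k) a)
      fun b k a => (fa_ap t b (k := k) a).symm
    exact ⟨φ, gs_ext fun k a => hφ k a⟩

end

/-- Evaluation at the top cell. -/
def topCell {Y : GS} {k : ℕ} (φ : Rep.obj (disc k) ⟶ Y) : Ce Y k := ap φ (𝟙 (disc k))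

theorem ap_gT_comp {S : Theta0} {Y : GS} (φ : Rep.obj S ⟶ Y) {m n : ℕ}
    (f : Glob.mk m ⟶ Glob.mk n) (a : disc n ⟶ S) :
    ap φ (k := m) (gT.map f ≫ a) = Y.map f.op (ap φ (k := n) a) :=
  NatTrans.naturality_apply φ f.op a

theorem topCell_bijective (Y : GS) (k : ℕ) : Function.Bijective (topCell (Y := Y) (k := k)) := by
  refine ⟨fun φ ψ h => gs_ext fun j a => ?_, fun y => ?_⟩
  · obtain ⟨f, rfl⟩ := gT.map_surjective (X := Glob.mk (j)) (Y := Glob.mk (k)) a
    rw [← Category.comp_id (gT.map f)]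
    exact (ap_gT_comp φ f _).trans ((congrArg (Y.map f.op) h).trans (ap_gT_comp ψ f _).symm)
  · refine ⟨gsMk (fun j a => Y.map (gT.preimage (X := Glob.mk (j)) (Y := Glob.mk (k)) a).op y) fun b j a => ?_, ?_⟩
    · obtain ⟨f, rfl⟩ := gT.map_surjective (X := Glob.mk (j + 1)) (Y := Glob.mk (k)) a
      rw [fa_nrv, ← gT.map_comp, gT.preimage_map, gT.preimage_map, op_comp,
        Functor.map_comp_apply]
      rfl
    · change Y.map (gT.preimage (X := Glob.mk (k)) (Y := Glob.mk (k)) (𝟙 (gT.obj ⟨k⟩))).op y = y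
      rw [Functor.preimage_id, op_id, Functor.map_id_apply]

theorem topCell_comp {Y Z : GS} {k : ℕ} (φ : Rep.obj (disc k) ⟶ Y) (f : Y ⟶ Z) :
    topCell (φ ≫ f) = ap f (topCell φ) := rfl

theorem topCell_map {S : Theta0} {Y : GS} {k : ℕ} (a : disc k ⟶ S) (φ : Rep.obj S ⟶ Y) :
    topCell (Rep.map a ≫ φ) = ap φ a := congrArg (ap φ) (Category.id_comp a)

theorem topCell_fc {Y : GS} {k : ℕ} (b : Bool) (φ : Rep.obj (disc (k + 1)) ⟶ Y) :
    topCell (Rep.map (fc b (Nat.lt_succ_self k)) ≫ φ) = fa Y b (topCell φ) := by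
  rw [topCell_map, topCell, fa_ap]
  exact congrArg (ap φ) (Category.comp_id _).symm

section Ext
variable {𝒳 : Type*} [Category.{0} 𝒳] [HasPushouts 𝒳] (G : Glob ⥤ 𝒳)

/-- The iterated pushout of a table in a coglobular object. -/
def extObj : {l : ℕ} → Tbl l → Σ X : 𝒳, (G.obj ⟨l⟩ ⟶ X)
  | _, .base i => ⟨G.obj ⟨i⟩, 𝟙 _⟩
  | _, .snoc T _ _ h₁ h₂ =>
      ⟨pushout (G.map (gface true h₁) ≫ (extObj T).2) (G.map (gface false h₂)), pushout.inr _ _⟩

/-- Extension of a coglobular object to globular sums. -/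
structure ExtData where
  map : ∀ {S S' : Theta0}, (S ⟶ S') → ((extObj G S.2).1 ⟶ (extObj G S'.2).1)
  map_id : ∀ S, map (𝟙 S) = 𝟙 _
  map_comp : ∀ {S S' S'' : Theta0} (f : S ⟶ S') (g : S' ⟶ S''), map (f ≫ g) = map f ≫ map g
  map_gT : ∀ {m n : Glob} (f : m ⟶ n), map (gT.map f) = G.map f
  map_lastD : ∀ {l : ℕ} (T : Tbl l), map (lastD T) = (extObj G T).2
  map_initD : ∀ {l : ℕ} (T : Tbl l) (j i : ℕ) (h₁ : j < l) (h₂ : j < i),
    map (initD T j i h₁ h₂) = pushout.inl _ _

/-- The globular map with a given top cell. -/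
def ofCell {Y : GS} {k : ℕ} (y : Ce Y k) : Rep.obj (disc k) ⟶ Y :=
  ((topCell_bijective Y k).2 y).choose

theorem topCell_ofCell {Y : GS} {k : ℕ} (y : Ce Y k) : topCell (ofCell y) = y :=
  ((topCell_bijective Y k).2 y).choose_spec

theorem ap_ofCell {Y : GS} {m k : ℕ} (y : Ce Y k) (f : Glob.mk m ⟶ Glob.mk k) :
    ap (ofCell y) (k := m) (gT.map f) = Y.map f.op y := by
  rw [← Category.comp_id (gT.map f)]
  exact (ap_gT_comp _ f _).trans (congrArg (Y.map f.op) (topCell_ofCell y))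

theorem extCan_w {l : ℕ} (T : Tbl l) (j i : ℕ) (h₁ : j < l) (h₂ : j < i)
    (c : Rep.obj (tb T) ⟶ (Nrv G).obj (extObj G T).1)
    (hc : ap c (k := l) (lastD T) = (extObj G T).2) :
    Rep.map (fc true h₁ ≫ lastD T) ≫ c ≫ (Nrv G).map
      (pushout.inl (G.map (gface true h₁) ≫ (extObj G T).2) (G.map (gface false h₂))) =
    Rep.map (fc false h₂) ≫ ofCell (Y := (Nrv G).obj _) (k := i)
      (pushout.inr (G.map (gface true h₁) ≫ (extObj G T).2) (G.map (gface false h₂))) := by
  apply (topCell_bijective _ _).1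
  rw [topCell_map, topCell_map, ← gT_map_gface, ← gT_map_gface, ap_ofCell, ap_comp, ap_gT_comp,
    hc]
  exact pushout.condition

/-- The canonical globular map from a globular sum to the nerve of its iterated pushout. -/
def extCan : {l : ℕ} → (T : Tbl l) → {c : Rep.obj (tb T) ⟶ (Nrv G).obj (extObj G T).1 //
    ap c (k := l) (lastD T) = (extObj G T).2}
  | _, .base i => ⟨ofCell (Y := (Nrv G).obj (G.obj ⟨i⟩)) (k := i) (𝟙 (G.obj ⟨i⟩)),
      topCell_ofCell _⟩
  | _, .snoc T j i h₁ h₂ =>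
      ⟨(presSums_rep _ T j i h₁ h₂).desc _ _ (extCan_w G T j i h₁ h₂ (extCan T).1 (extCan T).2),
        by
          rw [← topCell_map, IsPushout.inr_desc, topCell_ofCell]
          rfl⟩

theorem extCan_init {l : ℕ} (T : Tbl l) (j i : ℕ) (h₁ : j < l) (h₂ : j < i) :
    Rep.map (initD T j i h₁ h₂) ≫ (extCan G (T.snoc j i h₁ h₂)).1 =
      (extCan G T).1 ≫ (Nrv G).map
        (pushout.inl (G.map (gface true h₁) ≫ (extObj G T).2) (G.map (gface false h₂))) :=
  (presSums_rep _ T j i h₁ h₂).inl_desc _ _ _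

theorem extCan_bijective {l : ℕ} (T : Tbl l) (X : 𝒳) : Function.Bijective
    (fun φ : (extObj G T).1 ⟶ X => (extCan G T).1 ≫ (Nrv G).map φ) := by
  have last : ∀ {l : ℕ} (T : Tbl l) (φ : (extObj G T).1 ⟶ X),
      ap ((extCan G T).1 ≫ (Nrv G).map φ) (k := l) (lastD T) = (extObj G T).2 ≫ φ :=
    fun T φ => by rw [ap_comp, (extCan G T).2]; rfl
  induction T with
  | base i =>
    refine ⟨fun φ ψ h => ?_, fun t => ⟨topCell t, (topCell_bijective _ _).1 ?_⟩⟩
    · have h1 := last (.base i) φ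
      have h2 := last (.base i) ψ
      beta_reduce at h
      rw [h, h2] at h1
      exact (Category.id_comp φ).symm.trans (h1.symm.trans (Category.id_comp ψ))
    · exact (last (.base i) _).trans (Category.id_comp _)
  | snoc T j i h₁ h₂ ih =>
    refine ⟨fun φ ψ h => pushout.hom_ext (ih.1 ?_) ?_, fun t => ?_⟩
    · beta_reduce at h ⊢
      rw [Functor.map_comp, Functor.map_comp, ← reassoc_of% extCan_init G T j i h₁ h₂,
        ← reassoc_of% extCan_init G T j i h₁ h₂, h]
    · have h1 := last (T.snoc j i h₁ h₂) φ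
      have h2 := last (T.snoc j i h₁ h₂) ψ
      beta_reduce at h
      rw [h, h2] at h1
      exact h1.symm
    · obtain ⟨φ, hφ⟩ := ih.2 (Rep.map (initD T j i h₁ h₂) ≫ t)
      beta_reduce at hφ
      have w : (G.map (gface true h₁) ≫ (extObj G T).2) ≫ φ =
          G.map (gface false h₂) ≫ ap t (k := i) (lastD (T.snoc j i h₁ h₂)) := by
        rw [Category.assoc, ← last T φ, hφ]
        have e1 := ap_gT_comp (Rep.map (initD T j i h₁ h₂) ≫ t) (gface true h₁) (lastD T)
        have e2 := ap_gT_comp t (gface false h₂) (lastD (T.snoc j i h₁ h₂))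
        refine e1.symm.trans (Eq.trans ?_ e2)
        exact congrArg (ap t (k := j)) (presSums_id _ T j i h₁ h₂).w
      refine ⟨pushout.desc _ _ w, (presSums_rep _ T j i h₁ h₂).hom_ext ?_ ?_⟩
      · beta_reduce
        rw [reassoc_of% extCan_init G T j i h₁ h₂, ← Functor.map_comp, pushout.inl_desc, hφ]
      · apply (topCell_bijective _ _).1
        beta_reduce
        rw [topCell_map, topCell_map, last]
        exact pushout.inr_desc _ _ _

theorem ExtData.nonempty : Nonempty (ExtData G) := by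
  choose m hm using fun (S S' : Theta0) (a : S ⟶ S') =>
    (extCan_bijective G S.2 (extObj G S'.2).1).2 (Rep.map a ≫ (extCan G S'.2).1)
  have uniq : ∀ (S S' : Theta0) (a : S ⟶ S') (φ : (extObj G S.2).1 ⟶ (extObj G S'.2).1),
      (extCan G S.2).1 ≫ (Nrv G).map φ = Rep.map a ≫ (extCan G S'.2).1 → m S S' a = φ :=
    fun S S' a φ h => (extCan_bijective G S.2 _).1 ((hm S S' a).trans h.symm)
  refine ⟨⟨fun {S S'} a => m S S' a, fun S => uniq _ _ _ _ ?_, fun {S S' S''} f g => uniq _ _ _ _ ?_,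
    fun {m n} f => uniq _ _ _ _ ?_, fun T => uniq _ _ _ _ ?_,
    fun T j i h₁ h₂ => uniq _ _ _ _ (extCan_init G T j i h₁ h₂).symm⟩⟩
  · rw [CategoryTheory.Functor.map_id, CategoryTheory.Functor.map_id, Category.comp_id,
      Category.id_comp]
  · have h1 := hm S S' f
    have h2 := hm S' S'' g
    beta_reduce at h1 h2
    rw [Functor.map_comp, Functor.map_comp, reassoc_of% h1, h2, Category.assoc]
  · apply (topCell_bijective _ _).1
    rw [topCell_map, topCell_comp]
    exact ((congrArg (ap ((Nrv G).map (G.map f))) (topCell_ofCell _)).trans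
      ((Category.id_comp _).trans (Category.comp_id _).symm)).trans
        (ap_ofCell (Y := (Nrv G).obj (G.obj n)) (k := n.n) (𝟙 (G.obj n)) f).symm
  · apply (topCell_bijective _ _).1
    rw [topCell_map, topCell_comp]
    exact ((congrArg (ap ((Nrv G).map (extObj G T).2)) (topCell_ofCell _)).trans
      (Category.id_comp _)).trans (extCan G T).2.symm

/-- Extension of a coglobular object to globular sums. -/
@[implicit_reducible] def Ext : Theta0 ⥤ 𝒳 where
  obj S := (extObj G S.2).1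
  map f := (ExtData.nonempty G).some.map f
  map_id := (ExtData.nonempty G).some.map_id
  map_comp := (ExtData.nonempty G).some.map_comp

theorem Ext_obj_disc (k : ℕ) : (Ext G).obj (disc k) = G.obj ⟨k⟩ := rfl

theorem Ext_map_gT {m n : Glob} (f : m ⟶ n) : (Ext G).map (gT.map f) = G.map f :=
  (ExtData.nonempty G).some.map_gT f

theorem Ext_map_fc (b : Bool) {m n : ℕ} (h : m < n) : (Ext G).map (fc b h) = G.map (gface b h) :=
  Ext_map_gT G (gface b h)

theorem gT_Ext : gT ⋙ Ext G = G :=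
  Functor.hext (fun _ => rfl) (fun _ _ f => heq_of_eq (Ext_map_gT G f))

theorem presSums_Ext : PresSums (Ext G) := by
  intro l T j i h₁ h₂
  have h1 : (Ext G).map (fc true h₁ ≫ lastD T) = G.map (gface true h₁) ≫ (extObj G T).2 := by
    rw [Functor.map_comp, Ext_map_fc]
    exact congrArg _ ((ExtData.nonempty G).some.map_lastD T)
  have h3 : (Ext G).map (initD T j i h₁ h₂) = pushout.inl _ _ :=
    (ExtData.nonempty G).some.map_initD T j i h₁ h₂
  have h4 : (Ext G).map (lastD (T.snoc j i h₁ h₂)) = pushout.inr _ _ :=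
    (ExtData.nonempty G).some.map_lastD (T.snoc j i h₁ h₂)
  rw [h1, h3, h4, Ext_map_fc]
  exact IsPushout.of_hasPushout _ _

end Ext

end Vale.Agent.P259
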