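import Vale.Agent.P259.Small
import Vale.Agent.P259.PiT

/-! Auxiliary lemmas for the comparison of small singular cubes with the fundamental
infinity-groupoid. -/

open CategoryTheory Limits Opposite unitInterval

set_option backward.isDefEq.respectTransparency false

noncomputable section

namespace Vale.Agent.P259.ThetaAux

theorem ra {C : Type*} [Category C] {X Y Z : C} {f : X ⟶ Y} {g : Y ⟶ Z} {k : X ⟶ Z}
    (h : f ≫ g = k) {W : C} (r : Z ⟶ W) : f ≫ g ≫ r = k ≫ r := by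
  rw [← Category.assoc, h]

section pb
variable {P X Y Z : GS} {fst : P ⟶ X} {snd : P ⟶ Y} {f : X ⟶ Z} {g : Y ⟶ Z}

theorem pb_ext (h : IsPullback fst snd f g) {k : ℕ} {x x' : Ce P k} (h₁ : ap fst x = ap fst x')
    (h₂ : ap snd x = ap snd x') : x = x' :=
  Types.ext_of_isPullback (h.map ((evaluation _ _).obj (op (Glob.mk k)))) h₁ h₂

theorem pb_exists (h : IsPullback fst snd f g) {k : ℕ} (x : Ce X k) (y : Ce Y k)
    (e : ap f x = ap g y) : ∃ z, ap fst z = x ∧ ap snd z = y :=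
  Types.exists_of_isPullback (h.map ((evaluation _ _).obj (op (Glob.mk k)))) x y e

theorem pb_sph_ext (h : IsPullback fst snd f g) : ∀ {k : ℕ} {s s' : Sph P k},
    smap fst s = smap fst s' → smap snd s = smap snd s' → s = s'
  | 0, _, _, _, _ => rfl
  | _ + 1, _, _, h₁, h₂ => Subtype.ext (Prod.ext
      (pb_ext h (congrArg (fun t => t.1.1) h₁) (congrArg (fun t => t.1.1) h₂))
      (pb_ext h (congrArg (fun t => t.1.2) h₁) (congrArg (fun t => t.1.2) h₂)))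

theorem pb_glift (h : IsPullback fst snd f g) {k : ℕ} (hg : GLift g k) : GLift fst k := by
  intro s x hx
  obtain ⟨y, hy, hy'⟩ := hg (smap snd s) (ap f x) (by
    rw [bd_ap, hx, ← smap_comp, ← smap_comp, h.w])
  obtain ⟨z, h₁, h₂⟩ := pb_exists h x y hy'.symm
  exact ⟨z, pb_sph_ext h (by rw [← bd_ap, h₁, hx]) (by rw [← bd_ap, h₂, hy]), h₁⟩

end pb

variable {E : GlobExt}

/-- The end points of the path object. -/
def pp (hE : Coh E) (b : Bool) (X : A E ⊤) : (PO hE).P.obj X ⟶ X := ((PO hE).p b).app X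

theorem pp_nat (hE : Coh E) (b : Bool) {X Y : A E ⊤} (f : X ⟶ Y) :
    (PO hE).P.map f ≫ pp hE b Y = pp hE b X ≫ f := ((PO hE).p b).naturality f

theorem glift_pp (hE : Coh E) (b : Bool) (X : A E ⊤) (k : ℕ) :
    GLift ((U E ⊤).map (pp hE b X)) k := glift_p hE b X k

theorem po_fill (hE : Coh E) {Z : A E ⊤} (hZ : Contr Z) {k : ℕ}
    (s : Sph ((U E ⊤).obj ((PO hE).P.obj Z)) k) (x y : Ce ((U E ⊤).obj Z) k)
    (hx : bd _ x = smap ((U E ⊤).map (pp hE false Z)) s)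
    (hy : bd _ y = smap ((U E ⊤).map (pp hE true Z)) s) :
    ∃ c : Ce ((U E ⊤).obj ((PO hE).P.obj Z)) k, bd _ c = s ∧
      ap ((U E ⊤).map (pp hE false Z)) c = x ∧ ap ((U E ⊤).map (pp hE true Z)) c = y := by
  obtain ⟨s, rfl⟩ := ((ST E ⊤).sph_bijective _ k).2 s
  rw [← Tower.sph_comp, Tower.bd_eq_iff] at hx hy
  have : HasLiftingProperty (ii E ⊤ k) (prod.lift (pp hE false Z) (pp hE true Z)) :=
    (PO hE).tf Z hZ k (Nat.zero_le k)
  have sq : CommSq s (ii E ⊤ k) (prod.lift (pp hE false Z) (pp hE true Z)) (prod.lift x y) :=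
    ⟨prod.hom_ext (by simpa using hx.symm) (by simpa using hy.symm)⟩
  refine ⟨sq.lift, ((ST E ⊤).bd_eq_iff _ _).2 sq.fac_left, ?_, ?_⟩
  · have := sq.fac_right =≫ prod.fst
    rwa [Category.assoc, prod.lift_fst, prod.lift_fst] at this
  · have := sq.fac_right =≫ prod.snd
    rwa [Category.assoc, prod.lift_snd, prod.lift_snd] at this

/-- Covers of a fixed space. -/
structure CovOn (Y : TopCat.{0}) where
  V : Bool → Set Y
  isOpen : ∀ b, IsOpen (V b)
  cover : ∀ y, ∃ b, y ∈ V b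

/-- The covered space. -/
@[implicit_reducible] def CovOn.cov {Y : TopCat.{0}} (c : CovOn Y) : Cov :=
  ⟨Y, c.V, c.isOpen, c.cover⟩

/-- The universal element. -/
def xi (hE : Coh E) (S : Theta0) :
    (D0 E ⊤).obj S ⟶ (PiT hE).obj ((Ext discG).obj S) :=
  (piEquiv hE ((io E).obj S) _).symm (𝟙 _)

theorem rep_cov (hE : Coh E) (S : Theta0) (T : Cov)
    (x : (D0 E ⊤).obj S ⟶ (PiT hE).obj T.Y) :
    ∃! p : Σ j : CovOn ((Ext discG).obj S), (j.cov ⟶ T), xi hE S ≫ (PiT hE).map p.2.1 = x := by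
  have key : ∀ u : (Ext discG).obj S ⟶ T.Y,
      piEquiv hE ((io E).obj S) _ (xi hE S ≫ (PiT hE).map u) = u := fun u => by
    rw [piEquiv_right, xi, Equiv.apply_symm_apply]
    exact Category.id_comp _
  obtain ⟨u, rfl⟩ : ∃ u : (Ext discG).obj S ⟶ T.Y, xi hE S ≫ (PiT hE).map u = x :=
    ⟨piEquiv hE ((io E).obj S) _ x, (piEquiv hE ((io E).obj S) _).injective (key _)⟩
  refine ⟨⟨⟨(T.pull u).V, (T.pull u).isOpen, (T.pull u).cover⟩, T.pullHom u⟩, rfl, ?_⟩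
  rintro ⟨⟨V, h₁, h₂⟩, u', hu'⟩ h
  have e : u' = u := by rw [← key u, ← h, key]
  have e' : V = (T.pull u).V := funext fun b => (hu' b).trans (by rw [e]; rfl)
  clear h
  subst e'
  exact congrArg (Sigma.mk _) (Subtype.ext e)

theorem contr_cov (hE : Coh E) (S : Theta0) (j : CovOn ((Ext discG).obj S)) :
    Contr ((LamC E).obj j.cov) :=
  have : ContractibleSpace j.cov.Y := contractible_Ext S
  contr_LamC hE _

/-- A natural globular section up to homotopy. -/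
theorem exists_kappa (hE : Coh E) (θ : LamC E ⟶ Cov.fg ⋙ PiT hE) :
    ∃ κ : (Cov.fg ⋙ PiT hE) ⋙ U E ⊤ ⟶ LamC E ⋙ U E ⊤,
      ∀ T, GW (κ.app T ≫ (U E ⊤).map (θ.app T)) := by
  obtain ⟨κ, -⟩ := nat_gl ((Cov.fg ⋙ PiT hE) ⋙ U E ⊤) (LamC E ⋙ U E ⊤) (fun _ _ _ _ => True)
    (fun _ _ _ _ _ => trivial) (fun k => CovOn ((Ext discG).obj (disc k))) (fun _ j => j.cov)
    (fun k _ => xi hE (disc k)) (fun k T x => rep_cov hE (disc k) T x)
    (fun j => by
      obtain ⟨z, -⟩ := contr_cov hE _ j 0 PUnit.unit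
      exact ⟨z, trivial⟩)
    (fun k j z₀ z₁ hp _ _ => by
      obtain ⟨z, h₀, h₁⟩ := GContr.rel (contr_cov hE _ j) hp
      exact ⟨z, h₀, h₁, trivial⟩)
  refine ⟨κ, fun T => ?_⟩
  have hc : ∀ k, Contr ((PiT hE).obj ((Ext discG).obj (disc k))) := fun k =>
    have := contractible_Ext (disc k)
    contr_PiT hE _
  obtain ⟨H, hH⟩ := nat_gl ((Cov.fg ⋙ PiT hE) ⋙ U E ⊤) ((Cov.fg ⋙ PiT hE) ⋙ (PO hE).P ⋙ U E ⊤)
    (fun T k x z => ap ((U E ⊤).map (pp hE false _)) z = x ∧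
      ap ((U E ⊤).map (pp hE true _)) z = ap (κ.app T ≫ (U E ⊤).map (θ.app T)) x)
    (fun {T T'} u k x z h => by
      have h₁ : ∀ b, ap ((U E ⊤).map (pp hE b _))
          (ap (((Cov.fg ⋙ PiT hE) ⋙ (PO hE).P ⋙ U E ⊤).map u) z) =
          ap (((Cov.fg ⋙ PiT hE) ⋙ U E ⊤).map u) (ap ((U E ⊤).map (pp hE b _)) z) := fun b =>
        (Category.assoc _ _ _).trans
          ((congrArg (z ≫ ·) (pp_nat hE b _)).trans (Category.assoc _ _ _).symm)
      refine ⟨(h₁ false).trans (congrArg _ h.1), (h₁ true).trans ?_⟩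
      rw [h.2, ← ap_comp, ← ap_comp]
      exact congrArg (fun φ => ap φ x)
        ((κ ≫ Functor.whiskerRight θ (U E ⊤)).naturality u).symm)
    (fun k => CovOn ((Ext discG).obj (disc k))) (fun _ j => j.cov)
    (fun k _ => xi hE (disc k)) (fun k T x => rep_cov hE (disc k) T x)
    (fun j => by
      obtain ⟨z, -, h⟩ := po_fill hE (hc 0) (k := 0) PUnit.unit (xi hE (disc 0))
        (ap (κ.app j.cov ≫ (U E ⊤).map (θ.app j.cov)) (xi hE (disc 0))) rfl rfl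
      exact ⟨z, h⟩)
    (fun k j z₀ z₁ hp h₀ h₁ => by
      obtain ⟨z, hz, h⟩ := po_fill hE (hc (k + 1)) (sphMk z₀ z₁ hp) (xi hE (disc (k + 1)))
        (ap (κ.app j.cov ≫ (U E ⊤).map (θ.app j.cov)) (xi hE (disc (k + 1))))
        (bd_eq_succ.2 ⟨h₀.1.symm, h₁.1.symm⟩)
        (bd_eq_succ.2 ⟨(fa_ap _ _ _).trans h₀.2.symm, (fa_ap _ _ _).trans h₁.2.symm⟩)
      exact ⟨z, (bd_eq_sphMk.1 hz).1, (bd_eq_sphMk.1 hz).2, h⟩)
  have h₀ : H.app T ≫ (U E ⊤).map (pp hE false _) = 𝟙 _ := gs_ext fun k x => (hH T k x).1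
  have h₁ : H.app T ≫ (U E ⊤).map (pp hE true _) = κ.app T ≫ (U E ⊤).map (θ.app T) :=
    gs_ext fun k x => (hH T k x).2
  rw [← h₁]
  exact GW.of_htpy _ (glift_pp hE false _) (glift_pp hE true _) (by rw [h₀]; exact GW.of_isIso _)
    (fun k y => geqv_rel hE _ k y y (GEqv.refl _ y))

theorem tfib_snd {X : A E ⊤} (hX : Contr X) (Y : A E ⊤) :
    TFib E ⊤ 0 (prod.snd : X ⨯ Y ⟶ Y) :=
  TFib.of_isPullback (IsPullback.of_hasBinaryProduct' X Y).flip ((contr_iff_tfib X).1 hX)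

end Vale.Agent.P259.ThetaAux
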