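import Vale.Agent.P259.Small
import Vale.Agent.P259.PiT
import Vale.Agent.P259.MS
import Vale.Agent.P259.ThetaAux

/-! The comparison of small singular cubes with the fundamental infinity-groupoid. -/

open CategoryTheory Limits Opposite unitInterval

set_option backward.isDefEq.respectTransparency false

noncomputable section

namespace Vale.Agent.P259

variable {E : GlobExt}

theorem exists_theta (hE : Coh E) : Nonempty (LamC E ⟶ Cov.fg ⋙ PiT hE) := by
  obtain ⟨θ₀⟩ := exists_L0_hom (E := E) (cubeT ⋙ PiT hE) fun m =>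
    have : ContractibleSpace (cubeT.obj m) := inferInstanceAs (ContractibleSpace m.pt)
    contr_PiT hE _
  choose θ hθ using fun T : Cov => lam_desc (E := E) (X := SingC.obj T) (Z := (PiT hE).obj T.Y)
    (fun m sg => θ₀.app m ≫ (PiT hE).map sg.1) (fun a sg => by
      rw [← Category.assoc, θ₀.naturality a, Category.assoc]
      exact congrArg _ ((PiT hE).map_comp _ _).symm)
  refine ⟨{ app := θ, naturality := fun T T' u => lam_ext fun m sg => ?_ }⟩
  rw [← Category.assoc, ← Category.assoc, hθ]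
  erw [ins_map, hθ, Category.assoc]
  exact congrArg _ ((PiT hE).map_comp _ _)

namespace ThetaAux

variable (E) in
/-- Covered spaces with a map out of the model of small cubes. -/
structure Big where
  T : Cov
  M : A E ⊤
  lam : (LamC E).obj T ⟶ M

instance : Category.{0} (Big E) where
  Hom a b := {p : (a.T ⟶ b.T) × (a.M ⟶ b.M) // a.lam ≫ p.2 = (LamC E).map p.1 ≫ b.lam}
  id a := ⟨(𝟙 _, 𝟙 _), by simp⟩
  comp f g := ⟨(f.1.1 ≫ g.1.1, f.1.2 ≫ g.1.2), by
    rw [ra f.2, Category.assoc, g.2, Functor.map_comp, Category.assoc]⟩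
  id_comp _ := Subtype.ext (Prod.ext (Category.id_comp _) (Category.id_comp _))
  comp_id _ := Subtype.ext (Prod.ext (Category.comp_id _) (Category.comp_id _))
  assoc _ _ _ := Subtype.ext (Prod.ext (Category.assoc _ _ _) (Category.assoc _ _ _))

/-- The covered space. -/
@[implicit_reducible] def bT : Big E ⥤ Cov where
  obj t := t.T
  map f := f.1.1

/-- The model. -/
@[implicit_reducible] def bM : Big E ⥤ A E ⊤ where
  obj t := t.M
  map f := f.1.2

/-- The structure map. -/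
def bLam : bT ⋙ LamC E ⟶ bM where
  app t := t.lam
  naturality _ _ f := f.2.symm

/-- The object attached to a covered space. -/
@[implicit_reducible] def bOf : Cov ⥤ Big E where
  obj T := ⟨T, (LamC E).obj T, 𝟙 _⟩
  map u := ⟨(u, (LamC E).map u), by simp⟩
  map_id _ := Subtype.ext (Prod.ext rfl ((LamC E).map_id _))
  map_comp _ _ := Subtype.ext (Prod.ext rfl ((LamC E).map_comp _ _))

/-- A globular map to a product. -/
def uLift {W : GS} {X Y : A E ⊤} (a : W ⟶ (U E ⊤).obj X) (b : W ⟶ (U E ⊤).obj Y) :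
    W ⟶ (U E ⊤).obj (X ⨯ Y) :=
  gsMk (fun _ z => prod.lift (ap a z) (ap b z)) fun c k z => by
    rw [fa_nrv, prod.comp_lift, ← fa_ap, ← fa_ap]
    rfl

theorem uLift_fst {W : GS} {X Y : A E ⊤} (a : W ⟶ (U E ⊤).obj X) (b : W ⟶ (U E ⊤).obj Y) :
    uLift a b ≫ (U E ⊤).map prod.fst = a := gs_ext fun _ z => prod.lift_fst (ap a z) (ap b z)

theorem uLift_snd {W : GS} {X Y : A E ⊤} (a : W ⟶ (U E ⊤).obj X) (b : W ⟶ (U E ⊤).obj Y) :
    uLift a b ≫ (U E ⊤).map prod.snd = b := gs_ext fun _ z => prod.lift_snd (ap a z) (ap b z)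

theorem uProd_ext {W : GS} {X Y : A E ⊤} {φ ψ : W ⟶ (U E ⊤).obj (X ⨯ Y)}
    (h₁ : φ ≫ (U E ⊤).map prod.fst = ψ ≫ (U E ⊤).map prod.fst)
    (h₂ : φ ≫ (U E ⊤).map prod.snd = ψ ≫ (U E ⊤).map prod.snd) : φ = ψ :=
  gs_ext fun _ z => prod.hom_ext (congrArg (fun t => ap t z) h₁) (congrArg (fun t => ap t z) h₂)

variable (hE : Coh E) (κ : (Cov.fg ⋙ PiT hE) ⋙ U E ⊤ ⟶ LamC E ⋙ U E ⊤)

/-- The first leg. -/
def aK : bT ⋙ (Cov.fg ⋙ PiT hE) ⋙ U E ⊤ ⟶ bM ⋙ U E ⊤ :=
  Functor.whiskerLeft bT κ ≫ Functor.whiskerRight bLam (U E ⊤)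

/-- The second leg. -/
def bP : bM ⋙ (PO hE).P ⋙ U E ⊤ ⟶ bM ⋙ U E ⊤ where
  app t := (U E ⊤).map (pp hE false t.M)
  naturality _ _ f := ((U E ⊤).map_comp _ _).symm.trans
    ((congrArg _ (pp_nat hE false f.1.2)).trans ((U E ⊤).map_comp _ _))

/-- The gluing globular set. -/
def Eg : Big E ⥤ GS := pullback (aK hE κ) (bP hE)

/-- First projection. -/
def e1 (t : Big E) : (Eg hE κ).obj t ⟶ (U E ⊤).obj ((PiT hE).obj t.T.Y) :=
  (pullback.fst (aK hE κ) (bP hE)).app t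

/-- Second projection. -/
def e2 (t : Big E) : (Eg hE κ).obj t ⟶ (U E ⊤).obj ((PO hE).P.obj t.M) :=
  (pullback.snd (aK hE κ) (bP hE)).app t

theorem pbE (t : Big E) : IsPullback (e1 hE κ t) (e2 hE κ t) (κ.app t.T ≫ (U E ⊤).map t.lam)
    ((U E ⊤).map (pp hE false t.M)) :=
  (IsPullback.of_hasPullback (aK hE κ) (bP hE)).map ((evaluation _ _).obj t)

theorem e1_nat {t t' : Big E} (v : t ⟶ t') :
    (Eg hE κ).map v ≫ e1 hE κ t' = e1 hE κ t ≫ (U E ⊤).map ((PiT hE).map v.1.1.1) :=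
  (pullback.fst (aK hE κ) (bP hE)).naturality v

theorem e2_nat {t t' : Big E} (v : t ⟶ t') :
    (Eg hE κ).map v ≫ e2 hE κ t' = e2 hE κ t ≫ (U E ⊤).map ((PO hE).P.map v.1.2) :=
  (pullback.snd (aK hE κ) (bP hE)).naturality v

/-- The product model. -/
@[implicit_reducible] def bN : Big E ⥤ A E ⊤ where
  obj t := (PiT hE).obj t.T.Y ⨯ t.M
  map f := prod.map ((PiT hE).map f.1.1.1) f.1.2
  map_id t := by
    rw [← prod.map_id_id, ← (PiT hE).map_id]
    rfl
  map_comp f g := by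
    rw [prod.map_map, ← (PiT hE).map_comp]
    rfl

/-- The map to the product. -/
def qE : Eg hE κ ⟶ bN hE ⋙ U E ⊤ where
  app t := uLift (e1 hE κ t) (e2 hE κ t ≫ (U E ⊤).map (pp hE true t.M))
  naturality t t' v := by
    have h : (bN hE ⋙ U E ⊤).map v = (U E ⊤).map (prod.map ((PiT hE).map v.1.1.1) v.1.2) := rfl
    refine uProd_ext ?_ ?_
    · rw [Category.assoc, Category.assoc, uLift_fst, e1_nat, h, ← Functor.map_comp, prod.map_fst,
        Functor.map_comp, ra (uLift_fst _ _)]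
    · rw [Category.assoc, Category.assoc, uLift_snd, ra (e2_nat hE κ v), h, ← Functor.map_comp,
        prod.map_snd, Functor.map_comp, ra (uLift_snd _ _), Category.assoc, Category.assoc,
        ← Functor.map_comp, ← Functor.map_comp, pp_nat]

theorem qE_fst (t : Big E) : (qE hE κ).app t ≫ (U E ⊤).map prod.fst = e1 hE κ t := uLift_fst _ _

theorem qE_snd (t : Big E) : (qE hE κ).app t ≫ (U E ⊤).map prod.snd =
    e2 hE κ t ≫ (U E ⊤).map (pp hE true t.M) := uLift_snd _ _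

theorem glift_qE (t : Big E) (ht : Contr t.M) (k : ℕ) : GLift ((qE hE κ).app t) k := by
  intro s y hy
  have h₀ : ∀ {Y : GS} (φ : (bN hE ⋙ U E ⊤).obj t ⟶ Y),
      bd Y (ap φ y) = smap ((qE hE κ).app t ≫ φ) s := fun φ => by rw [bd_ap, hy, smap_comp]
  have h₁ : bd _ (ap ((U E ⊤).map prod.fst) y) = smap (e1 hE κ t) s :=
    (h₀ _).trans (by rw [qE_fst])
  obtain ⟨c, hc, c₀, c₁⟩ := po_fill hE ht (smap (e2 hE κ t) s)
    (ap (κ.app t.T ≫ (U E ⊤).map t.lam) (ap ((U E ⊤).map prod.fst) y))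
    (ap ((U E ⊤).map prod.snd) y)
    ((h₀ ((U E ⊤).map prod.fst ≫ κ.app t.T ≫ (U E ⊤).map t.lam)).trans (by
      rw [ra (qE_fst hE κ t), (pbE hE κ t).w, smap_comp]))
    ((h₀ _).trans (by rw [qE_snd, smap_comp]))
  obtain ⟨z, z₁, z₂⟩ := pb_exists (pbE hE κ t) _ c c₀.symm
  refine ⟨z, pb_sph_ext (pbE hE κ t) (by rw [← bd_ap, z₁]; exact h₁) (by rw [← bd_ap, z₂, hc]),
    prod.hom_ext ?_ ?_⟩
  · exact (congrArg (fun φ => ap φ z) (qE_fst hE κ t)).trans z₁
  · refine (congrArg (fun φ => ap φ z) (qE_snd hE κ t)).trans ?_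
    rw [ap_comp, z₂, c₁]
    rfl

/-- The universal value of the section. -/
def kS (S : Theta0) (j : CovOn ((Ext discG).obj S)) : (D0 E ⊤).obj S ⟶ (LamC E).obj j.cov :=
  (((presSums_D0 E ⊤).toNrv_bijective S _).2 (toNrv (D0 E ⊤) (xi hE S) ≫ κ.app j.cov)).choose

theorem kS_spec (S : Theta0) (j : CovOn ((Ext discG).obj S)) :
    toNrv (D0 E ⊤) (kS hE κ S j) = toNrv (D0 E ⊤) (xi hE S) ≫ κ.app j.cov :=
  (((presSums_D0 E ⊤).toNrv_bijective S _).2 _).choose_spec

/-- The universal objects. -/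
@[implicit_reducible] def uT (S : Theta0) (j : CovOn ((Ext discG).obj S)) : Big E :=
  ⟨j.cov, pushout (kS hE κ S j) ((PO hE).eps S), pushout.inl _ _⟩

theorem contr_uT (S : Theta0) (j : CovOn ((Ext discG).obj S)) : Contr (uT hE κ S j).M :=
  gstat_top hE (pushout.inl (kS hE κ S j) ((PO hE).eps S))
    (MorphismProperty.pushout_inl _ _ ((PO hE).eps_an S)) (cofibrant_Lam _) (contr_cov hE S j)

theorem rep_pp (S : Theta0) {X : A E ⊤} (c : (PO hE).cyl S ⟶ X) :
    (PO hE).rep S X c ≫ pp hE false X = (PO hE).eps S ≫ c := (PO hE).rep_p S c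

/-- The universal globular map. -/
def uX (S : Theta0) (j : CovOn ((Ext discG).obj S)) : Rep.obj S ⟶ (Eg hE κ).obj (uT hE κ S j) :=
  (pbE hE κ (uT hE κ S j)).lift (toNrv (D0 E ⊤) (xi hE S))
    (toNrv (D0 E ⊤) ((PO hE).rep S _ (pushout.inr (kS hE κ S j) ((PO hE).eps S)))) (by
      rw [← toNrv_comp, rep_pp, ← pushout.condition, toNrv_comp, kS_spec, Category.assoc]
      rfl)

theorem uX_iff (S : Theta0) (j : CovOn ((Ext discG).obj S)) {t : Big E} (v : uT hE κ S j ⟶ t)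
    (x : Rep.obj S ⟶ (Eg hE κ).obj t) (f : (D0 E ⊤).obj S ⟶ (PiT hE).obj t.T.Y)
    (c : (PO hE).cyl S ⟶ t.M) (hf : toNrv (D0 E ⊤) f = x ≫ e1 hE κ t)
    (hc : toNrv (D0 E ⊤) ((PO hE).rep S _ c) = x ≫ e2 hE κ t) :
    uX hE κ S j ≫ (Eg hE κ).map v = x ↔
      xi hE S ≫ (PiT hE).map v.1.1.1 = f ∧ pushout.inr _ _ ≫ v.1.2 = c := by
  have h₁ : (uX hE κ S j ≫ (Eg hE κ).map v) ≫ e1 hE κ t =
      toNrv (D0 E ⊤) (xi hE S ≫ (PiT hE).map v.1.1.1) := by
    rw [Category.assoc, e1_nat, uX, IsPullback.lift_fst_assoc, toNrv_comp]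
  have h₂ : (uX hE κ S j ≫ (Eg hE κ).map v) ≫ e2 hE κ t =
      toNrv (D0 E ⊤) ((PO hE).rep S _ (pushout.inr _ _ ≫ v.1.2)) := by
    rw [Category.assoc, e2_nat, uX, IsPullback.lift_snd_assoc, (PO hE).rep_comp, toNrv_comp]
    rfl
  constructor
  · rintro rfl
    exact ⟨((presSums_D0 E ⊤).toNrv_bijective S _).1 (h₁.symm.trans hf.symm),
      ((PO hE).rep S _).injective
        (((presSums_D0 E ⊤).toNrv_bijective S _).1 (h₂.symm.trans hc.symm))⟩
  · rintro ⟨rfl, rfl⟩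
    exact (pbE hE κ t).hom_ext (h₁.trans hf) (h₂.trans hc)

theorem rep_big (S : Theta0) (t : Big E) (x : Rep.obj S ⟶ (Eg hE κ).obj t) :
    ∃! p : Σ j : CovOn ((Ext discG).obj S), (uT hE κ S j ⟶ t),
      uX hE κ S p.1 ≫ (Eg hE κ).map p.2 = x := by
  obtain ⟨f, hf⟩ := ((presSums_D0 E ⊤).toNrv_bijective S _).2 (x ≫ e1 hE κ t)
  obtain ⟨c, hc⟩ := ((presSums_D0 E ⊤).toNrv_bijective S _).2 (x ≫ e2 hE κ t)
  obtain ⟨c, rfl⟩ := ((PO hE).rep S _).surjective c
  obtain ⟨⟨j, u⟩, hu, huniq⟩ := rep_cov hE S t.T f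
  have w : kS hE κ S j ≫ (LamC E).map u ≫ t.lam = (PO hE).eps S ≫ c := by
    refine ((presSums_D0 E ⊤).toNrv_bijective S _).1 ?_
    have hn : κ.app j.cov ≫ (U E ⊤).map ((LamC E).map u) =
        (U E ⊤).map ((PiT hE).map u.1) ≫ κ.app t.T := (κ.naturality u).symm
    rw [← rep_pp, toNrv_comp, toNrv_comp, hc, kS_spec, Functor.map_comp, Category.assoc, ra hn,
      Category.assoc, ← Category.assoc, ← toNrv_comp, hu, hf, Category.assoc, Category.assoc,
      (pbE hE κ t).w]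
  refine ⟨⟨j, ⟨(u, pushout.desc _ _ w), pushout.inl_desc _ _ _⟩⟩,
    (uX_iff hE κ S j _ x f c hf hc).2 ⟨hu, pushout.inr_desc _ _ _⟩, ?_⟩
  rintro ⟨j', v⟩ h
  obtain ⟨h₁, h₂⟩ := (uX_iff hE κ S j' v x f c hf hc).1 h
  have e := huniq ⟨j', v.1.1⟩ h₁
  obtain rfl : j' = j := congrArg Sigma.fst e
  obtain rfl : v.1.1 = u := eq_of_heq (Sigma.mk.inj e).2
  refine congrArg (Sigma.mk _) (Subtype.ext (Prod.ext rfl (pushout.hom_ext ?_ ?_)))
  · exact v.2.trans (pushout.inl_desc _ _ _).symm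
  · exact h₂.trans (pushout.inr_desc _ _ _).symm

/-- The cube of a small singular cube, with the induced cover. -/
@[implicit_reducible] def elC (T : Cov) : El (SingC.obj T) ⥤ Cov where
  obj a := T.pull a.sg.1
  map {a b} f := ⟨cubeT.map f.1, fun c => by
    have h : cubeT.map f.1 ≫ b.sg.1 = a.sg.1 := congrArg Subtype.val f.2
    change a.sg.1 ⁻¹' T.V c = (cubeT.map f.1 ≫ b.sg.1) ⁻¹' T.V c
    rw [h]⟩
  map_id _ := Subtype.ext (cubeT.map_id _)
  map_comp _ _ := Subtype.ext (cubeT.map_comp _ _)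

/-- The identity of a cube as a small cube. -/
def idC (T : Cov) (a : El (SingC.obj T)) : (SingC.obj ((elC T).obj a)).obj (op a.m) :=
  ⟨𝟙 (cubeT.obj a.m), a.sg.2⟩

/-- The objects used in the construction. -/
def ob (T : Cov) : (Σ S : Theta0, CovOn ((Ext discG).obj S)) ⊕ Option (El (SingC.obj T)) → Big E
  | .inl p => uT hE κ p.1 p.2
  | .inr none => bOf.obj T
  | .inr (some a) => bOf.obj ((elC T).obj a)

theorem exists_glue (T : Cov) :
    ∃ (M : InducedCategory (Big E) (ob hE κ T) ⥤ A E ⊤)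
      (α : M ⋙ U E ⊤ ≅ inducedFunctor (ob hE κ T) ⋙ Eg hE κ)
      (r : M ⟶ inducedFunctor (ob hE κ T) ⋙ bN hE),
      ∀ i, (U E ⊤).map (r.app i) = α.hom.app i ≫ (qE hE κ).app (ob hE κ T i) := by
  obtain ⟨M, α, r, h⟩ := exists_model_structure hE (inducedFunctor (ob hE κ T) ⋙ Eg hE κ)
    (inducedFunctor (ob hE κ T) ⋙ bN hE) (Functor.whiskerLeft _ (qE hE κ))
    (fun S => CovOn ((Ext discG).obj S)) (fun S j => .inl ⟨S, j⟩) (uX hE κ)
    (fun S t x => by
      obtain ⟨⟨j, v⟩, hv, huniq⟩ := rep_big hE κ S (ob hE κ T t) x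
      refine ⟨⟨j, InducedCategory.homMk v⟩, hv, ?_⟩
      rintro ⟨j', v'⟩ h
      have e := huniq ⟨j', v'.hom⟩ h
      obtain rfl : j' = j := congrArg Sigma.fst e
      obtain rfl : v'.hom = v := eq_of_heq (Sigma.mk.inj e).2
      rfl)
    (fun S j => glift_qE hE κ _ (contr_uT hE κ S j))
  exact ⟨M, α, r, fun i => congrArg (fun φ => φ.app i) h⟩

end ThetaAux

open ThetaAux in
theorem wq_theta (hE : Coh E) (θ : LamC E ⟶ Cov.fg ⋙ PiT hE) (T : Cov) :
    Wq E (θ.app T) := by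
  obtain ⟨κ, hκ⟩ := exists_kappa hE θ
  obtain ⟨M, α, r, hr⟩ := exists_glue hE κ T
  let q : M.obj (.inr none) ⟶ (LamC E).obj T := r.app (.inr none) ≫ prod.snd
  have hq : Wq E (q ≫ θ.app T) := by
    have h₀ : GW (e1 hE κ (bOf.obj T) ≫ κ.app T ≫ (U E ⊤).map (θ.app T)) :=
      (GW.of_glift (fun k => pb_glift (pbE hE κ _) (glift_pp hE false _ k))
        (fun k y => geqv_rel hE _ k y y (GEqv.refl _ y))).comp (hκ T)
    have h₁ : ∀ b, (e2 hE κ (bOf.obj T) ≫ (U E ⊤).map ((PO hE).P.map (θ.app T))) ≫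
        (U E ⊤).map (pp hE b _) = (e2 hE κ (bOf.obj T) ≫ (U E ⊤).map (pp hE b _)) ≫
          (U E ⊤).map (θ.app T) := fun b => by
      rw [Category.assoc, Category.assoc, ← Functor.map_comp, ← Functor.map_comp, pp_nat]
    have h₂ := GW.of_htpy (e2 hE κ (bOf.obj T) ≫ (U E ⊤).map ((PO hE).P.map (θ.app T)))
      (glift_pp hE false _) (glift_pp hE true _) (by
        rw [h₁, ← (pbE hE κ (bOf.obj T)).w]
        erw [(U E ⊤).map_id, Category.comp_id, Category.assoc]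
        exact h₀) (fun k y => geqv_rel hE _ k y y (GEqv.refl _ y))
    rw [h₁, ← qE_snd] at h₂
    have h₃ := (GW.of_isIso (α.hom.app (.inr none))).comp h₂
    unfold Wq
    rw [Functor.map_comp, Functor.map_comp, hr]
    simp only [Category.assoc] at h₃ ⊢
    exact h₃
  let G : El (SingC.obj T) ⥤ InducedCategory (Big E) (ob hE κ T) :=
    { obj := fun a => .inr (some a)
      map := fun f => InducedCategory.homMk (bOf.map ((elC T).map f))
      map_id := fun a => InducedCategory.hom_ext ((elC T ⋙ bOf).map_id a)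
      map_comp := fun f g => InducedCategory.hom_ext ((elC T ⋙ bOf).map_comp f g) }
  have hnat : ∀ {i i' : InducedCategory (Big E) (ob hE κ T)} (v : i ⟶ i'),
      M.map v ≫ r.app i' ≫ prod.snd = (r.app i ≫ prod.snd) ≫ v.hom.1.2 := fun v => by
    rw [ra (r.naturality v), Category.assoc, Category.assoc]
    exact congrArg _ (prod.map_snd _ _)
  let q' : G ⋙ M ⟶ elC T ⋙ LamC E :=
    { app := fun a => r.app (.inr (some a)) ≫ prod.snd
      naturality := fun _ _ f => hnat (G.map f) }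
  have hq' : ∀ a, TFib E ⊤ 0 (q'.app a) := fun a => by
    have : ContractibleSpace ((elC T).obj a).Y := inferInstanceAs (ContractibleSpace a.m.pt)
    refine TFib.comp ((tfib_iff _).2 fun k _ => ?_) (tfib_snd (contr_PiT hE ((elC T).obj a).Y) _)
    rw [hr]
    exact (GLift.of_isIso _ k).comp (glift_qE hE κ _ (contr_LamC hE _) k)
  obtain ⟨a, ha⟩ := carrier_lift q' hq'
    { app := fun a => ins (idC T a)
      naturality := fun a b f => (ins_nat f.1 (idC T b)).trans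
        (Eq.trans (congrArg ins (Subtype.ext ((Category.comp_id (cubeT.map f.1)).trans
          (Category.id_comp (cubeT.map f.1)).symm))) (ins_map (SingC.map ((elC T).map f)) (idC T a)).symm) }
  let out : ∀ b : El (SingC.obj T), G.obj b ⟶ .inr none := fun b =>
    InducedCategory.homMk (bOf.map (T.pullHom b.sg.1))
  obtain ⟨s, hs⟩ := lam_desc (E := E) (X := SingC.obj T) (Z := M.obj (.inr none))
    (fun m sg => a.app ⟨m, sg⟩ ≫ M.map (out ⟨m, sg⟩)) (fun {m m'} f sg => by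
      let f' : (⟨m, (SingC.obj T).map f.op sg⟩ : El (SingC.obj T)) ⟶ ⟨m', sg⟩ := ⟨f, rfl⟩
      have h₁ : G.map f' ≫ out ⟨m', sg⟩ = out ⟨m, (SingC.obj T).map f.op sg⟩ :=
        InducedCategory.hom_ext (bOf.map_comp _ _).symm
      rw [← h₁, M.map_comp]
      exact (ra (a.naturality f') _).trans (Category.assoc _ _ _))
  have hsq : s ≫ q = 𝟙 _ := lam_ext fun m sg => by
    rw [ra (hs m sg), Category.assoc, Category.comp_id]
    refine (congrArg _ (hnat (out ⟨m, sg⟩))).trans ?_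
    refine (ra (congrArg (fun φ => φ.app ⟨m, sg⟩) ha) _).trans ?_
    exact (ins_map (SingC.map (T.pullHom sg.1)) (idC T ⟨m, sg⟩)).trans
      (congrArg ins (Subtype.ext (Category.id_comp _)))
  exact (Wq.two_of_six hE (f := s) (hsq ▸ Wq.of_isIso _) hq).2.2

end Vale.Agent.P259
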