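import Vale.Agent.P259.GLem

/-! Boundary objects of a coglobular object. -/

open CategoryTheory Limits Opposite

set_option backward.isDefEq.respectTransparency false

noncomputable section

namespace Vale.Agent.P259

/-- Boundary objects `B k ⟶ G k` of a coglobular object `G`. -/
structure Tower {𝒳 : Type*} [Category 𝒳] (G : Glob ⥤ 𝒳) where
  B : ℕ → 𝒳
  β : ∀ k, B k ⟶ G.obj ⟨k⟩
  ν : Bool → ∀ k, G.obj ⟨k⟩ ⟶ B (k + 1)
  ini : IsInitial (B 0)
  po : ∀ k, IsPushout (β k) (β k) (ν false k) (ν true k)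
  w : ∀ b k, ν b k ≫ β (k + 1) = G.map (sf b k)

section
variable {𝒳 : Type*} [Category 𝒳]

theorem Tower.nonempty [HasInitial 𝒳] [HasPushouts 𝒳] (G : Glob ⥤ 𝒳) : Nonempty (Tower G) := by
  let L : ℕ → Type _ := fun k => Σ B : 𝒳, {β : B ⟶ G.obj ⟨k⟩ //
    β ≫ G.map (sf false k) = β ≫ G.map (sf true k)}
  let step : ∀ k, L k → L (k + 1) := fun k l =>
    ⟨pushout l.2.1 l.2.1, pushout.desc (G.map (sf false k)) (G.map (sf true k)) l.2.2, by
      apply pushout.hom_ext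
      · rw [pushout.inl_desc_assoc, pushout.inl_desc_assoc, ← G.map_comp, ← G.map_comp]; rfl
      · rw [pushout.inr_desc_assoc, pushout.inr_desc_assoc, ← G.map_comp, ← G.map_comp]; rfl⟩
  let s : ∀ k, L k := fun k => Nat.rec ⟨⊥_ 𝒳, initial.to _, initial.hom_ext _ _⟩ step k
  refine ⟨⟨fun k => (s k).1, fun k => (s k).2.1,
    fun b k => match b with
      | false => pushout.inl (s k).2.1 (s k).2.1
      | true => pushout.inr (s k).2.1 (s k).2.1,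
    initialIsInitial, fun k => IsPushout.of_hasPushout _ _, fun b k => ?_⟩⟩
  cases b
  · exact pushout.inl_desc _ _ _
  · exact pushout.inr_desc _ _ _

/-- A choice of boundary objects. -/
def Tower.of [HasInitial 𝒳] [HasPushouts 𝒳] (G : Glob ⥤ 𝒳) : Tower G :=
  (Tower.nonempty G).some

theorem Tower.β_ν {G : Glob ⥤ 𝒳} (T : Tower G) (b b' : Bool) (k : ℕ) :
    T.β k ≫ T.ν b k = T.β k ≫ T.ν b' k := by
  cases b <;> cases b' <;> simp [(T.po k).w]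

theorem Tower.β_sf {G : Glob ⥤ 𝒳} (T : Tower G) (b b' : Bool) (k : ℕ) :
    T.β k ≫ G.map (sf b k) = T.β k ≫ G.map (sf b' k) := by
  rw [← T.w, ← T.w, ← Category.assoc, T.β_ν b b', Category.assoc]

theorem Tower.hom_ext {G : Glob ⥤ 𝒳} (T : Tower G) {k : ℕ} {X : 𝒳} {s s' : T.B (k + 1) ⟶ X}
    (h : ∀ b, T.ν b k ≫ s = T.ν b k ≫ s') : s = s' :=
  (T.po k).hom_ext (h false) (h true)

/-- Image of a tower under a functor preserving pushouts and initial objects. -/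
def Tower.map {𝒴 : Type*} [Category 𝒴] {G : Glob ⥤ 𝒳} (T : Tower G) (F : 𝒳 ⥤ 𝒴)
    [PreservesColimitsOfShape WalkingSpan F] [PreservesColimitsOfShape (Discrete PEmpty.{1}) F] :
    Tower (G ⋙ F) where
  B k := F.obj (T.B k)
  β k := F.map (T.β k)
  ν b k := F.map (T.ν b k)
  ini := T.ini.isInitialObj F _
  po k := (T.po k).map F
  w b k := by rw [← F.map_comp, T.w]; rfl

/-- A map of coglobular objects induces maps of boundary objects. -/
theorem Tower.exists_bmap {G G' : Glob ⥤ 𝒳} (T : Tower G) (T' : Tower G') (φ : G ⟶ G') :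
    ∃ m : ∀ k, T.B k ⟶ T'.B k, (∀ k, m k ≫ T'.β k = T.β k ≫ φ.app ⟨k⟩) ∧
      (∀ b k, T.ν b k ≫ m (k + 1) = φ.app ⟨k⟩ ≫ T'.ν b k) ∧
      (∀ k, (∀ j < k, IsIso (φ.app ⟨j⟩)) → IsIso (m k)) := by
  let L : ℕ → Type _ := fun k => {m : T.B k ⟶ T'.B k // m ≫ T'.β k = T.β k ≫ φ.app ⟨k⟩ ∧
    ((∀ j < k, IsIso (φ.app ⟨j⟩)) → IsIso m)}
  have l0 : L 0 := ⟨T.ini.to _, T.ini.hom_ext _ _, fun _ => isIso_of_isInitial T.ini T'.ini _⟩
  have key : ∀ k (l : L k), ∃ l' : L (k + 1),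
      ∀ b, T.ν b k ≫ l'.1 = φ.app ⟨k⟩ ≫ T'.ν b k := by
    intro k l
    have w : T.β k ≫ φ.app ⟨k⟩ ≫ T'.ν false k = T.β k ≫ φ.app ⟨k⟩ ≫ T'.ν true k := by
      rw [← reassoc_of% l.2.1, ← reassoc_of% l.2.1, T'.β_ν false true]
    have hm : ∀ b, T.ν b k ≫ (T.po k).desc _ _ w = φ.app ⟨k⟩ ≫ T'.ν b k := fun b => by
      cases b
      · exact (T.po k).inl_desc _ _ _
      · exact (T.po k).inr_desc _ _ _
    refine ⟨⟨(T.po k).desc _ _ w, T.hom_ext fun b => ?_, fun h => ?_⟩, hm⟩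
    · rw [reassoc_of% hm b, T'.w, reassoc_of% T.w b k, φ.naturality]
    · have := h k (Nat.lt_succ_self k)
      have := l.2.2 fun j hj => h j (Nat.lt_succ_of_lt hj)
      have e : T'.β k ≫ inv (φ.app ⟨k⟩) = inv l.1 ≫ T.β k := by
        rw [IsIso.eq_inv_comp, reassoc_of% l.2.1, IsIso.hom_inv_id, Category.comp_id]
      have w' : T'.β k ≫ inv (φ.app ⟨k⟩) ≫ T.ν false k =
          T'.β k ≫ inv (φ.app ⟨k⟩) ≫ T.ν true k := by
        rw [reassoc_of% e, reassoc_of% e, T.β_ν false true]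
      have hm' : ∀ b, T'.ν b k ≫ (T'.po k).desc _ _ w' = inv (φ.app ⟨k⟩) ≫ T.ν b k := fun b => by
        cases b
        · exact (T'.po k).inl_desc _ _ _
        · exact (T'.po k).inr_desc _ _ _
      refine ⟨⟨(T'.po k).desc _ _ w', T.hom_ext fun b => ?_, T'.hom_ext fun b => ?_⟩⟩
      · rw [reassoc_of% hm b, hm', IsIso.hom_inv_id_assoc, Category.comp_id]
      · rw [reassoc_of% hm' b, hm, IsIso.inv_hom_id_assoc, Category.comp_id]
  obtain ⟨s, hs⟩ := exists_seq_dep _ l0 key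
  exact ⟨fun k => (s k).1, fun k => (s k).2.1, fun b k => hs k b, fun k => (s k).2.2⟩

/-- `c` is obtained by attaching cells. -/
def Tower.IsAtt [HasCoproducts.{0} 𝒳] {G : Glob ⥤ 𝒳} (T : Tower G) {X X' : 𝒳} (c : X ⟶ X') :
    Prop :=
  ∃ (ι : Type) (k : ι → ℕ) (a : ∐ (fun i => T.B (k i)) ⟶ X) (d : ∐ (fun i => G.obj ⟨k i⟩) ⟶ X'),
    IsPushout a (Limits.Sigma.map fun i => T.β (k i)) c d

/-- `X` is a cell complex built in countably many steps. -/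
structure Tower.CellSeq [HasCoproducts.{0} 𝒳] {G : Glob ⥤ 𝒳} (T : Tower G) (X : 𝒳) where
  Z : ℕ ⥤ 𝒳
  ini : IsInitial (Z.obj 0)
  att : ∀ r, T.IsAtt (Z.map (homOfLE (Nat.le_succ r)))
  ι : Z ⟶ (Functor.const ℕ).obj X
  col : IsColimit (Cocone.mk X ι)

end

section
variable {𝒳 : Type*} [Category.{0} 𝒳] {G : Glob ⥤ 𝒳} (T : Tower G)

theorem Tower.par_iff {X : 𝒳} {k : ℕ} (x y : G.obj ⟨k⟩ ⟶ X) :
    GPar ((Nrv G).obj X) x y ↔ T.β k ≫ x = T.β k ≫ y := by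
  cases k with
  | zero => exact ⟨fun _ => T.ini.hom_ext _ _, fun _ => trivial⟩
  | succ k =>
    refine ⟨fun h => T.hom_ext fun b => ?_, fun h b => ?_⟩
    · rw [reassoc_of% T.w b k, reassoc_of% T.w b k]
      exact h b
    · rw [fa_nrv, fa_nrv, ← T.w, Category.assoc, Category.assoc, h]

/-- The sphere of the nerve given by a map from the boundary object. -/
def Tower.sph {X : 𝒳} : {k : ℕ} → (T.B k ⟶ X) → Sph ((Nrv G).obj X) k
  | 0, _ => PUnit.unit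
  | k + 1, s => ⟨(T.ν false k ≫ s, T.ν true k ≫ s),
      (T.par_iff _ _).2 (by rw [← Category.assoc, T.β_ν false true, Category.assoc])⟩

theorem Tower.sph_bijective (X : 𝒳) (k : ℕ) : Function.Bijective (T.sph (X := X) (k := k)) := by
  cases k with
  | zero => exact ⟨fun _ _ _ => T.ini.hom_ext _ _, fun _ => ⟨T.ini.to _, rfl⟩⟩
  | succ k =>
    refine ⟨fun s s' h => (T.po k).hom_ext (congrArg (fun s => s.1.1) h)
      (congrArg (fun s => s.1.2) h), fun s => ?_⟩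
    exact ⟨(T.po k).desc s.1.1 s.1.2 ((T.par_iff _ _).1 s.2),
      Subtype.ext (Prod.ext ((T.po k).inl_desc _ _ _) ((T.po k).inr_desc _ _ _))⟩

theorem Tower.sph_β {X : 𝒳} {k : ℕ} (x : G.obj ⟨k⟩ ⟶ X) :
    T.sph (T.β k ≫ x) = bd ((Nrv G).obj X) x := by
  cases k with
  | zero => rfl
  | succ k =>
    refine (bd_eq_succ.2 ⟨?_, ?_⟩).symm
    · rw [fa_nrv, ← T.w, Category.assoc]; rfl
    · rw [fa_nrv, ← T.w, Category.assoc]; rfl

theorem Tower.sph_comp {X Y : 𝒳} {k : ℕ} (s : T.B k ⟶ X) (f : X ⟶ Y) :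
    T.sph (s ≫ f) = smap ((Nrv G).map f) (T.sph s) := by
  cases k with
  | zero => rfl
  | succ k =>
    exact Subtype.ext (Prod.ext (Category.assoc _ _ _).symm (Category.assoc _ _ _).symm)

theorem Tower.bd_eq_iff {X : 𝒳} {k : ℕ} (x : G.obj ⟨k⟩ ⟶ X) (s : T.B k ⟶ X) :
    bd ((Nrv G).obj X) x = T.sph s ↔ T.β k ≫ x = s := by
  rw [← T.sph_β]
  exact (T.sph_bijective X k).1.eq_iff

theorem Tower.hlp_iff {X Y : 𝒳} (q : X ⟶ Y) (k : ℕ) :
    HasLiftingProperty (T.β k) q ↔ GLift ((Nrv G).map q) k := by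
  constructor
  · intro h s y hy
    obtain ⟨s, rfl⟩ := (T.sph_bijective X k).2 s
    rw [← T.sph_comp, T.bd_eq_iff] at hy
    have sq : CommSq s (T.β k) q y := ⟨hy.symm⟩
    exact ⟨sq.lift, (T.bd_eq_iff _ _).2 sq.fac_left, sq.fac_right⟩
  · intro h
    refine ⟨fun {s y} sq => ?_⟩
    obtain ⟨x, hx, hx'⟩ := h (T.sph s) y (by
      rw [← T.sph_comp, T.bd_eq_iff]; exact sq.w.symm)
    exact ⟨⟨⟨x, (T.bd_eq_iff _ _).1 hx, hx'⟩⟩⟩

theorem Tower.contr_iff (X : 𝒳) :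
    GContr ((Nrv G).obj X) ↔ ∀ k (s : T.B k ⟶ X), ∃ x, T.β k ≫ x = s := by
  constructor
  · intro h k s
    obtain ⟨x, hx⟩ := h k (T.sph s)
    exact ⟨x, (T.bd_eq_iff _ _).1 hx⟩
  · intro h k s
    obtain ⟨s, rfl⟩ := (T.sph_bijective X k).2 s
    obtain ⟨x, hx⟩ := h k s
    exact ⟨x, (T.bd_eq_iff _ _).2 hx⟩

theorem Tower.bd_bijective_iff (X : 𝒳) (k : ℕ) :
    Function.Bijective (bd ((Nrv G).obj X) (k := k)) ↔
      Function.Bijective (fun x : G.obj ⟨k⟩ ⟶ X => T.β k ≫ x) := by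
  rw [← Function.Bijective.of_comp_iff' (T.sph_bijective X k)]
  have : bd ((Nrv G).obj X) (k := k) = T.sph ∘ fun x : G.obj ⟨k⟩ ⟶ X => T.β k ≫ x :=
    funext fun x => (T.sph_β x).symm
  rw [this]

omit T in
theorem hlp_sf_iff {X Y : 𝒳} (q : X ⟶ Y) (k : ℕ) :
    HasLiftingProperty (G.map (sf false k)) q ↔ GFib ((Nrv G).map q) k := by
  constructor
  · intro h x y hy
    have sq : CommSq x (G.map (sf false k)) q y := ⟨hy.symm⟩
    exact ⟨sq.lift, sq.fac_left, sq.fac_right⟩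
  · intro h
    refine ⟨fun {x y} sq => ?_⟩
    obtain ⟨c, hc, hc'⟩ := h x y sq.w.symm
    exact ⟨⟨⟨c, hc, hc'⟩⟩⟩

end

end Vale.Agent.P259
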