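import Vale.Agent.P259.Theta
import Vale.Agent.P259.CellTop
import Vale.Agent.P259.SeqTop
import Vale.Agent.P259.Glue

/-! The van Kampen theorem for cell attachments and the unit of the realization adjunction. -/

open CategoryTheory Limits Opposite

set_option backward.isDefEq.respectTransparency false

noncomputable section

namespace Vale.Agent.P259

variable {E : GlobExt}

theorem hoPO_cell (hE : Coh E) {ι : Type} (k : ι → ℕ) {Y Y' : TopCat.{0}}
    {a : ∐ (fun i => sphT.B (k i)) ⟶ Y} {c : Y ⟶ Y'} {d : ∐ (fun i => discG.obj ⟨k i⟩) ⟶ Y'}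
    (h : IsPushout a (Limits.Sigma.map fun i => sphT.β (k i)) c d) :
    HoPO ((PiT hE).map a) ((PiT hE).map (Limits.Sigma.map fun i => sphT.β (k i)))
      ((PiT hE).map c) ((PiT hE).map d) := by
  obtain ⟨V, W, hV, hW, hc, gS, gX, gB, gT, w₁, w₂, w₃, w₄, e₁, e₂, e₃, e₄⟩ :=
    exists_cell_cover k h
  obtain ⟨θ⟩ := exists_theta hE
  let T : Cov := ⟨Y', fun b => cond b W V, fun b => by cases b; exacts [hV, hW],
    fun y => (hc y).elim (fun h => ⟨false, h⟩) (fun h => ⟨true, h⟩)⟩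
  have po := (isPushout_SingC T (subι V) (subι W) (subLE Set.inter_subset_left)
    (subLE Set.inter_subset_right) rfl Topology.IsEmbedding.subtypeVal
    Topology.IsEmbedding.subtypeVal Topology.IsEmbedding.subtypeVal Subtype.range_coe
    Subtype.range_coe Subtype.range_coe).map (Lam E)
  have nat : ∀ {T₁ T₂ : Cov} (f : T₁ ⟶ T₂) {Z₁ Z₂ : TopCat.{0}} (g₁ : T₁.Y ⟶ Z₁) (g₂ : T₂.Y ⟶ Z₂)
      (z : Z₁ ⟶ Z₂), f.1 ≫ g₂ = g₁ ≫ z →
      (Lam E).map (SingC.map f) ≫ θ.app T₂ ≫ (PiT hE).map g₂ =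
        (θ.app T₁ ≫ (PiT hE).map g₁) ≫ (PiT hE).map z := by
    intro T₁ T₂ f Z₁ Z₂ g₁ g₂ z e
    have := θ.naturality f
    simp only [Functor.comp_map] at this
    rw [← Category.assoc, this, Category.assoc, Category.assoc, ← Functor.map_comp,
      ← Functor.map_comp, ← e]
    rfl
  refine hoPO_of_model hE (by rw [← Functor.map_comp, h.w, Functor.map_comp]) po
    (cofibrant_Lam _) ?_ ?_ (θ.app _ ≫ (PiT hE).map gS) (θ.app _ ≫ (PiT hE).map gX)
    (θ.app _ ≫ (PiT hE).map gB) (θ.app _ ≫ (PiT hE).map gT) (nat _ _ _ _ w₁) (nat _ _ _ _ w₂)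
    (nat _ _ _ _ w₃) (nat _ _ _ _ w₄) ((wq_theta hE θ _).comp (wq_PiT_of_isHE hE e₁))
    ((wq_theta hE θ _).comp (wq_PiT_of_isHE hE e₂)) ((wq_theta hE θ _).comp (wq_PiT_of_isHE hE e₃))
    ((wq_theta hE θ _).comp (wq_PiT_of_isHE hE e₄))
  · exact @cof_Lam _ _ _ _ (mono_SingC _ (Set.inclusion_injective Set.inter_subset_left))
  · exact @cof_Lam _ _ _ _ (mono_SingC _ (Set.inclusion_injective Set.inter_subset_right))

theorem wq_unit_sigma (hE : Coh E) {ι : Type} (X : ι → A E ⊤)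
    (h : ∀ i, Wq E ((adjR hE).unit.app (X i))) : Wq E ((adjR hE).unit.app (∐ X)) := by
  let e : (Real hE).obj (∐ X) ≅ ∐ fun i => (Real hE).obj (X i) := PreservesCoproduct.iso _ _
  have he : ∀ i, (Real hE).map (Sigma.ι X i) ≫ e.hom = Sigma.ι (fun i => (Real hE).obj (X i)) i :=
    fun i => by
      rw [← cancel_mono e.inv, Category.assoc, e.hom_inv_id, Category.comp_id,
        PreservesCoproduct.inv_hom, ι_comp_sigmaComparison]
  refine Wq.of_comp_right (g := (PiT hE).map e.hom) ?_ (Wq.of_isIso _)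
  refine GW.of_sigma (gsigma_U X) (gsigma_PiT hE fun i => (Real hE).obj (X i))
    (fun i => (U E ⊤).map ((adjR hE).unit.app (X i))) _ (fun i => ?_) h
  rw [← Functor.map_comp, ← Functor.map_comp, ← he, Functor.map_comp (PiT hE),
    (adjR hE).unit_naturality_assoc]

theorem wq_unit_dd (hE : Coh E) (k : ℕ) : Wq E ((adjR hE).unit.app (dd E ⊤ k)) := by
  obtain ⟨e⟩ := real_disc_iso hE
  have : ContractibleSpace ((Real hE).obj (dd E ⊤ k)) :=
    (TopCat.homeoOfIso (e.app ⟨k⟩)).contractibleSpace_iff.2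
      (inferInstanceAs (ContractibleSpace (Disc k)))
  exact Wq.of_contr _ (contr_dd hE k) (contr_PiT hE _)

/-- The realization of a cell attachment is a cell attachment. -/
theorem real_att (hE : Coh E) {ι : Type} (k : ι → ℕ) :
    ∃ (eS : (Real hE).obj (∐ fun i => sp E ⊤ (k i)) ≅ ∐ (fun i => sphT.B (k i)))
      (eD : (Real hE).obj (∐ fun i => dd E ⊤ (k i)) ≅ ∐ (fun i => discG.obj ⟨k i⟩)),
      (Real hE).map (Limits.Sigma.map fun i => ii E ⊤ (k i)) ≫ eD.hom =
        eS.hom ≫ Limits.Sigma.map fun i => sphT.β (k i) := by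
  obtain ⟨e⟩ := real_disc_iso hE
  obtain ⟨m, h₁, -, h₃⟩ := ((ST E ⊤).map (Real hE)).exists_bmap sphT e.hom
  have : ∀ i, IsIso (m i) := fun i => h₃ i fun _ _ => inferInstance
  refine ⟨PreservesCoproduct.iso _ _ ≪≫ Limits.Sigma.mapIso fun i => asIso (m (k i)),
    PreservesCoproduct.iso _ _ ≪≫ Limits.Sigma.mapIso fun i => e.app ⟨k i⟩, ?_⟩
  rw [← cancel_epi (PreservesCoproduct.iso (Real hE) fun i => sp E ⊤ (k i)).inv]
  refine Sigma.hom_ext _ _ fun i => ?_
  have a : ∀ (X : ι → A E ⊤) i, (Real hE).map (Sigma.ι X i) ≫ (PreservesCoproduct.iso _ _).hom =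
      Sigma.ι (fun i => (Real hE).obj (X i)) i := fun X i => by
    rw [← cancel_mono (PreservesCoproduct.iso (Real hE) X).inv, Category.assoc, Iso.hom_inv_id,
      Category.comp_id, PreservesCoproduct.inv_hom, ι_comp_sigmaComparison]
  simp only [Iso.trans_hom, Category.assoc, Iso.inv_hom_id_assoc]
  rw [PreservesCoproduct.inv_hom, ι_comp_sigmaComparison_assoc, ← Functor.map_comp_assoc,
    Sigma.ι_map, Functor.map_comp_assoc, ← Category.assoc ((Real hE).map (Sigma.ι _ i)), a]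
  rw [Sigma.ι_mapIso_hom, Sigma.ι_mapIso_hom_assoc, Sigma.ι_map, ← Category.assoc,
    ← Category.assoc]
  exact congrArg (· ≫ _) (h₁ (k i)).symm

theorem cof_sigma {ι : Type} (k : ι → ℕ) :
    Cof E ⊤ 0 (Limits.Sigma.map fun i => ii E ⊤ (k i)) :=
  MorphismProperty.colimMap _ fun _ => cof_ii (Nat.zero_le _)

theorem unit_nat (hE : Coh E) {X Y : A E ⊤} (f : X ⟶ Y) :
    f ≫ (adjR hE).unit.app Y = (adjR hE).unit.app X ≫ (PiT hE).map ((Real hE).map f) :=
  (adjR hE).unit.naturality f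

theorem wq_unit_att (hE : Coh E) {ι : Type} (k : ι → ℕ) {X X' : A E ⊤}
    {a : ∐ (fun i => sp E ⊤ (k i)) ⟶ X} {c : X ⟶ X'} {d : ∐ (fun i => dd E ⊤ (k i)) ⟶ X'}
    (h : IsPushout a (Limits.Sigma.map fun i => ii E ⊤ (k i)) c d) (hX : Cofibrant X)
    (h₁ : Wq E ((adjR hE).unit.app X)) (h₂ : ∀ i, Wq E ((adjR hE).unit.app (sp E ⊤ (k i)))) :
    Wq E ((adjR hE).unit.app X') := by
  obtain ⟨eS, eD, w⟩ := real_att hE k
  have po : IsPushout (eS.inv ≫ (Real hE).map a) (Limits.Sigma.map fun i => sphT.β (k i))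
      ((Real hE).map c) (eD.inv ≫ (Real hE).map d) :=
    (h.map (Real hE)).of_iso eS (Iso.refl _) eD (Iso.refl _) (by simp) w (by simp) (by simp)
  refine hoPO_cell hE k po a _ c d h (Cofibrant.sigma fun i => cofibrant_sp _) hX (cof_sigma k)
    ((adjR hE).unit.app _ ≫ (PiT hE).map eS.hom) ((adjR hE).unit.app _)
    ((adjR hE).unit.app _ ≫ (PiT hE).map eD.hom) _ ?_ ?_ (unit_nat hE c) ?_
    ((wq_unit_sigma hE _ h₂).comp (Wq.of_isIso _)) h₁
    ((wq_unit_sigma hE _ fun i => wq_unit_dd hE _).comp (Wq.of_isIso _))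
  · rw [Category.assoc, ← Functor.map_comp, Iso.hom_inv_id_assoc]
    exact unit_nat hE a
  · rw [Category.assoc, ← Functor.map_comp, ← w, Functor.map_comp, ← Category.assoc,
      ← Category.assoc]
    exact congrArg (· ≫ _) (unit_nat hE _)
  · rw [Category.assoc, ← Functor.map_comp, Iso.hom_inv_id_assoc]
    exact unit_nat hE d

theorem wq_unit_init (hE : Coh E) {X : A E ⊤} (h : IsInitial X) :
    Wq E ((adjR hE).unit.app X) := by
  let e : X ≅ ∐ (PEmpty.elim : PEmpty.{1} → A E ⊤) := h.uniqueUpToIso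
    (IsInitial.ofUniqueHom (fun _ => Sigma.desc fun i => i.elim)
      fun _ _ => Sigma.hom_ext _ _ fun i => i.elim)
  refine Wq.of_comp_right (g := (PiT hE).map ((Real hE).map e.hom)) ?_ (Wq.of_isIso _)
  rw [← unit_nat]
  exact (Wq.of_isIso _).comp (wq_unit_sigma hE _ fun i => i.elim)

theorem wq_unit_sp (hE : Coh E) (k : ℕ) : Wq E ((adjR hE).unit.app (sp E ⊤ k)) := by
  induction k with
  | zero => exact wq_unit_init hE (ST E ⊤).ini
  | succ k ih =>
    refine wq_unit_att hE (fun _ : PUnit.{1} => k) (a := Sigma.desc fun _ => ii E ⊤ k)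
      (c := (ST E ⊤).ν false k) (d := Sigma.desc fun _ => (ST E ⊤).ν true k) ?_ (cofibrant_dd k)
      (wq_unit_dd hE k) fun _ => ih
    refine ((ST E ⊤).po k).of_iso (coproductUniqueIso fun _ : PUnit.{1} => sp E ⊤ k).symm
      (Iso.refl _) (coproductUniqueIso fun _ : PUnit.{1} => dd E ⊤ k).symm (Iso.refl _)
      ?_ ?_ ?_ ?_
    all_goals simp

theorem real_isAtt (hE : Coh E) {X X' : A E ⊤} {c : X ⟶ X'} (h : (ST E ⊤).IsAtt c) :
    sphT.IsAtt ((Real hE).map c) := by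
  obtain ⟨ι, k, a, d, h⟩ := h
  obtain ⟨eS, eD, w⟩ := real_att hE k
  exact ⟨ι, k, eS.inv ≫ (Real hE).map a, eD.inv ≫ (Real hE).map d,
    (h.map (Real hE)).of_iso eS (Iso.refl _) eD (Iso.refl _) (by simp) w (by simp) (by simp)⟩

theorem Wq.of_wqS (hE : Coh E) {X Y : A E ⊤} {f : X ⟶ Y}
    (h : ∀ k (σ : sp E ⊤ k ⟶ X), WqS f σ) : Wq E f := by
  refine Wq.of_surj hE fun k s y e => ?_
  obtain ⟨σ, rfl⟩ := ((ST E ⊤).sph_bijective X k).2 s
  obtain ⟨x, h1, h2⟩ := h k σ y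
    (((ST E ⊤).bd_eq_iff y _).1 (e.trans ((ST E ⊤).sph_comp σ f).symm))
  exact ⟨x, ((ST E ⊤).bd_eq_iff x _).2 h1, h2⟩

theorem wq_unit_cellSeq (hE : Coh E) {X : A E ⊤} (c : (ST E ⊤).CellSeq X) :
    Wq E ((adjR hE).unit.app X) := by
  have key : ∀ r, Cofibrant (c.Z.obj r) ∧ Wq E ((adjR hE).unit.app (c.Z.obj r)) ∧
      T1Space ((Real hE).obj (c.Z.obj r)) := by
    intro r
    induction r with
    | zero =>
      exact ⟨fun Y _ _ _ _ => ⟨c.ini.to Y, c.ini.hom_ext _ _⟩, wq_unit_init hE c.ini,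
        ⟨fun x => ((c.ini.isInitialObj (Real hE) _).to (TopCat.of PEmpty) x).elim⟩⟩
    | succ r ih =>
      have := ih.2.2
      have h := (isAtt_closedEmbedding (real_isAtt hE (c.att r))).2
      obtain ⟨ι, k, a, d, po⟩ := c.att r
      exact ⟨ih.1.of_cof (glue_cof po (cof_sigma k)),
        wq_unit_att hE k po ih.1 ih.2.1 fun _ => wq_unit_sp hE _, h⟩
  obtain ⟨inj, cpt⟩ := seq_compact (isColimitOfPreserves (Real hE) c.col) (fun r => (key r).2.2)
    fun r => have := (key r).2.2; (isAtt_closedEmbedding (real_isAtt hE (c.att r))).1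
  refine Wq.of_wqS hE fun k σ y e => ?_
  obtain ⟨r₁, t, rfl⟩ := IsFinitelyPresentable.exists_hom_of_isColimit c.col σ
  have : CompactSpace ((DT hE).obj ((io E).obj (disc k))) := inferInstanceAs (CompactSpace (Disc k))
  obtain ⟨r₂, g, hg⟩ := cpt _ (piEquiv hE ((io E).obj (disc k)) _ y)
  obtain ⟨g, rfl⟩ := (piEquiv hE ((io E).obj (disc k)) _).surjective g
  have w : ∀ {r s} (h : r ≤ s), c.Z.map (homOfLE h) ≫ c.ι.app s = c.ι.app r := fun h =>
    (Cocone.mk X c.ι).w (homOfLE h)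
  let s := max r₁ r₂
  let g' : dd E ⊤ k ⟶ (PiT hE).obj ((Real hE).obj (c.Z.obj s)) :=
    g ≫ (PiT hE).map ((Real hE).map (c.Z.map (homOfLE (le_max_right r₁ r₂))))
  have hy : g' ≫ (PiT hE).map ((Real hE).map (c.ι.app s)) = y := by
    rw [Category.assoc, ← Functor.map_comp, ← Functor.map_comp, w]
    exact (piEquiv hE ((io E).obj (disc k)) _).injective ((piEquiv_right hE g _).trans hg)
  have : Mono ((Real hE).map (c.ι.app s)) := (TopCat.mono_iff_injective _).2 (inj s)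
  have := PiT_isRightAdjoint hE
  obtain ⟨x, h1, h2⟩ := ((wq_iff_SI _).1 (key s).2.1).1 k
    (t ≫ c.Z.map (homOfLE (le_max_left r₁ r₂))) g' (by
      rw [← cancel_mono ((PiT hE).map ((Real hE).map (c.ι.app s))), Category.assoc, hy, e,
        Category.assoc, Category.assoc, Category.assoc]
      refine congrArg (t ≫ ·) ?_
      rw [← unit_nat, ← Category.assoc, w]
      rfl)
  refine ⟨x ≫ c.ι.app s, by rw [reassoc_of% h1, w], ?_⟩
  have h3 := wqE_post h2 ((PiT hE).map ((Real hE).map (c.ι.app s)))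
  rw [hy, Category.assoc, ← unit_nat, ← Category.assoc] at h3
  exact h3

end Vale.Agent.P259
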